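import Crest.Agent.OTStab.Shift

/-!
# Task Y2: approximate subgradients of `lag` are close to `lagMap` off a small set

For an arbitrary index function `i : E → ι`, `u x = lag y c x - (⟪x, y (i x)⟫ - c (i x)) ≥ 0`.  Claim:
`ρ {x | u x ≤ t ∧ lam ≤ ‖y (i x) - lagMap y c x‖} ≤ C R t / lam²`,  `C = C(K)` (may depend on `d`).

Proof.  Let `x` be in the set, `p = y (i x)`, `Tn = lagMap y c`.  Some coordinate `j` has `|(p - Tn x) j| ≥ lam' := lam/√d`.  Put `r = 2t/lam'`, `e_j = EuclideanSpace.single j 1`.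
* If `(p - Tn x) j ≥ lam'`: `lag (x + r e_j) ≥ ⟪x + r e_j, p⟫ - c (i x) = lag x - u x + r p_j ≥ lag x - t + r p_j` and `lag (x + r e_j) - lag x ≤ r ⟪Tn (x + r e_j), e_j⟫`
  (`lag_diff_upper`), so `⟪Tn (x + r e_j) - Tn x, e_j⟫ ≥ lam' - t/r = lam'/2`.
* If `(p - Tn x) j ≤ -lam'`: same with `-r`: `⟪Tn x - Tn (x - r e_j), e_j⟫ ≥ lam'/2`.
By Markov (`mul_meas_ge_le_integral_of_nonneg` / `meas_ge_le_lintegral_div`) and `shift_lagMap_le` each of these `2d` measurable sets has `ρ`-measure `≤ (2/lam') Csh R r = 4 Csh R t d / lam²`.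
No measurability of `i` is needed (outer measure, the set is CONTAINED in a finite union of measurable sets).
-/

set_option autoImplicit false

open MeasureTheory Set
open scoped ENNReal NNReal RealInnerProductSpace
open Crest.AnalysisR.OT

namespace Crest.Agent.OTStab

variable {d : ℕ} {K : Set (E d)}

/-- some coordinate of a vector of norm `≥ lam` is at least `lam'` if `d * lam' ^ 2 ≤ lam ^ 2`
fails strictly, i.e. `d * lam'^2 ≤ lam^2`, `0 < lam`, `0 < lam'`. -/
private theorem level_exists_coord (v : E d) {lam lam' : ℝ} (hlam : 0 < lam) (hlam' : 0 < lam')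
    (hd : (d : ℝ) * lam' ^ 2 ≤ lam ^ 2) (hv : lam ≤ ‖v‖) : ∃ j, lam' ≤ |v j| := by
  by_contra hcon
  push Not at hcon
  have h1 : ‖v‖ ^ 2 = ∑ j, v j ^ 2 := EuclideanSpace.real_norm_sq_eq v
  have h2 : lam ^ 2 ≤ ‖v‖ ^ 2 := pow_le_pow_left₀ hlam.le hv 2
  rcases Nat.eq_zero_or_pos d with hd0 | hd0
  · subst hd0
    have : ∑ j : Fin 0, v j ^ 2 = 0 := by simp
    rw [h1, this] at h2
    nlinarith
  · have h3 : ∑ j, v j ^ 2 < ∑ _j : Fin d, lam' ^ 2 := by
      apply Finset.sum_lt_sum_of_nonempty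
      · exact ⟨⟨0, hd0⟩, Finset.mem_univ _⟩
      · intro j _
        have := hcon j
        rw [← sq_abs]
        exact pow_lt_pow_left₀ this (abs_nonneg _) (by norm_num)
    rw [Finset.sum_const, Finset.card_univ, Fintype.card_fin, nsmul_eq_mul] at h3
    linarith

private theorem level_inner_single (v : E d) (j : Fin d) :
    ⟪v, EuclideanSpace.single j (1 : ℝ)⟫ = v j := by
  simp [EuclideanSpace.inner_single_right]

/-- Markov bound for one of the `2 d` sets. -/
private theorem level_markov (hK : Body K) {f : E d → ℝ} (hfm : Measurable f) (hf0 : ∀ x, 0 ≤ f x)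
    {M : ℝ} (hfM : ∀ x, f x ≤ M) {A ε : ℝ} (hε : 0 < ε)
    (hint : ∫ x, f x ∂(uniformProbOn K) ≤ A) :
    uniformProbOn K {x | ε ≤ f x} ≤ ENNReal.ofReal (A / ε) := by
  have := hK.isProb
  have hi : Integrable f (uniformProbOn K) :=
    integrable_of_ae_bound hfm.aestronglyMeasurable M
      (Filter.Eventually.of_forall fun x => by
        rw [Real.norm_eq_abs, abs_of_nonneg (hf0 x)]; exact hfM x)
  have h1 := mul_meas_ge_le_integral_of_nonneg (μ := uniformProbOn K)
    (Filter.Eventually.of_forall hf0) hi ε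
  have h2 : (uniformProbOn K).real {x | ε ≤ f x} ≤ A / ε := by
    rw [le_div_iff₀ hε]
    linarith
  rw [← ofReal_measureReal (measure_ne_top _ _)]
  exact ENNReal.ofReal_le_ofReal h2

theorem level_bound (hK : Body K) : ∃ C : ℝ, 0 ≤ C ∧
    ∀ {ι : Type} [Fintype ι] [Nonempty ι] (y : ι → E d) (c : ι → ℝ) (R : ℝ) (_ : ∀ k, ‖y k‖ ≤ R)
      (i : E d → ι) (lam t : ℝ) (_ : 0 < lam) (_ : 0 < t),
      uniformProbOn K {x | lag y c x - (⟪x, y (i x)⟫ - c (i x)) ≤ t ∧
          lam ≤ ‖y (i x) - lagMap y c x‖}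
        ≤ ENNReal.ofReal (C * R * t / lam ^ 2) := by
  obtain ⟨Csh, hCsh0, hCsh⟩ := shift_lagMap_le hK
  refine ⟨8 * Csh * (d : ℝ) ^ 2, by positivity, ?_⟩
  intro ι _ _ y c R hR i lam t hlam ht
  have hR0 : 0 ≤ R := (norm_nonneg _).trans (hR (Classical.arbitrary ι))
  rcases Nat.eq_zero_or_pos d with hd0 | hd0
  · -- trivial space
    subst hd0
    have hempty : {x : E 0 | lag y c x - (⟪x, y (i x)⟫ - c (i x)) ≤ t ∧
          lam ≤ ‖y (i x) - lagMap y c x‖} = ∅ := by
      ext x
      simp only [mem_setOf_eq, mem_empty_iff_false, iff_false, not_and, not_le]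
      intro _
      have : y (i x) - lagMap y c x = 0 := Subsingleton.elim _ _
      rw [this, norm_zero]
      exact hlam
    rw [hempty, measure_empty]
    exact bot_le
  have hdpos : (0 : ℝ) < d := by exact_mod_cast hd0
  set sd : ℝ := Real.sqrt d with hsd
  have hsdpos : 0 < sd := Real.sqrt_pos.mpr hdpos
  have hsd2 : sd ^ 2 = d := Real.sq_sqrt hdpos.le
  set lam' : ℝ := lam / sd with hlam'
  have hlam'pos : 0 < lam' := div_pos hlam hsdpos
  have hlam'2 : (d : ℝ) * lam' ^ 2 = lam ^ 2 := by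
    rw [hlam', div_pow, hsd2]; field_simp
  set r : ℝ := 2 * t / lam' with hr
  have hrpos : 0 < r := by positivity
  have hrl : r * lam' = 2 * t := by rw [hr]; field_simp
  set Tn : E d → E d := lagMap y c with hTn
  set e : Fin d → E d := fun j => EuclideanSpace.single j (1 : ℝ) with he
  have hen : ∀ j, ‖e j‖ = 1 := fun j => by simp [he]
  set fp : Fin d → E d → ℝ := fun j x => ⟪Tn (x + r • e j) - Tn x, e j⟫ with hfp
  set fm : Fin d → E d → ℝ := fun j x => ⟪Tn x - Tn (x - r • e j), e j⟫ with hfm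
  have hTm : Measurable Tn := measurable_lagMap y c
  have hfpm : ∀ j, Measurable (fp j) := fun j =>
    ((hTm.comp (measurable_add_const _)).sub hTm).inner_const
  have hfmm : ∀ j, Measurable (fm j) := fun j =>
    (hTm.sub (hTm.comp (measurable_sub_const _))).inner_const
  have hfp0 : ∀ j x, 0 ≤ fp j x := fun j x => by
    have := lagMap_mono_dir y c x (e j) hrpos.le
    simp only [hfp, inner_sub_left]
    linarith
  have hfm0 : ∀ j x, 0 ≤ fm j x := fun j x => by
    have := lagMap_mono_dir y c (x - r • e j) (e j) hrpos.le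
    rw [sub_add_cancel] at this
    simp only [hfm, inner_sub_left]
    linarith
  have hin : ∀ (z : E d) j, |⟪Tn z, e j⟫| ≤ R := fun z j => by
    calc |⟪Tn z, e j⟫| ≤ ‖Tn z‖ * ‖e j‖ := abs_real_inner_le_norm _ _
      _ ≤ R := by rw [hen, mul_one]; exact norm_lagMap_le y c hR z
  have hfpM : ∀ j x, fp j x ≤ 2 * R := fun j x => by
    have h1 := (abs_le.mp (hin (x + r • e j) j)).2
    have h2 := (abs_le.mp (hin x j)).1
    simp only [hfp, inner_sub_left]
    linarith
  have hfmM : ∀ j x, fm j x ≤ 2 * R := fun j x => by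
    have h1 := (abs_le.mp (hin x j)).2
    have h2 := (abs_le.mp (hin (x - r • e j) j)).1
    simp only [hfm, inner_sub_left]
    linarith
  set bd : ℝ := Csh * R * r / (lam' / 2) with hbd
  have hbd0 : 0 ≤ bd := by positivity
  have hmp : ∀ j, uniformProbOn K {x | lam' / 2 ≤ fp j x} ≤ ENNReal.ofReal bd := fun j =>
    level_markov hK (hfpm j) (hfp0 j) (hfpM j) (by positivity)
      (hCsh y c R hR (e j) (hen j) r hrpos.le).1
  have hmm : ∀ j, uniformProbOn K {x | lam' / 2 ≤ fm j x} ≤ ENNReal.ofReal bd := fun j =>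
    level_markov hK (hfmm j) (hfm0 j) (hfmM j) (by positivity)
      (hCsh y c R hR (e j) (hen j) r hrpos.le).2
  -- inclusion
  have hsub : {x | lag y c x - (⟪x, y (i x)⟫ - c (i x)) ≤ t ∧ lam ≤ ‖y (i x) - lagMap y c x‖} ⊆
      ⋃ j, ({x | lam' / 2 ≤ fp j x} ∪ {x | lam' / 2 ≤ fm j x}) := by
    rintro x ⟨hx1, hx2⟩
    obtain ⟨j, hj⟩ := level_exists_coord (y (i x) - lagMap y c x) hlam hlam'pos hlam'2.le hx2
    rw [mem_iUnion]
    refine ⟨j, ?_⟩
    have hcoord : ⟪y (i x) - Tn x, e j⟫ = (y (i x) - lagMap y c x) j :=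
      level_inner_single _ j
    rw [← hcoord] at hj
    rw [inner_sub_left] at hj
    rcases le_abs.mp hj with hj | hj
    · left
      show lam' / 2 ≤ fp j x
      have h1 := le_lag y c (i x) (x + r • e j)
      have h2 := lag_diff_upper y c x (e j) r
      rw [inner_add_left, inner_smul_left, real_inner_comm (y (i x)) (e j)] at h1
      simp only [conj_trivial] at h1
      simp only [hfp, inner_sub_left]
      -- r * (⟪Tn (x + r e), e⟫ - ⟪Tn x, e⟫) ≥ r lam' - t = r lam' / 2
      have h3 : r * (lam' / 2) ≤ r * (⟪Tn (x + r • e j), e j⟫ - ⟪Tn x, e j⟫) := by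
        have h4 : r * lam' ≤ r * (⟪y (i x), e j⟫ - ⟪Tn x, e j⟫) :=
          mul_le_mul_of_nonneg_left hj hrpos.le
        nlinarith
      exact le_of_mul_le_mul_left h3 hrpos
    · right
      show lam' / 2 ≤ fm j x
      have h1 := le_lag y c (i x) (x + (-r) • e j)
      have h2 := lag_diff_upper y c x (e j) (-r)
      rw [inner_add_left, inner_smul_left, real_inner_comm (y (i x)) (e j)] at h1
      simp only [conj_trivial] at h1
      have hxe : x + (-r) • e j = x - r • e j := by rw [neg_smul, sub_eq_add_neg]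
      rw [hxe] at h1 h2
      simp only [hfm, inner_sub_left]
      have h3 : r * (lam' / 2) ≤ r * (⟪Tn x, e j⟫ - ⟪Tn (x - r • e j), e j⟫) := by
        have h4 : r * lam' ≤ r * (-(⟪y (i x), e j⟫ - ⟪Tn x, e j⟫)) :=
          mul_le_mul_of_nonneg_left hj hrpos.le
        nlinarith
      exact le_of_mul_le_mul_left h3 hrpos
  calc uniformProbOn K {x | lag y c x - (⟪x, y (i x)⟫ - c (i x)) ≤ t ∧
          lam ≤ ‖y (i x) - lagMap y c x‖}
      ≤ uniformProbOn K (⋃ j, ({x | lam' / 2 ≤ fp j x} ∪ {x | lam' / 2 ≤ fm j x})) :=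
        measure_mono hsub
    _ ≤ ∑ j, uniformProbOn K ({x | lam' / 2 ≤ fp j x} ∪ {x | lam' / 2 ≤ fm j x}) :=
        measure_iUnion_fintype_le _ _
    _ ≤ ∑ _j : Fin d, (ENNReal.ofReal bd + ENNReal.ofReal bd) :=
        Finset.sum_le_sum fun j _ =>
          (measure_union_le _ _).trans (add_le_add (hmp j) (hmm j))
    _ = ENNReal.ofReal ((d : ℝ) * (bd + bd)) := by
        rw [Finset.sum_const, Finset.card_univ, Fintype.card_fin, nsmul_eq_mul,
          ← ENNReal.ofReal_add hbd0 hbd0, ENNReal.ofReal_mul (by positivity),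
          ENNReal.ofReal_natCast]
    _ = ENNReal.ofReal (8 * Csh * (d : ℝ) ^ 2 * R * t / lam ^ 2) := by
        congr 1
        rw [hbd, hr, ← hlam'2]
        field_simp
        ring

end Crest.Agent.OTStab
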