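import Crest.Agent.OTStab.Gap
import Crest.Agent.OTStab.Level

/-!
# Task Y3: rounding the target moves the optimal map little in `L²(ρ)`

`∫ |T - T_n|² dρ ≤ C η^{1/4}` for `0 < η ≤ 1`, `C = C(K,R)`.

Proof.  `w x = y (q (T x))`, `u x = lag y c x - (⟪x, w x⟫ - c (q (T x))) ≥ 0`, `∫ u dρ ≤ 2 RK η` (`gap_bound`).
`|T - T_n|² ≤ 2 |T - w|² + 2 |w - T_n|²`; `|T x - w x| ≤ η` ρ-a.e. (from `hqη` and `ρ.map T = μ`).
For `t, lam > 0`: `|w - T_n|² ≤ lam² + 4R² 1_{u > t} + 4R² 1_{u ≤ t, |w - T_n| ≥ lam}`; `ρ{u > t} ≤ 2 RK η / t` (Markov), `level_bound` for the last set.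
Take `t = η^{1/2}`, `lam = η^{1/8}`: `∫ |w - T_n|² ≤ η^{1/4} + 4R² (2 RK η^{1/2} + CL R η^{1/4})`.
-/

set_option autoImplicit false

open MeasureTheory Set
open scoped ENNReal NNReal RealInnerProductSpace
open Crest.AnalysisR.OT

namespace Crest.Agent.OTStab

variable {d : ℕ} {K : Set (E d)}

theorem approx (hK : Body K) (R : ℝ) (hR : 0 ≤ R) : ∃ C : ℝ, 0 ≤ C ∧
    ∀ (μ : Measure (E d)) (_ : IsProbabilityOn (Metric.closedBall (0 : E d) R) μ) (T : E d → E d)
      (_ : IsOptimalMap (uniformProbOn K) μ T)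
      {ι : Type} [Fintype ι] [Nonempty ι] (y : ι → E d) (_ : Function.Injective y)
      (_ : ∀ k, ‖y k‖ ≤ R) (c : ι → ℝ)
      (q : E d → ι) (_ : ∀ k, MeasurableSet (q ⁻¹' {k})) (η : ℝ) (_ : 0 < η) (_ : η ≤ 1)
      (_ : ∀ᵐ p ∂μ, ‖y (q p) - p‖ ≤ η)
      (_ : ∀ k, uniformProbOn K (cell y c k) = μ (q ⁻¹' {k})),
      ∫ x, ‖T x - lagMap y c x‖ ^ 2 ∂(uniformProbOn K) ≤ C * η ^ (1 / 4 : ℝ) := by
  obtain ⟨RK, hRK0, hRK⟩ := hK.exists_bound
  obtain ⟨CL, hCL0, hCL⟩ := level_bound hK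
  refine ⟨4 + 8 * R ^ 2 * (2 * RK + CL * R), by positivity, ?_⟩
  intro μ hμ T hT ι _ _ y hy hyR c q hq η hη0 hη1 hqη hmass
  have := hK.isProb
  -- the parameter `s = η^{1/8}`
  obtain ⟨s, hs0, hs1, hs8, hs2⟩ : ∃ s : ℝ, 0 < s ∧ s ≤ 1 ∧ s ^ 8 = η ∧ η ^ (1 / 4 : ℝ) = s ^ 2 := by
    refine ⟨η ^ (1 / 8 : ℝ), Real.rpow_pos_of_pos hη0 _,
      Real.rpow_le_one hη0.le hη1 (by norm_num), ?_, ?_⟩
    · rw [← Real.rpow_natCast, ← Real.rpow_mul hη0.le]; norm_num
    · rw [← Real.rpow_natCast, ← Real.rpow_mul hη0.le]; norm_num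
  rw [hs2]
  -- measurability
  have hqm : ∀ {β : Type} [MeasurableSpace β] (F : ι → β), Measurable (fun p => F (q p)) := by
    intro β _ F A _
    have : (fun p => F (q p)) ⁻¹' A = ⋃ k ∈ {k | F k ∈ A}, q ⁻¹' {k} := by
      ext p; simp
    rw [this]
    exact MeasurableSet.biUnion (Set.to_countable _) (fun k _ => hq k)
  have hTm : Measurable T := hT.1
  have hwm : Measurable (fun x => y (q (T x))) := (hqm y).comp hTm
  have hcm : Measurable (fun x => c (q (T x))) := (hqm c).comp hTm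
  have hLm : Measurable (lagMap y c) := measurable_lagMap y c
  have hum : Measurable (fun x => lag y c x - (⟪x, y (q (T x))⟫ - c (q (T x)))) :=
    (measurable_lag y c).sub ((measurable_id.inner hwm).sub hcm)
  have hu0 : ∀ x, 0 ≤ lag y c x - (⟪x, y (q (T x))⟫ - c (q (T x))) := fun x =>
    sub_nonneg.mpr (le_lag y c _ x)
  have hKae := hK.ae_norm_le hRK
  -- integrability of `u`
  have hui : Integrable (fun x => lag y c x - (⟪x, y (q (T x))⟫ - c (q (T x))))
      (uniformProbOn K) := by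
    refine (integrable_lag hKae y c).sub (Integrable.sub ?_ ?_)
    · refine integrable_of_ae_bound (measurable_id.inner hwm).aestronglyMeasurable (RK * R) ?_
      filter_upwards [hKae] with x hx
      calc ‖⟪x, y (q (T x))⟫‖ ≤ ‖x‖ * ‖y (q (T x))‖ := norm_inner_le_norm _ _
        _ ≤ RK * R := mul_le_mul hx (hyR _) (norm_nonneg _) hRK0.le
    · refine integrable_of_ae_bound hcm.aestronglyMeasurable (∑ k, |c k|)
        (Filter.Eventually.of_forall fun x => ?_)
      rw [Real.norm_eq_abs]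
      exact Finset.single_le_sum (f := fun k => |c k|) (fun i _ => abs_nonneg _)
        (Finset.mem_univ _)
  have hgap := gap_bound hK hRK μ R hμ T hT y hy c q hq η hqη hmass
  -- the two exceptional sets
  set A : Set (E d) := {x | s ^ 4 ≤ lag y c x - (⟪x, y (q (T x))⟫ - c (q (T x)))} with hA
  set B : Set (E d) := {x | lag y c x - (⟪x, y (q (T x))⟫ - c (q (T x))) ≤ s ^ 4 ∧
      s ≤ ‖y (q (T x)) - lagMap y c x‖} with hB
  have hAm : MeasurableSet A := measurableSet_le measurable_const hum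
  have hBm : MeasurableSet B :=
    (measurableSet_le hum measurable_const).inter
      (measurableSet_le measurable_const (hwm.sub hLm).norm)
  have hAr : (uniformProbOn K).real A ≤ 2 * RK * s ^ 2 := by
    have h1 := mul_meas_ge_le_integral_of_nonneg (μ := uniformProbOn K)
      (Filter.Eventually.of_forall hu0) hui (s ^ 4)
    have h2 : s ^ 4 * (uniformProbOn K).real A ≤ 2 * RK * s ^ 8 := by
      rw [hs8]; exact h1.trans hgap
    have h3 : (uniformProbOn K).real A ≤ 2 * RK * s ^ 4 := by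
      have hs4 : 0 < s ^ 4 := by positivity
      have : s ^ 4 * (uniformProbOn K).real A ≤ s ^ 4 * (2 * RK * s ^ 4) := by
        calc s ^ 4 * (uniformProbOn K).real A ≤ 2 * RK * s ^ 8 := h2
          _ = s ^ 4 * (2 * RK * s ^ 4) := by ring
      exact le_of_mul_le_mul_left this hs4
    have h4 : s ^ 4 ≤ s ^ 2 := pow_le_pow_of_le_one hs0.le hs1 (by norm_num)
    calc (uniformProbOn K).real A ≤ 2 * RK * s ^ 4 := h3
      _ ≤ 2 * RK * s ^ 2 := by gcongr
  have hBr : (uniformProbOn K).real B ≤ CL * R * s ^ 2 := by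
    have h1 := hCL y c R hyR (fun x => q (T x)) s (s ^ 4) hs0 (by positivity)
    have h2 : CL * R * s ^ 4 / s ^ 2 = CL * R * s ^ 2 := by
      field_simp
    rw [h2] at h1
    have h3 : 0 ≤ CL * R * s ^ 2 := by positivity
    exact ENNReal.toReal_le_of_le_ofReal h3 h1
  -- a.e. closeness of `T` and `w`
  have hTw : ∀ᵐ x ∂(uniformProbOn K), ‖y (q (T x)) - T x‖ ≤ η := by
    have h := hqη
    rw [← hT.2.1] at h
    exact ae_of_ae_map hTm.aemeasurable h
  -- pointwise bound
  have hpt : ∀ᵐ x ∂(uniformProbOn K), ‖T x - lagMap y c x‖ ^ 2 ≤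
      4 * s ^ 2 + 8 * R ^ 2 * A.indicator (fun _ => (1 : ℝ)) x
        + 8 * R ^ 2 * B.indicator (fun _ => (1 : ℝ)) x := by
    filter_upwards [hTw] with x hx
    have h1 : ‖T x - lagMap y c x‖ ≤ ‖y (q (T x)) - T x‖ + ‖y (q (T x)) - lagMap y c x‖ := by
      have : T x - lagMap y c x = -(y (q (T x)) - T x) + (y (q (T x)) - lagMap y c x) := by abel
      rw [this]
      exact (norm_add_le _ _).trans (by rw [norm_neg])
    have h2 : ‖y (q (T x)) - lagMap y c x‖ ≤ 2 * R := by
      calc ‖y (q (T x)) - lagMap y c x‖ ≤ ‖y (q (T x))‖ + ‖lagMap y c x‖ := norm_sub_le _ _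
        _ ≤ R + R := add_le_add (hyR _) (norm_lagMap_le y c hyR x)
        _ = 2 * R := by ring
    have hη2 : η ^ 2 ≤ s ^ 2 := by
      rw [← hs8, ← pow_mul]
      exact pow_le_pow_of_le_one hs0.le hs1 (by norm_num)
    have h3 : ‖T x - lagMap y c x‖ ^ 2 ≤
        2 * η ^ 2 + 2 * ‖y (q (T x)) - lagMap y c x‖ ^ 2 := by
      have h0 := norm_nonneg (T x - lagMap y c x)
      have h0' := norm_nonneg (y (q (T x)) - T x)
      have h0'' := norm_nonneg (y (q (T x)) - lagMap y c x)
      have h4 : ‖T x - lagMap y c x‖ ≤ η + ‖y (q (T x)) - lagMap y c x‖ := by linarith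
      nlinarith [sq_nonneg (η - ‖y (q (T x)) - lagMap y c x‖)]
    have hR2 : 0 ≤ 8 * R ^ 2 := by positivity
    have hnn := norm_nonneg (y (q (T x)) - lagMap y c x)
    by_cases hxA : x ∈ A
    · have hB0 : 0 ≤ B.indicator (fun _ => (1 : ℝ)) x := indicator_nonneg (fun _ _ => zero_le_one) x
      rw [indicator_of_mem hxA]
      nlinarith [mul_nonneg hR2 hB0, sq_nonneg s]
    · rw [indicator_of_notMem hxA]
      by_cases hxB : x ∈ B
      · rw [indicator_of_mem hxB]
        nlinarith [sq_nonneg s]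
      · rw [indicator_of_notMem hxB]
        have hlt : ‖y (q (T x)) - lagMap y c x‖ < s := by
          by_contra hcon
          apply hxB
          refine ⟨?_, not_lt.mp hcon⟩
          have : ¬ s ^ 4 ≤ lag y c x - (⟪x, y (q (T x))⟫ - c (q (T x))) := hxA
          exact (not_le.mp this).le
        nlinarith
  -- integrate
  have hiA : Integrable (A.indicator (fun _ => (1 : ℝ))) (uniformProbOn K) :=
    (integrable_const (1 : ℝ)).indicator hAm
  have hiB : Integrable (B.indicator (fun _ => (1 : ℝ))) (uniformProbOn K) :=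
    (integrable_const (1 : ℝ)).indicator hBm
  have hint : Integrable (fun x => 4 * s ^ 2 + 8 * R ^ 2 * A.indicator (fun _ => (1 : ℝ)) x
        + 8 * R ^ 2 * B.indicator (fun _ => (1 : ℝ)) x) (uniformProbOn K) :=
    ((integrable_const _).add (hiA.const_mul _)).add (hiB.const_mul _)
  have hmono := integral_mono_of_nonneg (μ := uniformProbOn K)
    (Filter.Eventually.of_forall fun x => by positivity) hint hpt
  refine hmono.trans ?_
  have hi1 : Integrable (fun x => 4 * s ^ 2 + 8 * R ^ 2 * A.indicator (fun _ => (1 : ℝ)) x)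
      (uniformProbOn K) := (integrable_const _).add (hiA.const_mul _)
  have hi2 : Integrable (fun x => 8 * R ^ 2 * B.indicator (fun _ => (1 : ℝ)) x)
      (uniformProbOn K) := hiB.const_mul _
  have hi3 : Integrable (fun x => 8 * R ^ 2 * A.indicator (fun _ => (1 : ℝ)) x)
      (uniformProbOn K) := hiA.const_mul _
  have eA : ∫ x, A.indicator (fun _ => (1 : ℝ)) x ∂(uniformProbOn K) = (uniformProbOn K).real A := by
    rw [integral_indicator hAm, setIntegral_const, smul_eq_mul, mul_one]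
  have eB : ∫ x, B.indicator (fun _ => (1 : ℝ)) x ∂(uniformProbOn K) = (uniformProbOn K).real B := by
    rw [integral_indicator hBm, setIntegral_const, smul_eq_mul, mul_one]
  have e0 : ∫ _x : E d, 4 * s ^ 2 ∂(uniformProbOn K) = 4 * s ^ 2 := by
    rw [integral_const, probReal_univ, smul_eq_mul, one_mul]
  rw [integral_add hi1 hi2, integral_add (integrable_const _) hi3, e0,
    integral_const_mul (8 * R ^ 2), integral_const_mul (8 * R ^ 2), eA, eB]
  have hR2 : 0 ≤ 8 * R ^ 2 := by positivity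
  nlinarith [mul_le_mul_of_nonneg_left hAr hR2, mul_le_mul_of_nonneg_left hBr hR2]

end Crest.Agent.OTStab
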