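import Crest.Agent.OTStab.Defs

/-!
# Task E2: finite atomic measures: index-matching coupling, its cost, three-atomic, carried by a set
Routine computations with `Measure.dirac`, `Measure.map_dirac`, finite sums of measures (`Measure.map_finset_sum`?, `lintegral_finset_sum_measure`, `lintegral_smul_measure`, `lintegral_dirac`).
-/

set_option autoImplicit false

open MeasureTheory Set
open scoped ENNReal NNReal RealInnerProductSpace
open Crest.AnalysisR.OT

namespace Crest.Agent.OTStab

variable {d : ℕ} {ι : Type} [Fintype ι]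

/-- the atomic measure `∑ w k δ_{y k}`. -/
noncomputable def atomic (w : ι → ℝ≥0∞) (y : ι → E d) : Measure (E d) :=
  ∑ k, w k • Measure.dirac (y k)

/-- the index-matching coupling. -/
noncomputable def matchCoupling (w : ι → ℝ≥0∞) (y z : ι → E d) : Measure (E d × E d) :=
  ∑ k, w k • Measure.dirac (y k, z k)

theorem matchCoupling_isPairCoupling (w : ι → ℝ≥0∞) (y z : ι → E d) :
    IsPairCoupling (atomic w y) (atomic w z) (matchCoupling w y z) := by
  constructor
  · ext s hs
    rw [Measure.map_apply measurable_fst hs]
    simp only [matchCoupling, atomic, Measure.finsetSum_apply, Measure.smul_apply, smul_eq_mul]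
    refine Finset.sum_congr rfl fun k _ => ?_
    rw [Measure.dirac_apply' _ (measurable_fst hs), Measure.dirac_apply' _ hs]
    rfl
  · ext s hs
    rw [Measure.map_apply measurable_snd hs]
    simp only [matchCoupling, atomic, Measure.finsetSum_apply, Measure.smul_apply, smul_eq_mul]
    refine Finset.sum_congr rfl fun k _ => ?_
    rw [Measure.dirac_apply' _ (measurable_snd hs), Measure.dirac_apply' _ hs]
    rfl

theorem quadCost_matchCoupling (w : ι → ℝ≥0∞) (y z : ι → E d) :
    quadCost (matchCoupling w y z) = ∑ k, w k * ‖y k - z k‖ₑ ^ 2 := by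
  unfold quadCost matchCoupling
  rw [lintegral_finsetSum_measure]
  refine Finset.sum_congr rfl fun k _ => ?_
  rw [lintegral_smul_measure, lintegral_dirac' _ (by fun_prop)]
  rfl

theorem atomic_isProbabilityOn (w : ι → ℝ≥0∞) (hw : ∑ k, w k = 1) (y : ι → E d) (Y : Set (E d))
    (hY : ∀ k, y k ∈ Y) (hYm : MeasurableSet Y) : IsProbabilityOn Y (atomic w y) := by
  constructor
  · constructor
    simp only [atomic, Measure.finsetSum_apply, Measure.smul_apply, smul_eq_mul,
      measure_univ, mul_one]
    exact hw
  · simp only [atomic, Measure.finsetSum_apply, Measure.smul_apply, smul_eq_mul]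
    refine Finset.sum_eq_zero fun k _ => ?_
    rw [Measure.dirac_apply' _ hYm.compl]
    simp [hY k]

theorem atomic_isThreeAtomic (w : Fin 3 → ℝ≥0∞) (hw0 : ∀ k, 0 < w k) (hw1 : ∀ k, w k < ∞)
    (y : Fin 3 → E d) (hy : Function.Injective y) : IsThreeAtomic (atomic w y) := by
  refine ⟨y, hy, fun i => (w i).toReal, fun i => ENNReal.toReal_pos (hw0 i).ne' (hw1 i).ne, ?_⟩
  unfold atomic
  refine Finset.sum_congr rfl fun k _ => ?_
  rw [ENNReal.ofReal_toReal (hw1 k).ne]

end Crest.Agent.OTStab
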