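import Crest.Agent.OTStab.Unif

/-!
# Task G: a Lipschitz cutoff adapted to the convex body (gauge function)

Proof.  Pick `x₀`, `r₀ > 0` with `ball x₀ r₀ ⊆ K`; `K₀ = {v | x₀ + v ∈ K}` (convex, contains `ball 0 r₀`, closed, bounded);
`γ x = gauge K₀ (x - x₀)` is `1/r₀`-Lipschitz (`lipschitzWith_gauge`).
`ϑ x = max 0 (min 1 ((1 - θ - γ x)/θ))` is `1/(θ r₀)`-Lipschitz with values in `[0,1]`.
`x ∉ K ⇒ γ x ≥ 1 ⇒ ϑ x = 0`.    `ϑ x < 1 ⇒ γ x > 1 - 2θ ⇒ x ∉ x₀ + (1-2θ) K₀`; the latter set is contained in `K` and has volume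
`(1-2θ)^d vol K` (`Measure.addHaar_smul`), so `ρ {ϑ < 1} ≤ 1 - (1-2θ)^d ≤ 2 d θ` (Bernoulli `one_add_mul_le_pow`).
`C = max (1/r₀) (2d)`.
-/

set_option autoImplicit false

open MeasureTheory Set
open scoped ENNReal NNReal RealInnerProductSpace Pointwise
open Crest.AnalysisR.OT

namespace Crest.Agent.OTStab

variable {d : ℕ} {K : Set (E d)}

theorem exists_cutoff (hK : Body K) : ∃ C : ℝ, 0 ≤ C ∧ ∀ θ : ℝ, 0 < θ → θ ≤ 1 / 4 →
    ∃ ϑ : E d → ℝ, LipschitzWith (Real.toNNReal (C / θ)) ϑ ∧ (∀ x, 0 ≤ ϑ x) ∧ (∀ x, ϑ x ≤ 1) ∧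
      (∀ x, x ∉ K → ϑ x = 0) ∧ uniformProbOn K {x | ϑ x < 1} ≤ ENNReal.ofReal (C * θ) := by
  classical
  obtain ⟨x₀, hx₀⟩ := hK.inter
  obtain ⟨r₀, hr₀, hball⟩ := Metric.mem_nhds_iff.1 (mem_interior_iff_mem_nhds.1 hx₀)
  set K₀ : Set (E d) := (fun v => x₀ + v) ⁻¹' K with hK₀
  have hconv : Convex ℝ K₀ := by
    intro a ha b hb s t hs ht hst
    have := hK.convex ha hb hs ht hst
    simp only [hK₀, mem_preimage] at *
    convert this using 1
    rw [smul_add, smul_add]
    have : x₀ = s • x₀ + t • x₀ := by rw [← add_smul, hst, one_smul]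
    nth_rewrite 1 [this]
    abel
  have hb0 : Metric.ball (0 : E d) r₀ ⊆ K₀ := by
    intro v hv
    apply hball
    simpa [Metric.mem_ball, dist_eq_norm] using hv
  have h0 : (0 : E d) ∈ K₀ := hb0 (Metric.mem_ball_self hr₀)
  have habs : Absorbent ℝ K₀ := (absorbent_ball_zero hr₀).mono hb0
  have hr₀' : ((Real.toNNReal r₀ : ℝ≥0) : ℝ) = r₀ := Real.coe_toNNReal _ hr₀.le
  have hlipg : LipschitzWith (Real.toNNReal r₀)⁻¹ (gauge K₀) :=
    hconv.lipschitzWith_gauge (r := Real.toNNReal r₀) (Real.toNNReal_pos.2 hr₀)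
      (by rw [hr₀']; exact hb0)
  have hdist : ∀ x y : E d, |gauge K₀ (x - x₀) - gauge K₀ (y - x₀)| ≤ r₀⁻¹ * dist x y := by
    intro x y
    have := hlipg.dist_le_mul (x - x₀) (y - x₀)
    rw [NNReal.coe_inv, hr₀', Real.dist_eq, dist_sub_right] at this
    exact this
  refine ⟨max r₀⁻¹ (2 * d), le_max_of_le_left (inv_nonneg.2 hr₀.le), ?_⟩
  intro θ hθ hθ4
  set C : ℝ := max r₀⁻¹ (2 * d) with hC
  refine ⟨fun x => max 0 (min 1 ((1 - θ - gauge K₀ (x - x₀)) / θ)), ?_, ?_, ?_, ?_, ?_⟩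
  · -- Lipschitz
    apply LipschitzWith.of_dist_le_mul
    intro x y
    have hCθ : 0 ≤ C / θ := div_nonneg (le_max_of_le_left (inv_nonneg.2 hr₀.le)) hθ.le
    rw [Real.coe_toNNReal _ hCθ, Real.dist_eq]
    have h1 := abs_max_sub_max_le_max 0 (min 1 ((1 - θ - gauge K₀ (x - x₀)) / θ)) 0
      (min 1 ((1 - θ - gauge K₀ (y - x₀)) / θ))
    rw [sub_self, abs_zero, max_eq_right (a := (0:ℝ)) (abs_nonneg _)] at h1
    have h2 := abs_min_sub_min_le_max 1 ((1 - θ - gauge K₀ (x - x₀)) / θ) 1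
      ((1 - θ - gauge K₀ (y - x₀)) / θ)
    have h3 : |(1 - θ - gauge K₀ (x - x₀)) / θ - (1 - θ - gauge K₀ (y - x₀)) / θ|
        = |gauge K₀ (x - x₀) - gauge K₀ (y - x₀)| / θ := by
      rw [← sub_div, abs_div, abs_of_pos hθ]
      congr 1
      rw [← abs_neg]
      congr 1
      ring
    have h4 : |gauge K₀ (x - x₀) - gauge K₀ (y - x₀)| / θ ≤ C / θ * dist x y := by
      rw [div_mul_eq_mul_div]
      apply div_le_div_of_nonneg_right _ hθ.le
      exact (hdist x y).trans (mul_le_mul_of_nonneg_right (le_max_left _ _) dist_nonneg)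
    refine h1.trans (h2.trans ?_)
    rw [sub_self, abs_zero, h3]
    exact max_le (mul_nonneg hCθ dist_nonneg) h4
  · intro x; exact le_max_left _ _
  · intro x; exact max_le zero_le_one (min_le_left _ _)
  · intro x hx
    have hx' : x - x₀ ∉ K₀ := by
      simpa [hK₀] using hx
    have hg : 1 ≤ gauge K₀ (x - x₀) := by
      by_contra hlt
      exact hx' (setOfPred_gauge_lt_one_subset_self hconv h0 habs (not_le.1 hlt))
    apply max_eq_left
    refine (min_le_right _ _).trans ?_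
    apply div_nonpos_of_nonpos_of_nonneg _ hθ.le
    linarith
  · -- measure estimate
    have := hK.isProb
    set t : ℝ := 1 - 2 * θ with ht
    have ht0 : 0 < t := by rw [ht]; linarith
    have ht1 : t ≤ 1 := by rw [ht]; linarith
    set A : Set (E d) := (fun v => x₀ + v) '' (t • K₀) with hA
    have hK₀closed : IsClosed K₀ := hK.compact.isClosed.preimage (by fun_prop)
    have hK₀meas : MeasurableSet K₀ := hK₀closed.measurableSet
    have hAmeas : MeasurableSet A := by
      have h1 : MeasurableSet (t • K₀) := hK₀meas.const_smul₀ t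
      have : A = (fun v => -x₀ + v) ⁻¹' (t • K₀) := by
        rw [hA]
        ext v
        simp only [mem_image, mem_preimage]
        constructor
        · rintro ⟨w, hw, rfl⟩
          simpa using hw
        · intro hv
          exact ⟨_, hv, by abel⟩
      rw [this]
      exact (measurable_const_add _) h1
    have hAK : A ⊆ K := by
      rintro _ ⟨_, ⟨w, hw, rfl⟩, rfl⟩
      have : t • w ∈ K₀ := by
        have := hconv.smul_mem_of_zero_mem h0 hw ⟨ht0.le, ht1⟩
        exact this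
      exact this
    have hsub : {x | max 0 (min 1 ((1 - θ - gauge K₀ (x - x₀)) / θ)) < 1} ⊆ Aᶜ := by
      intro x hx hxA
      obtain ⟨v, hv, rfl⟩ := hxA
      have hg : gauge K₀ v ≤ t := gauge_le_of_mem ht0.le hv
      simp only [mem_ofPred_eq, add_sub_cancel_left] at hx
      have : (1 : ℝ) ≤ (1 - θ - gauge K₀ v) / θ := by
        rw [le_div_iff₀ hθ]
        rw [ht] at hg
        linarith
      rw [min_eq_left this] at hx
      simp at hx
    have hvolK₀ : volume K₀ = volume K := by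
      rw [hK₀]
      exact measure_preimage_add volume x₀ K
    have hvolA : volume A = ENNReal.ofReal (t ^ d) * volume K := by
      rw [hA, image_add_left, measure_preimage_add, Measure.addHaar_smul, hvolK₀]
      simp [abs_of_pos (pow_pos ht0 d)]
    have hρA : uniformProbOn K A = ENNReal.ofReal (t ^ d) := by
      rw [unif_apply K A hAmeas, inter_eq_left.2 hAK, hvolA, mul_comm, mul_assoc,
        ENNReal.mul_inv_cancel hK.volume_pos.ne' hK.volume_lt_top.ne, mul_one]
    calc uniformProbOn K {x | max 0 (min 1 ((1 - θ - gauge K₀ (x - x₀)) / θ)) < 1}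
        ≤ uniformProbOn K Aᶜ := measure_mono hsub
      _ = 1 - ENNReal.ofReal (t ^ d) := by rw [prob_compl_eq_one_sub hAmeas, hρA]
      _ = ENNReal.ofReal (1 - t ^ d) := by
          rw [← ENNReal.ofReal_one, ENNReal.ofReal_sub _ (pow_nonneg ht0.le d)]
      _ ≤ ENNReal.ofReal (C * θ) := by
          apply ENNReal.ofReal_le_ofReal
          have hbern : 1 + (d : ℝ) * (-(2 * θ)) ≤ (1 + -(2 * θ)) ^ d :=
            one_add_mul_le_pow (by linarith) d
          have : (1 + -(2 * θ)) = t := by rw [ht]; ring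
          rw [this] at hbern
          have hC2 : 2 * (d : ℝ) * θ ≤ C * θ :=
            mul_le_mul_of_nonneg_right (le_max_right _ _) hθ.le
          nlinarith

end Crest.Agent.OTStab
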