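import Crest.Agent.OTStab.Defs

/-!
# Task U: the uniform measure on a convex body and its tilts `(1+g)ρ`
All statements are routine.  Extra lemmas welcome (append at the end).
-/

set_option autoImplicit false

open MeasureTheory Set
open scoped ENNReal NNReal RealInnerProductSpace
open Crest.AnalysisR.OT

namespace Crest.Agent.OTStab

variable {d : ℕ} {K : Set (E d)}

theorem Body.measurableSet (hK : Body K) : MeasurableSet K := hK.compact.measurableSet

theorem Body.volume_pos (hK : Body K) : 0 < volume K :=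
  lt_of_lt_of_le (isOpen_interior.measure_pos volume hK.inter) (measure_mono interior_subset)

theorem Body.volume_lt_top (hK : Body K) : volume K < ∞ := hK.compact.measure_lt_top

theorem Body.isProb (hK : Body K) : IsProbabilityMeasure (uniformProbOn K) := by
  constructor
  simp only [uniformProbOn, Measure.smul_apply, Measure.restrict_apply MeasurableSet.univ,
    univ_inter, smul_eq_mul]
  exact ENNReal.inv_mul_cancel hK.volume_pos.ne' hK.volume_lt_top.ne

theorem unif_ac (K : Set (E d)) : uniformProbOn K ≪ (volume : Measure (E d)) := by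
  unfold uniformProbOn
  exact (Measure.AbsolutelyContinuous.smul_left Measure.restrict_le_self.absolutelyContinuous _)

theorem Body.ae_mem (hK : Body K) : ∀ᵐ x ∂(uniformProbOn K), x ∈ K := by
  have h : ∀ᵐ x ∂(volume.restrict K), x ∈ K := ae_restrict_mem hK.measurableSet
  unfold uniformProbOn
  exact Measure.ae_smul_measure h _

/-- uses `Convex.addHaar_frontier`. -/
theorem Body.ae_mem_interior (hK : Body K) : ∀ᵐ x ∂(uniformProbOn K), x ∈ interior K := by
  have h0 : volume (frontier K) = 0 := hK.convex.addHaar_frontier volume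
  have h1 : ∀ᵐ x ∂(uniformProbOn K), x ∉ frontier K := by
    have : uniformProbOn K (frontier K) = 0 := unif_ac K h0
    exact measure_eq_zero_iff_ae_notMem.1 this
  filter_upwards [hK.ae_mem, h1] with x hx hx'
  by_contra hcon
  exact hx' ⟨subset_closure hx, hcon⟩

theorem Body.exists_bound (hK : Body K) : ∃ RK : ℝ, 0 < RK ∧ ∀ x ∈ K, ‖x‖ ≤ RK := by
  obtain ⟨R, hR⟩ := hK.compact.isBounded.exists_norm_le
  exact ⟨max R 1, lt_of_lt_of_le one_pos (le_max_right _ _),
    fun x hx => (hR x hx).trans (le_max_left _ _)⟩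

theorem Body.ae_norm_le (hK : Body K) {RK : ℝ} (h : ∀ x ∈ K, ‖x‖ ≤ RK) :
    ∀ᵐ x ∂(uniformProbOn K), ‖x‖ ≤ RK := by
  filter_upwards [hK.ae_mem] with x hx using h x hx

theorem unif_apply (K A : Set (E d)) (hA : MeasurableSet A) :
    uniformProbOn K A = (volume K)⁻¹ * volume (A ∩ K) := by
  simp only [uniformProbOn, Measure.smul_apply, Measure.restrict_apply hA, smul_eq_mul]

theorem integral_unif {F : Type*} [NormedAddCommGroup F] [NormedSpace ℝ F] (K : Set (E d))
    (f : E d → F) :
    ∫ x, f x ∂(uniformProbOn K) = (volume K).toReal⁻¹ • ∫ x in K, f x := by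
  unfold uniformProbOn
  rw [integral_smul_measure, ENNReal.toReal_inv]

theorem setIntegral_unif {F : Type*} [NormedAddCommGroup F] [NormedSpace ℝ F] (K A : Set (E d))
    (hA : MeasurableSet A) (f : E d → F) :
    ∫ x in A, f x ∂(uniformProbOn K) = (volume K).toReal⁻¹ • ∫ x in A ∩ K, f x := by
  unfold uniformProbOn
  rw [Measure.restrict_smul, integral_smul_measure, ENNReal.toReal_inv,
    Measure.restrict_restrict hA]

theorem lintegral_unif (K : Set (E d)) (f : E d → ℝ≥0∞) :
    ∫⁻ x, f x ∂(uniformProbOn K) = (volume K)⁻¹ * ∫⁻ x in K, f x := by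
  unfold uniformProbOn
  rw [lintegral_smul_measure, smul_eq_mul]

/-- a measurable function which is bounded a.e. is integrable w.r.t. a finite measure
(convenience wrapper). -/
theorem integrable_of_ae_bound {F : Type*} [NormedAddCommGroup F] {σ : Measure (E d)}
    [IsFiniteMeasure σ] {f : E d → F} (hf : AEStronglyMeasurable f σ) (C : ℝ)
    (h : ∀ᵐ x ∂σ, ‖f x‖ ≤ C) : Integrable f σ :=
  Integrable.of_bound hf C h

/-! ### tilts -/

theorem tilt_ac_self (ρ : Measure (E d)) (g : E d → ℝ) : tilt ρ g ≪ ρ :=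
  withDensity_absolutelyContinuous _ _

theorem tilt_ac {ρ : Measure (E d)} (hρ : ρ ≪ (volume : Measure (E d))) (g : E d → ℝ) :
    tilt ρ g ≪ (volume : Measure (E d)) :=
  (tilt_ac_self ρ g).trans hρ

theorem one_add_nonneg_of_abs_le {g : E d → ℝ} (hg2 : ∀ x, |g x| ≤ 1 / 2) (x : E d) :
    0 ≤ 1 + g x := by
  have := abs_le.1 (hg2 x)
  linarith [this.1]

theorem integral_tilt {F : Type*} [NormedAddCommGroup F] [NormedSpace ℝ F] (ρ : Measure (E d))
    {g : E d → ℝ} (hg : Measurable g) (hg2 : ∀ x, |g x| ≤ 1 / 2) (f : E d → F) :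
    ∫ x, f x ∂(tilt ρ g) = ∫ x, (1 + g x) • f x ∂ρ := by
  unfold tilt
  rw [integral_withDensity_eq_integral_toReal_smul
    (by fun_prop : Measurable fun x => ENNReal.ofReal (1 + g x))
    (Filter.Eventually.of_forall fun x => ENNReal.ofReal_lt_top)]
  refine integral_congr_ae (Filter.Eventually.of_forall fun x => ?_)
  simp only [ENNReal.toReal_ofReal (one_add_nonneg_of_abs_le hg2 x)]

theorem setIntegral_tilt {F : Type*} [NormedAddCommGroup F] [NormedSpace ℝ F] (ρ : Measure (E d))
    {g : E d → ℝ} (hg : Measurable g) (hg2 : ∀ x, |g x| ≤ 1 / 2) (A : Set (E d))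
    (hA : MeasurableSet A) (f : E d → F) :
    ∫ x in A, f x ∂(tilt ρ g) = ∫ x in A, (1 + g x) • f x ∂ρ := by
  have : (tilt ρ g).restrict A = tilt (ρ.restrict A) g := by
    unfold tilt
    exact restrict_withDensity hA _
  rw [this, integral_tilt _ hg hg2]

theorem tilt_apply_le (ρ : Measure (E d)) {g : E d → ℝ} (hg : Measurable g)
    (hg2 : ∀ x, |g x| ≤ 1 / 2) (A : Set (E d)) : tilt ρ g A ≤ ENNReal.ofReal (3 / 2) * ρ A := by
  have h1 : tilt ρ g ≤ ρ.withDensity (fun _ => ENNReal.ofReal (3 / 2)) := by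
    unfold tilt
    refine withDensity_mono (Filter.Eventually.of_forall fun x => ?_)
    apply ENNReal.ofReal_le_ofReal
    have := abs_le.1 (hg2 x)
    linarith [this.2]
  calc tilt ρ g A ≤ ρ.withDensity (fun _ => ENNReal.ofReal (3 / 2)) A := h1 A
    _ = ENNReal.ofReal (3 / 2) * ρ A := by
      rw [withDensity_const, Measure.smul_apply, smul_eq_mul]

theorem le_tilt_apply (ρ : Measure (E d)) {g : E d → ℝ} (hg : Measurable g)
    (hg2 : ∀ x, |g x| ≤ 1 / 2) (A : Set (E d)) : ENNReal.ofReal (1 / 2) * ρ A ≤ tilt ρ g A := by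
  have h1 : ρ.withDensity (fun _ => ENNReal.ofReal (1 / 2)) ≤ tilt ρ g := by
    unfold tilt
    refine withDensity_mono (Filter.Eventually.of_forall fun x => ?_)
    apply ENNReal.ofReal_le_ofReal
    have := abs_le.1 (hg2 x)
    linarith [this.1]
  have h2 : ENNReal.ofReal (1 / 2) * ρ A = ρ.withDensity (fun _ => ENNReal.ofReal (1 / 2)) A := by
    rw [withDensity_const, Measure.smul_apply, smul_eq_mul]
  rw [h2]
  exact h1 A

theorem tilt_isFinite (ρ : Measure (E d)) [IsFiniteMeasure ρ]
    {g : E d → ℝ} (hg : Measurable g) (hg2 : ∀ x, |g x| ≤ 1 / 2) : IsFiniteMeasure (tilt ρ g) := by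
  constructor
  refine lt_of_le_of_lt (tilt_apply_le ρ hg hg2 univ) ?_
  exact ENNReal.mul_lt_top ENNReal.ofReal_lt_top (measure_lt_top ρ univ)

theorem tilt_apply_toReal (ρ : Measure (E d)) [IsFiniteMeasure ρ]
    {g : E d → ℝ} (hg : Measurable g) (hg2 : ∀ x, |g x| ≤ 1 / 2) (A : Set (E d))
    (hA : MeasurableSet A) :
    (tilt ρ g A).toReal = ∫ x in A, (1 + g x) ∂ρ := by
  have := tilt_isFinite ρ hg hg2
  have h := setIntegral_tilt ρ hg hg2 A hA (fun _ => (1 : ℝ))
  simp only [smul_eq_mul, mul_one] at h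
  rw [← h]
  simp [Measure.real]

theorem tilt_zero (ρ : Measure (E d)) : tilt ρ (fun _ => 0) = ρ := by
  simp [tilt]

end Crest.Agent.OTStab
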