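import Crest.Agent.OTStab.Lag
import Crest.Agent.OTStab.Unif

/-!
# Task T1: the test function `a = ϑ · (D_r ψ - D_r φ)` and its properties

`φ = lag y c`, `ψ = lag z c'`, `T = lagMap y c`, `S = lagMap z c'`, all points in `B(0,R)`; `e` a unit vector, `r > 0`;
`ϑ` is `Lϑ`-Lipschitz with values in `[0,1]`.
`testFn x = ϑ x * ((ψ (x + r e) - ψ x) - (φ (x + r e) - φ x)) / r`,   `incr y c e r x = ⟪T (x + r e) - T x, e⟫ ≥ 0`.

Facts: `D_r φ x := (φ (x + r e) - φ x)/r ∈ [⟪T x,e⟫, ⟪T (x + r e),e⟫] ⊆ [-R, R]` (`lag_diff_lower/upper`).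
-/

set_option autoImplicit false

open MeasureTheory Set
open scoped ENNReal NNReal RealInnerProductSpace

namespace Crest.Agent.OTStab

variable {d : ℕ} {ι κ : Type} [Fintype ι] [Nonempty ι] [Fintype κ] [Nonempty κ]

/-- increment of the `e`-component of the Laguerre map. -/
noncomputable def incr (y : ι → E d) (c : ι → ℝ) (e : E d) (r : ℝ) (x : E d) : ℝ :=
  ⟪lagMap y c (x + r • e) - lagMap y c x, e⟫

/-- the test function. -/
noncomputable def testFn (y : ι → E d) (c : ι → ℝ) (z : κ → E d) (c' : κ → ℝ) (ϑ : E d → ℝ)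
    (e : E d) (r : ℝ) (x : E d) : ℝ :=
  ϑ x * (((lag z c' (x + r • e) - lag z c' x) - (lag y c (x + r • e) - lag y c x)) / r)

theorem incr_nonneg (y : ι → E d) (c : ι → ℝ) (e : E d) {r : ℝ} (hr : 0 ≤ r) (x : E d) :
    0 ≤ incr y c e r x := by
  have h := lagMap_mono_dir y c x e hr
  unfold incr
  rw [inner_sub_left]
  linarith

theorem abs_inner_lagMap_le (y : ι → E d) (c : ι → ℝ) {R : ℝ} (hR : ∀ k, ‖y k‖ ≤ R) (e : E d)
    (he : ‖e‖ = 1) (x : E d) : |⟪lagMap y c x, e⟫| ≤ R := by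
  have h := abs_real_inner_le_norm (lagMap y c x) e
  rw [he, mul_one] at h
  exact h.trans (norm_lagMap_le y c hR x)

theorem incr_le (y : ι → E d) (c : ι → ℝ) {R : ℝ} (hR : ∀ k, ‖y k‖ ≤ R) (e : E d) (he : ‖e‖ = 1)
    (r : ℝ) (x : E d) : incr y c e r x ≤ 2 * R := by
  have h1 := abs_le.1 (abs_inner_lagMap_le y c hR e he x)
  have h2 := abs_le.1 (abs_inner_lagMap_le y c hR e he (x + r • e))
  unfold incr
  rw [inner_sub_left]
  linarith [h1.1, h2.2]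

theorem measurable_incr (y : ι → E d) (c : ι → ℝ) (e : E d) (r : ℝ) :
    Measurable (incr y c e r) := by
  unfold incr
  have h1 : Measurable (fun x : E d => lagMap y c (x + r • e)) :=
    (measurable_lagMap y c).comp (measurable_id.add_const _)
  exact (h1.sub (measurable_lagMap y c)).inner_const

/-- the difference quotient of `lag`. -/
noncomputable def dq (y : ι → E d) (c : ι → ℝ) (e : E d) (r : ℝ) (x : E d) : ℝ :=
  (lag y c (x + r • e) - lag y c x) / r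

theorem dq_lower (y : ι → E d) (c : ι → ℝ) (e : E d) {r : ℝ} (hr : 0 < r) (x : E d) :
    ⟪lagMap y c x, e⟫ ≤ dq y c e r x := by
  unfold dq
  rw [le_div_iff₀ hr, mul_comm]
  exact lag_diff_lower y c x e r

theorem dq_upper (y : ι → E d) (c : ι → ℝ) (e : E d) {r : ℝ} (hr : 0 < r) (x : E d) :
    dq y c e r x ≤ ⟪lagMap y c (x + r • e), e⟫ := by
  unfold dq
  rw [div_le_iff₀ hr, mul_comm]
  exact lag_diff_upper y c x e r

theorem abs_dq_le (y : ι → E d) (c : ι → ℝ) {R : ℝ} (hR : ∀ k, ‖y k‖ ≤ R) (e : E d)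
    (he : ‖e‖ = 1) {r : ℝ} (hr : 0 < r) (x : E d) : |dq y c e r x| ≤ R := by
  have h1 := abs_le.1 (abs_inner_lagMap_le y c hR e he x)
  have h2 := abs_le.1 (abs_inner_lagMap_le y c hR e he (x + r • e))
  have h3 := dq_lower y c e hr x
  have h4 := dq_upper y c e hr x
  rw [abs_le]
  constructor <;> linarith [h1.1, h2.2]

theorem dq_sub_le_incr (y : ι → E d) (c : ι → ℝ) (e : E d) {r : ℝ} (hr : 0 < r) (x : E d) :
    dq y c e r x - ⟪lagMap y c x, e⟫ ≤ incr y c e r x := by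
  have h4 := dq_upper y c e hr x
  unfold incr
  rw [inner_sub_left]
  linarith

theorem testFn_eq (y : ι → E d) (c : ι → ℝ) (z : κ → E d) (c' : κ → ℝ) (ϑ : E d → ℝ)
    (e : E d) (r : ℝ) (x : E d) :
    testFn y c z c' ϑ e r x = ϑ x * (dq z c' e r x - dq y c e r x) := by
  unfold testFn dq
  rw [sub_div]

theorem dist_dq_le (y : ι → E d) (c : ι → ℝ) {R : ℝ} (hR : ∀ k, ‖y k‖ ≤ R) (e : E d)
    {r : ℝ} (hr : 0 < r) (x x' : E d) :
    |dq y c e r x - dq y c e r x'| ≤ 2 * R / r * dist x x' := by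
  have hR0 : 0 ≤ R := (norm_nonneg _).trans (hR (Classical.arbitrary ι))
  have hL := lipschitzWith_lag y c hR
  have h1 := hL.dist_le_mul x x'
  have h2 := hL.dist_le_mul (x + r • e) (x' + r • e)
  rw [Real.coe_toNNReal _ hR0, Real.dist_eq] at h1 h2
  rw [dist_add_right] at h2
  unfold dq
  rw [← sub_div, abs_div, abs_of_pos hr, div_le_iff₀ hr]
  have h3 : lag y c (x + r • e) - lag y c x - (lag y c (x' + r • e) - lag y c x')
      = (lag y c (x + r • e) - lag y c (x' + r • e)) - (lag y c x - lag y c x') := by ring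
  rw [h3]
  calc |(lag y c (x + r • e) - lag y c (x' + r • e)) - (lag y c x - lag y c x')|
      ≤ |lag y c (x + r • e) - lag y c (x' + r • e)| + |lag y c x - lag y c x'| := abs_sub _ _
    _ ≤ R * dist x x' + R * dist x x' := add_le_add h2 h1
    _ = 2 * R / r * dist x x' * r := by field_simp; ring

/-- product of bounded Lipschitz functions. -/
theorem testFn_lipschitz (y : ι → E d) (c : ι → ℝ) (z : κ → E d) (c' : κ → ℝ) {R : ℝ}
    (hyR : ∀ k, ‖y k‖ ≤ R) (hzR : ∀ k, ‖z k‖ ≤ R) (ϑ : E d → ℝ) (Lϑ : ℝ≥0)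
    (hϑ : LipschitzWith Lϑ ϑ) (h0 : ∀ x, 0 ≤ ϑ x) (h1 : ∀ x, ϑ x ≤ 1) (e : E d) (he : ‖e‖ = 1)
    {r : ℝ} (hr : 0 < r) :
    ∃ L : ℝ≥0, LipschitzWith L (testFn y c z c' ϑ e r) := by
  have hR0 : 0 ≤ R := (norm_nonneg _).trans (hyR (Classical.arbitrary ι))
  have hC : 0 ≤ 4 * R / r + 2 * R * Lϑ := by positivity
  refine ⟨Real.toNNReal (4 * R / r + 2 * R * Lϑ), LipschitzWith.of_dist_le_mul fun x x' => ?_⟩
  rw [Real.coe_toNNReal _ hC, Real.dist_eq, testFn_eq, testFn_eq]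
  set D := dq z c' e r x - dq y c e r x with hD
  set D' := dq z c' e r x' - dq y c e r x' with hD'
  have hd0 : 0 ≤ dist x x' := dist_nonneg
  have e1 : ϑ x * D - ϑ x' * D' = ϑ x * (D - D') + D' * (ϑ x - ϑ x') := by ring
  have b1 : |D - D'| ≤ 4 * R / r * dist x x' := by
    have a1 := dist_dq_le z c' hzR e hr x x'
    have a2 := dist_dq_le y c hyR e hr x x'
    have e2 : D - D' = (dq z c' e r x - dq z c' e r x') - (dq y c e r x - dq y c e r x') := by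
      rw [hD, hD']; ring
    rw [e2]
    calc _ ≤ |dq z c' e r x - dq z c' e r x'| + |dq y c e r x - dq y c e r x'| := abs_sub _ _
      _ ≤ 2 * R / r * dist x x' + 2 * R / r * dist x x' := add_le_add a1 a2
      _ = 4 * R / r * dist x x' := by ring
  have b2 : |D'| ≤ 2 * R := by
    have a1 := abs_dq_le z c' hzR e he hr x'
    have a2 := abs_dq_le y c hyR e he hr x'
    calc |D'| ≤ |dq z c' e r x'| + |dq y c e r x'| := abs_sub _ _
      _ ≤ 2 * R := by linarith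
  have b3 : |ϑ x - ϑ x'| ≤ Lϑ * dist x x' := by
    have := hϑ.dist_le_mul x x'
    rwa [Real.dist_eq] at this
  have b4 : |ϑ x| ≤ 1 := by rw [abs_of_nonneg (h0 x)]; exact h1 x
  rw [e1]
  calc |ϑ x * (D - D') + D' * (ϑ x - ϑ x')| ≤ |ϑ x * (D - D')| + |D' * (ϑ x - ϑ x')| :=
        abs_add_le _ _
    _ = |ϑ x| * |D - D'| + |D'| * |ϑ x - ϑ x'| := by rw [abs_mul, abs_mul]
    _ ≤ 1 * (4 * R / r * dist x x') + 2 * R * (Lϑ * dist x x') := by
        gcongr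
    _ = (4 * R / r + 2 * R * Lϑ) * dist x x' := by ring

theorem testFn_eq_zero (y : ι → E d) (c : ι → ℝ) (z : κ → E d) (c' : κ → ℝ) (ϑ : E d → ℝ)
    (e : E d) (r : ℝ) {x : E d} (hx : ϑ x = 0) : testFn y c z c' ϑ e r x = 0 := by
  simp [testFn, hx]

/-- `D_r ψ - D_r φ - ⟪S - T, e⟫ ∈ [-incr φ, incr ψ]`, `|⟪S - T, e⟫| ≤ 2R`, `0 ≤ ϑ ≤ 1`. -/
theorem testFn_mul_ge (y : ι → E d) (c : ι → ℝ) (z : κ → E d) (c' : κ → ℝ) {R : ℝ}
    (hyR : ∀ k, ‖y k‖ ≤ R) (hzR : ∀ k, ‖z k‖ ≤ R) (ϑ : E d → ℝ)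
    (h0 : ∀ x, 0 ≤ ϑ x) (h1 : ∀ x, ϑ x ≤ 1) (e : E d) (he : ‖e‖ = 1) {r : ℝ} (hr : 0 < r)
    (x : E d) :
    ϑ x * ⟪lagMap z c' x - lagMap y c x, e⟫ ^ 2 - 2 * R * (incr z c' e r x + incr y c e r x)
      ≤ testFn y c z c' ϑ e r x * ⟪lagMap z c' x - lagMap y c x, e⟫ := by
  have hR0 : 0 ≤ R := (norm_nonneg _).trans (hyR (Classical.arbitrary ι))
  rw [testFn_eq]
  set w := ⟪lagMap z c' x - lagMap y c x, e⟫ with hw
  have hw' : w = ⟪lagMap z c' x, e⟫ - ⟪lagMap y c x, e⟫ := by rw [hw, inner_sub_left]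
  set I := incr z c' e r x + incr y c e r x with hI
  have hIz := incr_nonneg z c' e hr.le x
  have hIy := incr_nonneg y c e hr.le x
  have hI0 : 0 ≤ I := by positivity
  set δ := dq z c' e r x - dq y c e r x - w with hδ
  have hδI : |δ| ≤ I := by
    have a1 := dq_lower z c' e hr x
    have a2 := dq_lower y c e hr x
    have a3 := dq_sub_le_incr z c' e hr x
    have a4 := dq_sub_le_incr y c e hr x
    rw [abs_le]
    constructor <;> rw [hδ, hw', hI] <;> linarith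
  have hwR : |w| ≤ 2 * R := by
    have a1 := abs_le.1 (abs_inner_lagMap_le z c' hzR e he x)
    have a2 := abs_le.1 (abs_inner_lagMap_le y c hyR e he x)
    rw [abs_le, hw']
    constructor <;> linarith [a1.1, a1.2, a2.1, a2.2]
  have e1 : ϑ x * (dq z c' e r x - dq y c e r x) * w = ϑ x * w ^ 2 + ϑ x * (δ * w) := by
    rw [hδ]; ring
  rw [e1]
  have b1 : |δ * w| ≤ I * (2 * R) := by
    rw [abs_mul]; gcongr
  have b2 : -(I * (2 * R)) ≤ δ * w := (abs_le.1 b1).1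
  have b3 : -(I * (2 * R)) ≤ ϑ x * (δ * w) := by
    by_cases hs : 0 ≤ δ * w
    · have : 0 ≤ ϑ x * (δ * w) := mul_nonneg (h0 x) hs
      have : 0 ≤ I * (2 * R) := by positivity
      linarith
    · rw [not_le] at hs
      have : ϑ x * (δ * w) ≥ 1 * (δ * w) := by
        have := mul_le_mul_of_nonpos_right (h1 x) hs.le
        linarith
      linarith
  linarith

theorem sq_incr_sub_le {a b R : ℝ} (ha : 0 ≤ a) (hb : 0 ≤ b) (ha' : a ≤ 2 * R) (hb' : b ≤ 2 * R) :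
    (a - b) ^ 2 ≤ 2 * R * (a + b) := by
  nlinarith [mul_nonneg ha hb, mul_nonneg ha (sub_nonneg.2 ha'), mul_nonneg hb (sub_nonneg.2 hb')]

/-- a.e. derivative of the difference quotient. -/
theorem ae_hasFDerivAt_dq (y : ι → E d) (c : ι → ℝ) (e : E d) (r : ℝ) :
    ∀ᵐ x ∂(volume : Measure (E d)), ∃ f' : E d →L[ℝ] ℝ,
      HasFDerivAt (dq y c e r) f' x ∧ f' e = incr y c e r x / r := by
  have h1 := ae_fderiv_lag y c
  have h2 : ∀ᵐ x ∂(volume : Measure (E d)),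
      DifferentiableAt ℝ (lag y c) (x + r • e) ∧
        ∀ v, fderiv ℝ (lag y c) (x + r • e) v = ⟪lagMap y c (x + r • e), v⟫ :=
    (measurePreserving_add_right (volume : Measure (E d)) (r • e)).quasiMeasurePreserving.ae h1
  filter_upwards [h1, h2] with x hx1 hx2
  have d1 : HasFDerivAt (lag y c) (fderiv ℝ (lag y c) x) x := hx1.1.hasFDerivAt
  have d2 : HasFDerivAt (fun x => lag y c (x + r • e)) (fderiv ℝ (lag y c) (x + r • e)) x :=
    (hasFDerivAt_comp_add_right (r • e)).2 hx2.1.hasFDerivAt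
  have d3 := (d2.sub d1).mul_const (r⁻¹)
  refine ⟨r⁻¹ • (fderiv ℝ (lag y c) (x + r • e) - fderiv ℝ (lag y c) x), ?_, ?_⟩
  · have : dq y c e r = fun x => (lag y c (x + r • e) - lag y c x) * r⁻¹ := by
      funext x; unfold dq; rw [div_eq_mul_inv]
    rw [this]
    exact d3
  · simp only [smul_apply, sub_apply, smul_eq_mul]
    rw [hx1.2, hx2.2]
    unfold incr
    rw [inner_sub_left, div_eq_mul_inv, mul_comm]

/-- a.e. bound of the directional derivative.  For a.e. `x` the five Lipschitz functions `ϑ`, `φ`, `φ(· + r e)`, `ψ`, `ψ(· + r e)`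
are differentiable at `x` (Rademacher; for the translates use that translation preserves null sets / `ae_fderiv_lag` +
`MeasureTheory.Measure.IsAddRightInvariant`/`measurePreserving_add_right`), with `∂_e φ x = ⟪T x, e⟫`, `∂_e φ(·+re) x = ⟪T (x+re), e⟫`.  Then
`∂_e a = (∂_e ϑ) (D_rψ - D_rφ) + ϑ (incr ψ - incr φ)/r`.   `|∂_e ϑ| ≤ Lϑ`, and `∂_e ϑ x = 0` if `ϑ x = 0` or `ϑ x = 1`
(local extremum: `IsLocalMin.fderiv_eq_zero`).  `|D_rψ - D_rφ| ≤ 2R`.  `(incr ψ - incr φ)² ≤ 2R (incr ψ + incr φ)`.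
`(A+B)² ≤ 2A² + 2B²`. -/
theorem testFn_fderiv_sq_le (y : ι → E d) (c : ι → ℝ) (z : κ → E d) (c' : κ → ℝ) {R : ℝ}
    (hyR : ∀ k, ‖y k‖ ≤ R) (hzR : ∀ k, ‖z k‖ ≤ R) (ϑ : E d → ℝ) (Lϑ : ℝ≥0)
    (hϑ : LipschitzWith Lϑ ϑ) (h0 : ∀ x, 0 ≤ ϑ x) (h1 : ∀ x, ϑ x ≤ 1) (e : E d) (he : ‖e‖ = 1)
    {r : ℝ} (hr : 0 < r) :
    ∀ᵐ x ∂(volume : Measure (E d)),
      (fderiv ℝ (testFn y c z c' ϑ e r) x e) ^ 2
        ≤ 8 * (Lϑ : ℝ) ^ 2 * R ^ 2 * Set.indicator {x | ϑ x < 1} (fun _ => (1 : ℝ)) x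
          + 4 * R / r ^ 2 * (incr z c' e r x + incr y c e r x) := by
  have hR0 : 0 ≤ R := (norm_nonneg _).trans (hyR (Classical.arbitrary ι))
  filter_upwards [ae_hasFDerivAt_dq y c e r, ae_hasFDerivAt_dq z c' e r,
    hϑ.ae_differentiableAt (μ := volume)] with x hy hz hth
  obtain ⟨fy, hfy, hfye⟩ := hy
  obtain ⟨fz, hfz, hfze⟩ := hz
  have hfun : testFn y c z c' ϑ e r = ϑ * (dq z c' e r - dq y c e r) := by
    funext x; exact testFn_eq y c z c' ϑ e r x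
  have hder := hth.hasFDerivAt.mul (hfz.sub hfy)
  rw [hfun, hder.fderiv]
  simp only [add_apply, smul_apply, sub_apply, smul_eq_mul, Pi.sub_apply]
  rw [hfye, hfze]
  set a := incr z c' e r x with ha
  set b := incr y c e r x with hb
  set D := dq z c' e r x - dq y c e r x with hD
  set t := fderiv ℝ ϑ x e with ht
  have ha0 : 0 ≤ a := incr_nonneg z c' e hr.le x
  have hb0 : 0 ≤ b := incr_nonneg y c e hr.le x
  have ha1 : a ≤ 2 * R := incr_le z c' hzR e he r x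
  have hb1 : b ≤ 2 * R := incr_le y c hyR e he r x
  have hab := sq_incr_sub_le ha0 hb0 ha1 hb1
  have hDR : |D| ≤ 2 * R := by
    have a1 := abs_dq_le z c' hzR e he hr x
    have a2 := abs_dq_le y c hyR e he hr x
    calc |D| ≤ |dq z c' e r x| + |dq y c e r x| := abs_sub _ _
      _ ≤ 2 * R := by linarith
  have htL : |t| ≤ Lϑ := by
    have h := (fderiv ℝ ϑ x).le_opNorm e
    rw [he, mul_one, Real.norm_eq_abs] at h
    exact h.trans (norm_fderiv_le_of_lipschitz ℝ hϑ)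
  -- second term
  have hB : (ϑ x * (a / r - b / r)) ^ 2 ≤ 2 * R / r ^ 2 * (a + b) := by
    have e1 : (ϑ x * (a / r - b / r)) ^ 2 = (ϑ x) ^ 2 * ((a - b) ^ 2 / r ^ 2) := by
      field_simp
    rw [e1]
    have h2 : (ϑ x) ^ 2 ≤ 1 := by
      have := h0 x; have := h1 x; nlinarith
    have h3 : 0 ≤ (a - b) ^ 2 / r ^ 2 := by positivity
    calc (ϑ x) ^ 2 * ((a - b) ^ 2 / r ^ 2) ≤ 1 * ((a - b) ^ 2 / r ^ 2) :=
          mul_le_mul_of_nonneg_right h2 h3
      _ = (a - b) ^ 2 / r ^ 2 := one_mul _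
      _ ≤ (2 * R * (a + b)) / r ^ 2 := by gcongr
      _ = 2 * R / r ^ 2 * (a + b) := by ring
  -- first term
  have hA : (D * t) ^ 2 ≤ 4 * (Lϑ : ℝ) ^ 2 * R ^ 2 *
      Set.indicator {x | ϑ x < 1} (fun _ => (1 : ℝ)) x := by
    by_cases hx : ϑ x < 1
    · rw [Set.indicator_of_mem (show x ∈ {x | ϑ x < 1} from hx), mul_one, mul_pow]
      have s1 : D ^ 2 ≤ (2 * R) ^ 2 := sq_le_sq' (by linarith [(abs_le.1 hDR).1]) (abs_le.1 hDR).2
      have s2 : t ^ 2 ≤ (Lϑ : ℝ) ^ 2 := sq_le_sq' (by linarith [(abs_le.1 htL).1]) (abs_le.1 htL).2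
      calc D ^ 2 * t ^ 2 ≤ (2 * R) ^ 2 * (Lϑ : ℝ) ^ 2 := by gcongr
        _ = 4 * (Lϑ : ℝ) ^ 2 * R ^ 2 := by ring
    · rw [Set.indicator_of_notMem (show x ∉ {x | ϑ x < 1} from hx), mul_zero]
      have hx1 : ϑ x = 1 := le_antisymm (h1 x) (not_lt.1 hx)
      have hmax : IsLocalMax ϑ x := Filter.Eventually.of_forall fun x' => by
        rw [hx1]; exact h1 x'
      have : t = 0 := by rw [ht, hmax.fderiv_eq_zero]; rfl
      rw [this]; simp
  have hfin : (ϑ x * (a / r - b / r) + D * t) ^ 2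
      ≤ 2 * (ϑ x * (a / r - b / r)) ^ 2 + 2 * (D * t) ^ 2 := by
    nlinarith [sq_nonneg (ϑ x * (a / r - b / r) - D * t)]
  calc (ϑ x * (a / r - b / r) + D * t) ^ 2
      ≤ 2 * (ϑ x * (a / r - b / r)) ^ 2 + 2 * (D * t) ^ 2 := hfin
    _ ≤ 2 * (2 * R / r ^ 2 * (a + b)) + 2 * (4 * (Lϑ : ℝ) ^ 2 * R ^ 2 *
      Set.indicator {x | ϑ x < 1} (fun _ => (1 : ℝ)) x) := by linarith
    _ = _ := by ring

end Crest.Agent.OTStab
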