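import Crest.Agent.OTStab.Core
import Crest.Agent.OTStab.Cutoff
import Crest.Agent.OTStab.TestFn

/-!
# Task T2 (T3 is in AtomicThm.lean): the stability theorem for atomic targets

Hypotheses as in `core`, all points in `B(0,R)`.  `Q = ∫ |T - S|² dρ`, `ε² = ∑ P i j |y i - z j|²`.

## T2 `atomic_r`:  `Q ≤ C (r + ε r^{-1/2})` for `0 < r ≤ 1/4`.
Take `θ = r`, `ϑ` from `exists_cutoff` (constant `Cc`), `Lϑ = Cc/r`.  For each coordinate `i : Fin d`, `e_i = EuclideanSpace.single i 1`,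
`a_i = testFn y c z c' ϑ e_i r` (Lipschitz, vanishes off `K`).
* `core`: `∫ a_i ⟪S - T, e_i⟫ dρ ≤ C1 ε D_i`, `D_i² = ∫ (∂_{e_i} a_i)² dρ ≤ 8 Lϑ² R² ρ{ϑ<1} + (4R/r²) (2 Csh R r)`
  `≤ (8 Cc³ + 8 Csh) R² / r`   (`testFn_fderiv_sq_le` [a.e. volume ⇒ a.e. ρ by `unif_ac`], `shift_lagMap_le`).
* `testFn_mul_ge`: `∫ ϑ ⟪S-T,e_i⟫² dρ ≤ ∫ a_i ⟪S-T,e_i⟫ dρ + 2R (2 Csh R r)`.
* `|S-T|² = ∑_i ⟪S-T,e_i⟫²` (`EuclideanSpace.norm_sq_eq`, `EuclideanSpace.inner_single_right`), `|S - T|² ≤ 4R²`: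
  `Q ≤ ∑_i ∫ ϑ ⟪S-T,e_i⟫² dρ + 4R² ρ{ϑ<1} ≤ … + 4 R² Cc r`.

## T3 `atomic_thm`:  `Q ≤ C (ε²)^{1/3}`.
If `ε = 0`: `Q ≤ C r` for all small `r`, so `Q ≤ 0`.  If `0 < ε^{2/3} ≤ 1/4`: `r = ε^{2/3}`, `ε r^{-1/2} = ε^{2/3}`.
Otherwise `Q ≤ 4R² ≤ 16 R² ε^{2/3}`.    (`(ε²)^{1/3} = ε^{2/3}`.)
-/

set_option autoImplicit false

open MeasureTheory Set
open scoped ENNReal NNReal RealInnerProductSpace
open Crest.AnalysisR.OT

namespace Crest.Agent.OTStab

variable {d : ℕ} {K : Set (E d)}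

private theorem atomic_norm_sq (v : E d) :
    ‖v‖ ^ 2 = ∑ i, ⟪v, EuclideanSpace.single i (1 : ℝ)⟫ ^ 2 := by
  rw [EuclideanSpace.real_norm_sq_eq]
  refine Finset.sum_congr rfl fun i _ => ?_
  rw [EuclideanSpace.inner_single_right]
  simp

private theorem atomic_abs_w_le {ι κ : Type} [Fintype ι] [Nonempty ι] [Fintype κ] [Nonempty κ]
    (y : ι → E d) (z : κ → E d) {R : ℝ} (hyR : ∀ i, ‖y i‖ ≤ R) (hzR : ∀ j, ‖z j‖ ≤ R)
    (c : ι → ℝ) (c' : κ → ℝ) (e : E d) (he : ‖e‖ = 1) (x : E d) :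
    |⟪lagMap z c' x - lagMap y c x, e⟫| ≤ 2 * R := by
  calc |⟪lagMap z c' x - lagMap y c x, e⟫| ≤ ‖lagMap z c' x - lagMap y c x‖ * ‖e‖ :=
        abs_real_inner_le_norm _ _
    _ = ‖lagMap z c' x - lagMap y c x‖ := by rw [he, mul_one]
    _ ≤ ‖lagMap z c' x‖ + ‖lagMap y c x‖ := norm_sub_le _ _
    _ ≤ 2 * R := by
        have h1 := norm_lagMap_le z c' hzR x
        have h2 := norm_lagMap_le y c hyR x
        linarith

private theorem atomic_integrable_incr (hK : Body K) {ι : Type} [Fintype ι] [Nonempty ι]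
    (y : ι → E d) {R : ℝ} (hyR : ∀ i, ‖y i‖ ≤ R) (c : ι → ℝ) (e : E d) (he : ‖e‖ = 1)
    {r : ℝ} (hr : 0 < r) : Integrable (incr y c e r) (uniformProbOn K) := by
  have := hK.isProb
  refine Integrable.of_bound (measurable_incr y c e r).aestronglyMeasurable (2 * R)
    (Filter.Eventually.of_forall fun x => ?_)
  rw [Real.norm_eq_abs, abs_of_nonneg (incr_nonneg y c e hr.le x)]
  exact incr_le y c hyR e he r x

private theorem atomic_coord_bound (hK : Body K) {R : ℝ} (hR : 0 ≤ R) {C1 Cc Csh : ℝ}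
    (hC1 : 0 ≤ C1) (hCc : 0 ≤ Cc) (hCsh : 0 ≤ Csh)
    {ι κ : Type} [Fintype ι] [Nonempty ι] [Fintype κ] [Nonempty κ]
    (y : ι → E d) (z : κ → E d) (hyR : ∀ i, ‖y i‖ ≤ R) (hzR : ∀ j, ‖z j‖ ≤ R)
    (c : ι → ℝ) (c' : κ → ℝ) (ε : ℝ) (hε : 0 ≤ ε)
    (e : E d) (he : ‖e‖ = 1) {r : ℝ} (hr : 0 < r)
    (ϑ : E d → ℝ) (hϑL : LipschitzWith (Real.toNNReal (Cc / r)) ϑ) (h0 : ∀ x, 0 ≤ ϑ x)
    (h1 : ∀ x, ϑ x ≤ 1)
    (hmass : uniformProbOn K {x | ϑ x < 1} ≤ ENNReal.ofReal (Cc * r))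
    (hcore : ∫ x, testFn y c z c' ϑ e r x * ⟪lagMap z c' x - lagMap y c x, e⟫ ∂(uniformProbOn K)
      ≤ C1 * ε * Real.sqrt (∫ x, (fderiv ℝ (testFn y c z c' ϑ e r) x e) ^ 2 ∂(uniformProbOn K)))
    (hshy : ∫ x, incr y c e r x ∂(uniformProbOn K) ≤ Csh * R * r)
    (hshz : ∫ x, incr z c' e r x ∂(uniformProbOn K) ≤ Csh * R * r) :
    ∫ x, ϑ x * ⟪lagMap z c' x - lagMap y c x, e⟫ ^ 2 ∂(uniformProbOn K)
      ≤ C1 * ε * (Real.sqrt (8 * Cc ^ 3 + 8 * Csh) * R / Real.sqrt r) + 4 * Csh * R ^ 2 * r := by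
  have hprob := hK.isProb
  have hiy := atomic_integrable_incr hK y hyR c e he hr
  have hiz := atomic_integrable_incr hK z hzR c' e he hr
  have hizy : Integrable (fun x => incr z c' e r x + incr y c e r x) (uniformProbOn K) :=
    hiz.add hiy
  have hϑm : Measurable ϑ := hϑL.continuous.measurable
  have hAm : MeasurableSet {x | ϑ x < 1} := measurableSet_lt hϑm measurable_const
  have hmassR : (uniformProbOn K).real {x | ϑ x < 1} ≤ Cc * r :=
    ENNReal.toReal_le_of_le_ofReal (by positivity) hmass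
  have hmass0 : 0 ≤ (uniformProbOn K).real {x | ϑ x < 1} := measureReal_nonneg
  have hL : ((Real.toNNReal (Cc / r) : ℝ≥0) : ℝ) = Cc / r :=
    Real.coe_toNNReal _ (div_nonneg hCc hr.le)
  have hwm : Measurable fun x => ⟪lagMap z c' x - lagMap y c x, e⟫ :=
    ((measurable_lagMap z c').sub (measurable_lagMap y c)).inner_const
  have hwb := atomic_abs_w_le y z hyR hzR c c' e he
  -- the derivative bound
  have hind : Integrable (Set.indicator {x | ϑ x < 1} (fun _ => (1 : ℝ))) (uniformProbOn K) :=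
    (integrable_const (1 : ℝ)).indicator hAm
  have hD : ∫ x, (fderiv ℝ (testFn y c z c' ϑ e r) x e) ^ 2 ∂(uniformProbOn K)
      ≤ (8 * Cc ^ 3 + 8 * Csh) * R ^ 2 / r := by
    have hae := (unif_ac K).ae_le (testFn_fderiv_sq_le y c z c' hyR hzR ϑ _ hϑL h0 h1 e he hr)
    have hgi : Integrable (fun x => 8 * ((Real.toNNReal (Cc / r) : ℝ≥0) : ℝ) ^ 2 * R ^ 2 *
          Set.indicator {x | ϑ x < 1} (fun _ => (1 : ℝ)) x
          + 4 * R / r ^ 2 * (incr z c' e r x + incr y c e r x)) (uniformProbOn K) :=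
      (hind.const_mul _).add (hizy.const_mul _)
    have h2 := integral_mono_of_nonneg (Filter.Eventually.of_forall fun x => sq_nonneg _) hgi hae
    refine h2.trans ?_
    rw [integral_add (hind.const_mul _) (hizy.const_mul _), integral_const_mul,
      integral_const_mul, integral_add hiz hiy, integral_indicator_const _ hAm, hL, smul_eq_mul,
      mul_one]
    have e1 : 8 * (Cc / r) ^ 2 * R ^ 2 * (uniformProbOn K).real {x | ϑ x < 1}
        ≤ 8 * (Cc / r) ^ 2 * R ^ 2 * (Cc * r) :=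
      mul_le_mul_of_nonneg_left hmassR (by positivity)
    have e2 : 4 * R / r ^ 2 * ((∫ x, incr z c' e r x ∂(uniformProbOn K))
        + ∫ x, incr y c e r x ∂(uniformProbOn K)) ≤ 4 * R / r ^ 2 * (Csh * R * r + Csh * R * r) :=
      mul_le_mul_of_nonneg_left (add_le_add hshz hshy) (by positivity)
    have e3 : 8 * (Cc / r) ^ 2 * R ^ 2 * (Cc * r) + 4 * R / r ^ 2 * (Csh * R * r + Csh * R * r)
        = (8 * Cc ^ 3 + 8 * Csh) * R ^ 2 / r := by
      field_simp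
      ring
    linarith
  have hsq : Real.sqrt (∫ x, (fderiv ℝ (testFn y c z c' ϑ e r) x e) ^ 2 ∂(uniformProbOn K))
      ≤ Real.sqrt (8 * Cc ^ 3 + 8 * Csh) * R / Real.sqrt r := by
    refine (Real.sqrt_le_sqrt hD).trans (le_of_eq ?_)
    rw [Real.sqrt_div (by positivity), Real.sqrt_mul (by positivity), Real.sqrt_sq hR]
  -- integrability of the three terms
  obtain ⟨L, hLip⟩ := testFn_lipschitz y c z c' hyR hzR ϑ _ hϑL h0 h1 e he hr
  obtain ⟨B, hB⟩ := hK.compact.exists_bound_of_continuousOn hLip.continuous.continuousOn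
  have hB0 : 0 ≤ B := by
    obtain ⟨x, hx⟩ := hK.inter
    exact (norm_nonneg _).trans (hB x (interior_subset hx))
  have hi1 : Integrable (fun x => testFn y c z c' ϑ e r x * ⟪lagMap z c' x - lagMap y c x, e⟫)
      (uniformProbOn K) := by
    refine Integrable.of_bound (hLip.continuous.measurable.mul hwm).aestronglyMeasurable
      (B * (2 * R)) ?_
    filter_upwards [hK.ae_mem] with x hx
    rw [norm_mul]
    exact mul_le_mul (hB x hx) (by simpa [Real.norm_eq_abs] using hwb x) (norm_nonneg _) hB0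
  have hi2 : Integrable (fun x => ϑ x * ⟪lagMap z c' x - lagMap y c x, e⟫ ^ 2)
      (uniformProbOn K) := by
    refine Integrable.of_bound (hϑm.mul (hwm.pow_const 2)).aestronglyMeasurable
      (1 * (2 * R) ^ 2) (Filter.Eventually.of_forall fun x => ?_)
    rw [norm_mul, norm_pow]
    refine mul_le_mul ?_ ?_ (by positivity) zero_le_one
    · rw [Real.norm_eq_abs, abs_of_nonneg (h0 x)]; exact h1 x
    · exact pow_le_pow_left₀ (norm_nonneg _) (by simpa [Real.norm_eq_abs] using hwb x) 2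
  have hi3 : Integrable (fun x => 2 * R * (incr z c' e r x + incr y c e r x)) (uniformProbOn K) :=
    hizy.const_mul _
  have hint : ∫ x, (ϑ x * ⟪lagMap z c' x - lagMap y c x, e⟫ ^ 2
        - 2 * R * (incr z c' e r x + incr y c e r x)) ∂(uniformProbOn K)
      ≤ ∫ x, testFn y c z c' ϑ e r x * ⟪lagMap z c' x - lagMap y c x, e⟫ ∂(uniformProbOn K) :=
    integral_mono (hi2.sub hi3) hi1 fun x => testFn_mul_ge y c z c' hyR hzR ϑ h0 h1 e he hr x
  rw [integral_sub hi2 hi3, integral_const_mul, integral_add hiz hiy] at hint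
  have e4 : 2 * R * ((∫ x, incr z c' e r x ∂(uniformProbOn K))
        + ∫ x, incr y c e r x ∂(uniformProbOn K)) ≤ 2 * R * (Csh * R * r + Csh * R * r) :=
    mul_le_mul_of_nonneg_left (add_le_add hshz hshy) (by positivity)
  have e5 : C1 * ε * Real.sqrt (∫ x, (fderiv ℝ (testFn y c z c' ϑ e r) x e) ^ 2 ∂(uniformProbOn K))
      ≤ C1 * ε * (Real.sqrt (8 * Cc ^ 3 + 8 * Csh) * R / Real.sqrt r) :=
    mul_le_mul_of_nonneg_left hsq (by positivity)
  have e6 : 2 * R * (Csh * R * r + Csh * R * r) = 4 * Csh * R ^ 2 * r := by ring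
  linarith

theorem atomic_r (hK : Body K) (R : ℝ) (hR : 0 ≤ R) : ∃ C : ℝ, 0 ≤ C ∧
    ∀ {ι κ : Type} [Fintype ι] [Nonempty ι] [Fintype κ] [Nonempty κ]
      (y : ι → E d) (z : κ → E d) (_ : Function.Injective y) (_ : Function.Injective z)
      (_ : ∀ i, ‖y i‖ ≤ R) (_ : ∀ j, ‖z j‖ ≤ R)
      (c : ι → ℝ) (c' : κ → ℝ) (P : ι → κ → ℝ) (_ : ∀ i j, 0 ≤ P i j)
      (_ : ∀ i, ∑ j, P i j = (uniformProbOn K (cell y c i)).toReal)
      (_ : ∀ j, ∑ i, P i j = (uniformProbOn K (cell z c' j)).toReal)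
      (_ : ∀ i, 0 < uniformProbOn K (cell y c i)) (_ : ∀ j, 0 < uniformProbOn K (cell z c' j))
      (r : ℝ) (_ : 0 < r) (_ : r ≤ 1 / 4),
      ∫ x, ‖lagMap y c x - lagMap z c' x‖ ^ 2 ∂(uniformProbOn K)
        ≤ C * (r + Real.sqrt (∑ i, ∑ j, P i j * ‖y i - z j‖ ^ 2) / Real.sqrt r) := by
  obtain ⟨C1, hC1, hcore⟩ := core hK
  obtain ⟨Cc, hCc, hcut⟩ := exists_cutoff hK
  obtain ⟨Csh, hCsh, hsh⟩ := shift_lagMap_le hK
  refine ⟨(d : ℝ) * (C1 * (Real.sqrt (8 * Cc ^ 3 + 8 * Csh) * R))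
    + ((d : ℝ) * (4 * Csh * R ^ 2) + 4 * R ^ 2 * Cc), by positivity, ?_⟩
  intro ι κ _ _ _ _ y z hy hz hyR hzR c c' P hP hrow hcol hpy hpz r hr hr4
  have hprob := hK.isProb
  obtain ⟨ϑ, hϑL, h0, h1, hoff, hmass⟩ := hcut r hr hr4
  set ε : ℝ := Real.sqrt (∑ i, ∑ j, P i j * ‖y i - z j‖ ^ 2) with hεdef
  have hε : 0 ≤ ε := Real.sqrt_nonneg _
  have hϑm : Measurable ϑ := hϑL.continuous.measurable
  have hAm : MeasurableSet {x | ϑ x < 1} := measurableSet_lt hϑm measurable_const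
  have hmassR : (uniformProbOn K).real {x | ϑ x < 1} ≤ Cc * r :=
    ENNReal.toReal_le_of_le_ofReal (by positivity) hmass
  have hind : Integrable (Set.indicator {x | ϑ x < 1} (fun _ => (1 : ℝ))) (uniformProbOn K) :=
    (integrable_const (1 : ℝ)).indicator hAm
  -- coordinate bounds
  have hcoord : ∀ i : Fin d,
      ∫ x, ϑ x * ⟪lagMap z c' x - lagMap y c x, EuclideanSpace.single i (1 : ℝ)⟫ ^ 2
        ∂(uniformProbOn K)
      ≤ C1 * ε * (Real.sqrt (8 * Cc ^ 3 + 8 * Csh) * R / Real.sqrt r) + 4 * Csh * R ^ 2 * r := by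
    intro i
    have he : ‖(EuclideanSpace.single i (1 : ℝ) : E d)‖ = 1 := by
      simp
    obtain ⟨L, hLip⟩ := testFn_lipschitz y c z c' hyR hzR ϑ _ hϑL h0 h1 _ he hr
    have hc := hcore y z hy hz c c' P hP hrow hcol hpy hpz _ he
      (testFn y c z c' ϑ (EuclideanSpace.single i (1 : ℝ)) r) L hLip
      (fun x hx => testFn_eq_zero y c z c' ϑ _ r (hoff x hx))
    exact atomic_coord_bound hK hR hC1 hCc hCsh y z hyR hzR c c' ε hε _ he hr ϑ hϑL h0 h1 hmass hc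
      (hsh y c R hyR _ he r hr.le).1 (hsh z c' R hzR _ he r hr.le).1
  -- integrability
  have hwm : ∀ i : Fin d, Measurable fun x =>
      ⟪lagMap z c' x - lagMap y c x, EuclideanSpace.single i (1 : ℝ)⟫ := fun i =>
    ((measurable_lagMap z c').sub (measurable_lagMap y c)).inner_const
  have hi2 : ∀ i : Fin d, Integrable (fun x =>
      ϑ x * ⟪lagMap z c' x - lagMap y c x, EuclideanSpace.single i (1 : ℝ)⟫ ^ 2)
      (uniformProbOn K) := by
    intro i
    have he : ‖(EuclideanSpace.single i (1 : ℝ) : E d)‖ = 1 := by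
      simp
    have hwb := atomic_abs_w_le y z hyR hzR c c' _ he
    refine Integrable.of_bound (hϑm.mul ((hwm i).pow_const 2)).aestronglyMeasurable
      (1 * (2 * R) ^ 2) (Filter.Eventually.of_forall fun x => ?_)
    rw [norm_mul, norm_pow]
    refine mul_le_mul ?_ ?_ (by positivity) zero_le_one
    · rw [Real.norm_eq_abs, abs_of_nonneg (h0 x)]; exact h1 x
    · exact pow_le_pow_left₀ (norm_nonneg _) (by simpa [Real.norm_eq_abs] using hwb x) 2
  -- pointwise bound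
  have hpt : ∀ x, ‖lagMap y c x - lagMap z c' x‖ ^ 2
      ≤ (∑ i : Fin d, ϑ x * ⟪lagMap z c' x - lagMap y c x, EuclideanSpace.single i (1 : ℝ)⟫ ^ 2)
        + 4 * R ^ 2 * Set.indicator {x | ϑ x < 1} (fun _ => (1 : ℝ)) x := by
    intro x
    rw [← Finset.mul_sum, ← atomic_norm_sq, norm_sub_rev]
    have hN : ‖lagMap z c' x - lagMap y c x‖ ^ 2 ≤ 4 * R ^ 2 := by
      have h3 : ‖lagMap z c' x - lagMap y c x‖ ≤ 2 * R := by
        have h1 := norm_lagMap_le z c' hzR x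
        have h2 := norm_lagMap_le y c hyR x
        have := norm_sub_le (lagMap z c' x) (lagMap y c x)
        linarith
      calc ‖lagMap z c' x - lagMap y c x‖ ^ 2 ≤ (2 * R) ^ 2 :=
            pow_le_pow_left₀ (norm_nonneg _) h3 2
        _ = 4 * R ^ 2 := by ring
    have hN0 : 0 ≤ ‖lagMap z c' x - lagMap y c x‖ ^ 2 := by positivity
    by_cases hx : ϑ x < 1
    · rw [Set.indicator_of_mem (show x ∈ {x | ϑ x < 1} from hx)]
      nlinarith [h0 x, h1 x]
    · rw [Set.indicator_of_notMem (show x ∉ {x | ϑ x < 1} from hx)]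
      have : ϑ x = 1 := le_antisymm (h1 x) (not_lt.mp hx)
      rw [this]
      simp
  have hQ : ∫ x, ‖lagMap y c x - lagMap z c' x‖ ^ 2 ∂(uniformProbOn K)
      ≤ ∫ x, ((∑ i : Fin d,
          ϑ x * ⟪lagMap z c' x - lagMap y c x, EuclideanSpace.single i (1 : ℝ)⟫ ^ 2)
        + 4 * R ^ 2 * Set.indicator {x | ϑ x < 1} (fun _ => (1 : ℝ)) x) ∂(uniformProbOn K) :=
    integral_mono_of_nonneg (Filter.Eventually.of_forall fun x => by positivity)
      ((integrable_finset_sum _ fun i _ => hi2 i).add (hind.const_mul _))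
      (Filter.Eventually.of_forall hpt)
  rw [integral_add (integrable_finset_sum _ fun i _ => hi2 i) (hind.const_mul _),
    integral_finset_sum _ (fun i _ => hi2 i), integral_const_mul,
    integral_indicator_const _ hAm, smul_eq_mul, mul_one] at hQ
  have hsum : ∑ i : Fin d, ∫ x,
        ϑ x * ⟪lagMap z c' x - lagMap y c x, EuclideanSpace.single i (1 : ℝ)⟫ ^ 2
        ∂(uniformProbOn K)
      ≤ (d : ℝ) * (C1 * ε * (Real.sqrt (8 * Cc ^ 3 + 8 * Csh) * R / Real.sqrt r)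
          + 4 * Csh * R ^ 2 * r) := by
    calc _ ≤ ∑ _i : Fin d, (C1 * ε * (Real.sqrt (8 * Cc ^ 3 + 8 * Csh) * R / Real.sqrt r)
          + 4 * Csh * R ^ 2 * r) := Finset.sum_le_sum fun i _ => hcoord i
      _ = _ := by
          rw [Finset.sum_const, Finset.card_univ, Fintype.card_fin, nsmul_eq_mul]
  have e1 : 4 * R ^ 2 * (uniformProbOn K).real {x | ϑ x < 1} ≤ 4 * R ^ 2 * (Cc * r) :=
    mul_le_mul_of_nonneg_left hmassR (by positivity)
  have hsr : 0 < Real.sqrt r := Real.sqrt_pos.mpr hr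
  have hq : 0 ≤ ε / Real.sqrt r := by positivity
  set A : ℝ := Real.sqrt (8 * Cc ^ 3 + 8 * Csh) with hA
  have hA0 : 0 ≤ A := Real.sqrt_nonneg _
  have e2 : C1 * ε * (A * R / Real.sqrt r) = C1 * (A * R) * (ε / Real.sqrt r) := by
    ring
  rw [e2] at hsum
  have t1 : 0 ≤ (d : ℝ) * (C1 * (A * R)) * r := by positivity
  have t2 : 0 ≤ ((d : ℝ) * (4 * Csh * R ^ 2) + 4 * R ^ 2 * Cc) * (ε / Real.sqrt r) := by positivity
  nlinarith [hQ, hsum, e1, t1, t2]

end Crest.Agent.OTStab
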