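import Crest.Agent.OTStab.Atomic

/-!
# Task T3 `atomic_thm`:  `Q ≤ C (ε²)^{1/3}` from `atomic_r : Q ≤ C (r + ε r^{-1/2})` for `0 < r ≤ 1/4`.
If `ε = 0`: `Q ≤ C r` for all small `r`, so `Q ≤ 0`.  If `0 < ε^{2/3} ≤ 1/4`: `r = ε^{2/3}`, `ε r^{-1/2} = ε^{2/3}`.
Otherwise `Q ≤ 4R² ≤ 16 R² ε^{2/3}` (`‖lagMap‖ ≤ R`, `ρ` probability).    (`(ε²)^{1/3} = ε^{2/3}`.)
-/

set_option autoImplicit false

open MeasureTheory Set
open scoped ENNReal NNReal RealInnerProductSpace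
open Crest.AnalysisR.OT

namespace Crest.Agent.OTStab

variable {d : ℕ} {K : Set (E d)}

/-- The purely real optimisation in `r`. -/
private theorem atomicThm_optimise {C0 R Q s : ℝ} (hC0 : 0 ≤ C0) (hs : 0 ≤ s)
    (hQ : Q ≤ 4 * R ^ 2)
    (h : ∀ r : ℝ, 0 < r → r ≤ 1 / 4 → Q ≤ C0 * (r + Real.sqrt s / Real.sqrt r)) :
    Q ≤ (2 * C0 + 16 * R ^ 2) * s ^ (1 / 3 : ℝ) := by
  set t : ℝ := s ^ (1 / 3 : ℝ) with ht
  have ht0 : 0 ≤ t := Real.rpow_nonneg hs _
  have ht3 : t ^ 3 = s := by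
    rw [ht, ← Real.rpow_natCast, ← Real.rpow_mul hs]
    norm_num
  rcases ht0.eq_or_lt with h0 | hpos
  · -- `t = 0`, hence `s = 0`
    have hs0 : s = 0 := by rw [← ht3, ← h0]; norm_num
    rw [← h0, mul_zero]
    by_contra hcon
    push Not at hcon
    have hr1 : 0 < min (1 / 4 : ℝ) (Q / (2 * (C0 + 1))) := by
      apply lt_min (by norm_num)
      positivity
    have h1 := h _ hr1 (min_le_left _ _)
    rw [hs0, Real.sqrt_zero, zero_div, add_zero] at h1
    have h2 : C0 * min (1 / 4 : ℝ) (Q / (2 * (C0 + 1))) ≤ C0 * (Q / (2 * (C0 + 1))) :=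
      mul_le_mul_of_nonneg_left (min_le_right _ _) hC0
    have h3 : C0 * (Q / (2 * (C0 + 1))) < Q := by
      have hpos : (0 : ℝ) < 2 * (C0 + 1) := by positivity
      rw [← mul_div_assoc, div_lt_iff₀ hpos]
      nlinarith
    linarith
  · rcases le_or_gt t (1 / 4) with hle | hgt
    · have h1 := h t hpos hle
      have hsq : Real.sqrt s = t * Real.sqrt t := by
        rw [← ht3, show t ^ 3 = t ^ 2 * t by ring, Real.sqrt_mul (by positivity),
          Real.sqrt_sq ht0]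
      have hst : 0 < Real.sqrt t := Real.sqrt_pos.mpr hpos
      rw [hsq, mul_div_assoc, div_self hst.ne', mul_one] at h1
      have : 0 ≤ 16 * R ^ 2 * t := by positivity
      nlinarith
    · have h1 : 4 * R ^ 2 ≤ 16 * R ^ 2 * t := by
        have : 0 ≤ R ^ 2 := by positivity
        nlinarith
      have h2 : 0 ≤ 2 * C0 * t := by positivity
      nlinarith

theorem atomic_thm (hK : Body K) (R : ℝ) (hR : 0 ≤ R) : ∃ C : ℝ, 0 ≤ C ∧
    ∀ {ι κ : Type} [Fintype ι] [Nonempty ι] [Fintype κ] [Nonempty κ]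
      (y : ι → E d) (z : κ → E d) (_ : Function.Injective y) (_ : Function.Injective z)
      (_ : ∀ i, ‖y i‖ ≤ R) (_ : ∀ j, ‖z j‖ ≤ R)
      (c : ι → ℝ) (c' : κ → ℝ) (P : ι → κ → ℝ) (_ : ∀ i j, 0 ≤ P i j)
      (_ : ∀ i, ∑ j, P i j = (uniformProbOn K (cell y c i)).toReal)
      (_ : ∀ j, ∑ i, P i j = (uniformProbOn K (cell z c' j)).toReal)
      (_ : ∀ i, 0 < uniformProbOn K (cell y c i)) (_ : ∀ j, 0 < uniformProbOn K (cell z c' j)),
      ∫ x, ‖lagMap y c x - lagMap z c' x‖ ^ 2 ∂(uniformProbOn K)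
        ≤ C * (∑ i, ∑ j, P i j * ‖y i - z j‖ ^ 2) ^ (1 / 3 : ℝ) := by
  obtain ⟨C0, hC0, hmain⟩ := atomic_r hK R hR
  refine ⟨2 * C0 + 16 * R ^ 2, by positivity, ?_⟩
  intro ι κ _ _ _ _ y z hy hz hyR hzR c c' P hP hrow hcol hposy hposz
  have hprob : IsProbabilityMeasure (uniformProbOn K) := hK.isProb
  apply atomicThm_optimise hC0
  · exact Finset.sum_nonneg fun i _ => Finset.sum_nonneg fun j _ =>
      mul_nonneg (hP i j) (by positivity)
  · have hb : ∀ x, ‖lagMap y c x - lagMap z c' x‖ ^ 2 ≤ 4 * R ^ 2 := by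
      intro x
      have h1 : ‖lagMap y c x - lagMap z c' x‖ ≤ R + R :=
        (norm_sub_le _ _).trans (add_le_add (norm_lagMap_le y c hyR x) (norm_lagMap_le z c' hzR x))
      have h0 : 0 ≤ ‖lagMap y c x - lagMap z c' x‖ := norm_nonneg _
      nlinarith
    calc ∫ x, ‖lagMap y c x - lagMap z c' x‖ ^ 2 ∂(uniformProbOn K)
        ≤ ∫ _x, 4 * R ^ 2 ∂(uniformProbOn K) := by
          apply integral_mono_of_nonneg
          · exact Filter.Eventually.of_forall fun x => by positivity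
          · exact integrable_const _
          · exact Filter.Eventually.of_forall hb
      _ = 4 * R ^ 2 := by simp
  · intro r hr hr4
    exact hmain y z hy hz hyR hzR c c' P hP hrow hcol hposy hposz r hr hr4

end Crest.Agent.OTStab
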