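import Crest.Agent.OTStab.Lag
import Crest.Agent.OTStab.Unif

/-!
# Task C: the Laguerre cells of distinct points form an a.e. partition
`σ` is any measure with `σ ≪ volume`.  Key fact: for `y k ≠ y l` the set
`{x | ⟪x, y k⟫ - c k = ⟪x, y l⟫ - c l}` is an affine hyperplane, hence Lebesgue-null
(`MeasureTheory.Measure.addHaar_affineSubspace`).
-/

set_option autoImplicit false

open MeasureTheory Set
open scoped ENNReal NNReal RealInnerProductSpace

namespace Crest.Agent.OTStab

variable {d : ℕ} {ι : Type} [Fintype ι] [Nonempty ι]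

theorem volume_hyperplane {v : E d} (hv : v ≠ 0) (b : ℝ) :
    (volume : Measure (E d)) {x | ⟪x, v⟫ = b} = 0 := by
  have hvv : ⟪v, v⟫ ≠ 0 := by
    intro h
    exact hv (inner_self_eq_zero.mp h)
  set x0 : E d := (b / ⟪v, v⟫) • v with hx0
  have h0 : ⟪x0, v⟫ = b := by
    rw [hx0, real_inner_smul_left]; field_simp
  let S : AffineSubspace ℝ (E d) :=
    AffineSubspace.mk' x0 (LinearMap.ker (innerSL ℝ v).toLinearMap)
  have hmem : ∀ x, x ∈ S ↔ ⟪x, v⟫ = b := by
    intro x
    simp only [S, AffineSubspace.mem_mk', LinearMap.mem_ker, vsub_eq_sub,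
      ContinuousLinearMap.coe_coe, innerSL_apply_apply, inner_sub_right]
    rw [real_inner_comm x v, real_inner_comm x0 v, h0]
    constructor <;> intro h <;> linarith
  have hS : (S : Set (E d)) = {x | ⟪x, v⟫ = b} := by
    ext x
    exact hmem x
  rw [← hS]
  apply Measure.addHaar_affineSubspace
  intro htop
  have h1 : x0 + v ∈ S := by rw [htop]; trivial
  rw [hmem, inner_add_left, h0] at h1
  exact hvv (by linarith)

theorem cell_inter_null {σ : Measure (E d)} (hσ : σ ≪ (volume : Measure (E d)))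
    {y : ι → E d} (hy : Function.Injective y) (c : ι → ℝ) {k l : ι} (hkl : k ≠ l) :
    σ (cell y c k ∩ cell y c l) = 0 := by
  apply hσ
  have hv : y k - y l ≠ 0 := sub_ne_zero.mpr (fun h => hkl (hy h))
  refine measure_mono_null ?_ (volume_hyperplane hv (c k - c l))
  rintro x ⟨h1, h2⟩
  have a1 := h1 l
  have a2 := h2 k
  simp only [mem_ofPred_eq, inner_sub_right]
  linarith

/-- a.e. point lies in exactly one cell, the one of `lagIdx`. -/
theorem ae_mem_cell_iff {σ : Measure (E d)} (hσ : σ ≪ (volume : Measure (E d)))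
    {y : ι → E d} (hy : Function.Injective y) (c : ι → ℝ) :
    ∀ᵐ x ∂σ, ∀ k, x ∈ cell y c k ↔ lagIdx y c x = k := by
  have h : ∀ᵐ x ∂σ, ∀ k l : ι, k ≠ l → x ∉ cell y c k ∩ cell y c l := by
    rw [ae_all_iff]; intro k
    rw [ae_all_iff]; intro l
    by_cases hkl : k = l
    · exact Filter.Eventually.of_forall fun x h => absurd hkl h
    · have := cell_inter_null hσ hy c hkl
      have h2 : ∀ᵐ x ∂σ, x ∉ cell y c k ∩ cell y c l := measure_eq_zero_iff_ae_notMem.mp this
      filter_upwards [h2] with x hx _ using hx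
  filter_upwards [h] with x hx k
  constructor
  · intro hk
    by_contra hne
    exact hx _ _ hne ⟨lagIdx_mem y c x, hk⟩
  · rintro rfl
    exact lagIdx_mem y c x

theorem cell_ae_eq_preimage {σ : Measure (E d)} (hσ : σ ≪ (volume : Measure (E d)))
    {y : ι → E d} (hy : Function.Injective y) (c : ι → ℝ) (k : ι) :
    (cell y c k : Set (E d)) =ᵐ[σ] (lagIdx y c ⁻¹' {k} : Set (E d)) := by
  filter_upwards [ae_mem_cell_iff hσ hy c] with x hx
  exact propext (hx k)

theorem measure_cell_eq_preimage {σ : Measure (E d)} (hσ : σ ≪ (volume : Measure (E d)))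
    {y : ι → E d} (hy : Function.Injective y) (c : ι → ℝ) (k : ι) :
    σ (cell y c k) = σ (lagIdx y c ⁻¹' {k}) :=
  measure_congr (cell_ae_eq_preimage hσ hy c k)

theorem sum_measure_cell {σ : Measure (E d)} (hσ : σ ≪ (volume : Measure (E d)))
    {y : ι → E d} (hy : Function.Injective y) (c : ι → ℝ) :
    ∑ k, σ (cell y c k) = σ univ := by
  simp_rw [measure_cell_eq_preimage hσ hy c]
  rw [sum_measure_preimage_singleton Finset.univ
    (fun k _ => measurableSet_lagIdx_preimage y c {k})]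
  simp

theorem sum_measure_inter_cell {σ : Measure (E d)} (hσ : σ ≪ (volume : Measure (E d)))
    {y : ι → E d} (hy : Function.Injective y) (c : ι → ℝ) (A : Set (E d))
    (hA : MeasurableSet A) :
    ∑ k, σ (A ∩ cell y c k) = σ A := by
  have h := sum_measure_cell (σ := σ.restrict A) (Measure.restrict_le_self.absolutelyContinuous.trans hσ)
    hy c
  simp_rw [Measure.restrict_apply (measurableSet_cell y c _), Measure.restrict_apply_univ] at h
  simp_rw [inter_comm A]
  exact h

theorem cellAE_pairwise_disjoint_preimage (y : ι → E d) (c : ι → ℝ) :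
    Pairwise (Function.onFun Disjoint fun k => (lagIdx y c ⁻¹' {k} : Set (E d))) := by
  intro k l hkl
  refine Set.disjoint_left.mpr ?_
  intro x hx hx'
  simp only [mem_preimage, mem_singleton_iff] at hx hx'
  exact hkl (hx.symm.trans hx')

theorem cellAE_iUnion_preimage (y : ι → E d) (c : ι → ℝ) :
    (⋃ k, (lagIdx y c ⁻¹' {k} : Set (E d))) = univ := by
  ext x; simp

theorem integral_eq_sum_cell {F : Type*} [NormedAddCommGroup F] [NormedSpace ℝ F]
    {σ : Measure (E d)} (hσ : σ ≪ (volume : Measure (E d)))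
    {y : ι → E d} (hy : Function.Injective y) (c : ι → ℝ) {f : E d → F} (hf : Integrable f σ) :
    ∫ x, f x ∂σ = ∑ k, ∫ x in cell y c k, f x ∂σ := by
  simp_rw [setIntegral_congr_set (cell_ae_eq_preimage hσ hy c _)]
  rw [← integral_iUnion_fintype (fun k => measurableSet_lagIdx_preimage y c {k})
    (cellAE_pairwise_disjoint_preimage y c) (fun k => hf.integrableOn), cellAE_iUnion_preimage,
    setIntegral_univ]

theorem lintegral_eq_sum_cell
    {σ : Measure (E d)} (hσ : σ ≪ (volume : Measure (E d)))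
    {y : ι → E d} (hy : Function.Injective y) (c : ι → ℝ) (f : E d → ℝ≥0∞) :
    ∫⁻ x, f x ∂σ = ∑ k, ∫⁻ x in cell y c k, f x ∂σ := by
  simp_rw [setLIntegral_congr (cell_ae_eq_preimage hσ hy c _)]
  have h := lintegral_iUnion (μ := σ) (fun k => measurableSet_lagIdx_preimage y c {k})
    (cellAE_pairwise_disjoint_preimage y c) f
  rw [cellAE_iUnion_preimage, setLIntegral_univ, tsum_fintype] at h
  exact h

/-- on the cell `k`, `lagMap = y k` a.e. -/
theorem ae_restrict_lagMap_eq {σ : Measure (E d)} (hσ : σ ≪ (volume : Measure (E d)))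
    {y : ι → E d} (hy : Function.Injective y) (c : ι → ℝ) (k : ι) :
    ∀ᵐ x ∂(σ.restrict (cell y c k)), lagMap y c x = y k := by
  rw [ae_restrict_iff' (measurableSet_cell y c k)]
  filter_upwards [ae_mem_cell_iff hσ hy c] with x hx hk
  rw [lagMap, (hx k).mp hk]

/-- on the cell `k`, `lagIdx = k` a.e. -/
theorem ae_restrict_lagIdx_eq {σ : Measure (E d)} (hσ : σ ≪ (volume : Measure (E d)))
    {y : ι → E d} (hy : Function.Injective y) (c : ι → ℝ) (k : ι) :
    ∀ᵐ x ∂(σ.restrict (cell y c k)), lagIdx y c x = k := by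
  rw [ae_restrict_iff' (measurableSet_cell y c k)]
  filter_upwards [ae_mem_cell_iff hσ hy c] with x hx hk
  exact (hx k).mp hk

/-- the push-forward of `σ` under the Laguerre map. -/
theorem map_lagMap {σ : Measure (E d)} (hσ : σ ≪ (volume : Measure (E d)))
    {y : ι → E d} (hy : Function.Injective y) (c : ι → ℝ) :
    σ.map (lagMap y c) = ∑ k, σ (cell y c k) • Measure.dirac (y k) := by
  ext s hs
  rw [Measure.map_apply (measurable_lagMap y c) hs,
    ← sum_measure_inter_cell hσ hy c _ (measurable_lagMap y c hs), Measure.finsetSum_apply]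
  refine Finset.sum_congr rfl fun k _ => ?_
  rw [Measure.smul_apply, Measure.dirac_apply' _ hs, smul_eq_mul]
  by_cases hk : y k ∈ s
  · rw [indicator_of_mem hk, Pi.one_apply, mul_one]
    apply measure_congr
    filter_upwards [ae_mem_cell_iff hσ hy c] with x hx
    apply propext
    constructor
    · exact fun h => h.2
    · intro h
      refine ⟨?_, h⟩
      show lagMap y c x ∈ s
      rw [lagMap, (hx k).mp h]; exact hk
  · rw [indicator_of_notMem hk, mul_zero]
    rw [measure_eq_zero_iff_ae_notMem]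
    filter_upwards [ae_mem_cell_iff hσ hy c] with x hx h
    apply hk
    have h1 : lagMap y c x ∈ s := h.1
    rwa [lagMap, (hx k).mp h.2] at h1

theorem integrable_id {σ : Measure (E d)} [IsFiniteMeasure σ] {RK : ℝ}
    (hσK : ∀ᵐ x ∂σ, ‖x‖ ≤ RK) : Integrable (fun x : E d => x) σ :=
  integrable_of_ae_bound measurable_id.aestronglyMeasurable RK hσK

theorem integrable_inner_lagMap {σ : Measure (E d)} [IsFiniteMeasure σ] {RK : ℝ}
    (hσK : ∀ᵐ x ∂σ, ‖x‖ ≤ RK) (y : ι → E d) (c : ι → ℝ) :
    Integrable (fun x => ⟪x, lagMap y c x⟫) σ := by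
  have hm : Measurable (fun x : E d => ⟪x, lagMap y c x⟫) :=
    measurable_id.inner (measurable_lagMap y c)
  refine integrable_of_ae_bound hm.aestronglyMeasurable (RK * ∑ k, ‖y k‖) ?_
  filter_upwards [hσK] with x hx
  have h1 : ‖lagMap y c x‖ ≤ ∑ k, ‖y k‖ :=
    norm_lagMap_le y c (fun k => Finset.single_le_sum (f := fun k => ‖y k‖)
      (fun i _ => norm_nonneg _) (Finset.mem_univ k)) x
  calc ‖⟪x, lagMap y c x⟫‖ ≤ ‖x‖ * ‖lagMap y c x‖ := norm_inner_le_norm _ _
    _ ≤ RK * ∑ k, ‖y k‖ := by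
        apply mul_le_mul hx h1 (norm_nonneg _) ((norm_nonneg _).trans hx)

/-- the correlation of the Laguerre map. -/
theorem integral_inner_lagMap {σ : Measure (E d)} [IsFiniteMeasure σ]
    (hσ : σ ≪ (volume : Measure (E d))) {RK : ℝ} (hσK : ∀ᵐ x ∂σ, ‖x‖ ≤ RK)
    {y : ι → E d} (hy : Function.Injective y) (c : ι → ℝ) :
    ∫ x, ⟪x, lagMap y c x⟫ ∂σ = ∑ k, ⟪y k, ∫ x in cell y c k, x ∂σ⟫ := by
  rw [integral_eq_sum_cell hσ hy c (integrable_inner_lagMap hσK y c)]
  refine Finset.sum_congr rfl fun k _ => ?_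
  rw [← integral_inner (integrable_id hσK).integrableOn]
  apply integral_congr_ae
  filter_upwards [ae_restrict_lagMap_eq hσ hy c k] with x hx
  rw [hx, real_inner_comm]

theorem integrable_lag {σ : Measure (E d)} [IsFiniteMeasure σ] {RK : ℝ}
    (hσK : ∀ᵐ x ∂σ, ‖x‖ ≤ RK) (y : ι → E d) (c : ι → ℝ) : Integrable (lag y c) σ := by
  refine integrable_of_ae_bound (measurable_lag y c).aestronglyMeasurable
    (RK * (∑ k, ‖y k‖) + ∑ k, |c k|) ?_
  filter_upwards [hσK] with x hx
  have h1 := abs_lag_le y c (R := ∑ k, ‖y k‖) (M := ∑ k, |c k|)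
    (fun k => Finset.single_le_sum (f := fun k => ‖y k‖)
      (fun i _ => norm_nonneg _) (Finset.mem_univ k))
    (fun k => Finset.single_le_sum (f := fun k => |c k|)
      (fun i _ => abs_nonneg _) (Finset.mem_univ k)) x
  rw [Real.norm_eq_abs]
  refine h1.trans ?_
  have h2 : 0 ≤ ∑ k, ‖y k‖ := Finset.sum_nonneg fun i _ => norm_nonneg _
  nlinarith [mul_le_mul_of_nonneg_right hx h2]

/-- `∫ lag dσ + ∑ σ(cell k) c k = ∫ ⟪x, T x⟫ dσ`. -/
theorem integral_lag_add {σ : Measure (E d)} [IsFiniteMeasure σ]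
    (hσ : σ ≪ (volume : Measure (E d))) {RK : ℝ} (hσK : ∀ᵐ x ∂σ, ‖x‖ ≤ RK)
    {y : ι → E d} (hy : Function.Injective y) (c : ι → ℝ) :
    ∫ x, lag y c x ∂σ + ∑ k, (σ (cell y c k)).toReal * c k = ∫ x, ⟪x, lagMap y c x⟫ ∂σ := by
  have hc : Integrable (fun x => c (lagIdx y c x)) σ := by
    refine integrable_of_ae_bound (measurable_comp_lagIdx y c c).aestronglyMeasurable
      (∑ k, |c k|) (Filter.Eventually.of_forall fun x => ?_)
    rw [Real.norm_eq_abs]
    exact Finset.single_le_sum (f := fun k => |c k|) (fun i _ => abs_nonneg _) (Finset.mem_univ _)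
  have h1 : ∫ x, c (lagIdx y c x) ∂σ = ∑ k, (σ (cell y c k)).toReal * c k := by
    rw [integral_eq_sum_cell hσ hy c hc]
    refine Finset.sum_congr rfl fun k _ => ?_
    have : ∫ x in cell y c k, c (lagIdx y c x) ∂σ = ∫ _x in cell y c k, c k ∂σ := by
      apply integral_congr_ae
      filter_upwards [ae_restrict_lagIdx_eq hσ hy c k] with x hx
      rw [hx]
    rw [this, setIntegral_const, smul_eq_mul, Measure.real]
  rw [← h1, ← integral_add (integrable_lag hσK y c) hc]
  apply integral_congr_ae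
  refine Filter.Eventually.of_forall fun x => ?_
  simp only
  rw [lag_eq_lagMap]; ring

theorem norm_setIntegral_id_le {σ : Measure (E d)} [IsFiniteMeasure σ] {RK : ℝ}
    (hσK : ∀ᵐ x ∂σ, ‖x‖ ≤ RK) (A : Set (E d)) :
    ‖∫ x in A, x ∂σ‖ ≤ RK * (σ A).toReal :=
  norm_setIntegral_le_of_norm_le_const_ae (measure_lt_top σ A) (ae_restrict_of_ae hσK)

end Crest.Agent.OTStab
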