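import Crest.Agent.OTStab.Shift

/-!
# Task K-b: the second-order error term in the core inequality (helper26)
-/

set_option autoImplicit false

open MeasureTheory Set
open scoped ENNReal NNReal RealInnerProductSpace
open Crest.AnalysisR.OT

namespace Crest.Agent.OTStab

variable {d : ℕ} {K : Set (E d)}

theorem core_err_pointwise {ι : Type} [Fintype ι] [Nonempty ι] (y : ι → E d) (c : ι → ℝ)
    (e : E d) (x : E d) (t B : ℝ) (ht : |t| ≤ B) :
    lag y c (x + t • e) - lag y c x ≤ t * ⟪lagMap y c x, e⟫
      + B * (⟪lagMap y c (x + B • e) - lagMap y c x, e⟫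
        + ⟪lagMap y c x - lagMap y c (x - B • e), e⟫) := by
  have h1 := lag_diff_upper y c x e t
  obtain ⟨ht1, ht2⟩ := abs_le.1 ht
  have hB : 0 ≤ B := (abs_nonneg t).trans ht
  -- monotonicity facts
  have hNU : ⟪lagMap y c (x + t • e), e⟫ ≤ ⟪lagMap y c (x + B • e), e⟫ := by
    have := lagMap_mono_dir y c (x + t • e) e (t := B - t) (by linarith)
    have e1 : x + t • e + (B - t) • e = x + B • e := by
      rw [add_assoc, ← add_smul]; congr 2; ring
    rwa [e1] at this
  have hVN : ⟪lagMap y c (x - B • e), e⟫ ≤ ⟪lagMap y c (x + t • e), e⟫ := by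
    have := lagMap_mono_dir y c (x - B • e) e (t := B + t) (by linarith)
    have e1 : x - B • e + (B + t) • e = x + t • e := by
      rw [add_smul]; abel
    rwa [e1] at this
  have hMU : ⟪lagMap y c x, e⟫ ≤ ⟪lagMap y c (x + B • e), e⟫ := lagMap_mono_dir y c x e hB
  have hVM : ⟪lagMap y c (x - B • e), e⟫ ≤ ⟪lagMap y c x, e⟫ := by
    have := lagMap_mono_dir y c (x - B • e) e hB
    rwa [sub_add_cancel] at this
  rw [inner_sub_left, inner_sub_left]
  set U := ⟪lagMap y c (x + B • e), e⟫
  set V := ⟪lagMap y c (x - B • e), e⟫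
  set M := ⟪lagMap y c x, e⟫
  set N := ⟪lagMap y c (x + t • e), e⟫
  rcases le_total 0 t with h0 | h0
  · have hMN : M ≤ N := lagMap_mono_dir y c x e h0
    nlinarith [mul_le_mul ht2 (show N - M ≤ U - V by linarith) (by linarith) hB]
  · have hNM : N ≤ M := by
      have := lagMap_mono_dir y c (x + t • e) e (t := -t) (by linarith)
      have e1 : x + t • e + (-t) • e = x := by
        rw [add_assoc, ← add_smul]; simp
      rwa [e1] at this
    nlinarith [mul_le_mul (show -t ≤ B by linarith) (show M - N ≤ U - V by linarith)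
      (by linarith) hB]

theorem core_err (hK : Body K) : ∃ C : ℝ, 0 ≤ C ∧
    ∀ {ι : Type} [Fintype ι] [Nonempty ι] (y : ι → E d) (c : ι → ℝ) (R : ℝ) (_ : ∀ k, ‖y k‖ ≤ R)
      (e : E d) (_ : ‖e‖ = 1) (a : E d → ℝ) (_ : Measurable a) (A : ℝ) (_ : ∀ x, |a x| ≤ A)
      (s : ℝ) (_ : 0 ≤ s),
      ∫ x, (lag y c (x + (s * a x) • e) - lag y c x) ∂(uniformProbOn K)
        ≤ s * ∫ x, a x * ⟪lagMap y c x, e⟫ ∂(uniformProbOn K) + C * R * A ^ 2 * s ^ 2 := by
  obtain ⟨C, hC0, hC⟩ := shift_lagMap_le hK
  refine ⟨2 * C, by positivity, ?_⟩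
  intro ι _ _ y c R hR e he a ham A hA s hs
  have := hK.isProb
  have hA0 : 0 ≤ A := (abs_nonneg _).trans (hA 0)
  have hR0 : 0 ≤ R := (norm_nonneg _).trans (hR (Classical.arbitrary ι))
  set B := s * A with hB
  have hB0 : 0 ≤ B := mul_nonneg hs hA0
  obtain ⟨h1, h2⟩ := hC y c R hR e he B hB0
  have hin : ∀ x, |⟪lagMap y c x, e⟫| ≤ R := fun x => by
    calc |⟪lagMap y c x, e⟫| ≤ ‖lagMap y c x‖ * ‖e‖ := abs_real_inner_le_norm _ _
      _ ≤ R := by rw [he, mul_one]; exact norm_lagMap_le y c hR x
  have hTm : Measurable fun x => ⟪lagMap y c x, e⟫ := (measurable_lagMap y c).inner_const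
  -- integrability
  have i1 : Integrable (fun x => a x * ⟪lagMap y c x, e⟫) (uniformProbOn K) := by
    refine integrable_of_ae_bound (ham.mul hTm).aestronglyMeasurable (A * R)
      (Filter.Eventually.of_forall fun x => ?_)
    rw [Real.norm_eq_abs, abs_mul]
    exact mul_le_mul (hA x) (hin x) (abs_nonneg _) hA0
  have i2 : Integrable (fun x => ⟪lagMap y c (x + B • e) - lagMap y c x, e⟫)
      (uniformProbOn K) := by
    refine integrable_of_ae_bound ?_ (2 * R) (Filter.Eventually.of_forall fun x => ?_)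
    · exact ((((measurable_lagMap y c).comp (measurable_add_const _)).sub
        (measurable_lagMap y c)).inner_const).aestronglyMeasurable
    · rw [Real.norm_eq_abs, inner_sub_left]
      have := hin (x + B • e); have := hin x
      rw [abs_le] at *
      constructor <;> linarith
  have i3 : Integrable (fun x => ⟪lagMap y c x - lagMap y c (x - B • e), e⟫)
      (uniformProbOn K) := by
    refine integrable_of_ae_bound ?_ (2 * R) (Filter.Eventually.of_forall fun x => ?_)
    · exact (((measurable_lagMap y c).sub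
        ((measurable_lagMap y c).comp (measurable_sub_const _))).inner_const).aestronglyMeasurable
    · rw [Real.norm_eq_abs, inner_sub_left]
      have := hin (x - B • e); have := hin x
      rw [abs_le] at *
      constructor <;> linarith
  have hpt : ∀ x, lag y c (x + (s * a x) • e) - lag y c x ≤ s * (a x * ⟪lagMap y c x, e⟫)
      + B * (⟪lagMap y c (x + B • e) - lagMap y c x, e⟫
        + ⟪lagMap y c x - lagMap y c (x - B • e), e⟫) := fun x => by
    have := core_err_pointwise y c e x (s * a x) B (by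
      rw [abs_mul, abs_of_nonneg hs]; exact mul_le_mul_of_nonneg_left (hA x) hs)
    linarith
  have i4 : Integrable (fun x => s * (a x * ⟪lagMap y c x, e⟫)
      + B * (⟪lagMap y c (x + B • e) - lagMap y c x, e⟫
        + ⟪lagMap y c x - lagMap y c (x - B • e), e⟫)) (uniformProbOn K) :=
    (i1.const_mul s).add ((i2.add i3).const_mul B)
  have i0 : Integrable (fun x => lag y c (x + (s * a x) • e) - lag y c x) (uniformProbOn K) := by
    refine integrable_of_ae_bound ?_ (B * R) (Filter.Eventually.of_forall fun x => ?_)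
    · have m1 : Measurable fun x => lag y c (x + (s * a x) • e) :=
        (measurable_lag y c).comp (measurable_id.add ((ham.const_mul s).smul_const e))
      exact (m1.sub (measurable_lag y c)).aestronglyMeasurable
    · have l1 := lag_diff_lower y c x e (s * a x)
      have l2 := lag_diff_upper y c x e (s * a x)
      have ht : |s * a x| ≤ B := by
        rw [abs_mul, abs_of_nonneg hs]; exact mul_le_mul_of_nonneg_left (hA x) hs
      have b1 : |s * a x * ⟪lagMap y c x, e⟫| ≤ B * R := by
        rw [abs_mul]; exact mul_le_mul ht (hin x) (abs_nonneg _) hB0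
      have b2 : |s * a x * ⟪lagMap y c (x + (s * a x) • e), e⟫| ≤ B * R := by
        rw [abs_mul]; exact mul_le_mul ht (hin _) (abs_nonneg _) hB0
      rw [Real.norm_eq_abs]
      rw [abs_le] at *
      constructor <;> linarith [b1.1, b1.2, b2.1, b2.2]
  calc ∫ x, (lag y c (x + (s * a x) • e) - lag y c x) ∂(uniformProbOn K)
      ≤ ∫ x, (s * (a x * ⟪lagMap y c x, e⟫)
      + B * (⟪lagMap y c (x + B • e) - lagMap y c x, e⟫
        + ⟪lagMap y c x - lagMap y c (x - B • e), e⟫)) ∂(uniformProbOn K) :=
        integral_mono i0 i4 hpt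
    _ = s * ∫ x, a x * ⟪lagMap y c x, e⟫ ∂(uniformProbOn K)
        + B * (∫ x, ⟪lagMap y c (x + B • e) - lagMap y c x, e⟫ ∂(uniformProbOn K)
          + ∫ x, ⟪lagMap y c x - lagMap y c (x - B • e), e⟫ ∂(uniformProbOn K)) := by
        have e1 := integral_add (i1.const_mul s) ((i2.add i3).const_mul B)
        have e2 := integral_add i2 i3
        simp only [Pi.add_apply] at e1 e2
        rw [e1, integral_const_mul, integral_const_mul, e2]
    _ ≤ s * ∫ x, a x * ⟪lagMap y c x, e⟫ ∂(uniformProbOn K) + B * (C * R * B + C * R * B) := by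
        gcongr
    _ = s * ∫ x, a x * ⟪lagMap y c x, e⟫ ∂(uniformProbOn K) + 2 * C * R * A ^ 2 * s ^ 2 := by
        rw [hB]; ring

end Crest.Agent.OTStab
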