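import Mathlib

/-!
# Task K-a: the index set of the pairs charged by a coupling matrix
`Λ = {x : ι × κ // 0 < P x.1 x.2}`, `p = fst`, `q = snd`, `m = P`.  Sums over `Λ` are sums over `ι × κ` of terms that vanish where `P = 0`
(`Finset.sum_subtype`, `Finset.sum_filter`, `Fintype.sum_prod_type`).  Surjectivity of `p`: a positive row sum has a positive term.
-/

set_option autoImplicit false

namespace Crest.Agent.OTStab

open Classical in
private theorem corePairs_sum {ι κ : Type} [Fintype ι] [Fintype κ]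
    (P : ι → κ → ℝ) (hP : ∀ i j, 0 ≤ P i j) (G : ι × κ → ℝ) :
    ∑ k : {x : ι × κ // 0 < P x.1 x.2}, P k.1.1 k.1.2 * G k.1 = ∑ i, ∑ j, P i j * G (i, j) := by
  rw [← Fintype.sum_prod_type (f := fun x : ι × κ => P x.1 x.2 * G x)]
  have h1 : ∑ x ∈ Finset.univ.filter (fun x : ι × κ => 0 < P x.1 x.2), P x.1 x.2 * G x
      = ∑ x, P x.1 x.2 * G x := by
    apply Finset.sum_filter_of_ne
    intro x _ hx
    have h0 : P x.1 x.2 ≠ 0 := fun h => hx (by rw [h, zero_mul])
    exact lt_of_le_of_ne (hP _ _) (Ne.symm h0)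
  rw [← h1]
  exact (Finset.sum_subtype (Finset.univ.filter (fun x : ι × κ => 0 < P x.1 x.2))
    (fun x => by simp) (fun x => P x.1 x.2 * G x)).symm

open Classical in
theorem exists_pairs {ι κ : Type} [Fintype ι] [Fintype κ] [DecidableEq ι] [DecidableEq κ]
    (P : ι → κ → ℝ) (hP : ∀ i j, 0 ≤ P i j) (hrow : ∀ i, 0 < ∑ j, P i j)
    (hcol : ∀ j, 0 < ∑ i, P i j) (htot : ∑ i, ∑ j, P i j = 1) :
    ∃ (Λ : Type) (_ : Fintype Λ) (_ : Nonempty Λ) (p : Λ → ι) (q : Λ → κ) (m : Λ → ℝ),
      Function.Surjective p ∧ Function.Surjective q ∧ Function.Injective (fun k => (p k, q k)) ∧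
      (∀ k, 0 < m k) ∧ ∑ k, m k = 1 ∧
      (∀ i, ∑ k, (if p k = i then m k else 0) = ∑ j, P i j) ∧
      (∀ j, ∑ k, (if q k = j then m k else 0) = ∑ i, P i j) ∧
      (∀ F : ι → κ → ℝ, ∑ k, m k * F (p k) (q k) = ∑ i, ∑ j, P i j * F i j) := by
  have hsurjp : ∀ i, ∃ j, 0 < P i j := by
    intro i
    by_contra hcon
    push Not at hcon
    have : ∑ j, P i j ≤ 0 := Finset.sum_nonpos (fun j _ => hcon j)
    exact absurd (hrow i) (not_lt.mpr this)
  have hsurjq : ∀ j, ∃ i, 0 < P i j := by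
    intro j
    by_contra hcon
    push Not at hcon
    have : ∑ i, P i j ≤ 0 := Finset.sum_nonpos (fun i _ => hcon i)
    exact absurd (hcol j) (not_lt.mpr this)
  have hne : Nonempty ι := by
    by_contra hcon
    rw [not_nonempty_iff] at hcon
    simp at htot
  obtain ⟨i0⟩ := hne
  obtain ⟨j0, hj0⟩ := hsurjp i0
  refine ⟨{x : ι × κ // 0 < P x.1 x.2}, inferInstance, ⟨⟨(i0, j0), hj0⟩⟩,
    fun k => k.1.1, fun k => k.1.2, fun k => P k.1.1 k.1.2, ?_, ?_, ?_, ?_, ?_, ?_, ?_, ?_⟩
  · intro i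
    obtain ⟨j, hj⟩ := hsurjp i
    exact ⟨⟨(i, j), hj⟩, rfl⟩
  · intro j
    obtain ⟨i, hi⟩ := hsurjq j
    exact ⟨⟨(i, j), hi⟩, rfl⟩
  · intro a b hab
    apply Subtype.ext
    exact hab
  · intro k
    exact k.2
  · have := corePairs_sum P hP (fun _ => 1)
    simp only [mul_one] at this
    rw [this, htot]
  · intro i
    have := corePairs_sum P hP (fun x => if x.1 = i then 1 else 0)
    simp only [mul_ite, mul_one, mul_zero] at this
    rw [this]
    rw [Finset.sum_eq_single i]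
    · simp
    · intro b _ hb
      simp [hb]
    · intro h
      exact absurd (Finset.mem_univ i) h
  · intro j
    have := corePairs_sum P hP (fun x => if x.2 = j then 1 else 0)
    simp only [mul_ite, mul_one, mul_zero] at this
    rw [this]
    apply Finset.sum_congr rfl
    intro i _
    simp
  · intro F
    exact corePairs_sum P hP (fun x => F x.1 x.2)

end Crest.Agent.OTStab
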