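import Crest.Agent.OTStab.Unif

/-!
# Task S: push-forward of the uniform measure under a small Lipschitz shear

`f x = x + (s a x) e`, `‖e‖ = 1`, `a` `L`-Lipschitz on the whole space, `a = 0` outside `K`, `|s| L ≤ 1/4`.
Then `f_# ρ = (1+g) ρ` with `|g| ≤ 1/2` and `∫ g² dρ ≤ (4/3) s² ∫ (∂_e a)² dρ`.

Proof.
1. `f` is injective (`f x = f y ⇒ ‖x-y‖ ≤ |s| L ‖x-y‖`), surjective (for given `y` the map `x ↦ y - (s a x) e` is a
   contraction; or `ApproximatesLinearOn … univ` + `ApproximatesLinearOn.toHomeomorph`), with continuous inverse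
   (`‖f x - f y‖ ≥ (3/4)‖x-y‖`).  `f = id` on `Kᶜ`; hence `f '' K = K`, `f ⁻¹' K = K`.
2. `D` = set of differentiability points of `a`: measurable (`measurableSet_of_differentiableAt`), conull (Rademacher,
   `LipschitzWith.ae_differentiableAt`).  On `D`: `HasFDerivAt f (id + s • (fderiv a x).smulRight e) x`, with determinant
   `1 + u x`, `u x = s * fderiv ℝ a x e` (matrix determinant lemma; or: the map is `id + rank one`;
   e.g. `LinearMap.det` via `Matrix.det_one_add_replicateCol_mul_replicateRow`, or compute in an orthonormal basis starting with `e`).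
   `|u x| ≤ 1/4` EVERYWHERE (`norm_fderiv_le_of_lipschitz`; `fderiv = 0` off `D`).
3. `f '' N` is null for null `N` (`f` Lipschitz): `MeasureTheory.Measure.addHaar_image_eq_zero_of_…` needs differentiability,
   so use Hausdorff measure (`LipschitzWith.hausdorffMeasure_image_le`, `isAddHaarMeasure_hausdorffMeasure`) or a covering argument.
4. `g y = 1 / (1 + u (f⁻¹ y)) - 1 ∈ [-1/5, 1/3]`, measurable (`measurable_fderiv_apply_const`, `f⁻¹` continuous).
   For measurable `A`: `vol (K ∩ f⁻¹ A) = vol (K ∩ D ∩ f⁻¹ A) = ∫_{f '' (K ∩ D ∩ f⁻¹ A)} (1+g)`  by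
   `lintegral_image_eq_lintegral_abs_det_fderiv_mul` applied to `y ↦ ofReal (1 + g y)`, and `f '' (K ∩ D ∩ f⁻¹ A) = (A ∩ K) \ f '' (K \ D)`.
5. `∫ g² dρ = ∫ (g²/(1+g)) d(f_# ρ) = ∫ (g²/(1+g)) (f x) dρ = ∫ u²/(1+u) dρ ≤ (4/3) ∫ u² dρ`, as `g (f x) = -u x/(1+u x)`.
-/

set_option autoImplicit false

open MeasureTheory Set
open scoped ENNReal NNReal RealInnerProductSpace
open Crest.AnalysisR.OT

namespace Crest.Agent.OTStab

variable {d : ℕ} {K : Set (E d)}

/-- determinant of `id + rank one`. -/
theorem det_id_add_smulRight (φ : E d →L[ℝ] ℝ) (e : E d) :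
    (ContinuousLinearMap.id ℝ (E d) + φ.smulRight e).det = 1 + φ e := by
  classical
  set b := (EuclideanSpace.basisFun (Fin d) ℝ).toBasis with hb
  have h1 : (ContinuousLinearMap.id ℝ (E d) + φ.smulRight e).det
      = (LinearMap.toMatrix b b
          ((ContinuousLinearMap.id ℝ (E d) + φ.smulRight e : E d →L[ℝ] E d) : E d →ₗ[ℝ] E d)).det := by
    rw [LinearMap.det_toMatrix]
  rw [h1]
  have h2 : LinearMap.toMatrix b b
      ((ContinuousLinearMap.id ℝ (E d) + φ.smulRight e : E d →L[ℝ] E d) : E d →ₗ[ℝ] E d)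
      = 1 + Matrix.replicateCol Unit (fun i => e i) * Matrix.replicateRow Unit (fun j => φ (b j)) := by
    ext i j
    simp [LinearMap.toMatrix_apply, Matrix.mul_apply, Matrix.one_apply, hb, mul_comm]
  rw [h2, Matrix.det_one_add_replicateCol_mul_replicateRow]
  congr 1
  have : e = ∑ j, (e j) • b j := by
    conv_lhs => rw [← b.sum_repr e]
    simp [hb]
  conv_rhs => rw [this]
  simp [dotProduct, mul_comm]

theorem lipschitz_image_null {f : E d → E d} {C : ℝ≥0} (hf : LipschitzWith C f) {N : Set (E d)}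
    (hN : volume N = 0) : volume (f '' N) = 0 := by
  have h1 : (volume : Measure (E d)) ≪ (μH[d] : Measure (E d)) :=
    Measure.absolutelyContinuous_isAddHaarMeasure _ _
  have h2 : (μH[d] : Measure (E d)) ≪ (volume : Measure (E d)) :=
    Measure.absolutelyContinuous_isAddHaarMeasure _ _
  apply h1
  have h3 := hf.hausdorffMeasure_image_le (d := (d : ℝ)) (Nat.cast_nonneg d) N
  rw [h2 hN, mul_zero] at h3
  exact nonpos_iff_eq_zero.mp h3

theorem shear_approx (e : E d) (he : ‖e‖ = 1) (a : E d → ℝ) {L : ℝ≥0} (ha : LipschitzWith L a)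
    (s : ℝ) :
    ApproximatesLinearOn (fun x => x + (s * a x) • e)
      ((ContinuousLinearEquiv.refl ℝ (E d) : E d ≃L[ℝ] E d) : E d →L[ℝ] E d) univ (‖s‖₊ * L) := by
  intro x _ y _
  have h : (x + (s * a x) • e) - (y + (s * a y) • e) - (x - y) = (s * (a x - a y)) • e := by
    rw [mul_sub, sub_smul]; abel
  have h2 := ha.dist_le_mul x y
  rw [Real.dist_eq, dist_eq_norm] at h2
  simp only [ContinuousLinearEquiv.coe_refl, ContinuousLinearMap.coe_id', id]
  rw [h, norm_smul, he, mul_one, norm_mul, Real.norm_eq_abs (a x - a y)]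
  push_cast
  rw [mul_assoc]
  exact mul_le_mul_of_nonneg_left h2 (norm_nonneg s)

theorem shear_hc {L : ℝ≥0} {s : ℝ} (hs : |s| * L ≤ 1 / 4) :
    Subsingleton (E d) ∨ ‖s‖₊ * L <
      ‖(((ContinuousLinearEquiv.refl ℝ (E d) : E d ≃L[ℝ] E d).symm : E d ≃L[ℝ] E d) :
        E d →L[ℝ] E d)‖₊⁻¹ := by
  rcases subsingleton_or_nontrivial (E d) with h | h
  · exact Or.inl h
  · right
    have h1 : ‖(((ContinuousLinearEquiv.refl ℝ (E d) : E d ≃L[ℝ] E d).symm : E d ≃L[ℝ] E d) :
        E d →L[ℝ] E d)‖₊ = 1 := by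
      simp only [ContinuousLinearEquiv.refl_symm, ContinuousLinearEquiv.coe_refl]
      exact ContinuousLinearMap.nnnorm_id
    rw [h1, inv_one]
    rw [← NNReal.coe_lt_coe]
    push_cast
    rw [Real.norm_eq_abs]
    linarith


/-- general fact: density commutes with push-forward. -/
theorem map_withDensity_comp {f : E d → E d} (hf : Measurable f) (ν : Measure (E d))
    {W : E d → ℝ≥0∞} (hW : Measurable W) :
    (ν.map f).withDensity W = (ν.withDensity (fun x => W (f x))).map f := by
  ext A hA
  rw [withDensity_apply _ hA, Measure.map_apply hf hA, withDensity_apply _ (hf hA),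
    setLIntegral_map hA hW hf]

theorem shear_vol (hK : Body K) (e : E d) (he : ‖e‖ = 1) (a : E d → ℝ) (L : ℝ≥0)
    (ha : LipschitzWith L a) (ha0 : ∀ x, x ∉ K → a x = 0) (s : ℝ) (hs : |s| * L ≤ 1 / 4) :
    ∃ finv : E d → E d, Measurable finv ∧ (∀ x, finv (x + (s * a x) • e) = x) ∧
      (volume.restrict K).map (fun x => x + (s * a x) • e) =
        (volume.restrict K).withDensity
          (fun y => ENNReal.ofReal (1 / (1 + s * fderiv ℝ a (finv y) e))) := by
  classical
  set f : E d → E d := fun x => x + (s * a x) • e with hf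
  have hA := shear_approx e he a ha s
  have hc := shear_hc (d := d) hs
  set Φ := hA.toHomeomorph f hc with hΦ
  have hΦf : ∀ x, Φ x = f x := fun x => rfl
  have hinj : Function.Injective f := Φ.injective
  have hsurj : Function.Surjective f := Φ.surjective
  have hfm : Measurable f := Φ.continuous.measurable
  have hid : ∀ x, x ∉ K → f x = x := by
    intro x hx
    simp [hf, ha0 x hx]
  have hfK : f '' K = K := by
    apply Subset.antisymm
    · rintro _ ⟨x, hx, rfl⟩
      by_contra hcon
      have h3 : f x = x := hinj (hid _ hcon)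
      exact hcon (h3.symm ▸ hx)
    · intro y hy
      obtain ⟨x, rfl⟩ := hsurj y
      refine ⟨x, ?_, rfl⟩
      by_contra hcon
      rw [hid x hcon] at hy
      exact hcon hy
  set D : Set (E d) := {x | DifferentiableAt ℝ a x} with hD
  have hDm : MeasurableSet D := measurableSet_of_differentiableAt ℝ a
  have hDn : volume Dᶜ = 0 := ha.ae_differentiableAt
  set u : E d → ℝ := fun x => s * fderiv ℝ a x e with hu
  have hum : Measurable u := (measurable_fderiv_apply_const ℝ a e).const_mul s
  have hu4 : ∀ x, |u x| ≤ 1 / 4 := by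
    intro x
    have h1 : ‖fderiv ℝ a x‖ ≤ L := norm_fderiv_le_of_lipschitz ℝ ha
    have h2 : |fderiv ℝ a x e| ≤ L := by
      calc |fderiv ℝ a x e| = ‖fderiv ℝ a x e‖ := (Real.norm_eq_abs _).symm
        _ ≤ ‖fderiv ℝ a x‖ * ‖e‖ := ContinuousLinearMap.le_opNorm _ _
        _ ≤ L := by rw [he, mul_one]; exact h1
    calc |u x| = |s| * |fderiv ℝ a x e| := abs_mul _ _
      _ ≤ |s| * L := mul_le_mul_of_nonneg_left h2 (abs_nonneg s)
      _ ≤ 1 / 4 := hs
  set f' : E d → (E d →L[ℝ] E d) :=
    fun x => ContinuousLinearMap.id ℝ (E d) + (s • fderiv ℝ a x).smulRight e with hf'def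
  have hf' : ∀ x ∈ K ∩ D, HasFDerivWithinAt f (f' x) (K ∩ D) x := by
    intro x hx
    have h1 : HasFDerivAt a (fderiv ℝ a x) x := hx.2.hasFDerivAt
    have h2 : HasFDerivAt (fun x => (s * a x) • e) ((s • fderiv ℝ a x).smulRight e) x :=
      (h1.const_mul s).smul_const e
    exact ((hasFDerivAt_id x).add h2).hasFDerivWithinAt
  have hdet : ∀ x, (f' x).det = 1 + u x := by
    intro x
    rw [hf'def]
    simp only
    rw [det_id_add_smulRight]
    simp [hu]
  have key := map_withDensity_abs_det_fderiv_eq_addHaar volume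
    (hK.measurableSet.inter hDm).nullMeasurableSet hf' hinj.injOn
  have hDae : D =ᵐ[volume] (univ : Set (E d)) := ae_eq_univ.mpr hDn
  have hr1 : (volume : Measure (E d)).restrict (K ∩ D) = volume.restrict K := by
    apply Measure.restrict_congr_set
    have := ae_eq_set_inter (ae_eq_refl K) hDae
    rwa [inter_univ] at this
  have hlip : LipschitzWith (‖s‖₊ * L + 1) f := by
    apply LipschitzWith.of_dist_le_mul
    intro x y
    have h1 := hA x (mem_univ x) y (mem_univ y)
    simp only [ContinuousLinearEquiv.coe_refl, ContinuousLinearMap.coe_id', id] at h1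
    rw [dist_eq_norm, dist_eq_norm]
    have h2 : ‖f x - f y‖ ≤ ‖f x - f y - (x - y)‖ + ‖x - y‖ := by
      have := norm_add_le (f x - f y - (x - y)) (x - y)
      simpa using this
    push_cast at h1 ⊢
    linarith
  have hr2 : (volume : Measure (E d)).restrict (f '' (K ∩ D)) = volume.restrict K := by
    apply Measure.restrict_congr_set
    rw [ae_eq_set]
    constructor
    · have : f '' (K ∩ D) \ K = ∅ := by
        rw [sdiff_eq_empty]
        calc f '' (K ∩ D) ⊆ f '' K := image_mono inter_subset_left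
          _ = K := hfK
      rw [this, measure_empty]
    · have hsub : K \ f '' (K ∩ D) ⊆ f '' Dᶜ := by
        rintro y ⟨hy, hy2⟩
        rw [← hfK] at hy
        obtain ⟨x, hx, rfl⟩ := hy
        refine ⟨x, ?_, rfl⟩
        intro hxD
        exact hy2 ⟨x, ⟨hx, hxD⟩, rfl⟩
      exact measure_mono_null hsub (lipschitz_image_null hlip hDn)
  rw [hr1, hr2] at key
  refine ⟨Φ.symm, Φ.symm.continuous.measurable, fun x => Φ.symm_apply_apply x, ?_⟩
  set W : E d → ℝ≥0∞ := fun y => ENNReal.ofReal (1 / (1 + u (Φ.symm y))) with hW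
  have hWm : Measurable W := by
    apply ENNReal.measurable_ofReal.comp
    exact measurable_const.div (measurable_const.add (hum.comp Φ.symm.continuous.measurable))
  set w : E d → ℝ≥0∞ := fun x => ENNReal.ofReal |(f' x).det| with hw
  have hwm : Measurable w := by
    have : w = fun x => ENNReal.ofReal |1 + u x| := by
      funext x; rw [hw]; simp only; rw [hdet]
    rw [this]
    exact ENNReal.measurable_ofReal.comp (measurable_const.add hum).abs
  have hprod : (w * fun x => W (f x)) = 1 := by
    funext x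
    have hpos : 0 < 1 + u x := by
      have := abs_le.mp (hu4 x)
      linarith [this.1]
    have h1 : Φ.symm (f x) = x := Φ.symm_apply_apply x
    simp only [Pi.mul_apply, Pi.one_apply, hw, hW]
    rw [hdet, h1, abs_of_pos hpos, ← ENNReal.ofReal_mul hpos.le]
    rw [mul_one_div_cancel hpos.ne', ENNReal.ofReal_one]
  calc (volume.restrict K).map f
      = (((volume : Measure (E d)).restrict K).withDensity (w * fun x => W (f x))).map f := by
        rw [hprod, withDensity_one]
    _ = ((((volume : Measure (E d)).restrict K).withDensity w).withDensity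
          (fun x => W (f x))).map f := by
        have hWf : Measurable (fun x => W (f x)) := hWm.comp hfm
        rw [withDensity_mul _ hwm hWf]
    _ = ((((volume : Measure (E d)).restrict K).withDensity w).map f).withDensity W :=
        (map_withDensity_comp hfm _ hWm).symm
    _ = (volume.restrict K).withDensity W := by rw [key]

theorem shear_density (hK : Body K) (e : E d) (he : ‖e‖ = 1) (a : E d → ℝ) (L : ℝ≥0)
    (ha : LipschitzWith L a) (ha0 : ∀ x, x ∉ K → a x = 0) (s : ℝ) (hs : |s| * L ≤ 1 / 4) :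
    ∃ g : E d → ℝ, Measurable g ∧ (∀ x, |g x| ≤ 1 / 2) ∧
      (uniformProbOn K).map (fun x => x + (s * a x) • e) = tilt (uniformProbOn K) g ∧
      ∫ x, g x ^ 2 ∂(uniformProbOn K)
        ≤ 4 / 3 * s ^ 2 * ∫ x, (fderiv ℝ a x e) ^ 2 ∂(uniformProbOn K) := by
  obtain ⟨finv, hfinvm, hfinv, hmap⟩ := shear_vol hK e he a L ha ha0 s hs
  set f : E d → E d := fun x => x + (s * a x) • e with hf
  have hfm : Measurable f := by
    have : Continuous f := by
      have := ha.continuous
      fun_prop
    exact this.measurable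
  set u : E d → ℝ := fun x => s * fderiv ℝ a x e with hu
  have hum : Measurable u := (measurable_fderiv_apply_const ℝ a e).const_mul s
  have hu4 : ∀ x, |u x| ≤ 1 / 4 := by
    intro x
    have h1 : ‖fderiv ℝ a x‖ ≤ L := norm_fderiv_le_of_lipschitz ℝ ha
    have h2 : |fderiv ℝ a x e| ≤ L := by
      calc |fderiv ℝ a x e| = ‖fderiv ℝ a x e‖ := (Real.norm_eq_abs _).symm
        _ ≤ ‖fderiv ℝ a x‖ * ‖e‖ := ContinuousLinearMap.le_opNorm _ _
        _ ≤ L := by rw [he, mul_one]; exact h1
    calc |u x| = |s| * |fderiv ℝ a x e| := abs_mul _ _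
      _ ≤ |s| * L := mul_le_mul_of_nonneg_left h2 (abs_nonneg s)
      _ ≤ 1 / 4 := hs
  set g : E d → ℝ := fun y => 1 / (1 + u (finv y)) - 1 with hg
  have hgm : Measurable g :=
    (measurable_const.div (measurable_const.add (hum.comp hfinvm))).sub_const 1
  have hg1 : ∀ y, 1 + g y = 1 / (1 + u (finv y)) := by
    intro y; simp only [hg]; ring
  have hg2 : ∀ y, |g y| ≤ 1 / 2 := by
    intro y
    have h := abs_le.mp (hu4 (finv y))
    have hpos : 0 < 1 + u (finv y) := by linarith [h.1]
    simp only [hg]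
    rw [abs_le]
    constructor
    · rw [le_sub_iff_add_le, le_div_iff₀ hpos]
      nlinarith [h.1, h.2]
    · rw [sub_le_iff_le_add, div_le_iff₀ hpos]
      nlinarith [h.1, h.2]
  have hmapρ : (uniformProbOn K).map f = tilt (uniformProbOn K) g := by
    unfold tilt uniformProbOn
    rw [Measure.map_smul, hmap, withDensity_smul_measure]
    congr 2
    funext y
    rw [hg1]
  refine ⟨g, hgm, hg2, hmapρ, ?_⟩
  have := hK.isProb
  set F : E d → ℝ := fun y => g y ^ 2 / (1 + g y) with hF
  have hFm : Measurable F := (hgm.pow_const 2).div (measurable_const.add hgm)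
  have e1 : ∫ x, g x ^ 2 ∂(uniformProbOn K) = ∫ x, F x ∂(tilt (uniformProbOn K) g) := by
    rw [integral_tilt _ hgm hg2 F]
    congr 1
    funext x
    have h := abs_le.mp (hg2 x)
    have hpos : 0 < 1 + g x := by linarith [h.1]
    simp only [hF, smul_eq_mul]
    field_simp
  have e2 : ∫ x, F x ∂(tilt (uniformProbOn K) g) = ∫ x, F (f x) ∂(uniformProbOn K) := by
    rw [← hmapρ, integral_map hfm.aemeasurable hFm.aestronglyMeasurable]
  have e3 : ∀ x, F (f x) = u x ^ 2 / (1 + u x) := by
    intro x
    have h := abs_le.mp (hu4 x)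
    have hpos : 0 < 1 + u x := by linarith [h.1]
    have h1 : finv (f x) = x := hfinv x
    simp only [hF, hg, h1]
    field_simp
    ring
  have e4 : ∀ x, F (f x) ≤ 4 / 3 * u x ^ 2 := by
    intro x
    have h := abs_le.mp (hu4 x)
    have hpos : 0 < 1 + u x := by linarith [h.1]
    rw [e3, div_le_iff₀ hpos]
    nlinarith [sq_nonneg (u x), h.1]
  have hu2 : ∀ x, u x ^ 2 ≤ 1 / 16 := by
    intro x
    have h := abs_le.mp (hu4 x)
    nlinarith [h.1, h.2]
  have i1 : Integrable (fun x => F (f x)) (uniformProbOn K) := by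
    apply integrable_of_ae_bound (hFm.comp hfm).aestronglyMeasurable (1 / 12)
    filter_upwards with x
    have h := abs_le.mp (hu4 x)
    have hpos : 0 < 1 + u x := by linarith [h.1]
    have h0 : 0 ≤ F (f x) := by rw [e3]; positivity
    rw [Real.norm_eq_abs, Function.comp_apply, abs_of_nonneg h0]
    linarith [e4 x, hu2 x]
  have i2 : Integrable (fun x => 4 / 3 * u x ^ 2) (uniformProbOn K) := by
    apply integrable_of_ae_bound ((hum.pow_const 2).const_mul (4 / 3)).aestronglyMeasurable (1 / 12)
    filter_upwards with x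
    rw [Real.norm_eq_abs, abs_of_nonneg (by positivity)]
    linarith [hu2 x]
  calc ∫ x, g x ^ 2 ∂(uniformProbOn K) = ∫ x, F (f x) ∂(uniformProbOn K) := e1.trans e2
    _ ≤ ∫ x, 4 / 3 * u x ^ 2 ∂(uniformProbOn K) := integral_mono i1 i2 e4
    _ = 4 / 3 * s ^ 2 * ∫ x, (fderiv ℝ a x e) ^ 2 ∂(uniformProbOn K) := by
        rw [← integral_const_mul]
        congr 1
        funext x
        simp only [hu]
        ring

end Crest.Agent.OTStab
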