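import Crest.Agent.OTStab.Defs

/-!
# Task L: pointwise properties of Laguerre cells, `lag`, `lagIdx`, `lagMap`
All statements are routine (finite maxima of affine functions).  Extra lemmas welcome.
-/

set_option autoImplicit false

open MeasureTheory Set
open scoped ENNReal NNReal RealInnerProductSpace

namespace Crest.Agent.OTStab

variable {d : ℕ} {ι : Type} [Fintype ι] [Nonempty ι] (y : ι → E d) (c : ι → ℝ)

theorem lagIdx_mem (x : E d) : x ∈ cell y c (lagIdx y c x) :=
  (Classical.choose_spec (exists_sel y c)).1 x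

theorem measurableSet_lagIdx_preimage (s : Set ι) : MeasurableSet (lagIdx y c ⁻¹' s) :=
  (Classical.choose_spec (exists_sel y c)).2 s

/-- for any function of the index. -/
theorem measurable_comp_lagIdx {β : Type*} [MeasurableSpace β] (F : ι → β) :
    Measurable (fun x => F (lagIdx y c x)) := by
  intro s _
  exact measurableSet_lagIdx_preimage y c (F ⁻¹' s)

theorem measurable_lagMap : Measurable (lagMap y c) :=
  measurable_comp_lagIdx y c y

theorem le_lag (k : ι) (x : E d) : ⟪x, y k⟫ - c k ≤ lag y c x :=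
  Finset.le_sup' (fun k => ⟪x, y k⟫ - c k) (Finset.mem_univ k)

theorem lag_le {x : E d} {A : ℝ} (h : ∀ k, ⟪x, y k⟫ - c k ≤ A) : lag y c x ≤ A :=
  Finset.sup'_le _ _ fun k _ => h k

theorem lag_eq_of_mem_cell {k : ι} {x : E d} (h : x ∈ cell y c k) :
    lag y c x = ⟪x, y k⟫ - c k :=
  le_antisymm (lag_le y c h) (le_lag y c k x)

theorem mem_cell_iff {k : ι} {x : E d} : x ∈ cell y c k ↔ lag y c x = ⟪x, y k⟫ - c k := by
  refine ⟨lag_eq_of_mem_cell y c, fun h l => ?_⟩
  rw [← h]
  exact le_lag y c l x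

theorem lag_eq_lagMap (x : E d) : lag y c x = ⟪x, lagMap y c x⟫ - c (lagIdx y c x) :=
  lag_eq_of_mem_cell y c (lagIdx_mem y c x)

/-- `lagMap` is a subgradient of `lag` EVERYWHERE. -/
theorem lag_subgrad (x x' : E d) : lag y c x + ⟪lagMap y c x, x' - x⟫ ≤ lag y c x' := by
  have h := le_lag y c (lagIdx y c x) x'
  rw [lag_eq_lagMap y c x]
  have e : ⟪lagMap y c x, x' - x⟫ = ⟪x', lagMap y c x⟫ - ⟪x, lagMap y c x⟫ := by
    rw [inner_sub_right, real_inner_comm, real_inner_comm x]
  rw [e]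
  have : ⟪x', y (lagIdx y c x)⟫ = ⟪x', lagMap y c x⟫ := rfl
  linarith

/-- monotonicity of the subgradient. -/
theorem lagMap_mono (x x' : E d) : 0 ≤ ⟪lagMap y c x' - lagMap y c x, x' - x⟫ := by
  have h1 := lag_subgrad y c x x'
  have h2 := lag_subgrad y c x' x
  have e : ⟪lagMap y c x', x - x'⟫ = - ⟪lagMap y c x', x' - x⟫ := by
    rw [← inner_neg_right, neg_sub]
  rw [inner_sub_left]
  linarith

/-- monotonicity along a direction. -/
theorem lagMap_mono_dir (x e : E d) {t : ℝ} (ht : 0 ≤ t) :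
    ⟪lagMap y c x, e⟫ ≤ ⟪lagMap y c (x + t • e), e⟫ := by
  rcases ht.eq_or_lt with rfl | ht
  · simp
  have h := lagMap_mono y c x (x + t • e)
  rw [add_sub_cancel_left, inner_smul_right, inner_sub_left] at h
  have := (mul_nonneg_iff_of_pos_left ht).1 h
  linarith

/-- difference quotient bounds: `t ⟪T x, e⟫ ≤ φ (x + t e) - φ x ≤ t ⟪T (x + t e), e⟫` (any real `t`). -/
theorem lag_diff_lower (x e : E d) (t : ℝ) :
    t * ⟪lagMap y c x, e⟫ ≤ lag y c (x + t • e) - lag y c x := by
  have h := lag_subgrad y c x (x + t • e)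
  rw [add_sub_cancel_left, inner_smul_right] at h
  linarith

theorem lag_diff_upper (x e : E d) (t : ℝ) :
    lag y c (x + t • e) - lag y c x ≤ t * ⟪lagMap y c (x + t • e), e⟫ := by
  have h := lag_subgrad y c (x + t • e) x
  have e1 : x - (x + t • e) = (-t) • e := by
    rw [neg_smul]; abel
  rw [e1, inner_smul_right] at h
  linarith

theorem norm_lagMap_le {R : ℝ} (hR : ∀ k, ‖y k‖ ≤ R) (x : E d) : ‖lagMap y c x‖ ≤ R :=
  hR _

theorem lipschitzWith_lag {R : ℝ} (hR : ∀ k, ‖y k‖ ≤ R) :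
    LipschitzWith (Real.toNNReal R) (lag y c) := by
  have hR0 : 0 ≤ R := (norm_nonneg _).trans (hR (Classical.arbitrary ι))
  refine LipschitzWith.of_le_add_mul _ fun x x' => ?_
  rw [Real.coe_toNNReal _ hR0]
  have h := lag_subgrad y c x x'
  have h2 : -⟪lagMap y c x, x' - x⟫ ≤ R * dist x x' := by
    have := abs_real_inner_le_norm (lagMap y c x) (x' - x)
    have h3 : ‖lagMap y c x‖ * ‖x' - x‖ ≤ R * dist x x' := by
      rw [dist_comm, dist_eq_norm]
      exact mul_le_mul_of_nonneg_right (hR _) (norm_nonneg _)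
    have := neg_abs_le ⟪lagMap y c x, x' - x⟫
    linarith
  linarith

theorem continuous_lag : Continuous (lag y c) := by
  obtain ⟨R, hR⟩ : ∃ R : ℝ, ∀ k, ‖y k‖ ≤ R := by
    refine ⟨∑ k, ‖y k‖, fun k => ?_⟩
    exact Finset.single_le_sum (f := fun k => ‖y k‖) (fun _ _ => norm_nonneg _) (Finset.mem_univ k)
  exact (lipschitzWith_lag y c hR).continuous

theorem measurable_lag : Measurable (lag y c) := (continuous_lag y c).measurable

theorem iUnion_cell : ⋃ k, cell y c k = univ := by
  refine eq_univ_of_forall fun x => ?_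
  exact mem_iUnion.2 ⟨lagIdx y c x, lagIdx_mem y c x⟩

omit [Fintype ι] [Nonempty ι] in
theorem cell_midpoint {c0 c1 : ι → ℝ} {k : ι} {x x' : E d} (hx : x ∈ cell y c0 k)
    (hx' : x' ∈ cell y c1 k) :
    (1 / 2 : ℝ) • (x + x') ∈ cell y (fun l => (c0 l + c1 l) / 2) k := by
  intro l
  have h1 := hx l
  have h2 := hx' l
  simp only [inner_smul_left, inner_add_left]
  simp only [one_div, map_inv₀, RCLike.conj_to_real] 
  linarith

/-- dependence on the weights. -/
theorem abs_lag_sub_lag_weights_le (c c' : ι → ℝ) {M : ℝ} (h : ∀ k, |c k - c' k| ≤ M) (x : E d) :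
    |lag y c x - lag y c' x| ≤ M := by
  rw [abs_le]
  constructor
  · have : lag y c' x ≤ lag y c x + M := by
      refine lag_le y c' fun k => ?_
      have h1 := le_lag y c k x
      have h2 := (abs_le.1 (h k)).2
      linarith
    linarith
  · have : lag y c x ≤ lag y c' x + M := by
      refine lag_le y c fun k => ?_
      have h1 := le_lag y c' k x
      have h2 := (abs_le.1 (h k)).1
      linarith
    linarith

/-- dependence on the points. -/
theorem abs_lag_sub_lag_points_le (y y' : ι → E d) (c : ι → ℝ) {M : ℝ}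
    (h : ∀ k, ‖y k - y' k‖ ≤ M) (x : E d) :
    |lag y c x - lag y' c x| ≤ ‖x‖ * M := by
  have key : ∀ k, |⟪x, y k⟫ - ⟪x, y' k⟫| ≤ ‖x‖ * M := by
    intro k
    rw [← inner_sub_right]
    exact (abs_real_inner_le_norm _ _).trans (mul_le_mul_of_nonneg_left (h k) (norm_nonneg _))
  rw [abs_le]
  constructor
  · have : lag y' c x ≤ lag y c x + ‖x‖ * M := by
      refine lag_le y' c fun k => ?_
      have h1 := le_lag y c k x
      have h2 := (abs_le.1 (key k)).1
      linarith
    linarith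
  · have : lag y c x ≤ lag y' c x + ‖x‖ * M := by
      refine lag_le y c fun k => ?_
      have h1 := le_lag y' c k x
      have h2 := (abs_le.1 (key k)).2
      linarith
    linarith

theorem lag_add_const (t : ℝ) (x : E d) : lag y (fun k => c k + t) x = lag y c x - t := by
  apply le_antisymm
  · refine lag_le y _ fun k => ?_
    have h1 := le_lag y c k x
    linarith
  · have : lag y c x ≤ lag y (fun k => c k + t) x + t := by
      refine lag_le y c fun k => ?_
      have h1 : ⟪x, y k⟫ - (c k + t) ≤ lag y (fun k => c k + t) x :=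
        le_lag y (fun k => c k + t) k x
      linarith
    linarith

/-- max ≥ weighted average. -/
theorem sum_le_lag (w : ι → ℝ) (hw : ∀ k, 0 ≤ w k) (hsum : ∑ k, w k = 1) (x : E d) :
    ∑ k, w k * (⟪x, y k⟫ - c k) ≤ lag y c x := by
  calc ∑ k, w k * (⟪x, y k⟫ - c k) ≤ ∑ k, w k * lag y c x :=
        Finset.sum_le_sum fun k _ => mul_le_mul_of_nonneg_left (le_lag y c k x) (hw k)
    _ = lag y c x := by rw [← Finset.sum_mul, hsum, one_mul]

theorem abs_lag_le {R M : ℝ} (hR : ∀ k, ‖y k‖ ≤ R) (hM : ∀ k, |c k| ≤ M) (x : E d) :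
    |lag y c x| ≤ ‖x‖ * R + M := by
  have key : ∀ k, |⟪x, y k⟫ - c k| ≤ ‖x‖ * R + M := by
    intro k
    have h1 : |⟪x, y k⟫| ≤ ‖x‖ * R :=
      (abs_real_inner_le_norm _ _).trans (mul_le_mul_of_nonneg_left (hR k) (norm_nonneg _))
    calc |⟪x, y k⟫ - c k| ≤ |⟪x, y k⟫| + |c k| := abs_sub _ _
      _ ≤ _ := add_le_add h1 (hM k)
  rw [lag_eq_lagMap y c x]
  exact key _

/-- reindexing along a surjection does not change `lag`. -/
theorem lag_comp_surjective {κ : Type} [Fintype κ] [Nonempty κ] (p : κ → ι)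
    (hp : Function.Surjective p) (x : E d) :
    lag (fun k => y (p k)) (fun k => c (p k)) x = lag y c x := by
  apply le_antisymm
  · exact lag_le _ _ fun k => le_lag y c (p k) x
  · refine lag_le _ _ fun k => ?_
    obtain ⟨j, rfl⟩ := hp k
    exact le_lag (fun k => y (p k)) (fun k => c (p k)) j x

/-- If `φ` is differentiable at `x` and `p` is a subgradient at `x` then `∇φ(x) = p`. -/
theorem fderiv_eq_of_subgrad {φ : E d → ℝ} {x p : E d} (hd : DifferentiableAt ℝ φ x)
    (h : ∀ x', φ x + ⟪p, x' - x⟫ ≤ φ x') (v : E d) : fderiv ℝ φ x v = ⟪p, v⟫ := by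
  -- `ψ x' = φ x' - ⟪p, x' - x⟫` has a minimum at `x`
  have hmin : IsLocalMin (fun x' => φ x' - ⟪p, x' - x⟫) x := by
    refine Filter.Eventually.of_forall fun x' => ?_
    have := h x'
    simp only [sub_self, inner_zero_right, sub_zero]
    linarith
  have hlin : HasFDerivAt (fun x' : E d => ⟪p, x' - x⟫) (innerSL ℝ p) x := by
    have h1 : HasFDerivAt (fun x' : E d => x' - x) (ContinuousLinearMap.id ℝ (E d)) x :=
      (hasFDerivAt_id x).sub_const x
    have h2 := (innerSL ℝ p).hasFDerivAt.comp x h1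
    rw [ContinuousLinearMap.comp_id] at h2
    exact h2
  have hder : HasFDerivAt (fun x' => φ x' - ⟪p, x' - x⟫) (fderiv ℝ φ x - innerSL ℝ p) x :=
    hd.hasFDerivAt.sub hlin
  have h0 := hmin.hasFDerivAt_eq_zero hder
  have := congrArg (fun L : E d →L[ℝ] ℝ => L v) h0
  simp only [sub_apply, innerSL_apply_apply, zero_apply] at this
  linarith

/-- Rademacher (`LipschitzWith.ae_differentiableAt`) + `fderiv_eq_of_subgrad`. -/
theorem ae_fderiv_lag : ∀ᵐ x ∂(volume : Measure (E d)),
    DifferentiableAt ℝ (lag y c) x ∧ ∀ v, fderiv ℝ (lag y c) x v = ⟪lagMap y c x, v⟫ := by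
  obtain ⟨R, hR⟩ : ∃ R : ℝ, ∀ k, ‖y k‖ ≤ R := by
    refine ⟨∑ k, ‖y k‖, fun k => ?_⟩
    exact Finset.single_le_sum (f := fun k => ‖y k‖) (fun _ _ => norm_nonneg _) (Finset.mem_univ k)
  filter_upwards [(lipschitzWith_lag y c hR).ae_differentiableAt (μ := volume)] with x hx
  exact ⟨hx, fderiv_eq_of_subgrad hx (lag_subgrad y c x)⟩

end Crest.Agent.OTStab
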