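import Crest.Agent.OTStab.Unif
import Crest.Agent.OTStab.Lag

/-!
# Task H: integral of a monotone increment

`u` measurable, `|u| ≤ R`, `u x ≤ u (x + v)` for all `x`.  Then `∫ (u (x+v) - u x) dρ ≤ C R ‖v‖`, `C = C(K)`.

Proof.  If `‖v‖ ≥ 1`: the integrand is `≤ 2R`.  Otherwise let `B = closedBall 0 RK ⊇ K`.  As the integrand is `≥ 0`,
`∫_K ≤ ∫_B (u(x+v) - u x) dx = ∫_{B+v} u - ∫_B u ≤ R (vol((B+v) \ B) + vol(B \ (B+v))) = 2 R vol((B+v) \ B)`
`≤ 2R (vol (closedBall 0 (RK+‖v‖)) - vol (closedBall 0 RK)) = 2 R ω_d ((RK+‖v‖)^d - RK^d) ≤ 2 R ω_d d (RK+1)^{d-1} ‖v‖`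
(`Measure.addHaar_closedBall`).  Divide by `vol K`.
-/

set_option autoImplicit false

open MeasureTheory Set
open scoped ENNReal NNReal RealInnerProductSpace
open Crest.AnalysisR.OT

namespace Crest.Agent.OTStab

variable {d : ℕ} {K : Set (E d)}

/-- bounded measurable functions are integrable on closed balls. -/
theorem integrableOn_closedBall_of_bound {u : E d → ℝ} (hu : Measurable u) {R : ℝ}
    (hR : ∀ x, |u x| ≤ R) (a : E d) (r : ℝ) :
    IntegrableOn u (Metric.closedBall a r) volume := by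
  have hfin : volume (Metric.closedBall a r) < ∞ := measure_closedBall_lt_top
  refine Measure.integrableOn_of_bounded hfin.ne hu.aestronglyMeasurable (M := R) ?_
  exact Filter.Eventually.of_forall fun x => by simpa [Real.norm_eq_abs] using hR x

/-- the key volume estimate. -/
theorem setIntegral_shift_le {u : E d → ℝ} (hu : Measurable u) {R : ℝ}
    (hR : ∀ x, |u x| ≤ R) (v : E d) {r : ℝ} (hr : 0 ≤ r) :
    ∫ x in Metric.closedBall (0 : E d) r, (u (x + v) - u x) ≤
      2 * R * (((r + ‖v‖) ^ d - r ^ d) * (volume : Measure (E d)).real (Metric.ball 0 1)) := by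
  set B : Set (E d) := Metric.closedBall 0 r with hB
  set Bv : Set (E d) := Metric.closedBall v r with hBv
  set B' : Set (E d) := Metric.closedBall 0 (r + ‖v‖) with hB'
  have hsub1 : B ⊆ B' := Metric.closedBall_subset_closedBall (by linarith [norm_nonneg v])
  have hsub2 : Bv ⊆ B' := by
    intro x hx
    rw [hBv, Metric.mem_closedBall, dist_eq_norm] at hx
    rw [hB', Metric.mem_closedBall, dist_zero_right]
    calc ‖x‖ = ‖(x - v) + v‖ := by rw [sub_add_cancel]
      _ ≤ ‖x - v‖ + ‖v‖ := norm_add_le _ _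
      _ ≤ r + ‖v‖ := by linarith
  have hpre : (fun x : E d => x + v) ⁻¹' Bv = B := by
    ext x
    simp [hB, hBv, dist_eq_norm]
  have h1 : ∫ x in B, u (x + v) = ∫ y in Bv, u y := by
    have := (measurePreserving_add_right (volume : Measure (E d)) v).setIntegral_preimage_emb
      (measurableEmbedding_addRight v) u Bv
    rw [hpre] at this
    exact this
  have hiB' : IntegrableOn u B' volume := integrableOn_closedBall_of_bound hu hR _ _
  have hiB : IntegrableOn u B volume := integrableOn_closedBall_of_bound hu hR _ _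
  have hiBv : IntegrableOn u Bv volume := integrableOn_closedBall_of_bound hu hR _ _
  have hishift : IntegrableOn (fun x => u (x + v)) B volume :=
    integrableOn_closedBall_of_bound (hu.comp (measurable_add_const v)) (fun x => hR _) _ _
  have h2 : ∫ x in B, (u (x + v) - u x) = (∫ y in Bv, u y) - ∫ y in B, u y := by
    rw [integral_sub hishift hiB, h1]
  have hd1 : ∫ x in B' \ B, u x = (∫ x in B', u x) - ∫ x in B, u x :=
    setIntegral_sdiff Metric.isClosed_closedBall.measurableSet hiB' hsub1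
  have hd2 : ∫ x in B' \ Bv, u x = (∫ x in B', u x) - ∫ x in Bv, u x :=
    setIntegral_sdiff Metric.isClosed_closedBall.measurableSet hiB' hsub2
  have hfinB' : volume B' < ∞ := measure_closedBall_lt_top
  have hb1 : ‖∫ x in B' \ B, u x‖ ≤ R * (volume : Measure (E d)).real (B' \ B) :=
    norm_setIntegral_le_of_norm_le_const (lt_of_le_of_lt (measure_mono sdiff_subset) hfinB')
      (fun x _ => by simpa [Real.norm_eq_abs] using hR x)
  have hb2 : ‖∫ x in B' \ Bv, u x‖ ≤ R * (volume : Measure (E d)).real (B' \ Bv) :=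
    norm_setIntegral_le_of_norm_le_const (lt_of_le_of_lt (measure_mono sdiff_subset) hfinB')
      (fun x _ => by simpa [Real.norm_eq_abs] using hR x)
  have hfr : Module.finrank ℝ (E d) = d := by simp
  have hvB : (volume : Measure (E d)).real B = r ^ d * (volume : Measure (E d)).real (Metric.ball 0 1) := by
    rw [hB, Measure.addHaar_real_closedBall _ _ hr, hfr]
  have hvBv : (volume : Measure (E d)).real Bv = r ^ d * (volume : Measure (E d)).real (Metric.ball 0 1) := by
    rw [hBv, Measure.addHaar_real_closedBall _ _ hr, hfr]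
  have hvB' : (volume : Measure (E d)).real B' =
      (r + ‖v‖) ^ d * (volume : Measure (E d)).real (Metric.ball 0 1) := by
    rw [hB', Measure.addHaar_real_closedBall _ _ (by positivity), hfr]
  have hm1 : (volume : Measure (E d)).real (B' \ B) =
      (volume : Measure (E d)).real B' - (volume : Measure (E d)).real B :=
    measureReal_sdiff hsub1 Metric.isClosed_closedBall.measurableSet
      (measure_closedBall_lt_top).ne
  have hm2 : (volume : Measure (E d)).real (B' \ Bv) =
      (volume : Measure (E d)).real B' - (volume : Measure (E d)).real Bv :=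
    measureReal_sdiff hsub2 Metric.isClosed_closedBall.measurableSet
      (measure_closedBall_lt_top).ne
  rw [Real.norm_eq_abs] at hb1 hb2
  have e1 := (abs_le.mp hb1).2
  have e2 := (abs_le.mp hb2).1
  rw [hd1, hm1, hvB', hvB] at e1
  rw [hd2, hm2, hvB', hvBv] at e2
  rw [h2]
  have e3 := sub_le_sub e1 e2
  rw [sub_sub_sub_cancel_left] at e3
  refine e3.trans (le_of_eq ?_)
  ring

theorem shift_integral_le (hK : Body K) : ∃ C : ℝ, 0 ≤ C ∧
    ∀ (u : E d → ℝ) (_ : Measurable u) (R : ℝ) (_ : ∀ x, |u x| ≤ R) (v : E d)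
      (_ : ∀ x, u x ≤ u (x + v)),
      ∫ x, (u (x + v) - u x) ∂(uniformProbOn K) ≤ C * R * ‖v‖ := by
  obtain ⟨RK, hRK0, hRK⟩ := hK.exists_bound
  set ω : ℝ := (volume : Measure (E d)).real (Metric.ball 0 1) with hω
  have hω0 : 0 ≤ ω := measureReal_nonneg
  set VK : ℝ := (volume K).toReal with hVKdef
  have hVK : 0 < VK := ENNReal.toReal_pos hK.volume_pos.ne' hK.volume_lt_top.ne
  have hpow : 0 ≤ (RK + 1) ^ d - RK ^ d := by
    have : RK ^ d ≤ (RK + 1) ^ d := pow_le_pow_left₀ hRK0.le (by linarith) d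
    linarith
  refine ⟨2 + VK⁻¹ * (2 * (((RK + 1) ^ d - RK ^ d) * ω)), by positivity, ?_⟩
  intro u hu R hR v hmono
  have hR0 : 0 ≤ R := le_trans (abs_nonneg _) (hR 0)
  have := hK.isProb
  have hf0 : ∀ x, 0 ≤ u (x + v) - u x := fun x => sub_nonneg.mpr (hmono x)
  have hf2 : ∀ x, u (x + v) - u x ≤ 2 * R := fun x => by
    have h1 := (abs_le.mp (hR (x + v))).2
    have h2 := (abs_le.mp (hR x)).1
    linarith
  have hfm : Measurable fun x => u (x + v) - u x :=
    (hu.comp (measurable_add_const v)).sub hu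
  rcases le_total 1 ‖v‖ with hv | hv
  · -- trivial bound
    have h1 : ∫ x, (u (x + v) - u x) ∂(uniformProbOn K) ≤ ∫ _x, 2 * R ∂(uniformProbOn K) := by
      refine integral_mono_of_nonneg (Filter.Eventually.of_forall hf0) (integrable_const _)
        (Filter.Eventually.of_forall hf2)
    have h2 : ∫ _x, 2 * R ∂(uniformProbOn K) = 2 * R := by simp
    have h3 : 0 ≤ VK⁻¹ * (2 * (((RK + 1) ^ d - RK ^ d) * ω)) := by positivity
    calc ∫ x, (u (x + v) - u x) ∂(uniformProbOn K) ≤ 2 * R := h1.trans h2.le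
      _ ≤ 2 * R * ‖v‖ := by nlinarith
      _ ≤ (2 + VK⁻¹ * (2 * (((RK + 1) ^ d - RK ^ d) * ω))) * R * ‖v‖ := by
          have : 0 ≤ VK⁻¹ * (2 * (((RK + 1) ^ d - RK ^ d) * ω)) * R * ‖v‖ := by positivity
          nlinarith
  · -- main case
    have hKB : K ⊆ Metric.closedBall (0 : E d) RK := fun x hx => by
      simpa [Metric.mem_closedBall, dist_zero_right] using hRK x hx
    have hint : IntegrableOn (fun x => u (x + v) - u x) (Metric.closedBall (0 : E d) RK) volume :=
      (integrableOn_closedBall_of_bound (hu.comp (measurable_add_const v)) (fun x => hR _) _ _).sub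
        (integrableOn_closedBall_of_bound hu hR _ _)
    have h1 : ∫ x in K, (u (x + v) - u x) ≤
        ∫ x in Metric.closedBall (0 : E d) RK, (u (x + v) - u x) :=
      setIntegral_mono_set hint (Filter.Eventually.of_forall hf0)
        (Filter.Eventually.of_forall hKB)
    have h2 := setIntegral_shift_le hu hR v hRK0.le
    have hconv : (RK + ‖v‖) ^ d - RK ^ d ≤ ‖v‖ * ((RK + 1) ^ d - RK ^ d) := by
      have hc := (convexOn_pow d).2 (Set.mem_Ici.mpr hRK0.le)
        (Set.mem_Ici.mpr (show (0 : ℝ) ≤ RK + 1 by linarith)) (show (0 : ℝ) ≤ 1 - ‖v‖ by linarith)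
        (norm_nonneg v) (by ring)
      simp only [smul_eq_mul] at hc
      have he : (1 - ‖v‖) * RK + ‖v‖ * (RK + 1) = RK + ‖v‖ := by ring
      rw [he] at hc
      nlinarith
    rw [integral_unif, smul_eq_mul]
    have h3 : ∫ x in K, (u (x + v) - u x) ≤ 2 * R * ((‖v‖ * ((RK + 1) ^ d - RK ^ d)) * ω) := by
      refine h1.trans (h2.trans ?_)
      have : ((RK + ‖v‖) ^ d - RK ^ d) * ω ≤ (‖v‖ * ((RK + 1) ^ d - RK ^ d)) * ω :=
        mul_le_mul_of_nonneg_right hconv hω0
      nlinarith
    have h4 : VK⁻¹ * ∫ x in K, (u (x + v) - u x) ≤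
        VK⁻¹ * (2 * R * ((‖v‖ * ((RK + 1) ^ d - RK ^ d)) * ω)) :=
      mul_le_mul_of_nonneg_left h3 (by positivity)
    refine h4.trans ?_
    have h5 : 0 ≤ 2 * R * ‖v‖ := by positivity
    have h6 : (2 + VK⁻¹ * (2 * (((RK + 1) ^ d - RK ^ d) * ω))) * R * ‖v‖ =
        2 * R * ‖v‖ + VK⁻¹ * (2 * R * ((‖v‖ * ((RK + 1) ^ d - RK ^ d)) * ω)) := by ring
    rw [h6]
    linarith

/-- Consequence for Laguerre maps (apply the previous theorem to `u = ⟪lagMap y c ·, e⟫`, `v = t • e`,
using `lagMap_mono_dir`). -/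
theorem shift_lagMap_le (hK : Body K) : ∃ C : ℝ, 0 ≤ C ∧
    ∀ {ι : Type} [Fintype ι] [Nonempty ι] (y : ι → E d) (c : ι → ℝ) (R : ℝ) (_ : ∀ k, ‖y k‖ ≤ R)
      (e : E d) (_ : ‖e‖ = 1) (t : ℝ) (_ : 0 ≤ t),
      ∫ x, ⟪lagMap y c (x + t • e) - lagMap y c x, e⟫ ∂(uniformProbOn K) ≤ C * R * t ∧
      ∫ x, ⟪lagMap y c x - lagMap y c (x - t • e), e⟫ ∂(uniformProbOn K) ≤ C * R * t := by
  obtain ⟨C, hC0, hC⟩ := shift_integral_le hK
  refine ⟨C, hC0, ?_⟩
  intro ι _ _ y c R hR e he t ht
  set u : E d → ℝ := fun x => ⟪lagMap y c x, e⟫ with hu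
  have hum : Measurable u := (measurable_lagMap y c).inner_const
  have hub : ∀ x, |u x| ≤ R := fun x => by
    calc |u x| ≤ ‖lagMap y c x‖ * ‖e‖ := abs_real_inner_le_norm _ _
      _ ≤ R := by rw [he, mul_one]; exact norm_lagMap_le y c hR x
  have hnorm : ‖t • e‖ = t := by rw [norm_smul, he, mul_one, Real.norm_eq_abs, abs_of_nonneg ht]
  have hmono : ∀ x, u x ≤ u (x + t • e) := fun x => lagMap_mono_dir y c x e ht
  constructor
  · have h := hC u hum R hub (t • e) hmono
    rw [hnorm] at h
    refine le_trans (le_of_eq ?_) h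
    refine integral_congr_ae (Filter.Eventually.of_forall fun x => ?_)
    simp only [hu, inner_sub_left]
  · have h := hC (fun x => u (x - t • e)) (hum.comp (measurable_sub_const _)) R
      (fun x => hub _) (t • e) (fun x => by
        have := hmono (x - t • e)
        simpa [sub_add_cancel, add_sub_cancel_right] using this)
    rw [hnorm] at h
    refine le_trans (le_of_eq ?_) h
    refine integral_congr_ae (Filter.Eventually.of_forall fun x => ?_)
    simp only [hu, inner_sub_left, add_sub_cancel_right]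

end Crest.Agent.OTStab
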