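import Crest.Agent.OTStab.WBasic

/-!
# Task W2: `W` for repeated points (`Y = y ∘ p`), upper and lower bounds

`p : Λ → ι` a map of finite index types, `m : Λ → ℝ`, `m ≥ 0`, `∑ m = 1`.
-/

set_option autoImplicit false

open MeasureTheory Set
open scoped ENNReal NNReal RealInnerProductSpace

namespace Crest.Agent.OTStab

variable {d : ℕ} {ι Λ : Type} [Fintype ι] [Nonempty ι] [Fintype Λ] [Nonempty Λ]

/-- upper bound: plug `c ∘ p` in `kant` (`W_le_kant`, `lag_comp_surjective`). -/
theorem W_comp_le (σ : Measure (E d)) [IsProbabilityMeasure σ] {RK : ℝ}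
    (hσK : ∀ᵐ x ∂σ, ‖x‖ ≤ RK) (p : Λ → ι) (hp : Function.Surjective p) (y : ι → E d) (c : ι → ℝ)
    (m : Λ → ℝ) (hm : ∀ k, 0 ≤ m k) (hsum : ∑ k, m k = 1) :
    W σ (fun k => y (p k)) m ≤ ∫ x, lag y c x ∂σ + ∑ k, m k * c (p k) := by
  have h := W_le_kant σ hσK (fun k => y (p k)) m hm hsum (fun k => c (p k))
  unfold kant at h
  simp only [lag_comp_surjective y c p hp] at h
  exact h

/-- integral of a function of the selected index. -/
private theorem WComp_integral_comp_lagIdx (ρ0 : Measure (E d)) [IsProbabilityMeasure ρ0]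
    (y : ι → E d) (c : ι → ℝ) (G : ι → ℝ) :
    Integrable (fun x => G (lagIdx y c x)) ρ0 ∧
    ∫ x, G (lagIdx y c x) ∂ρ0 = ∑ i, (ρ0 (lagIdx y c ⁻¹' {i})).toReal * G i := by
  classical
  have hrep : (fun x => G (lagIdx y c x)) =
      fun x => ∑ i, (lagIdx y c ⁻¹' {i}).indicator (fun _ => G i) x := by
    funext x
    simp [Set.indicator, Finset.sum_ite_eq]
  have hint : ∀ i ∈ (Finset.univ : Finset ι),
      Integrable ((lagIdx y c ⁻¹' {i}).indicator (fun _ => G i)) ρ0 := by
    intro i _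
    exact (integrable_const (G i)).indicator (measurableSet_lagIdx_preimage y c {i})
  constructor
  · rw [hrep]
    exact integrable_finsetSum _ hint
  · rw [hrep, integral_finsetSum _ hint]
    refine Finset.sum_congr rfl fun i _ => ?_
    rw [integral_indicator_const _ (measurableSet_lagIdx_preimage y c {i})]
    simp [Measure.real]

/-- lower bound by a fractional assignment.  `ρ0 ≪ volume` probability, `F` measurable and a.e. bounded,
`y` injective, `ρ0 (cell y c i) = ∑_{k ∈ p⁻¹ i} m k > 0`.  For every `c̃ : Λ → ℝ` and a.e. `x` with `i = lagIdx y c x`: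
`lag (y ∘ p) c̃ (F x) ≥ ∑_{k ∈ p⁻¹ i} (m k / μ i) (⟪F x, y i⟫ - c̃ k)` (max ≥ weighted average), where `μ i = ρ0 (cell i)`.
Integrate over `cell y c i` (mass `μ i`) and sum over `i`:
`∫ lag (y∘p) c̃ d(F_# ρ0) = ∫ lag (y∘p) c̃ (F x) dρ0 ≥ ∫ ⟪F x, lagMap y c x⟫ dρ0 - ∑_k m k c̃ k`. -/
theorem W_comp_ge [DecidableEq ι] (ρ0 : Measure (E d)) [IsProbabilityMeasure ρ0]
    (hρ0 : ρ0 ≪ (volume : Measure (E d))) (F : E d → E d) (hF : Measurable F) {RF : ℝ}
    (hFb : ∀ᵐ x ∂ρ0, ‖F x‖ ≤ RF) (p : Λ → ι) (y : ι → E d) (hy : Function.Injective y)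
    (c : ι → ℝ) (m : Λ → ℝ) (hm : ∀ k, 0 ≤ m k)
    (hfib : ∀ i, ∑ k, (if p k = i then m k else 0) = (ρ0 (cell y c i)).toReal)
    (hpos : ∀ i, 0 < ρ0 (cell y c i)) :
    ∫ x, ⟪F x, lagMap y c x⟫ ∂ρ0 ≤ W (ρ0.map F) (fun k => y (p k)) m := by
  refine le_W _ _ _ fun ct => ?_
  unfold kant
  have hprob : IsProbabilityMeasure (ρ0.map F) := Measure.isProbabilityMeasure_map hF.aemeasurable
  -- masses
  set μ : ι → ℝ := fun i => (ρ0 (cell y c i)).toReal with hμ
  have hμpos : ∀ i, 0 < μ i := fun i =>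
    ENNReal.toReal_pos (hpos i).ne' (measure_ne_top ρ0 _)
  -- the correction term
  set G : ι → ℝ := fun i => ∑ k, (if p k = i then m k else 0) / μ i * ct k with hG
  obtain ⟨hGint, hGval⟩ := WComp_integral_comp_lagIdx ρ0 y c G
  have hGsum : ∫ x, G (lagIdx y c x) ∂ρ0 = ∑ k, m k * ct k := by
    rw [hGval]
    have h1 : ∀ i, (ρ0 (lagIdx y c ⁻¹' {i})).toReal * G i =
        ∑ k, (if p k = i then m k * ct k else 0) := by
      intro i
      rw [← measure_cell_eq_preimage hρ0 hy c i]
      change μ i * G i = _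
      rw [hG, Finset.mul_sum]
      refine Finset.sum_congr rfl fun k _ => ?_
      have := (hμpos i).ne'
      split_ifs
      · field_simp
      · simp
    simp_rw [h1]
    rw [Finset.sum_comm]
    refine Finset.sum_congr rfl fun k _ => ?_
    simp
  -- pointwise bound
  have hpt : ∀ x, ⟪F x, lagMap y c x⟫ - G (lagIdx y c x) ≤ lag (fun k => y (p k)) ct (F x) := by
    intro x
    set i := lagIdx y c x with hi
    have hw := sum_le_lag (fun k => y (p k)) ct (fun k => (if p k = i then m k else 0) / μ i)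
      (fun k => by
        apply div_nonneg _ (hμpos i).le
        split_ifs
        · exact hm k
        · exact le_rfl)
      (by
        rw [← Finset.sum_div, hfib i]
        exact div_self (hμpos i).ne') (F x)
    refine le_trans (le_of_eq ?_) hw
    have h2 : ∀ k, (if p k = i then m k else 0) / μ i * (⟪F x, y (p k)⟫ - ct k) =
        (if p k = i then m k else 0) / μ i * ⟪F x, y i⟫ -
          (if p k = i then m k else 0) / μ i * ct k := by
      intro k
      split_ifs with h
      · rw [h]; ring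
      · simp
    simp_rw [h2]
    rw [Finset.sum_sub_distrib, ← Finset.sum_mul, ← Finset.sum_div, hfib i,
      div_self (hμpos i).ne', one_mul]
    rfl
  -- integrability
  have hmapb : ∀ᵐ z ∂(ρ0.map F), ‖z‖ ≤ RF := by
    rw [ae_map_iff hF.aemeasurable (measurableSet_le measurable_norm measurable_const)]
    exact hFb
  have hlagint : Integrable (fun x => lag (fun k => y (p k)) ct (F x)) ρ0 := by
    have := integrable_lag (σ := ρ0.map F) hmapb (fun k => y (p k)) ct
    exact (integrable_map_measure (measurable_lag _ _).aestronglyMeasurable hF.aemeasurable).mp this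
  have hinnerint : Integrable (fun x => ⟪F x, lagMap y c x⟫) ρ0 := by
    refine Integrable.mono' (integrable_const (RF * ∑ j, ‖y j‖))
      (hF.inner (measurable_lagMap y c)).aestronglyMeasurable ?_
    filter_upwards [hFb] with x hx
    have h1 : ‖lagMap y c x‖ ≤ ∑ j, ‖y j‖ :=
      norm_lagMap_le y c (fun k => Finset.single_le_sum (f := fun j => ‖y j‖)
        (fun j _ => norm_nonneg _) (Finset.mem_univ k)) x
    calc ‖⟪F x, lagMap y c x⟫‖ ≤ ‖F x‖ * ‖lagMap y c x‖ := norm_inner_le_norm _ _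
      _ ≤ RF * ∑ j, ‖y j‖ := mul_le_mul hx h1 (norm_nonneg _) (le_trans (norm_nonneg _) hx)
  rw [integral_map hF.aemeasurable (measurable_lag _ _).aestronglyMeasurable]
  have hmono : ∫ x, (⟪F x, lagMap y c x⟫ - G (lagIdx y c x)) ∂ρ0 ≤
      ∫ x, lag (fun k => y (p k)) ct (F x) ∂ρ0 :=
    integral_mono (hinnerint.sub hGint) hlagint hpt
  rw [integral_sub hinnerint hGint, hGsum] at hmono
  linarith

end Crest.Agent.OTStab
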