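import Crest.Agent.OTStab.PathBound
import Crest.Agent.OTStab.WComp
import Crest.Agent.OTStab.Shear
import Crest.Agent.OTStab.Shift
import Crest.Agent.OTStab.CoreErr
import Crest.Agent.OTStab.CorePairs

/-!
# Task K: the core inequality (an `H^{-1}` bound for the difference of two Laguerre maps)

`ρ` uniform on `K`.  `T = lagMap y c`, `S = lagMap z c'` (`y`, `z` injective).  `P i j ≥ 0` a coupling matrix:
row sums `= ρ(cell y c i) > 0`, column sums `= ρ(cell z c' j) > 0`.  `ε² = ∑ P i j |y i - z j|²`.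
For every unit vector `e` and every Lipschitz `a` vanishing outside `K`:
`∫ a ⟪S - T, e⟫ dρ ≤ C1 ε (∫ (∂_e a)² dρ)^{1/2}`,   `C1 = C1(K)`.

Proof.  `Λ = {p : ι × κ // 0 < P p.1 p.2}` (finite, nonempty), `pι k = k.1.1`, `pκ k = k.1.2` (both surjective since the
row/column sums are positive), `m k = P k.1.1 k.1.2 > 0`, `∑ m = ∑_i ρ(cell i) = 1`; `Y = y ∘ pι`, `Z = z ∘ pκ`;
`k ↦ (Y k, Z k)` is injective.  `∑_k m k |Z k - Y k|² = ε²`.
Let `A` bound `|a|` (`a` is continuous and vanishes off the compact `K`), `R` bound `‖y i‖`.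
For `0 < s ≤ 1/(4(L+1))` put `f x = x + (s a x) e`; `shear_density` gives `g`, `σ := ρ.map f = tilt ρ g` (a probability measure,
`|x| ≤ RK` σ-a.e. because `tilt ρ g ≪ ρ`).
 (1) `W σ Z m ≥ ∫ ⟪f x, S x⟫ dρ = ∫ ⟪x, S x⟫ dρ + s ∫ a ⟪e, S⟫ dρ`            (`W_comp_ge` with `F = f`)
 (2) `W ρ Z m ≤ ∫ lag z c' dρ + ∑_k m k c' (pκ k) = ∫ ⟪x, S x⟫ dρ`               (`W_comp_le`, `integral_lag_add`)
 (3) `W σ Y m ≤ ∫ lag y c (f x) dρ + ∑_k m k c (pι k)`                            (`W_comp_le`, `integral_map`)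
 (4) `W ρ Y m ≥ ∫ ⟪x, T x⟫ dρ = ∫ lag y c dρ + ∑_k m k c (pι k)`                  (`W_comp_ge` with `F = id`, `Measure.map_id`)
 (5) `path_bound`: `(1) - (3) - (2) + (4) ≤ CP ‖g‖₂ ε ≤ CP (4/3)^{1/2} s D ε`, `D = (∫ (∂_e a)²dρ)^{1/2}`.
 So `s ∫ a ⟪e,S⟫ dρ - ∫ (lag y c (f x) - lag y c x) dρ ≤ 2 CP s D ε`.
 (6) `lag y c (x + (s a x) e) - lag y c x ≤ s a x ⟪T (x + (s a x) e), e⟫` (`lag_diff_upper`)
     `= s a x ⟪T x, e⟫ + s a x (⟪T (x + (s a x) e), e⟫ - ⟪T x, e⟫)` and, by monotonicity in direction `e` (both signs of `a x`),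
     `s a x (⟪T (x + (s a x) e), e⟫ - ⟪T x, e⟫) ≤ s A (⟪T (x + sA e), e⟫ - ⟪T (x - sA e), e⟫)`, whose `ρ`-integral is
     `≤ s A * 2 Csh R s A` (`shift_lagMap_le`).
 (7) `s ∫ a ⟪S - T, e⟫ dρ ≤ 2 CP s D ε + 2 Csh R A² s²`.  Divide by `s`, let `s → 0`.   `C1 = 2 CP`.
-/

set_option autoImplicit false

open MeasureTheory Set
open scoped ENNReal NNReal RealInnerProductSpace
open Crest.AnalysisR.OT

namespace Crest.Agent.OTStab

variable {d : ℕ} {K : Set (E d)}

theorem core (hK : Body K) : ∃ C1 : ℝ, 0 ≤ C1 ∧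
    ∀ {ι κ : Type} [Fintype ι] [Nonempty ι] [Fintype κ] [Nonempty κ]
      (y : ι → E d) (z : κ → E d) (_ : Function.Injective y) (_ : Function.Injective z)
      (c : ι → ℝ) (c' : κ → ℝ) (P : ι → κ → ℝ) (_ : ∀ i j, 0 ≤ P i j)
      (_ : ∀ i, ∑ j, P i j = (uniformProbOn K (cell y c i)).toReal)
      (_ : ∀ j, ∑ i, P i j = (uniformProbOn K (cell z c' j)).toReal)
      (_ : ∀ i, 0 < uniformProbOn K (cell y c i)) (_ : ∀ j, 0 < uniformProbOn K (cell z c' j))
      (e : E d) (_ : ‖e‖ = 1) (a : E d → ℝ) (L : ℝ≥0) (_ : LipschitzWith L a)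
      (_ : ∀ x, x ∉ K → a x = 0),
      ∫ x, a x * ⟪lagMap z c' x - lagMap y c x, e⟫ ∂(uniformProbOn K)
        ≤ C1 * Real.sqrt (∑ i, ∑ j, P i j * ‖y i - z j‖ ^ 2)
            * Real.sqrt (∫ x, (fderiv ℝ a x e) ^ 2 ∂(uniformProbOn K)) := by
  classical
  obtain ⟨CP, hCP0, hCP⟩ := path_bound hK
  obtain ⟨Ce, hCe0, hCe⟩ := core_err hK
  obtain ⟨RK, hRK0, hRK⟩ := hK.exists_bound
  refine ⟨2 * CP, by positivity, ?_⟩
  intro ι κ _ _ _ _ y z hy hz c c' P hP hrow hcol hrowpos hcolpos e he a L ha ha0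
  have hprobρ := hK.isProb
  set ρ := uniformProbOn K with hρ
  have hac : ρ ≪ (volume : Measure (E d)) := unif_ac K
  have hρK : ∀ᵐ x ∂ρ, ‖x‖ ≤ RK := hK.ae_norm_le hRK
  have htot : ∑ i, ∑ j, P i j = 1 := by
    simp_rw [hrow]
    rw [← ENNReal.toReal_sum (fun i _ => measure_ne_top _ _), sum_measure_cell hac hy c]
    simp
  have hrp : ∀ i, 0 < ∑ j, P i j := fun i => by
    rw [hrow]; exact ENNReal.toReal_pos (hrowpos i).ne' (measure_ne_top _ _)
  have hcp : ∀ j, 0 < ∑ i, P i j := fun j => by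
    rw [hcol]; exact ENNReal.toReal_pos (hcolpos j).ne' (measure_ne_top _ _)
  obtain ⟨Λ, _, _, p, q, m, hp, hq, hpq, hm, hmsum, hfp, hfq, hF⟩ :=
    exists_pairs P hP hrp hcp htot
  have hm0 : ∀ k, 0 ≤ m k := fun k => (hm k).le
  set T := lagMap y c with hT
  set S := lagMap z c' with hS
  -- bounds
  obtain ⟨A, hA⟩ : ∃ A : ℝ, ∀ x, |a x| ≤ A := by
    obtain ⟨C, hC⟩ := hK.compact.exists_bound_of_continuousOn ha.continuous.continuousOn
    refine ⟨max C 0, fun x => ?_⟩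
    by_cases hx : x ∈ K
    · exact (hC x hx).trans (le_max_left _ _)
    · rw [ha0 x hx]; simp
  have hA0 : 0 ≤ A := (abs_nonneg _).trans (hA 0)
  obtain ⟨R, hR⟩ : ∃ R : ℝ, ∀ k, ‖y k‖ ≤ R := by
    obtain ⟨R, hR⟩ := (Set.finite_range (fun k => ‖y k‖)).bddAbove
    exact ⟨R, fun k => hR ⟨k, rfl⟩⟩
  obtain ⟨R', hR'⟩ : ∃ R : ℝ, ∀ k, ‖z k‖ ≤ R := by
    obtain ⟨R, hR⟩ := (Set.finite_range (fun k => ‖z k‖)).bddAbove
    exact ⟨R, fun k => hR ⟨k, rfl⟩⟩
  have hR0 : 0 ≤ R := (norm_nonneg _).trans (hR (Classical.arbitrary ι))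
  have hR0' : 0 ≤ R' := (norm_nonneg _).trans (hR' (Classical.arbitrary κ))
  have ham : Measurable a := ha.continuous.measurable
  set ε := Real.sqrt (∑ i, ∑ j, P i j * ‖y i - z j‖ ^ 2) with hε
  set D := Real.sqrt (∫ x, (fderiv ℝ a x e) ^ 2 ∂ρ) with hD
  set I := ∫ x, a x * ⟪S x - T x, e⟫ ∂ρ with hI
  have hYZ : Function.Injective (fun k => (y (p k), z (q k))) := by
    intro k l hkl
    simp only [Prod.mk.injEq] at hkl
    exact hpq (Prod.ext (hy hkl.1) (hz hkl.2))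
  have hεeq : ∑ k, m k * ‖z (q k) - y (p k)‖ ^ 2 = ∑ i, ∑ j, P i j * ‖y i - z j‖ ^ 2 := by
    rw [hF (fun i j => ‖z j - y i‖ ^ 2)]
    simp_rw [norm_sub_rev]
  have hsy : ∑ k, m k * c (p k) = ∑ i, (ρ (cell y c i)).toReal * c i := by
    rw [hF (fun i _ => c i)]
    refine Finset.sum_congr rfl fun i _ => ?_
    rw [← Finset.sum_mul, hrow]
  have hsz : ∑ k, m k * c' (q k) = ∑ j, (ρ (cell z c' j)).toReal * c' j := by
    rw [hF (fun _ j => c' j), Finset.sum_comm]
    refine Finset.sum_congr rfl fun j _ => ?_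
    rw [← Finset.sum_mul, hcol]
  have hinT : ∀ x, |⟪T x, e⟫| ≤ R := fun x => by
    calc |⟪T x, e⟫| ≤ ‖T x‖ * ‖e‖ := abs_real_inner_le_norm _ _
      _ ≤ R := by rw [he, mul_one]; exact norm_lagMap_le y c hR x
  have hinS : ∀ x, |⟪S x, e⟫| ≤ R' := fun x => by
    calc |⟪S x, e⟫| ≤ ‖S x‖ * ‖e‖ := abs_real_inner_le_norm _ _
      _ ≤ R' := by rw [he, mul_one]; exact norm_lagMap_le z c' hR' x
  have iT : Integrable (fun x => a x * ⟪T x, e⟫) ρ := by
    refine integrable_of_ae_bound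
      (ham.mul (measurable_lagMap y c).inner_const).aestronglyMeasurable (A * R)
      (Filter.Eventually.of_forall fun x => ?_)
    rw [Real.norm_eq_abs, abs_mul]
    exact mul_le_mul (hA x) (hinT x) (abs_nonneg _) hA0
  have iS : Integrable (fun x => a x * ⟪S x, e⟫) ρ := by
    refine integrable_of_ae_bound
      (ham.mul (measurable_lagMap z c').inner_const).aestronglyMeasurable (A * R')
      (Filter.Eventually.of_forall fun x => ?_)
    rw [Real.norm_eq_abs, abs_mul]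
    exact mul_le_mul (hA x) (hinS x) (abs_nonneg _) hA0
  have hIeq : I = ∫ x, a x * ⟪S x, e⟫ ∂ρ - ∫ x, a x * ⟪T x, e⟫ ∂ρ := by
    rw [hI, ← integral_sub iS iT]
    refine integral_congr_ae (Filter.Eventually.of_forall fun x => ?_)
    simp only [inner_sub_left]; ring
  -- the main inequality for small s
  have key : ∀ s : ℝ, 0 < s → s * L ≤ 1 / 4 →
      s * I ≤ 2 * CP * ε * D * s + Ce * R * A ^ 2 * s ^ 2 := by
    intro s hs hsL
    obtain ⟨g, hgm, hg2, hmap, hgL2⟩ := shear_density hK e he a L ha ha0 s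
      (by rwa [abs_of_pos hs])
    set f : E d → E d := fun x => x + (s * a x) • e with hf
    have hfm : Measurable f := measurable_id.add ((ham.const_mul s).smul_const e)
    have hprobσ : IsProbabilityMeasure (tilt ρ g) := by
      rw [← hmap]; exact Measure.isProbabilityMeasure_map hfm.aemeasurable
    have hσK : ∀ᵐ x ∂(tilt ρ g), ‖x‖ ≤ RK := (tilt_ac_self ρ g).ae_le hρK
    have hfb : ∀ᵐ x ∂ρ, ‖f x‖ ≤ RK + s * A := by
      filter_upwards [hρK] with x hx
      calc ‖f x‖ ≤ ‖x‖ + ‖(s * a x) • e‖ := norm_add_le _ _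
        _ ≤ RK + s * A := by
          rw [norm_smul, he, mul_one, Real.norm_eq_abs, abs_mul, abs_of_pos hs]
          exact add_le_add hx (mul_le_mul_of_nonneg_left (hA x) hs.le)
    have h1 := W_comp_ge ρ hac f hfm hfb q z hz c' m hm0
      (fun j => (hfq j).trans (hcol j)) hcolpos
    have h2 := W_comp_le ρ hρK q hq z c' m hm0 hmsum
    have h3 := W_comp_le (tilt ρ g) hσK p hp y c m hm0 hmsum
    have h4 := W_comp_ge ρ hac id measurable_id (RF := RK) (by simpa using hρK) p y hy c m hm0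
      (fun i => (hfp i).trans (hrow i)) hrowpos
    have h5 := hCP (fun k => y (p k)) (fun k => z (q k)) hYZ m hm hmsum g hgm hg2 hprobσ
    rw [Measure.map_id] at h4
    rw [hmap] at h1
    simp only [id] at h4
    rw [hεeq] at h5
    -- rewrite the pieces
    have e2 := integral_lag_add hac hρK hz c'
    have e4 := integral_lag_add hac hρK hy c
    have e3 : ∫ x, lag y c x ∂(tilt ρ g) = ∫ x, lag y c (f x) ∂ρ := by
      rw [← hmap, integral_map hfm.aemeasurable (measurable_lag y c).aestronglyMeasurable]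
    have ixS : Integrable (fun x => ⟪x, S x⟫) ρ := integrable_inner_lagMap hρK z c'
    have e1 : ∫ x, ⟪f x, S x⟫ ∂ρ = ∫ x, ⟪x, S x⟫ ∂ρ + s * ∫ x, a x * ⟪S x, e⟫ ∂ρ := by
      rw [← integral_const_mul, ← integral_add ixS (iS.const_mul s)]
      refine integral_congr_ae (Filter.Eventually.of_forall fun x => ?_)
      simp only [hf, inner_add_left, inner_smul_left, real_inner_comm (S x) e]
      simp; ring
    have e6 := hCe y c R hR e he a ham A hA s hs.le
    have ilf : Integrable (fun x => lag y c (f x)) ρ := by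
      have : Integrable (lag y c) (Measure.map f ρ) := by
        rw [hmap]; exact integrable_lag hσK y c
      exact (integrable_map_measure (measurable_lag y c).aestronglyMeasurable
        hfm.aemeasurable).1 this
    have il : Integrable (lag y c) ρ := integrable_lag hρK y c
    have e7 : ∫ x, (lag y c (x + (s * a x) • e) - lag y c x) ∂ρ
        = ∫ x, lag y c (f x) ∂ρ - ∫ x, lag y c x ∂ρ := integral_sub ilf il
    -- bound of ‖g‖
    have hg8 : Real.sqrt (∫ x, g x ^ 2 ∂ρ) ≤ 2 * s * D := by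
      have hD2 : 0 ≤ ∫ x, (fderiv ℝ a x e) ^ 2 ∂ρ := integral_nonneg fun x => sq_nonneg _
      calc Real.sqrt (∫ x, g x ^ 2 ∂ρ)
          ≤ Real.sqrt ((2 * s) ^ 2 * ∫ x, (fderiv ℝ a x e) ^ 2 ∂ρ) := by
            apply Real.sqrt_le_sqrt
            refine hgL2.trans ?_
            nlinarith [mul_nonneg (sq_nonneg s) hD2]
        _ = 2 * s * D := by
            rw [Real.sqrt_mul (sq_nonneg _), Real.sqrt_sq (by positivity)]
    have hε0 : 0 ≤ ε := Real.sqrt_nonneg _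
    have h9 : CP * Real.sqrt (∫ x, g x ^ 2 ∂ρ) * ε ≤ CP * (2 * s * D) * ε := by
      gcongr
    rw [hIeq]
    nlinarith [h1, h2, h3, h4, h5, e1, e2, e3, e4, e6, e7, h9, hsy, hsz]
  -- let s → 0
  have hε0 : 0 ≤ ε := Real.sqrt_nonneg _
  have hD0 : 0 ≤ D := Real.sqrt_nonneg _
  have hfin : I ≤ 2 * CP * ε * D := by
    refine le_of_forall_pos_le_add fun δ hδ => ?_
    set M := Ce * R * A ^ 2 with hM
    have hM0 : 0 ≤ M := by positivity
    set s := min (1 / (4 * ((L : ℝ) + 1))) (δ / (M + 1)) with hs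
    have hL0 : (0 : ℝ) ≤ L := L.2
    have hspos : 0 < s := lt_min (by positivity) (by positivity)
    have hs1 : s * L ≤ 1 / 4 := by
      have : s ≤ 1 / (4 * ((L : ℝ) + 1)) := min_le_left _ _
      calc s * L ≤ 1 / (4 * ((L : ℝ) + 1)) * L := by gcongr
        _ ≤ 1 / 4 := by
          rw [div_mul_eq_mul_div, one_mul, div_le_iff₀ (by positivity)]
          linarith
    have hs2 : M * s ≤ δ := by
      have : s ≤ δ / (M + 1) := min_le_right _ _
      calc M * s ≤ M * (δ / (M + 1)) := by gcongr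
        _ ≤ δ := by
          rw [mul_div_assoc', div_le_iff₀ (by positivity)]
          nlinarith
    have := key s hspos hs1
    have h' : s * I ≤ s * (2 * CP * ε * D + δ) := by
      nlinarith [mul_le_mul_of_nonneg_left hs2 hspos.le]
    exact le_of_mul_le_mul_left h' hspos
  exact hfin

end Crest.Agent.OTStab
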