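import Crest.Agent.OTStab.Defs

/-!
# Task D2: the coupling matrix of a rounded coupling

`π` a coupling of the probability measures `μ`, `ν` (both carried by `B(0,R)`), roundings `(y,q)`, `(z,q')` with error `η`.
`P i j = (π (q⁻¹{i} ×ˢ q'⁻¹{j})).toReal`.
* row sums: `∑_j π (q⁻¹ i × q'⁻¹ j) = π (q⁻¹ i × univ) = μ (q⁻¹ i)` (the fibres of `q'` partition the space); same for columns.
* cost: `∑ P i j |y i - z j|² = ∫ |y (q p.1) - z (q' p.2)|² dπ` and π-a.e. `|y (q p.1) - z (q' p.2)| ≤ |p.1 - p.2| + 2η`, `|p.1 - p.2| ≤ 2R`, so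
  `|…|² ≤ |p.1 - p.2|² + 8 R η + 4 η²`.  (`π` is a probability measure; "μ-a.e. p.1" transfers to π via `π.map Prod.fst = μ`.)
-/

set_option autoImplicit false

open MeasureTheory Set
open scoped ENNReal NNReal RealInnerProductSpace
open Crest.AnalysisR.OT

namespace Crest.Agent.OTStab

variable {d : ℕ}

namespace CouplingMatrixAux

theorem isProb (μ ν : Measure (E d)) [IsProbabilityMeasure μ]
    (π : Measure (E d × E d)) (hπ : IsPairCoupling μ ν π) : IsProbabilityMeasure π := by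
  constructor
  have h := hπ.1
  have : (π.map Prod.fst) univ = 1 := by rw [h]; exact measure_univ
  rwa [Measure.map_apply measurable_fst MeasurableSet.univ, preimage_univ] at this

theorem ae_fst (μ ν : Measure (E d)) (π : Measure (E d × E d)) (hπ : IsPairCoupling μ ν π)
    {p : E d → Prop} (h : ∀ᵐ x ∂μ, p x) : ∀ᵐ x ∂π, p x.1 := by
  rw [← hπ.1] at h
  exact ae_of_ae_map measurable_fst.aemeasurable h

theorem ae_snd (μ ν : Measure (E d)) (π : Measure (E d × E d)) (hπ : IsPairCoupling μ ν π)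
    {p : E d → Prop} (h : ∀ᵐ x ∂ν, p x) : ∀ᵐ x ∂π, p x.2 := by
  rw [← hπ.2] at h
  exact ae_of_ae_map measurable_snd.aemeasurable h

theorem ae_norm_le (R : ℝ) (μ : Measure (E d))
    (hμ : IsProbabilityOn (Metric.closedBall (0 : E d) R) μ) : ∀ᵐ x ∂μ, ‖x‖ ≤ R := by
  have h := hμ.2
  rw [← mem_ae_iff] at h
  filter_upwards [h] with x hx
  simpa using hx

theorem ae_dist_le (R : ℝ) (μ ν : Measure (E d))
    (hμ : IsProbabilityOn (Metric.closedBall (0 : E d) R) μ)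
    (hν : IsProbabilityOn (Metric.closedBall (0 : E d) R) ν)
    (π : Measure (E d × E d)) (hπ : IsPairCoupling μ ν π) :
    ∀ᵐ p ∂π, ‖p.1 - p.2‖ ≤ 2 * R := by
  filter_upwards [ae_fst μ ν π hπ (ae_norm_le R μ hμ), ae_snd μ ν π hπ (ae_norm_le R ν hν)]
    with p h1 h2
  calc ‖p.1 - p.2‖ ≤ ‖p.1‖ + ‖p.2‖ := norm_sub_le _ _
    _ ≤ 2 * R := by linarith

theorem integrable_sq (R : ℝ) (μ ν : Measure (E d))
    (hμ : IsProbabilityOn (Metric.closedBall (0 : E d) R) μ)
    (hν : IsProbabilityOn (Metric.closedBall (0 : E d) R) ν)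
    (π : Measure (E d × E d)) (hπ : IsPairCoupling μ ν π) :
    Integrable (fun p : E d × E d => ‖p.1 - p.2‖ ^ 2) π := by
  haveI := hμ.1
  haveI := isProb μ ν π hπ
  refine Integrable.of_bound (C := (2 * R) ^ 2) (by fun_prop) ?_
  filter_upwards [ae_dist_le R μ ν hμ hν π hπ] with p hp
  rw [Real.norm_of_nonneg (by positivity)]
  exact pow_le_pow_left₀ (norm_nonneg _) hp 2

theorem quadCost_toReal (π : Measure (E d × E d)) :
    (quadCost π).toReal = ∫ p, ‖p.1 - p.2‖ ^ 2 ∂π := by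
  rw [integral_eq_lintegral_of_nonneg_ae (Filter.Eventually.of_forall fun p => by positivity)
    (by fun_prop)]
  congr 1
  unfold quadCost
  refine lintegral_congr fun p => ?_
  rw [ENNReal.ofReal_pow (norm_nonneg _), ofReal_norm_eq_enorm]

end CouplingMatrixAux

open CouplingMatrixAux

/-- the cost of a coupling of measures carried by `B(0,R)` is finite (`≤ 4R²`). -/
theorem quadCost_lt_top (R : ℝ) (μ ν : Measure (E d))
    (hμ : IsProbabilityOn (Metric.closedBall (0 : E d) R) μ)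
    (hν : IsProbabilityOn (Metric.closedBall (0 : E d) R) ν)
    (π : Measure (E d × E d)) (hπ : IsPairCoupling μ ν π) : quadCost π < ∞ := by
  haveI := hμ.1
  haveI := isProb μ ν π hπ
  have h := (integrable_sq R μ ν hμ hν π hπ).2
  unfold quadCost
  unfold HasFiniteIntegral at h
  refine lt_of_le_of_lt (le_of_eq ?_) h
  refine lintegral_congr fun p => ?_
  rw [← ofReal_norm_eq_enorm, ← ofReal_norm_eq_enorm, ← ENNReal.ofReal_pow (norm_nonneg _),
    Real.norm_of_nonneg (by positivity)]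

theorem coupling_matrix (R η : ℝ) (hη : 0 ≤ η) (μ ν : Measure (E d))
    (hμ : IsProbabilityOn (Metric.closedBall (0 : E d) R) μ)
    (hν : IsProbabilityOn (Metric.closedBall (0 : E d) R) ν)
    (π : Measure (E d × E d)) (hπ : IsPairCoupling μ ν π)
    {ι κ : Type} [Fintype ι] [Fintype κ] (y : ι → E d) (z : κ → E d) (q : E d → ι) (q' : E d → κ)
    (hq : ∀ i, MeasurableSet (q ⁻¹' {i})) (hq' : ∀ j, MeasurableSet (q' ⁻¹' {j}))
    (hqη : ∀ᵐ p ∂μ, ‖y (q p) - p‖ ≤ η) (hqη' : ∀ᵐ p ∂ν, ‖z (q' p) - p‖ ≤ η) :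
    ∃ P : ι → κ → ℝ, (∀ i j, 0 ≤ P i j) ∧ (∀ i, ∑ j, P i j = (μ (q ⁻¹' {i})).toReal) ∧
      (∀ j, ∑ i, P i j = (ν (q' ⁻¹' {j})).toReal) ∧
      ∑ i, ∑ j, P i j * ‖y i - z j‖ ^ 2 ≤ (quadCost π).toReal + (8 * R * η + 4 * η ^ 2) := by
  classical
  haveI := hμ.1
  haveI := hν.1
  haveI := isProb μ ν π hπ
  have hms : ∀ i j, MeasurableSet ((q ⁻¹' {i}) ×ˢ (q' ⁻¹' {j})) := fun i j => (hq i).prod (hq' j)
  have hm1 : ∀ i, MeasurableSet ((fun p : E d × E d => q p.1) ⁻¹' {i}) := fun i =>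
    measurable_fst (hq i)
  have hm2 : ∀ j, MeasurableSet ((fun p : E d × E d => q' p.2) ⁻¹' {j}) := fun j =>
    measurable_snd (hq' j)
  refine ⟨fun i j => (π ((q ⁻¹' {i}) ×ˢ (q' ⁻¹' {j}))).toReal, fun i j => ENNReal.toReal_nonneg,
    fun i => ?_, fun j => ?_, ?_⟩
  · -- row sums
    rw [← ENNReal.toReal_sum (fun j _ => measure_ne_top _ _)]
    congr 1
    have h1 : ∀ j, π ((q ⁻¹' {i}) ×ˢ (q' ⁻¹' {j}))
        = (π.restrict (Prod.fst ⁻¹' (q ⁻¹' {i}))) ((fun p : E d × E d => q' p.2) ⁻¹' {j}) := by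
      intro j
      rw [Measure.restrict_apply (hm2 j)]
      congr 1
      ext p
      simp [and_comm]
    simp_rw [h1]
    rw [sum_measure_preimage_singleton Finset.univ (fun j _ => hm2 j)]
    rw [Finset.coe_univ, preimage_univ, Measure.restrict_apply MeasurableSet.univ, univ_inter,
      ← Measure.map_apply measurable_fst (hq i), hπ.1]
  · -- column sums
    rw [← ENNReal.toReal_sum (fun i _ => measure_ne_top _ _)]
    congr 1
    have h1 : ∀ i, π ((q ⁻¹' {i}) ×ˢ (q' ⁻¹' {j}))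
        = (π.restrict (Prod.snd ⁻¹' (q' ⁻¹' {j}))) ((fun p : E d × E d => q p.1) ⁻¹' {i}) := by
      intro i
      rw [Measure.restrict_apply (hm1 i)]
      congr 1
    simp_rw [h1]
    rw [sum_measure_preimage_singleton Finset.univ (fun i _ => hm1 i)]
    rw [Finset.coe_univ, preimage_univ, Measure.restrict_apply MeasurableSet.univ, univ_inter,
      ← Measure.map_apply measurable_snd (hq' j), hπ.2]
  · -- cost
    set K : ℝ := 8 * R * η + 4 * η ^ 2 with hK
    set g : E d × E d → ℝ := fun p => ‖p.1 - p.2‖ ^ 2 + K with hg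
    have hgi : Integrable g π := (integrable_sq R μ ν hμ hν π hπ).add (integrable_const K)
    have hae : ∀ᵐ p ∂π, ‖y (q p.1) - z (q' p.2)‖ ^ 2 ≤ g p := by
      filter_upwards [ae_dist_le R μ ν hμ hν π hπ, ae_fst μ ν π hπ hqη, ae_snd μ ν π hπ hqη']
        with p h0 h1 h2
      have h3 : ‖y (q p.1) - z (q' p.2)‖ ≤ ‖p.1 - p.2‖ + 2 * η := by
        have : y (q p.1) - z (q' p.2) = (y (q p.1) - p.1) + (p.1 - p.2) - (z (q' p.2) - p.2) := by
          abel
        rw [this]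
        calc _ ≤ ‖(y (q p.1) - p.1) + (p.1 - p.2)‖ + ‖z (q' p.2) - p.2‖ := norm_sub_le _ _
          _ ≤ ‖y (q p.1) - p.1‖ + ‖p.1 - p.2‖ + ‖z (q' p.2) - p.2‖ := by
              gcongr; exact norm_add_le _ _
          _ ≤ _ := by linarith
      have h4 : ‖y (q p.1) - z (q' p.2)‖ ^ 2 ≤ (‖p.1 - p.2‖ + 2 * η) ^ 2 :=
        pow_le_pow_left₀ (norm_nonneg _) h3 2
      have h5 : ‖p.1 - p.2‖ * η ≤ 2 * R * η := mul_le_mul_of_nonneg_right h0 hη
      simp only [hg, hK]
      nlinarith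
    have hterm : ∀ i j, (π ((q ⁻¹' {i}) ×ˢ (q' ⁻¹' {j}))).toReal * ‖y i - z j‖ ^ 2
        ≤ ∫ p in (q ⁻¹' {i}) ×ˢ (q' ⁻¹' {j}), g p ∂π := by
      intro i j
      have : (π ((q ⁻¹' {i}) ×ˢ (q' ⁻¹' {j}))).toReal * ‖y i - z j‖ ^ 2
          = ∫ _p in (q ⁻¹' {i}) ×ˢ (q' ⁻¹' {j}), ‖y i - z j‖ ^ 2 ∂π := by
        rw [setIntegral_const, smul_eq_mul]; rfl
      rw [this]
      refine setIntegral_mono_on_ae (integrable_const _).integrableOn hgi.integrableOn (hms i j) ?_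
      filter_upwards [hae] with p hp hmem
      obtain ⟨h1, h2⟩ := hmem
      simp only [mem_preimage, mem_singleton_iff] at h1 h2
      rw [h1, h2] at hp
      exact hp
    calc ∑ i, ∑ j, (π ((q ⁻¹' {i}) ×ˢ (q' ⁻¹' {j}))).toReal * ‖y i - z j‖ ^ 2
        ≤ ∑ i, ∑ j, ∫ p in (q ⁻¹' {i}) ×ˢ (q' ⁻¹' {j}), g p ∂π :=
          Finset.sum_le_sum fun i _ => Finset.sum_le_sum fun j _ => hterm i j
      _ = ∑ k : ι × κ, ∫ p in (q ⁻¹' {k.1}) ×ˢ (q' ⁻¹' {k.2}), g p ∂π := by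
          rw [Fintype.sum_prod_type]
      _ = ∫ p in ⋃ k : ι × κ, (q ⁻¹' {k.1}) ×ˢ (q' ⁻¹' {k.2}), g p ∂π := by
          rw [integral_iUnion_fintype (s := fun k : ι × κ => (q ⁻¹' {k.1}) ×ˢ (q' ⁻¹' {k.2}))
            (fun k => hms k.1 k.2) ?_ (fun k => hgi.integrableOn)]
          intro k l hkl
          rw [Function.onFun, Set.disjoint_left]
          rintro p ⟨h1, h2⟩ ⟨h3, h4⟩
          simp only [mem_preimage, mem_singleton_iff] at h1 h2 h3 h4
          exact hkl (Prod.ext (h1.symm.trans h3) (h2.symm.trans h4))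
      _ = ∫ p, g p ∂π := by
          have : (⋃ k : ι × κ, (q ⁻¹' {k.1}) ×ˢ (q' ⁻¹' {k.2})) = univ := by
            ext p
            simp only [mem_iUnion, mem_univ, iff_true]
            exact ⟨(q p.1, q' p.2), by simp⟩
          rw [this, Measure.restrict_univ]
      _ = (quadCost π).toReal + K := by
          rw [quadCost_toReal, hg, integral_add (integrable_sq R μ ν hμ hν π hπ)
            (integrable_const K)]
          simp

end Crest.Agent.OTStab
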