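import Crest.Agent.OTStab.CellAE

/-!
# Task E1: the cube, the three points and their Laguerre cells (for S0110)

`cube d = [-1,1]^d`, `pts h = ((-1,0,0..), (0,h,0..), (1,0,0..))`, weights `0`.  With `x0 = x ⟨0,_⟩`, `x1 = x ⟨1,_⟩`:
`⟪x, pts h 0⟫ = -x0`, `⟪x, pts h 1⟫ = h x1`, `⟪x, pts h 2⟫ = x0`; so `cell 1 = {|x0| ≤ h x1}`.
* `mass_symm`: the reflection `x1 ↦ -x1` is a linear isometry (volume preserving: `LinearIsometryEquiv.measurePreserving`), maps the cube onto itself and `cell (pts (-h)) 0 k` onto `cell (pts h) 0 k`.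
* `mass_mid_ge`: `cell 1 ∩ cube ⊇ {x ∈ cube | 1/2 ≤ x1, |x0| ≤ h/2}`, of relative volume `(1/4)(h/2) = h/8`
  (`EuclideanSpace.volume_preserving_measurableEquiv` / `volume_preserving_toLp`, `Real.volume_pi_Icc`-type computations; or: the linear map `x0 ↦ h x0` maps
  `cell (pts 1) 0 1 ∩ cube` onto `cell (pts h) 0 1 ∩ cube`, determinant `h`, plus a lower bound `1/8` at `h = 1`).
* `mass_pos`: for `k = 0, 2` the cell contains `{x ∈ cube | x0 ≤ -1/2·…}`, e.g. a small ball around `(∓3/4, 0, …)` intersected … any open subset of the cube has positive volume.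
* `dist_ge_on_mid`: a.e. `x ∈ cell (pts h) 0 1` has `lagMap (pts h) 0 x = pts h 1 = (0,h)`; if `lagIdx (pts (-h)) 0 x = 1` then `|x0| ≤ -h x1` and `|x0| ≤ h x1`, so `x0 = 0` (null hyperplane);
  otherwise `lagMap (pts (-h)) 0 x = (∓1, 0)` and the distance is `√(1+h²) ≥ 1`.
-/

set_option autoImplicit false

open MeasureTheory Set
open scoped ENNReal NNReal RealInnerProductSpace
open Crest.AnalysisR.OT

namespace Crest.Agent.OTStab

/-- the cube `[-1,1]^d`. -/
def cube (d : ℕ) : Set (E d) := {x | ∀ i, |x i| ≤ 1}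

theorem cube_abs_apply_le_norm {d : ℕ} (x : E d) (i : Fin d) : |x i| ≤ ‖x‖ := by
  have := PiLp.norm_apply_le (p := 2) x i
  simpa using this

theorem cube_isClosed (d : ℕ) : IsClosed (cube d) := by
  have : cube d = ⋂ i, {x : E d | |x i| ≤ 1} := by
    ext x; simp [cube]
  rw [this]
  refine isClosed_iInter fun i => ?_
  exact isClosed_le (by fun_prop) continuous_const

theorem cube_norm_le {d : ℕ} {x : E d} (hx : x ∈ cube d) : ‖x‖ ≤ Real.sqrt d := by
  rw [EuclideanSpace.norm_eq]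
  apply Real.sqrt_le_sqrt
  calc ∑ i, ‖x i‖ ^ 2 ≤ ∑ _i : Fin d, (1 : ℝ) := by
        refine Finset.sum_le_sum fun i _ => ?_
        have h := hx i
        rw [Real.norm_eq_abs]
        have h0 := abs_nonneg (x i)
        nlinarith
    _ = d := by simp

theorem cube_body (d : ℕ) : Body (cube d) := by
  refine ⟨?_, ?_, ?_⟩
  · refine Metric.isCompact_of_isClosed_isBounded (cube_isClosed d) ?_
    exact isBounded_iff_forall_norm_le.2 ⟨Real.sqrt d, fun x hx => cube_norm_le hx⟩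
  · intro x hx y hy a b ha hb hab i
    have h1 : (a • x + b • y) i = a * x i + b * y i := by simp
    rw [h1]
    calc |a * x i + b * y i| ≤ |a * x i| + |b * y i| := abs_add_le _ _
      _ = a * |x i| + b * |y i| := by rw [abs_mul, abs_mul, abs_of_nonneg ha, abs_of_nonneg hb]
      _ ≤ a * 1 + b * 1 := by
        gcongr
        · exact hx i
        · exact hy i
      _ = 1 := by linarith
  · refine ⟨0, ?_⟩
    rw [mem_interior]
    refine ⟨Metric.ball 0 1, ?_, Metric.isOpen_ball, Metric.mem_ball_self one_pos⟩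
    intro x hx i
    rw [mem_ball_zero_iff] at hx
    exact (cube_abs_apply_le_norm x i).trans hx.le

variable {d : ℕ}

/-- the three points `(-1,0,…)`, `(0,h,0,…)`, `(1,0,…)`. -/
noncomputable def pts (hd : 2 ≤ d) (h : ℝ) : Fin 3 → E d :=
  ![-(EuclideanSpace.single (⟨0, by omega⟩ : Fin d) (1 : ℝ)),
    EuclideanSpace.single (⟨1, by omega⟩ : Fin d) h,
    EuclideanSpace.single (⟨0, by omega⟩ : Fin d) (1 : ℝ)]

theorem pts_zero_eq (hd : 2 ≤ d) (h : ℝ) :
    pts hd h 0 = -(EuclideanSpace.single (⟨0, by omega⟩ : Fin d) (1 : ℝ)) := rfl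

theorem pts_one_eq (hd : 2 ≤ d) (h : ℝ) :
    pts hd h 1 = EuclideanSpace.single (⟨1, by omega⟩ : Fin d) h := rfl

theorem pts_two_eq (hd : 2 ≤ d) (h : ℝ) :
    pts hd h 2 = EuclideanSpace.single (⟨0, by omega⟩ : Fin d) (1 : ℝ) := rfl

theorem cube_idx_ne (hd : 2 ≤ d) : (⟨0, by omega⟩ : Fin d) ≠ ⟨1, by omega⟩ := by
  intro h
  simp [Fin.ext_iff] at h

theorem pts_zero_apply_zero (hd : 2 ≤ d) (h : ℝ) : pts hd h 0 ⟨0, by omega⟩ = -1 := by
  simp [pts_zero_eq]

theorem pts_one_apply_zero (hd : 2 ≤ d) (h : ℝ) : pts hd h 1 ⟨0, by omega⟩ = 0 := by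
  simp [pts_one_eq, Fin.ext_iff]

theorem pts_two_apply_zero (hd : 2 ≤ d) (h : ℝ) : pts hd h 2 ⟨0, by omega⟩ = 1 := by
  simp [pts_two_eq]

theorem inner_pts_zero (hd : 2 ≤ d) (h : ℝ) (x : E d) : ⟪x, pts hd h 0⟫ = - x ⟨0, by omega⟩ := by
  rw [pts_zero_eq, inner_neg_right, EuclideanSpace.inner_single_right]
  simp

theorem inner_pts_one (hd : 2 ≤ d) (h : ℝ) (x : E d) : ⟪x, pts hd h 1⟫ = h * x ⟨1, by omega⟩ := by
  rw [pts_one_eq, EuclideanSpace.inner_single_right]
  simp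

theorem inner_pts_two (hd : 2 ≤ d) (h : ℝ) (x : E d) : ⟪x, pts hd h 2⟫ = x ⟨0, by omega⟩ := by
  rw [pts_two_eq, EuclideanSpace.inner_single_right]
  simp

theorem pts_injective (hd : 2 ≤ d) (h : ℝ) : Function.Injective (pts hd h) := by
  intro k l hkl
  have h0 := congrArg (fun v : E d => v ⟨0, by omega⟩) hkl
  simp only at h0
  fin_cases k <;> fin_cases l <;> first | rfl | (exfalso; revert h0; simp only [Fin.zero_eta, Fin.mk_one, Fin.reduceFinMk, pts_zero_apply_zero, pts_one_apply_zero, pts_two_apply_zero]; norm_num)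

theorem pts_mem_cube (hd : 2 ≤ d) {h : ℝ} (hh : |h| ≤ 1) (k : Fin 3) : pts hd h k ∈ cube d := by
  intro i
  fin_cases k
  · show |pts hd h 0 i| ≤ 1
    rw [pts_zero_eq]
    by_cases hi : i = ⟨0, by omega⟩ <;> simp [hi]
  · show |pts hd h 1 i| ≤ 1
    rw [pts_one_eq]
    by_cases hi : i = ⟨1, by omega⟩ <;> simp [hi, hh]
  · show |pts hd h 2 i| ≤ 1
    rw [pts_two_eq]
    by_cases hi : i = ⟨0, by omega⟩ <;> simp [hi]

theorem pts_neg_zero (hd : 2 ≤ d) (h : ℝ) : pts hd (-h) 0 = pts hd h 0 := rfl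

theorem pts_neg_two (hd : 2 ≤ d) (h : ℝ) : pts hd (-h) 2 = pts hd h 2 := rfl

theorem norm_pts_sub (hd : 2 ≤ d) (h : ℝ) : ‖pts hd h 1 - pts hd (-h) 1‖ = 2 * |h| := by
  have : pts hd h 1 - pts hd (-h) 1 = EuclideanSpace.single (⟨1, by omega⟩ : Fin d) (2 * h) := by
    rw [pts_one_eq, pts_one_eq]
    ext i
    by_cases hi : i = ⟨1, by omega⟩ <;> simp [hi]
    ring
  rw [this]
  simp

theorem mem_cell_iff3 (hd : 2 ≤ d) (h : ℝ) (x : E d) (k : Fin 3) :
    x ∈ cell (pts hd h) (fun _ => 0) k ↔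
      (- x ⟨0, by omega⟩ ≤ ⟪x, pts hd h k⟫ ∧ h * x ⟨1, by omega⟩ ≤ ⟪x, pts hd h k⟫ ∧
        x ⟨0, by omega⟩ ≤ ⟪x, pts hd h k⟫) := by
  constructor
  · intro H
    have H0 := H 0
    have H1 := H 1
    have H2 := H 2
    rw [inner_pts_zero, sub_zero, sub_zero] at H0
    rw [inner_pts_one, sub_zero, sub_zero] at H1
    rw [inner_pts_two, sub_zero, sub_zero] at H2
    exact ⟨H0, H1, H2⟩
  · rintro ⟨H0, H1, H2⟩ l
    rw [sub_zero, sub_zero]
    fin_cases l
    · show ⟪x, pts hd h 0⟫ ≤ _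
      rw [inner_pts_zero]; exact H0
    · show ⟪x, pts hd h 1⟫ ≤ _
      rw [inner_pts_one]; exact H1
    · show ⟪x, pts hd h 2⟫ ≤ _
      rw [inner_pts_two]; exact H2

theorem mem_cell_mid (hd : 2 ≤ d) (h : ℝ) (x : E d) :
    x ∈ cell (pts hd h) (fun _ => 0) 1 ↔ |x ⟨0, by omega⟩| ≤ h * x ⟨1, by omega⟩ := by
  rw [mem_cell_iff3, inner_pts_one, abs_le]
  constructor
  · rintro ⟨H0, -, H2⟩
    exact ⟨by linarith, H2⟩
  · rintro ⟨H0, H2⟩
    exact ⟨by linarith, le_refl _, H2⟩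

/-- the reflection `x1 ↦ -x1`. -/
noncomputable def cubeRefl (hd : 2 ≤ d) : E d ≃ₗᵢ[ℝ] E d :=
  LinearIsometryEquiv.piLpCongrRight 2 (fun i : Fin d =>
    if i = (⟨1, by omega⟩ : Fin d) then LinearIsometryEquiv.neg ℝ else LinearIsometryEquiv.refl ℝ ℝ)

theorem cubeRefl_apply_one (hd : 2 ≤ d) (x : E d) :
    cubeRefl hd x ⟨1, by omega⟩ = - x ⟨1, by omega⟩ := by
  simp [cubeRefl]

theorem cubeRefl_apply_of_ne (hd : 2 ≤ d) (x : E d) {i : Fin d} (hi : i ≠ ⟨1, by omega⟩) :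
    cubeRefl hd x i = x i := by
  simp [cubeRefl, hi]

theorem cubeRefl_abs_apply (hd : 2 ≤ d) (x : E d) (i : Fin d) : |cubeRefl hd x i| = |x i| := by
  by_cases hi : i = ⟨1, by omega⟩
  · subst hi
    rw [cubeRefl_apply_one, abs_neg]
  · rw [cubeRefl_apply_of_ne hd x hi]

theorem cubeRefl_mem_cube_iff (hd : 2 ≤ d) (x : E d) : cubeRefl hd x ∈ cube d ↔ x ∈ cube d := by
  simp only [cube, mem_ofPred_eq, cubeRefl_abs_apply]

theorem inner_cubeRefl_pts (hd : 2 ≤ d) (h : ℝ) (x : E d) (k : Fin 3) :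
    ⟪cubeRefl hd x, pts hd h k⟫ = ⟪x, pts hd (-h) k⟫ := by
  fin_cases k
  · show ⟪cubeRefl hd x, pts hd h 0⟫ = ⟪x, pts hd (-h) 0⟫
    rw [inner_pts_zero, inner_pts_zero, cubeRefl_apply_of_ne hd x (cube_idx_ne hd)]
  · show ⟪cubeRefl hd x, pts hd h 1⟫ = ⟪x, pts hd (-h) 1⟫
    rw [inner_pts_one, inner_pts_one, cubeRefl_apply_one]
    ring
  · show ⟪cubeRefl hd x, pts hd h 2⟫ = ⟪x, pts hd (-h) 2⟫
    rw [inner_pts_two, inner_pts_two, cubeRefl_apply_of_ne hd x (cube_idx_ne hd)]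

theorem cubeRefl_mem_cell_iff (hd : 2 ≤ d) (h : ℝ) (x : E d) (k : Fin 3) :
    cubeRefl hd x ∈ cell (pts hd h) (fun _ => 0) k ↔ x ∈ cell (pts hd (-h)) (fun _ => 0) k := by
  simp only [cell, mem_ofPred_eq, inner_cubeRefl_pts]

theorem mass_symm (hd : 2 ≤ d) (h : ℝ) (k : Fin 3) :
    uniformProbOn (cube d) (cell (pts hd (-h)) (fun _ => 0) k)
      = uniformProbOn (cube d) (cell (pts hd h) (fun _ => 0) k) := by
  rw [unif_apply _ _ (measurableSet_cell _ _ _), unif_apply _ _ (measurableSet_cell _ _ _)]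
  congr 1
  have hmp : MeasurePreserving (cubeRefl hd) volume volume := (cubeRefl hd).measurePreserving
  have hset : cell (pts hd (-h)) (fun _ => 0) k ∩ cube d
      = cubeRefl hd ⁻¹' (cell (pts hd h) (fun _ => 0) k ∩ cube d) := by
    ext x
    simp only [mem_inter_iff, mem_preimage, cubeRefl_mem_cell_iff, cubeRefl_mem_cube_iff]
  rw [hset, hmp.measure_preimage
    ((measurableSet_cell _ _ _).inter (cube_body d).measurableSet).nullMeasurableSet]

/-- volume of a box. -/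
theorem cube_volume_box (a b : Fin d → ℝ) :
    (volume : Measure (E d)) {x | ∀ i, a i ≤ x i ∧ x i ≤ b i} = ∏ i, ENNReal.ofReal (b i - a i) := by
  have hset : {x : E d | ∀ i, a i ≤ x i ∧ x i ≤ b i} = (@WithLp.ofLp 2 (Fin d → ℝ)) ⁻¹' (Icc a b) := by
    ext x
    simp only [mem_ofPred_eq, mem_preimage, mem_Icc, Pi.le_def]
    exact forall_and
  rw [hset, (PiLp.volume_preserving_ofLp (Fin d)).measure_preimage
    measurableSet_Icc.nullMeasurableSet, Real.volume_Icc_pi]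

theorem cube_volume (d : ℕ) : (volume : Measure (E d)) (cube d) = ∏ _i : Fin d, ENNReal.ofReal 2 := by
  have hset : cube d = {x : E d | ∀ i, (fun _ => (-1 : ℝ)) i ≤ x i ∧ x i ≤ (fun _ => (1 : ℝ)) i} := by
    ext x
    simp only [cube, mem_ofPred_eq, abs_le]
  rw [hset, cube_volume_box]
  norm_num

theorem cube_unif_ge_box {A : Set (E d)} (hA : MeasurableSet A) (a b : Fin d → ℝ)
    (hsub : {x : E d | ∀ i, a i ≤ x i ∧ x i ≤ b i} ⊆ A ∩ cube d) :
    (volume (cube d))⁻¹ * ∏ i, ENNReal.ofReal (b i - a i) ≤ uniformProbOn (cube d) A := by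
  rw [unif_apply _ _ hA, ← cube_volume_box]
  exact mul_le_mul_right (measure_mono hsub) _

theorem cube_unif_pos_of_box {A : Set (E d)} (hA : MeasurableSet A) (a b : Fin d → ℝ)
    (hab : ∀ i, a i < b i)
    (hsub : {x : E d | ∀ i, a i ≤ x i ∧ x i ≤ b i} ⊆ A ∩ cube d) :
    0 < uniformProbOn (cube d) A := by
  refine lt_of_lt_of_le ?_ (cube_unif_ge_box hA a b hsub)
  refine ENNReal.mul_pos (ENNReal.inv_ne_zero.2 (cube_body d).volume_lt_top.ne) ?_
  rw [Finset.prod_ne_zero_iff]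
  intro i _
  exact (ENNReal.ofReal_pos.2 (sub_pos.2 (hab i))).ne'

theorem mass_mid_ge (hd : 2 ≤ d) {h : ℝ} (h0 : 0 < h) (h1 : h ≤ 1) :
    ENNReal.ofReal (h / 8) ≤ uniformProbOn (cube d) (cell (pts hd h) (fun _ => 0) 1) := by
  set i0 : Fin d := ⟨0, by omega⟩ with hi0
  set i1 : Fin d := ⟨1, by omega⟩ with hi1
  have hne : i0 ≠ i1 := cube_idx_ne hd
  let a : Fin d → ℝ := fun i => if i = i0 then -(h / 2) else if i = i1 then 1 / 2 else -1
  let b : Fin d → ℝ := fun i => if i = i0 then h / 2 else 1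
  let r : Fin d → ℝ := fun i => if i = i0 then h / 2 else if i = i1 then 1 / 4 else 1
  have hr0 : ∀ i, 0 ≤ r i := by
    intro i
    simp only [r]
    split_ifs <;> linarith
  have hbar : ∀ i, b i - a i = 2 * r i := by
    intro i
    simp only [a, b, r]
    split_ifs <;> ring
  have hsub : {x : E d | ∀ i, a i ≤ x i ∧ x i ≤ b i} ⊆ cell (pts hd h) (fun _ => 0) 1 ∩ cube d := by
    intro x hx
    refine ⟨?_, ?_⟩
    · rw [mem_cell_mid]
      have hx0 := hx i0
      have hx1 := hx i1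
      simp only [a, b, if_true, if_neg hne.symm] at hx0 hx1
      rw [abs_le]
      have : h / 2 ≤ h * x i1 := by nlinarith [hx1.1]
      exact ⟨by linarith [hx0.1], by linarith [hx0.2]⟩
    · intro i
      have hxi := hx i
      simp only [a, b] at hxi
      rw [abs_le]
      split_ifs at hxi <;> constructor <;> linarith [hxi.1, hxi.2]
  have hprod : ∏ i, r i = h / 8 := by
    rw [Finset.prod_eq_mul i0 i1 hne]
    · simp only [r, if_true, if_neg hne.symm]
      ring
    · intro c _ hc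
      simp only [r, if_neg hc.1, if_neg hc.2]
    · intro hh; exact absurd (Finset.mem_univ _) hh
    · intro hh; exact absurd (Finset.mem_univ _) hh
  refine le_trans (le_of_eq ?_) (cube_unif_ge_box (measurableSet_cell _ _ _) a b hsub)
  have e1 : ∏ i, ENNReal.ofReal (b i - a i)
      = (∏ _i : Fin d, ENNReal.ofReal 2) * ENNReal.ofReal (h / 8) := by
    rw [← hprod, ENNReal.ofReal_prod_of_nonneg (fun i _ => hr0 i), ← Finset.prod_mul_distrib]
    refine Finset.prod_congr rfl fun i _ => ?_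
    rw [hbar i, ENNReal.ofReal_mul (by norm_num)]
  rw [e1, ← cube_volume, ← mul_assoc,
    ENNReal.inv_mul_cancel (cube_body d).volume_pos.ne' (cube_body d).volume_lt_top.ne, one_mul]

theorem mass_pos (hd : 2 ≤ d) {h : ℝ} (h0 : 0 < h) (h1 : h ≤ 1) (k : Fin 3) :
    0 < uniformProbOn (cube d) (cell (pts hd h) (fun _ => 0) k) := by
  set i0 : Fin d := ⟨0, by omega⟩ with hi0
  set i1 : Fin d := ⟨1, by omega⟩ with hi1
  have hne : i0 ≠ i1 := cube_idx_ne hd
  fin_cases k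
  · show 0 < uniformProbOn (cube d) (cell (pts hd h) (fun _ => 0) 0)
    refine cube_unif_pos_of_box (measurableSet_cell _ _ _)
      (fun i => if i = i0 then -1 else -(1 / 2)) (fun i => if i = i0 then -(1 / 2) else 1 / 2) ?_ ?_
    · intro i
      split_ifs <;> norm_num
    · intro x hx
      refine ⟨?_, ?_⟩
      · rw [mem_cell_iff3, inner_pts_zero]
        have hx0 := hx i0
        have hx1 := hx i1
        simp only [if_true, if_neg hne.symm] at hx0 hx1
        refine ⟨le_refl _, ?_, by linarith [hx0.2]⟩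
        have : h * x i1 ≤ 1 / 2 := by nlinarith [hx1.1, hx1.2]
        linarith [hx0.2]
      · intro i
        have hxi := hx i
        simp only at hxi
        rw [abs_le]
        split_ifs at hxi <;> constructor <;> linarith [hxi.1, hxi.2]
  · show 0 < uniformProbOn (cube d) (cell (pts hd h) (fun _ => 0) 1)
    exact lt_of_lt_of_le (ENNReal.ofReal_pos.2 (by positivity)) (mass_mid_ge hd h0 h1)
  · show 0 < uniformProbOn (cube d) (cell (pts hd h) (fun _ => 0) 2)
    refine cube_unif_pos_of_box (measurableSet_cell _ _ _)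
      (fun i => if i = i0 then 1 / 2 else -(1 / 2)) (fun i => if i = i0 then 1 else 1 / 2) ?_ ?_
    · intro i
      split_ifs <;> norm_num
    · intro x hx
      refine ⟨?_, ?_⟩
      · rw [mem_cell_iff3, inner_pts_two]
        have hx0 := hx i0
        have hx1 := hx i1
        simp only [if_true, if_neg hne.symm] at hx0 hx1
        refine ⟨by linarith [hx0.1], ?_, le_refl _⟩
        have : h * x i1 ≤ 1 / 2 := by nlinarith [hx1.1, hx1.2]
        linarith [hx0.1]
      · intro i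
        have hxi := hx i
        simp only at hxi
        rw [abs_le]
        split_ifs at hxi <;> constructor <;> linarith [hxi.1, hxi.2]

theorem cube_ae_apply_zero_ne (hd : 2 ≤ d) :
    ∀ᵐ x ∂(uniformProbOn (cube d)), x ⟨0, by omega⟩ ≠ 0 := by
  have hv : pts hd 0 2 ≠ 0 := by
    intro hh
    have := congrArg (fun v : E d => v ⟨0, by omega⟩) hh
    simp only [pts_two_apply_zero] at this
    simp at this
  have h0 := volume_hyperplane hv 0
  have h1 : uniformProbOn (cube d) {x | ⟪x, pts hd 0 2⟫ = 0} = 0 := unif_ac _ h0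
  filter_upwards [measure_eq_zero_iff_ae_notMem.1 h1] with x hx hx0
  apply hx
  show ⟪x, pts hd 0 2⟫ = 0
  rw [inner_pts_two]
  exact hx0

theorem dist_ge_on_mid (hd : 2 ≤ d) {h : ℝ} (h0 : 0 < h) :
    ∀ᵐ x ∂(uniformProbOn (cube d)), x ∈ cell (pts hd h) (fun _ => 0) 1 →
      1 ≤ ‖lagMap (pts hd h) (fun _ => 0) x - lagMap (pts hd (-h)) (fun _ => 0) x‖ := by
  filter_upwards [ae_mem_cell_iff (unif_ac (cube d)) (pts_injective hd h) (fun _ => 0),
    cube_ae_apply_zero_ne hd] with x hx hne hmem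
  have hidx : lagIdx (pts hd h) (fun _ => 0) x = 1 := (hx 1).1 hmem
  have hmap : lagMap (pts hd h) (fun _ => 0) x = pts hd h 1 := by
    unfold lagMap
    rw [hidx]
  rw [hmap]
  have hj : x ∈ cell (pts hd (-h)) (fun _ => 0) (lagIdx (pts hd (-h)) (fun _ => 0) x) :=
    lagIdx_mem _ _ x
  unfold lagMap
  generalize lagIdx (pts hd (-h)) (fun _ => 0) x = j at hj
  refine le_trans ?_ (cube_abs_apply_le_norm _ ⟨0, by omega⟩)
  have hsub : (pts hd h 1 - pts hd (-h) j) ⟨0, by omega⟩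
      = pts hd h 1 ⟨0, by omega⟩ - pts hd (-h) j ⟨0, by omega⟩ := rfl
  rw [hsub, pts_one_apply_zero]
  fin_cases j
  · show 1 ≤ |0 - pts hd (-h) 0 ⟨0, by omega⟩|
    rw [pts_zero_apply_zero]
    norm_num
  · exfalso
    have hj' : x ∈ cell (pts hd (-h)) (fun _ => 0) 1 := hj
    rw [mem_cell_mid] at hj' hmem
    have : |x ⟨0, by omega⟩| ≤ 0 := by linarith
    exact hne (abs_nonpos_iff.1 this)
  · show 1 ≤ |0 - pts hd (-h) 2 ⟨0, by omega⟩|
    rw [pts_two_apply_zero]
    norm_num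

end Crest.Agent.OTStab
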