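import Crest.Agent.OTStab.Swap

/-!
# Task X2: a Monge-optimal map is cyclically monotone on a set of full measure

`‖T x‖ ≤ R` for ρ-a.e. `x` because `ρ.map T = μ` and `μ (closedBall 0 R)ᶜ = 0`.
`T' = indicator (K ∩ {‖T‖ ≤ R}) T` is bounded and measurable, hence locally integrable.
`G` = set of `x ∈ interior K` with `‖T x‖ ≤ R` that satisfy, for every `N : ℕ`, the conclusion of
`IsUnifLocDoublingMeasure.ae_tendsto_average_norm_sub` (for `f = T'`, `μ = volume`, constant `K = N`): off-centre closed balls are allowed there.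
`G` has full `ρ`-measure (`Body.ae_mem_interior`, `unif_ac`, `ae_all_iff`).

Let `x 0, …, x n = x 0` in `G`.  (If `d = 0` everything is trivial.)  Fix a unit vector `e`; for `r > 0` put `p_r i = x i + (r * (i % n)) • e` (so `p_r n = p_r 0`),
balls `B_i = closedBall (p_r i) (r/3)`, `i < n`.  For small `r`: `B_i ⊆ K` (`x i ∈ interior K`); the balls are disjoint (if `x i ≠ x j`, they are far apart for small `r`;
if `x i = x j`, the centres are at distance `r |i - j| ≥ r > 2r/3`).  `swap_ineq` and division by the common volume of the balls: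
`∑_i ⟪p_r (i+1) - p_r i, ⨍_{B_i} T⟫ ≤ 0`.  As `r → 0+`: `p_r i → x i`, and `⨍_{B_i} T → T (x i)` since `x i ∈ closedBall (p_r i) (3 n * (r/3))`
and `‖⨍_{B_i} T - T (x i)‖ ≤ ⨍_{B_i} ‖T' - T' (x i)‖ → 0` (`T = T'` a.e. on `K`, and at `x i`).  Pass to the limit.
-/

set_option autoImplicit false

open MeasureTheory Set Filter
open scoped ENNReal NNReal RealInnerProductSpace Topology
open Crest.AnalysisR.OT

namespace Crest.Agent.OTStab

variable {d : ℕ} {K : Set (E d)}

theorem ae_norm_le_of_optimal (μ : Measure (E d)) (R : ℝ)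
    (hμ : IsProbabilityOn (Metric.closedBall (0 : E d) R) μ) (ρ : Measure (E d)) (T : E d → E d)
    (hT : IsOptimalMap ρ μ T) : ∀ᵐ x ∂ρ, ‖T x‖ ≤ R := by
  obtain ⟨hTm, hmap, -⟩ := hT
  have h0 : μ (Metric.closedBall (0 : E d) R)ᶜ = 0 := hμ.2
  rw [← hmap, Measure.map_apply hTm Metric.isClosed_closedBall.measurableSet.compl] at h0
  rw [ae_iff]
  convert h0 using 2
  ext x
  simp

/-- the shifted centres -/
private noncomputable def cmP (n : ℕ) (x : ℕ → E d) (e : E d) (r : ℝ) (i : ℕ) : E d :=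
  x i + (r * ((i % n : ℕ) : ℝ)) • e

private theorem cmP_dist (n : ℕ) (x : ℕ → E d) {e : E d} (he : ‖e‖ = 1) {r : ℝ} (hr : 0 < r)
    (i : ℕ) : dist (cmP n x e r i) (x i) = r * ((i % n : ℕ) : ℝ) := by
  unfold cmP
  rw [dist_eq_norm, add_sub_cancel_left, norm_smul, he, mul_one, Real.norm_eq_abs,
    abs_of_nonneg (by positivity)]

private theorem cmP_dist_le {n : ℕ} (hn : 0 < n) (x : ℕ → E d) {e : E d} (he : ‖e‖ = 1) {r : ℝ}
    (hr : 0 < r) (i : ℕ) : dist (cmP n x e r i) (x i) ≤ r * (n : ℝ) := by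
  rw [cmP_dist n x he hr]
  have : ((i % n : ℕ) : ℝ) ≤ (n : ℝ) := by exact_mod_cast (Nat.mod_lt i hn).le
  exact mul_le_mul_of_nonneg_left this hr.le

private theorem cmP_tendsto (n : ℕ) (x : ℕ → E d) (e : E d) (i : ℕ) :
    Tendsto (fun r => cmP n x e r i) (𝓝[>] (0 : ℝ)) (𝓝 (x i)) := by
  have hc : Continuous fun r : ℝ => cmP n x e r i := by
    unfold cmP
    fun_prop
  have h := hc.tendsto 0
  have h0 : cmP n x e 0 i = x i := by simp [cmP]
  rw [h0] at h
  exact h.mono_left nhdsWithin_le_nhds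

private theorem cmP_sub {n : ℕ} (hn : 0 < n) (x : ℕ → E d) {e : E d} (he : ‖e‖ = 1) (i : ℕ)
    (hx : x i ∈ interior K) :
    ∀ᶠ r in 𝓝[>] (0 : ℝ), Metric.closedBall (cmP n x e r i) (r / 3) ⊆ K := by
  obtain ⟨ε, hε, hball⟩ := Metric.isOpen_iff.1 isOpen_interior _ hx
  have hpos : 0 < ε / ((n : ℝ) + 1) := by positivity
  filter_upwards [Ioo_mem_nhdsGT hpos] with r hr
  intro y hy
  apply interior_subset
  apply hball
  rw [Metric.mem_ball]
  have h1 : dist y (cmP n x e r i) ≤ r / 3 := hy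
  have h2 := cmP_dist_le hn x he hr.1 i
  have h3 : r * ((n : ℝ) + 1) < ε := by
    have := hr.2
    rwa [lt_div_iff₀ (by positivity)] at this
  have h4 := dist_triangle y (cmP n x e r i) (x i)
  have h5 := hr.1
  nlinarith

private theorem cmP_disj {n : ℕ} (hn : 0 < n) (x : ℕ → E d) {e : E d} (he : ‖e‖ = 1) {i j : ℕ}
    (hi : i < n) (hj : j < n) (hij : i ≠ j) :
    ∀ᶠ r in 𝓝[>] (0 : ℝ), Disjoint (Metric.closedBall (cmP n x e r i) (r / 3))
      (Metric.closedBall (cmP n x e r j) (r / 3)) := by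
  by_cases hx : x i = x j
  · filter_upwards [self_mem_nhdsWithin] with r hr
    have hr' : (0 : ℝ) < r := hr
    apply Metric.closedBall_disjoint_closedBall
    have h1 : dist (cmP n x e r i) (cmP n x e r j) = r * |(i : ℝ) - (j : ℝ)| := by
      unfold cmP
      rw [Nat.mod_eq_of_lt hi, Nat.mod_eq_of_lt hj, hx, dist_eq_norm, add_sub_add_left_eq_sub,
        ← sub_smul, norm_smul, he, mul_one, ← mul_sub, Real.norm_eq_abs, abs_mul,
        abs_of_pos hr']
    have h2 : (1 : ℝ) ≤ |(i : ℝ) - (j : ℝ)| := by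
      have h3 : ((i : ℤ) - (j : ℤ)) ≠ 0 := by
        intro h
        apply hij
        omega
      have h4 : (1 : ℤ) ≤ |(i : ℤ) - (j : ℤ)| := Int.one_le_abs h3
      have h5 : ((|(i : ℤ) - (j : ℤ)| : ℤ) : ℝ) = |(i : ℝ) - (j : ℝ)| := by push_cast; rfl
      rw [← h5]
      exact_mod_cast h4
    rw [h1]
    nlinarith
  · have hD : 0 < dist (x i) (x j) := dist_pos.2 hx
    have hpos : 0 < dist (x i) (x j) / (2 * (n : ℝ) + 1) := by positivity
    filter_upwards [Ioo_mem_nhdsGT hpos] with r hr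
    apply Metric.closedBall_disjoint_closedBall
    have h1 := cmP_dist_le hn x he hr.1 i
    have h2 := cmP_dist_le hn x he hr.1 j
    have h3 : r * (2 * (n : ℝ) + 1) < dist (x i) (x j) := by
      have := hr.2
      rwa [lt_div_iff₀ (by positivity)] at this
    have h4 : dist (x i) (x j) ≤ dist (x i) (cmP n x e r i) + dist (cmP n x e r i) (cmP n x e r j)
        + dist (cmP n x e r j) (x j) := dist_triangle4 _ _ _ _
    rw [dist_comm (x i) (cmP n x e r i)] at h4
    have h5 := hr.1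
    nlinarith

private theorem cyc_aux (hK : Body K) (μ : Measure (E d)) (T : E d → E d)
    (hT : IsOptimalMap (uniformProbOn K) μ T) (R : ℝ)
    (hTR : ∀ᵐ x ∂(uniformProbOn K), ‖T x‖ ≤ R) (T' : E d → E d)
    (hT'int : ∀ (c : E d) (r : ℝ), IntegrableOn T' (Metric.closedBall c r) volume)
    (hTT' : ∀ᵐ x ∂(volume.restrict K), T x = T' x) {e : E d} (he : ‖e‖ = 1)
    {n : ℕ} (hn : 0 < n) (x : ℕ → E d) (hxK : ∀ i, x i ∈ interior K) (hxn : x n = x 0)
    (hlim : ∀ i, ∀ (w : ℝ → E d) (δ : ℝ → ℝ), Tendsto δ (𝓝[>] 0) (𝓝[>] 0) →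
      (∀ᶠ j in 𝓝[>] (0 : ℝ), x i ∈ Metric.closedBall (w j) (((3 * n : ℕ) : ℝ) * δ j)) →
      Tendsto (fun j => ⨍ y in Metric.closedBall (w j) (δ j), T' y) (𝓝[>] 0) (𝓝 (T (x i)))) :
    ∑ i ∈ Finset.range n, ⟪T (x i), x (i + 1) - x i⟫ ≤ 0 := by
  -- the limit
  have hδ : Tendsto (fun r : ℝ => r / 3) (𝓝[>] 0) (𝓝[>] 0) := by
    rw [tendsto_nhdsWithin_iff]
    constructor
    · have hc : Continuous fun r : ℝ => r / 3 := by fun_prop
      have h := hc.tendsto 0
      rw [zero_div] at h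
      exact h.mono_left nhdsWithin_le_nhds
    · filter_upwards [self_mem_nhdsWithin] with r hr
      have hr' : (0 : ℝ) < r := hr
      exact div_pos hr' (by norm_num)
  have havg : ∀ i, Tendsto (fun r => ⨍ y in Metric.closedBall (cmP n x e r i) (r / 3), T' y)
      (𝓝[>] 0) (𝓝 (T (x i))) := by
    intro i
    refine hlim i (fun r => cmP n x e r i) (fun r => r / 3) hδ ?_
    filter_upwards [self_mem_nhdsWithin] with r hr
    have hr' : (0 : ℝ) < r := hr
    rw [Metric.mem_closedBall, dist_comm]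
    have h1 := cmP_dist_le hn x he hr' i
    have h2 : ((3 * n : ℕ) : ℝ) * (r / 3) = r * (n : ℝ) := by push_cast; ring
    rw [h2]
    exact h1
  have hsum : Tendsto (fun r => ∑ i ∈ Finset.range n,
      ⟪cmP n x e r (i + 1) - cmP n x e r i, ⨍ y in Metric.closedBall (cmP n x e r i) (r / 3), T' y⟫)
      (𝓝[>] 0) (𝓝 (∑ i ∈ Finset.range n, ⟪x (i + 1) - x i, T (x i)⟫)) := by
    refine tendsto_finsetSum _ fun i _ => ?_
    exact ((cmP_tendsto n x e (i + 1)).sub (cmP_tendsto n x e i)).inner (havg i)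
  -- the inequality for small `r`
  have hsub : ∀ᶠ r in 𝓝[>] (0 : ℝ), ∀ i ∈ Finset.range n,
      Metric.closedBall (cmP n x e r i) (r / 3) ⊆ K := by
    rw [eventually_all_finset]
    intro i _
    exact cmP_sub hn x he i (hxK i)
  have hdisj : ∀ᶠ r in 𝓝[>] (0 : ℝ), ∀ i ∈ Finset.range n, ∀ j ∈ Finset.range n, i ≠ j →
      Disjoint (Metric.closedBall (cmP n x e r i) (r / 3))
        (Metric.closedBall (cmP n x e r j) (r / 3)) := by
    rw [eventually_all_finset]
    intro i hi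
    rw [eventually_all_finset]
    intro j hj
    by_cases hij : i = j
    · exact Eventually.of_forall fun r h => absurd hij h
    · filter_upwards [cmP_disj hn x he (Finset.mem_range.1 hi) (Finset.mem_range.1 hj) hij]
        with r hr _ using hr
  have hle : ∀ᶠ r in 𝓝[>] (0 : ℝ), ∑ i ∈ Finset.range n,
      ⟪cmP n x e r (i + 1) - cmP n x e r i,
        ⨍ y in Metric.closedBall (cmP n x e r i) (r / 3), T' y⟫ ≤ 0 := by
    filter_upwards [hsub, hdisj, self_mem_nhdsWithin] with r h1 h2 hr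
    have hr' : (0 : ℝ) < r := hr
    have hr3 : (0 : ℝ) < r / 3 := by positivity
    have hpn : cmP n x e r n = cmP n x e r 0 := by
      simp [cmP, hxn]
    have hsw := swap_ineq hK μ T hT R hTR n (cmP n x e r) hpn (r / 3) hr3
      (fun i hi => h1 i (Finset.mem_range.2 hi))
      (fun i hi j hj hij => h2 i (Finset.mem_range.2 hi) j (Finset.mem_range.2 hj) hij)
    obtain ⟨V, hV⟩ : ∃ V : ℝ, V = (volume : Measure (E d)).real (Metric.closedBall 0 (r / 3)) :=
      ⟨_, rfl⟩
    have hVpos : 0 < V := by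
      rw [hV]
      exact ENNReal.toReal_pos (Metric.measure_closedBall_pos volume _ hr3).ne'
        measure_closedBall_lt_top.ne
    have hVc : ∀ c : E d, (volume : Measure (E d)).real (Metric.closedBall c (r / 3)) = V := by
      intro c
      rw [hV, Measure.real, Measure.real, Measure.addHaar_closedBall_center]
    have hterm : ∀ i ∈ Finset.range n,
        ∫ u in Metric.closedBall (cmP n x e r i) (r / 3), ⟪cmP n x e r (i + 1) - cmP n x e r i, T u⟫
        = V * ⟪cmP n x e r (i + 1) - cmP n x e r i,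
          ⨍ y in Metric.closedBall (cmP n x e r i) (r / 3), T' y⟫ := by
      intro i hi
      have hae : ∀ᵐ u ∂(volume.restrict (Metric.closedBall (cmP n x e r i) (r / 3))),
          T u = T' u := ae_restrict_of_ae_restrict_of_subset (h1 i hi) hTT'
      have e1 : ∫ u in Metric.closedBall (cmP n x e r i) (r / 3),
          ⟪cmP n x e r (i + 1) - cmP n x e r i, T u⟫
          = ∫ u in Metric.closedBall (cmP n x e r i) (r / 3),
          ⟪cmP n x e r (i + 1) - cmP n x e r i, T' u⟫ := by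
        refine integral_congr_ae ?_
        filter_upwards [hae] with u hu
        rw [hu]
      rw [e1, integral_inner (hT'int _ _), setAverage_eq, hVc, inner_smul_right]
      field_simp
    rw [Finset.sum_congr rfl hterm, ← Finset.mul_sum] at hsw
    by_contra hcon
    push Not at hcon
    have := mul_pos hVpos hcon
    linarith
  have hfin := le_of_tendsto hsum hle
  calc ∑ i ∈ Finset.range n, ⟪T (x i), x (i + 1) - x i⟫
      = ∑ i ∈ Finset.range n, ⟪x (i + 1) - x i, T (x i)⟫ :=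
        Finset.sum_congr rfl fun i _ => real_inner_comm _ _
    _ ≤ 0 := hfin

theorem cyc_mono (hK : Body K) (μ : Measure (E d)) (R : ℝ)
    (hμ : IsProbabilityOn (Metric.closedBall (0 : E d) R) μ) (T : E d → E d)
    (hT : IsOptimalMap (uniformProbOn K) μ T) :
    ∃ G : Set (E d), (∀ᵐ x ∂(uniformProbOn K), x ∈ G) ∧ (∀ x ∈ G, ‖T x‖ ≤ R) ∧
      ∀ (n : ℕ) (x : ℕ → E d), (∀ i, x i ∈ G) → x n = x 0 →
        ∑ i ∈ Finset.range n, ⟪T (x i), x (i + 1) - x i⟫ ≤ 0 := by
  classical
  have hTR := ae_norm_le_of_optimal μ R hμ _ T hT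
  have hTm : Measurable T := hT.1
  obtain ⟨S, hS⟩ : ∃ S : Set (E d), S = K ∩ {x | ‖T x‖ ≤ R} := ⟨_, rfl⟩
  have hSm : MeasurableSet S := by
    rw [hS]
    exact hK.measurableSet.inter (measurableSet_le hTm.norm measurable_const)
  obtain ⟨T', hT'⟩ : ∃ T' : E d → E d, T' = S.indicator T := ⟨_, rfl⟩
  have hT'm : Measurable T' := by rw [hT']; exact hTm.indicator hSm
  have hT'S : ∀ x ∈ S, T' x = T x := by
    intro x hx
    rw [hT', indicator_of_mem hx]
  have hT'b : ∀ x, ‖T' x‖ ≤ ‖(|R| : ℝ)‖ := by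
    intro x
    rw [Real.norm_eq_abs, abs_abs]
    by_cases hx : x ∈ S
    · rw [hT'S x hx]
      have : ‖T x‖ ≤ R := by rw [hS] at hx; exact hx.2
      exact this.trans (le_abs_self R)
    · rw [hT', indicator_of_notMem hx, norm_zero]
      exact abs_nonneg R
  have hloc : LocallyIntegrable T' (volume : Measure (E d)) :=
    (locallyIntegrable_const (|R| : ℝ)).mono hT'm.aestronglyMeasurable (ae_of_all _ hT'b)
  have hT'int : ∀ (c : E d) (r : ℝ), IntegrableOn T' (Metric.closedBall c r) volume :=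
    fun c r => hloc.integrableOn_isCompact (isCompact_closedBall c r)
  have hTT' : ∀ᵐ x ∂(volume.restrict K), T x = T' x := by
    have h1 : ∀ᵐ x ∂(volume.restrict K), ‖T x‖ ≤ R := by
      have hc : (volume K)⁻¹ ≠ 0 := ENNReal.inv_ne_zero.2 hK.volume_lt_top.ne
      exact (Measure.ae_ennreal_smul_measure_iff hc).1 hTR
    filter_upwards [h1, ae_restrict_mem hK.measurableSet] with x hx hxK
    exact (hT'S x (by rw [hS]; exact ⟨hxK, hx⟩)).symm
  obtain ⟨P, hP⟩ : ∃ P : E d → Prop, P = fun x => ∀ N : ℕ, ∀ (w : ℝ → E d) (δ : ℝ → ℝ),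
      Tendsto δ (𝓝[>] 0) (𝓝[>] 0) →
      (∀ᶠ j in 𝓝[>] (0 : ℝ), x ∈ Metric.closedBall (w j) ((N : ℝ) * δ j)) →
      Tendsto (fun j => ⨍ y in Metric.closedBall (w j) (δ j), T' y) (𝓝[>] 0) (𝓝 (T' x)) :=
    ⟨_, rfl⟩
  have hPae : ∀ᵐ x ∂(volume : Measure (E d)), P x := by
    rw [hP, ae_all_iff]
    intro N
    filter_upwards [IsUnifLocDoublingMeasure.ae_tendsto_average (μ := (volume : Measure (E d)))
      hloc (N : ℝ)] with x hx
    intro w δ hδ hw
    exact hx w δ hδ hw
  refine ⟨{x | x ∈ interior K ∧ ‖T x‖ ≤ R ∧ P x}, ?_, fun x hx => hx.2.1, ?_⟩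
  · filter_upwards [hK.ae_mem_interior, hTR, (unif_ac K).ae_le hPae] with x h1 h2 h3
    exact ⟨h1, h2, h3⟩
  · intro n x hx hxn
    rcases Nat.eq_zero_or_pos n with hn | hn
    · subst hn; simp
    rcases Nat.eq_zero_or_pos d with hd | hd
    · subst hd
      refine le_of_eq (Finset.sum_eq_zero fun i _ => ?_)
      have : x (i + 1) - x i = 0 := Subsingleton.elim _ _
      rw [this, inner_zero_right]
    · have he : ‖(EuclideanSpace.single (⟨0, hd⟩ : Fin d) (1 : ℝ) : E d)‖ = 1 := by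
        simp
      refine cyc_aux hK μ T hT R hTR T' hT'int hTT' he hn x (fun i => (hx i).1) hxn ?_
      intro i w δ hδ hw
      have h1 : P (x i) := (hx i).2.2
      rw [hP] at h1
      have h2 := h1 (3 * n) w δ hδ hw
      have h3 : T' (x i) = T (x i) :=
        hT'S _ (by rw [hS]; exact ⟨interior_subset (hx i).1, (hx i).2.1⟩)
      rwa [h3] at h2

end Crest.Agent.OTStab
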