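import Mathlib
import Crest.Prelude.Def_QuadraticTransport

/-!
# Row 82 (S0109 / S0110): stability of quadratic optimal transport maps — definitions

See `README.md` in this folder for the whole proof.  This file contains ONLY definitions and the
one lemma needed to make the definition of `lagIdx` meaningful.  DO NOT EDIT (architect: helper26).
-/

set_option autoImplicit false

open MeasureTheory Set
open scoped ENNReal NNReal RealInnerProductSpace
open Crest.AnalysisR.OT

namespace Crest.Agent.OTStab

/-- The ambient Euclidean space. -/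
abbrev E (d : ℕ) := EuclideanSpace ℝ (Fin d)

variable {d : ℕ}

/-- `K` is a convex body. -/
structure Body (K : Set (E d)) : Prop where
  compact : IsCompact K
  convex : Convex ℝ K
  inter : (interior K).Nonempty

/-- Laguerre cell number `k` of the points `y` with weights `c`:
the set where the affine function `⟪x, y k⟫ - c k` is maximal. -/
def cell {ι : Type} (y : ι → E d) (c : ι → ℝ) (k : ι) : Set (E d) :=
  {x | ∀ l, ⟪x, y l⟫ - c l ≤ ⟪x, y k⟫ - c k}

/-- The max-affine potential `x ↦ max_k (⟪x, y k⟫ - c k)`. -/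
noncomputable def lag {ι : Type} [Fintype ι] [Nonempty ι] (y : ι → E d) (c : ι → ℝ) (x : E d) : ℝ :=
  Finset.univ.sup' Finset.univ_nonempty (fun k => ⟪x, y k⟫ - c k)

theorem measurableSet_cell {ι : Type} [Finite ι] (y : ι → E d) (c : ι → ℝ) (k : ι) :
    MeasurableSet (cell y c k) := by
  have : cell y c k = ⋂ l, {x | ⟪x, y l⟫ - c l ≤ ⟪x, y k⟫ - c k} := by
    ext x; simp [cell]
  rw [this]
  refine MeasurableSet.iInter fun l => ?_
  exact measurableSet_le (by fun_prop) (by fun_prop)

/-- There is an everywhere defined measurable selection of the maximising index. -/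
theorem exists_sel {ι : Type} [Fintype ι] [Nonempty ι] (y : ι → E d) (c : ι → ℝ) :
    ∃ k : E d → ι, (∀ x, x ∈ cell y c (k x)) ∧ ∀ s : Set ι, MeasurableSet (k ⁻¹' s) := by
  classical
  obtain ⟨dec, hdec⟩ : ∃ dec : ℕ → ι, Function.Surjective dec := by
    obtain ⟨f, hf⟩ := exists_surjective_nat ι
    exact ⟨f, hf⟩
  have hp : ∀ x : E d, ∃ N, x ∈ cell y c (dec N) := by
    intro x
    obtain ⟨k, -, hk⟩ := Finset.exists_max_image Finset.univ (fun k => ⟪x, y k⟫ - c k)
      Finset.univ_nonempty
    obtain ⟨N, rfl⟩ := hdec k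
    exact ⟨N, fun l => hk l (Finset.mem_univ l)⟩
  have hm : Measurable fun x => Nat.find (hp x) :=
    measurable_find hp (fun k => measurableSet_cell y c (dec k))
  refine ⟨fun x => dec (Nat.find (hp x)), fun x => Nat.find_spec (hp x), fun s => ?_⟩
  have : (fun x => dec (Nat.find (hp x))) ⁻¹' s = (fun x => Nat.find (hp x)) ⁻¹' (dec ⁻¹' s) := rfl
  rw [this]
  exact hm (MeasurableSet.of_discrete)

/-- The selected maximising index at `x` (an everywhere defined measurable selection). -/
noncomputable def lagIdx {ι : Type} [Fintype ι] [Nonempty ι] (y : ι → E d) (c : ι → ℝ) :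
    E d → ι := Classical.choose (exists_sel y c)

/-- The Laguerre map `x ↦ y (lagIdx x)`: an everywhere defined measurable subgradient of `lag`. -/
noncomputable def lagMap {ι : Type} [Fintype ι] [Nonempty ι] (y : ι → E d) (c : ι → ℝ)
    (x : E d) : E d := y (lagIdx y c x)

/-- The measure `(1+g) ρ`. -/
noncomputable def tilt (ρ : Measure (E d)) (g : E d → ℝ) : Measure (E d) :=
  ρ.withDensity (fun x => ENNReal.ofReal (1 + g x))

/-- Kantorovich functional. -/
noncomputable def kant {ι : Type} [Fintype ι] [Nonempty ι] (σ : Measure (E d)) (Y : ι → E d)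
    (m : ι → ℝ) (c : ι → ℝ) : ℝ := ∫ x, lag Y c x ∂σ + ∑ k, m k * c k

/-- Maximal correlation between `σ` and `∑ m k δ_{Y k}` (dual formulation). -/
noncomputable def W {ι : Type} [Fintype ι] [Nonempty ι] (σ : Measure (E d)) (Y : ι → E d)
    (m : ι → ℝ) : ℝ := ⨅ c : ι → ℝ, kant σ Y m c

end Crest.Agent.OTStab
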