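import Mathlib

/-!
# Task E3: the numerical choice of `h` in S0110

Let `β = min α 1 ∈ (1/3, 1]`.  For `h ≤ 1/2` and `m ≤ 1`: `4h²m ≤ 1`, so `(4h²m)^α ≤ (4h²m)^β = 4^β h^{2β} m^β`, and `m^β = m · m^{β-1} ≤ m (h/8)^{β-1}` (as `β - 1 ≤ 0`, `m ≥ h/8`).
Hence `C (4h²m)^α ≤ m · C 4^β 8^{1-β} h^{3β-1} ≤ m · 32 C h^{3β-1}`, and `h^{3β-1} → 0` as `h → 0+` (`3β - 1 > 0`).

(Actual proof below: with `x = 4h²m`, `y = 4h²`, `δ = α - 1/3 > 0`: `x ≤ (8m)³` and `x ≤ y`, so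
`x^α = x^{1/3} x^δ ≤ 8 m y^δ`; choose `y = (1/(8C+1))^{1/δ}`.)
-/

set_option autoImplicit false

namespace Crest.Agent.OTStab

theorem exists_h (α : ℝ) (hα : 1 / 3 < α) (C : ℝ) (hC : 0 ≤ C) :
    ∃ h : ℝ, 0 < h ∧ h ≤ 1 ∧ ∀ m : ℝ, h / 8 ≤ m → m ≤ 1 → C * (4 * h ^ 2 * m) ^ α < m := by
  set δ : ℝ := α - 1 / 3 with hδdef
  have hδ : 0 < δ := by rw [hδdef]; linarith
  set q : ℝ := 1 / (8 * C + 1) with hqdef
  have hq0 : 0 < q := by rw [hqdef]; positivity
  have hq1 : q ≤ 1 := by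
    rw [hqdef, div_le_one (by positivity)]; linarith
  set y : ℝ := q ^ (1 / δ) with hydef
  have hy0 : 0 < y := Real.rpow_pos_of_pos hq0 _
  have hy1 : y ≤ 1 := Real.rpow_le_one hq0.le hq1 (by positivity)
  have hyδ : y ^ δ = q := by
    rw [hydef, ← Real.rpow_mul hq0.le, one_div, inv_mul_cancel₀ hδ.ne', Real.rpow_one]
  refine ⟨Real.sqrt y / 2, by positivity, ?_, ?_⟩
  · have : Real.sqrt y ≤ 1 := by
      rw [Real.sqrt_le_left (by norm_num)]; simpa using hy1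
    linarith
  · intro m hm hm1
    have hs0 : 0 < Real.sqrt y := Real.sqrt_pos.mpr hy0
    have hm0 : 0 < m := lt_of_lt_of_le (by positivity) hm
    have h4 : 4 * (Real.sqrt y / 2) ^ 2 = y := by
      have := Real.sq_sqrt hy0.le
      nlinarith
    rw [h4]
    have hx0 : 0 < y * m := by positivity
    have hxy : y * m ≤ y := by nlinarith
    -- `y m ≤ (8 m)^3`
    have hs8 : Real.sqrt y ≤ 16 * m := by linarith
    have hy256 : y ≤ 256 * m ^ 2 := by
      have h1 := Real.sq_sqrt hy0.le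
      nlinarith
    have hx3 : y * m ≤ (8 * m) ^ (3 : ℝ) := by
      have : (8 * m) ^ (3 : ℝ) = (8 * m) ^ (3 : ℕ) := by
        rw [← Real.rpow_natCast]; norm_num
      rw [this]
      nlinarith [pow_pos hm0 3]
    have hx13 : (y * m) ^ (1 / 3 : ℝ) ≤ 8 * m := by
      calc (y * m) ^ (1 / 3 : ℝ) ≤ ((8 * m) ^ (3 : ℝ)) ^ (1 / 3 : ℝ) :=
            Real.rpow_le_rpow hx0.le hx3 (by norm_num)
        _ = 8 * m := by
            rw [← Real.rpow_mul (by positivity)]; norm_num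
    have hxδ : (y * m) ^ δ ≤ q := by
      rw [← hyδ]
      exact Real.rpow_le_rpow hx0.le hxy hδ.le
    have hsplit : (y * m) ^ α = (y * m) ^ (1 / 3 : ℝ) * (y * m) ^ δ := by
      rw [← Real.rpow_add hx0]; congr 1; rw [hδdef]; ring
    have hle : (y * m) ^ α ≤ 8 * m * q := by
      rw [hsplit]
      exact mul_le_mul hx13 hxδ (Real.rpow_nonneg hx0.le _) (by positivity)
    have hCq : C * 8 * q < 1 := by
      rw [hqdef, mul_one_div, div_lt_one (by positivity)]; linarith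
    calc C * (y * m) ^ α ≤ C * (8 * m * q) := mul_le_mul_of_nonneg_left hle hC
      _ = (C * 8 * q) * m := by ring
      _ < 1 * m := mul_lt_mul_of_pos_right hCq hm0
      _ = m := one_mul m

end Crest.Agent.OTStab
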