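import Crest.Agent.OTStab.LagOptimal
import Crest.Agent.OTStab.Cube
import Crest.Agent.OTStab.AtomCoupling
import Crest.Agent.OTStab.ExampleNum

/-!
# Task E4: S0110 (assembly)

`ρ = uniformProbOn (cube d)` (note `cube d` is DEFINITIONALLY the set in the statement).  Take `h` from `exists_h α hα C`.
`w k = ρ (cell (pts h) 0 k) = ρ (cell (pts (-h)) 0 k)` (`mass_symm`), positive (`mass_pos`), finite, `∑ w = 1` (`sum_measure_cell`).
`μ = ρ.map (lagMap (pts h) 0) = atomic w (pts h)`, `ν = ρ.map (lagMap (pts (-h)) 0) = atomic w (pts (-h))` (`map_lagMap`).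
`IsProbabilityOn`, `IsThreeAtomic`: task E2.  Existence of optimal maps: `lagMap_isOptimalMap`.
Given optimal `Tμ, Tν`: `Tμ = lagMap (pts h) 0`, `Tν = lagMap (pts (-h)) 0` ρ-a.e. (`optimal_ae_eq_lagMap`).  `π = matchCoupling w (pts h) (pts (-h))`,
`quadCost π = w 1 * (2h)²` (the terms `k = 0, 2` vanish).   `∫⁻ ‖Tμ - Tν‖ₑ² dρ ≥ ∫⁻_{cell (pts h) 0 1} 1 dρ = w 1` (`dist_ge_on_mid`).
With `m = (w 1).toReal ∈ [h/8, 1]`: `C (4h² m)^α < m`.  Convert to `ℝ≥0∞`.
-/

set_option autoImplicit false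

open MeasureTheory Set
open scoped ENNReal NNReal RealInnerProductSpace
open Crest.AnalysisR.OT

namespace Crest.Agent.OTStab

theorem example_aux (d : ℕ) (hd : 2 ≤ d) (α : ℝ) (hα : 1 / 3 < α) (C : ℝ≥0) :
    ∃ μ ν : Measure (E d),
      IsProbabilityOn (cube d) μ ∧
      IsProbabilityOn (cube d) ν ∧
      IsThreeAtomic μ ∧ IsThreeAtomic ν ∧
      (∃ T, IsOptimalMap (uniformProbOn (cube d)) μ T) ∧
      (∃ T, IsOptimalMap (uniformProbOn (cube d)) ν T) ∧
      ∀ Tμ Tν : E d → E d,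
        IsOptimalMap (uniformProbOn (cube d)) μ Tμ →
        IsOptimalMap (uniformProbOn (cube d)) ν Tν →
        ∃ π : Measure (E d × E d), IsPairCoupling μ ν π ∧
          (C : ℝ≥0∞) * quadCost π ^ α < ∫⁻ x, ‖Tμ x - Tν x‖ₑ ^ 2 ∂(uniformProbOn (cube d)) := by
  obtain ⟨h, h0, h1, hh⟩ := exists_h α hα C C.coe_nonneg
  have hα0 : 0 < α := lt_trans (by norm_num) hα
  have hK := cube_body d
  have := hK.isProb
  have hac : uniformProbOn (cube d) ≪ (volume : Measure (E d)) := unif_ac _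
  set ρ := uniformProbOn (cube d) with hρ
  set w : Fin 3 → ℝ≥0∞ := fun k => ρ (cell (pts hd h) (fun _ => 0) k) with hw
  have hw' : ∀ k, ρ (cell (pts hd (-h)) (fun _ => 0) k) = w k := mass_symm hd h
  have hwpos : ∀ k, 0 < w k := mass_pos hd h0 h1
  have hwfin : ∀ k, w k < ∞ := fun k => measure_lt_top _ _
  have hwsum : ∑ k, w k = 1 := by
    rw [hw, sum_measure_cell hac (pts_injective hd h)]; exact measure_univ
  have hμ : ρ.map (lagMap (pts hd h) (fun _ => 0)) = atomic w (pts hd h) :=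
    map_lagMap hac (pts_injective hd h) _
  have hν : ρ.map (lagMap (pts hd (-h)) (fun _ => 0)) = atomic w (pts hd (-h)) := by
    rw [map_lagMap hac (pts_injective hd (-h))]
    simp only [hw', atomic]
  have habs : |h| ≤ 1 := by rw [abs_of_pos h0]; exact h1
  have habs' : |-h| ≤ 1 := by rw [abs_neg]; exact habs
  refine ⟨atomic w (pts hd h), atomic w (pts hd (-h)),
    atomic_isProbabilityOn w hwsum _ _ (pts_mem_cube hd habs) hK.measurableSet,
    atomic_isProbabilityOn w hwsum _ _ (pts_mem_cube hd habs') hK.measurableSet,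
    atomic_isThreeAtomic w hwpos hwfin _ (pts_injective hd h),
    atomic_isThreeAtomic w hwpos hwfin _ (pts_injective hd (-h)),
    ⟨lagMap (pts hd h) (fun _ => 0), ?_⟩, ⟨lagMap (pts hd (-h)) (fun _ => 0), ?_⟩, ?_⟩
  · rw [← hμ]; exact lagMap_isOptimalMap hK _ (pts_injective hd h) _
  · rw [← hν]; exact lagMap_isOptimalMap hK _ (pts_injective hd (-h)) _
  intro Tμ Tν hTμ hTν
  rw [← hμ] at hTμ
  rw [← hν] at hTν
  have e1 := optimal_ae_eq_lagMap hK _ (pts_injective hd h) _ Tμ hTμ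
  have e2 := optimal_ae_eq_lagMap hK _ (pts_injective hd (-h)) _ Tν hTν
  refine ⟨matchCoupling w (pts hd h) (pts hd (-h)), matchCoupling_isPairCoupling _ _ _, ?_⟩
  -- the mass of the middle cell
  set m : ℝ := (w 1).toReal with hm
  have hwm : w 1 = ENNReal.ofReal m := (ENNReal.ofReal_toReal (hwfin 1).ne).symm
  have hm0 : 0 ≤ m := ENNReal.toReal_nonneg
  have hm1 : m ≤ 1 := by
    have : w 1 ≤ 1 := prob_le_one
    have h2 := ENNReal.toReal_mono ENNReal.one_ne_top this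
    simpa using h2
  have hm8 : h / 8 ≤ m := by
    have h2 := ENNReal.toReal_mono (hwfin 1).ne (mass_mid_ge hd h0 h1)
    rwa [ENNReal.toReal_ofReal (by positivity)] at h2
  -- the cost
  have hcost : quadCost (matchCoupling w (pts hd h) (pts hd (-h))) = ENNReal.ofReal (4 * h ^ 2 * m) := by
    rw [quadCost_matchCoupling, Fin.sum_univ_three, pts_neg_zero, pts_neg_two, sub_self, sub_self]
    have hn : ‖pts hd h 1 - pts hd (-h) 1‖ₑ = ENNReal.ofReal (2 * h) := by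
      rw [← ofReal_norm, norm_pts_sub, abs_of_pos h0]
    rw [hn, hwm]
    simp only [enorm_zero, ne_eq, OfNat.ofNat_ne_zero, not_false_eq_true, zero_pow, mul_zero,
      zero_add, add_zero]
    rw [← ENNReal.ofReal_pow (by positivity), ← ENNReal.ofReal_mul hm0]
    congr 1
    ring
  have hlow : w 1 ≤ ∫⁻ x, ‖Tμ x - Tν x‖ₑ ^ 2 ∂ρ := by
    calc w 1 = ∫⁻ _ in cell (pts hd h) (fun _ => 0) 1, 1 ∂ρ := by
          rw [setLIntegral_one]
      _ ≤ ∫⁻ x in cell (pts hd h) (fun _ => 0) 1, ‖Tμ x - Tν x‖ₑ ^ 2 ∂ρ := by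
          refine setLIntegral_mono_ae' (measurableSet_cell _ _ _) ?_
          filter_upwards [e1, e2, dist_ge_on_mid hd h0] with x hx1 hx2 hx3 hx
          rw [hx1, hx2]
          have h3 := hx3 hx
          have h4 : (1 : ℝ≥0∞) ≤ ‖lagMap (pts hd h) (fun _ => 0) x - lagMap (pts hd (-h)) (fun _ => 0) x‖ₑ := by
            rw [← ofReal_norm, ← ENNReal.ofReal_one]
            exact ENNReal.ofReal_le_ofReal h3
          exact one_le_pow₀ h4
      _ ≤ ∫⁻ x, ‖Tμ x - Tν x‖ₑ ^ 2 ∂ρ := setLIntegral_le_lintegral _ _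
  refine lt_of_lt_of_le ?_ hlow
  rw [hcost, hwm, ENNReal.ofReal_rpow_of_nonneg (by positivity) hα0.le,
    ← ENNReal.ofReal_coe_nnreal, ← ENNReal.ofReal_mul C.coe_nonneg]
  have hmpos : 0 < m := lt_of_lt_of_le (by positivity) hm8
  exact (ENNReal.ofReal_lt_ofReal_iff hmpos).2 (hh m hm8 hm1)

theorem example_main (d : ℕ) (hd : 2 ≤ d) (α : ℝ) (hα : 1 / 3 < α) (C : ℝ≥0) :
    ∃ μ ν : Measure (EuclideanSpace ℝ (Fin d)),
      IsProbabilityOn {x : EuclideanSpace ℝ (Fin d) | ∀ i, |x i| ≤ 1} μ ∧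
      IsProbabilityOn {x : EuclideanSpace ℝ (Fin d) | ∀ i, |x i| ≤ 1} ν ∧
      IsThreeAtomic μ ∧ IsThreeAtomic ν ∧
      (∃ T, IsOptimalMap (uniformProbOn {x : EuclideanSpace ℝ (Fin d) | ∀ i, |x i| ≤ 1}) μ T) ∧
      (∃ T, IsOptimalMap (uniformProbOn {x : EuclideanSpace ℝ (Fin d) | ∀ i, |x i| ≤ 1}) ν T) ∧
      ∀ Tμ Tν : EuclideanSpace ℝ (Fin d) → EuclideanSpace ℝ (Fin d),
        IsOptimalMap (uniformProbOn {x : EuclideanSpace ℝ (Fin d) | ∀ i, |x i| ≤ 1}) μ Tμ →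
        IsOptimalMap (uniformProbOn {x : EuclideanSpace ℝ (Fin d) | ∀ i, |x i| ≤ 1}) ν Tν →
        ∃ π : Measure (EuclideanSpace ℝ (Fin d) × EuclideanSpace ℝ (Fin d)), IsPairCoupling μ ν π ∧
          (C : ℝ≥0∞) * quadCost π ^ α < ∫⁻ x, ‖Tμ x - Tν x‖ₑ ^ 2 ∂(uniformProbOn {x : EuclideanSpace ℝ (Fin d) | ∀ i, |x i| ≤ 1}) :=
  example_aux d hd α hα C

end Crest.Agent.OTStab
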