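import Crest.Agent.OTStab.Potential
import Crest.Agent.OTStab.CellAE

/-!
# Task Y1: the duality gap of the rounded optimal map is small

`T` Monge-optimal from `ρ` to `μ` (`μ` carried by `B(0,R)`), `K ⊆ B(0,RK)`.  Rounding: `q : E → ι`, `‖y (q p) - p‖ ≤ η` for μ-a.e. `p`;
Laguerre weights `c` with `ρ (cell y c k) = μ (q⁻¹ {k})`; `T_n = lagMap y c`.   Claim:
`κ := ∫ [lag y c x - (⟪x, y (q (T x))⟫ - c (q (T x)))] dρ ≤ 2 RK η`.   (The integrand is `≥ 0` by `le_lag`.)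

Proof.  `∫ lag y c dρ + ∑ ρ(cell k) c k = ∫ ⟪x, T_n x⟫ dρ` (`integral_lag_add`), and
`∑_k ρ(cell k) c k = ∑_k μ(q⁻¹ k) c k = ∑_k ρ(T⁻¹ q⁻¹ k) c k = ∫ c (q (T x)) dρ`.  So `κ = ∫ ⟪x, T_n x⟫ dρ - ∫ ⟪x, y (q (T x))⟫ dρ`.
Let `φ` be the potential of `exists_potential` and `φs p = sup_{x ∈ K} (⟪x, p⟫ - φ x)` (`sSup` of the image of the compact `K` under a continuous function);
`φs` is `RK`-Lipschitz; `⟪x, p⟫ ≤ φ x + φs p` for `x ∈ K`;  `φ x + φs (T x) = ⟪x, T x⟫` for ρ-a.e. `x` (subgradient inequality at `x ∈ K`).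
`∫ ⟪x, T_n x⟫ dρ ≤ ∫ φ dρ + ∫ φs (T_n x) dρ`,  `∫ φs (T_n x) dρ = ∑_k φs (y k) ρ(cell k) = ∑_k φs (y k) ρ(T⁻¹ q⁻¹ k) = ∫ φs (y (q (T x))) dρ`
`≤ ∫ φs (T x) dρ + RK η`.  So `∫ ⟪x, T_n x⟫ ≤ ∫ ⟪x, T x⟫ + RK η ≤ ∫ ⟪x, y (q (T x))⟫ + 2 RK η`.
-/

set_option autoImplicit false

open MeasureTheory Set
open scoped ENNReal NNReal RealInnerProductSpace
open Crest.AnalysisR.OT

namespace Crest.Agent.OTStab

variable {d : ℕ} {K : Set (E d)}

/-- integral of a function of a finite-valued index map. -/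
private theorem gap_integral_idx {σ : Measure (E d)} [IsFiniteMeasure σ] {ι : Type} [Fintype ι]
    (J : E d → ι) (hJ : ∀ k, MeasurableSet (J ⁻¹' {k})) (H : ι → ℝ) :
    Integrable (fun x => H (J x)) σ ∧
      ∫ x, H (J x) ∂σ = ∑ k, H k * (σ (J ⁻¹' {k})).toReal := by
  classical
  have hrepr : (fun x => H (J x)) = fun x => ∑ k, (J ⁻¹' {k}).indicator (fun _ => H k) x := by
    funext x
    rw [Finset.sum_eq_single (J x)]
    · simp
    · intro k _ hk
      have : x ∉ J ⁻¹' {k} := by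
        simp only [mem_preimage, mem_singleton_iff]
        exact fun h => hk h.symm
      simp [this]
    · intro h; exact absurd (Finset.mem_univ _) h
  have hint : ∀ k ∈ (Finset.univ : Finset ι),
      Integrable ((J ⁻¹' {k}).indicator (fun _ => H k)) σ := fun k _ =>
    (integrable_const (H k)).indicator (hJ k)
  constructor
  · rw [hrepr]
    exact integrable_finsetSum _ hint
  · rw [hrepr, integral_finsetSum _ hint]
    refine Finset.sum_congr rfl fun k _ => ?_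
    rw [integral_indicator_const _ (hJ k)]
    simp [Measure.real, mul_comm]

theorem gap_bound (hK : Body K) {RK : ℝ} (hRK : ∀ x ∈ K, ‖x‖ ≤ RK) (μ : Measure (E d)) (R : ℝ)
    (hμ : IsProbabilityOn (Metric.closedBall (0 : E d) R) μ) (T : E d → E d)
    (hT : IsOptimalMap (uniformProbOn K) μ T)
    {ι : Type} [Fintype ι] [Nonempty ι] (y : ι → E d) (hy : Function.Injective y) (c : ι → ℝ)
    (q : E d → ι) (hq : ∀ k, MeasurableSet (q ⁻¹' {k})) (η : ℝ)
    (hqη : ∀ᵐ p ∂μ, ‖y (q p) - p‖ ≤ η)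
    (hmass : ∀ k, uniformProbOn K (cell y c k) = μ (q ⁻¹' {k})) :
    ∫ x, (lag y c x - (⟪x, y (q (T x))⟫ - c (q (T x)))) ∂(uniformProbOn K) ≤ 2 * RK * η := by
  have hprob : IsProbabilityMeasure (uniformProbOn K) := hK.isProb
  obtain ⟨φ, hφ, hsub⟩ := exists_potential hK μ R hμ T hT
  obtain ⟨hTm, hTmap, -⟩ := hT
  set ρ := uniformProbOn K with hρ
  obtain ⟨x0, hx0⟩ : K.Nonempty := hK.inter.mono interior_subset
  have hRK0 : 0 ≤ RK := (norm_nonneg x0).trans (hRK x0 hx0)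
  -- the Legendre transform on `K`
  set φs : E d → ℝ := fun p => sSup ((fun x => ⟪x, p⟫ - φ x) '' K) with hφs
  have hbdd : ∀ p : E d, BddAbove ((fun x => ⟪x, p⟫ - φ x) '' K) := by
    intro p
    have hc : Continuous (fun x : E d => ⟪x, p⟫ - φ x) := by
      have := hφ.continuous
      fun_prop
    exact (hK.compact.image hc).bddAbove
  have hle : ∀ p : E d, ∀ x ∈ K, ⟪x, p⟫ - φ x ≤ φs p := fun p x hx =>
    le_csSup (hbdd p) ⟨x, hx, rfl⟩
  have hlip : ∀ p p' : E d, φs p ≤ φs p' + RK * ‖p - p'‖ := by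
    intro p p'
    refine csSup_le (hK.inter.mono interior_subset |>.image _) ?_
    rintro _ ⟨x, hx, rfl⟩
    have h1 : ⟪x, p⟫ = ⟪x, p'⟫ + ⟪x, p - p'⟫ := by rw [inner_sub_right]; ring
    have h2 : ⟪x, p - p'⟫ ≤ RK * ‖p - p'‖ :=
      (real_inner_le_norm _ _).trans (by gcongr; exact hRK x hx)
    have h3 := hle p' x hx
    simp only
    linarith
  -- index maps
  set Q : E d → ι := fun x => q (T x) with hQ
  have hQm : ∀ k, MeasurableSet (Q ⁻¹' {k}) := fun k => hTm (hq k)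
  have hQmass : ∀ k, ρ (Q ⁻¹' {k}) = ρ (lagIdx y c ⁻¹' {k}) := by
    intro k
    rw [← measure_cell_eq_preimage (unif_ac K) hy c k, hmass k, ← hTmap,
      Measure.map_apply hTm (hq k)]
    rfl
  set H : ι → ℝ := fun k => φs (y k) - c k with hH
  obtain ⟨hI1, hE1⟩ := gap_integral_idx (σ := ρ) Q hQm H
  obtain ⟨hI2, hE2⟩ := gap_integral_idx (σ := ρ) (lagIdx y c)
    (fun k => measurableSet_lagIdx_preimage y c {k}) H
  have hqη' : ∀ᵐ x ∂ρ, ‖y (q (T x)) - T x‖ ≤ η := by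
    rw [← hTmap] at hqη
    exact ae_of_ae_map hTm.aemeasurable hqη
  have hpt : ∀ᵐ x ∂ρ, lag y c x - (⟪x, y (q (T x))⟫ - c (q (T x)))
      ≤ H (lagIdx y c x) - H (Q x) + 2 * RK * η := by
    filter_upwards [hK.ae_mem, hsub, hqη'] with x hxK hxs hxη
    have a1 : lag y c x = ⟪x, y (lagIdx y c x)⟫ - c (lagIdx y c x) := lag_eq_lagMap y c x
    have a2 := hle (y (lagIdx y c x)) x hxK
    have a3 : φs (T x) ≤ ⟪x, T x⟫ - φ x := by
      refine csSup_le (hK.inter.mono interior_subset |>.image _) ?_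
      rintro _ ⟨x', hx', rfl⟩
      have := hxs x'
      have e1 : ⟪T x, x' - x⟫ = ⟪x', T x⟫ - ⟪x, T x⟫ := by
        rw [inner_sub_right, real_inner_comm x' (T x), real_inner_comm x (T x)]
      simp only
      linarith
    have a4 := hlip (y (q (T x))) (T x)
    have a5 : RK * ‖y (q (T x)) - T x‖ ≤ RK * η := by gcongr
    have a6 : ⟪x, T x⟫ ≤ ⟪x, y (q (T x))⟫ + RK * η := by
      have h1 : ⟪x, T x⟫ = ⟪x, y (q (T x))⟫ - ⟪x, y (q (T x)) - T x⟫ := by
        rw [inner_sub_right]; ring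
      have h2 : -⟪x, y (q (T x)) - T x⟫ ≤ RK * ‖y (q (T x)) - T x‖ := by
        have := abs_real_inner_le_norm x (y (q (T x)) - T x)
        have h3 : ‖x‖ * ‖y (q (T x)) - T x‖ ≤ RK * ‖y (q (T x)) - T x‖ := by
          gcongr; exact hRK x hxK
        have h4 := neg_abs_le ⟪x, y (q (T x)) - T x⟫
        linarith
      linarith
    simp only [hH, hQ]
    linarith
  have hnn : 0 ≤ᵐ[ρ] fun x => lag y c x - (⟪x, y (q (T x))⟫ - c (q (T x))) :=
    Filter.Eventually.of_forall fun x => sub_nonneg.2 (le_lag y c (q (T x)) x)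
  have hIg : Integrable (fun x => H (lagIdx y c x) - H (Q x) + 2 * RK * η) ρ :=
    (hI2.sub hI1).add (integrable_const _)
  calc ∫ x, (lag y c x - (⟪x, y (q (T x))⟫ - c (q (T x)))) ∂ρ
      ≤ ∫ x, (H (lagIdx y c x) - H (Q x) + 2 * RK * η) ∂ρ :=
        integral_mono_of_nonneg hnn hIg hpt
    _ = 2 * RK * η := by
        have e1 : ∫ x, (H (lagIdx y c x) - H (Q x) + 2 * RK * η) ∂ρ
            = ∫ x, (H (lagIdx y c x) - H (Q x)) ∂ρ + ∫ _x, 2 * RK * η ∂ρ :=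
          integral_add (hI2.sub hI1) (integrable_const _)
        have e2 : ∫ x, (H (lagIdx y c x) - H (Q x)) ∂ρ
            = ∫ x, H (lagIdx y c x) ∂ρ - ∫ x, H (Q x) ∂ρ := integral_sub hI2 hI1
        rw [e1, e2, hE1, hE2]
        simp [hQmass]

end Crest.Agent.OTStab
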