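import Crest.Agent.OTStab.CellAE

/-!
# Task O: the Laguerre map is THE Monge-optimal map onto its image measure

`ρ` uniform on the convex body `K`, `y` injective, `Tn = lagMap y c`, `μ = ρ.map Tn = ∑ ρ(cell k) δ_{y k}` (`map_lagMap`).
Let `S` be measurable with `ρ.map S = μ`.  Then `S x ∈ range y` for ρ-a.e. `x` (`μ (range y)ᶜ = 0`).  Let `cf = Function.extend y c 0` (so `cf (y k) = c k`).
* `⟪x, S x⟫ - cf (S x) ≤ lag y c x` a.e. (`le_lag`), with equality iff `x ∈ cell y c k` where `S x = y k` (`mem_cell_iff`).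
* `∫ cf (S x) dρ = ∫ cf dμ = ∫ cf (Tn x) dρ`, `∫ |S x|² dρ = ∫ |Tn x|² dρ` (same image measure), and `lag y c x = ⟪x, Tn x⟫ - cf (Tn x)` (`lag_eq_lagMap`).
  Hence `∫ ⟪x, S x⟫ dρ ≤ ∫ ⟪x, Tn x⟫ dρ` and `∫ |x - Tn x|² dρ ≤ ∫ |x - S x|² dρ`; everything is bounded, convert to `lintegral`s.
* If `T` is optimal too, then equality holds, so the nonnegative function `lag y c x - (⟪x, T x⟫ - cf (T x))` has integral `0`, hence vanishes a.e.; so a.e.
  `x ∈ cell y c k` for the `k` with `T x = y k`, and then `lagIdx y c x = k` a.e. (`ae_mem_cell_iff`), i.e. `T x = Tn x`.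
-/

set_option autoImplicit false

open MeasureTheory Set
open scoped ENNReal NNReal RealInnerProductSpace
open Crest.AnalysisR.OT

namespace Crest.Agent.OTStab

variable {d : ℕ} {K : Set (E d)} {ι : Type} [Fintype ι] [Nonempty ι]

/-- the weight function transported to the target space: `lagOptCf y c (y k) = c k`. -/
noncomputable def lagOptCf (y : ι → E d) (c : ι → ℝ) (z : E d) : ℝ :=
  ∑ k, Set.indicator {y k} (fun _ => c k) z

theorem lagOptCf_apply {y : ι → E d} (hy : Function.Injective y) (c : ι → ℝ) (k : ι) :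
    lagOptCf y c (y k) = c k := by
  classical
  unfold lagOptCf
  rw [Finset.sum_eq_single k]
  · simp
  · intro l _ hl
    rw [Set.indicator_of_notMem]
    simpa using hy.ne hl.symm
  · simp

theorem measurable_lagOptCf (y : ι → E d) (c : ι → ℝ) : Measurable (lagOptCf y c) := by
  unfold lagOptCf
  refine Finset.measurable_sum _ fun k _ => ?_
  exact measurable_const.indicator (measurableSet_singleton _)

/-- the duality defect of a competitor `S`. -/
noncomputable def lagOptDefect (y : ι → E d) (c : ι → ℝ) (S : E d → E d) (x : E d) : ℝ :=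
  lag y c x - (⟪x, S x⟫ - lagOptCf y c (S x))

theorem lagOpt_ae_mem_range (ρ : Measure (E d)) (y : ι → E d) (c : ι → ℝ) (S : E d → E d)
    (hS : Measurable S) (hSμ : ρ.map S = ρ.map (lagMap y c)) : ∀ᵐ x ∂ρ, ∃ k, S x = y k := by
  have hfin : MeasurableSet (Set.range y) := (Set.finite_range y).measurableSet
  have h0 : (ρ.map (lagMap y c)) (Set.range y)ᶜ = 0 := by
    rw [Measure.map_apply (measurable_lagMap y c) hfin.compl]
    have : lagMap y c ⁻¹' (Set.range y)ᶜ = ∅ := by
      ext x; simp [lagMap]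
    rw [this]; simp
  rw [← hSμ, Measure.map_apply hS hfin.compl] at h0
  have := measure_eq_zero_iff_ae_notMem.mp h0
  filter_upwards [this] with x hx
  simp only [mem_preimage, mem_compl_iff, mem_range, not_exists, not_forall, not_not] at hx
  obtain ⟨k, hk⟩ := hx
  exact ⟨k, hk.symm⟩

theorem lagOpt_key (hK : Body K) (y : ι → E d) (hy : Function.Injective y) (c : ι → ℝ)
    (S : E d → E d) (hS : Measurable S)
    (hSμ : (uniformProbOn K).map S = (uniformProbOn K).map (lagMap y c)) :
    (∀ᵐ x ∂(uniformProbOn K), 0 ≤ lagOptDefect y c S x) ∧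
    Integrable (lagOptDefect y c S) (uniformProbOn K) ∧
    Integrable (fun x => ‖x - S x‖ ^ 2) (uniformProbOn K) ∧
    ∫ x, ‖x - S x‖ ^ 2 ∂(uniformProbOn K) =
      ∫ x, ‖x - lagMap y c x‖ ^ 2 ∂(uniformProbOn K)
        + 2 * ∫ x, lagOptDefect y c S x ∂(uniformProbOn K) := by
  haveI := hK.isProb
  obtain ⟨RK, hRK0, hRK⟩ := hK.exists_bound
  have hx := hK.ae_norm_le hRK
  set ρ := uniformProbOn K with hρ
  set R : ℝ := ∑ k, ‖y k‖ with hR
  set M : ℝ := ∑ k, |c k| with hM
  have hyR : ∀ k, ‖y k‖ ≤ R := fun k => Finset.single_le_sum (f := fun k => ‖y k‖)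
      (fun i _ => norm_nonneg _) (Finset.mem_univ k)
  have hcM : ∀ k, |c k| ≤ M := fun k => Finset.single_le_sum (f := fun k => |c k|)
      (fun i _ => abs_nonneg _) (Finset.mem_univ k)
  have hR0 : 0 ≤ R := Finset.sum_nonneg fun _ _ => norm_nonneg _
  have hM0 : 0 ≤ M := Finset.sum_nonneg fun _ _ => abs_nonneg _
  have hrange := lagOpt_ae_mem_range ρ y c S hS hSμ
  -- the general integrability facts, for any map with values in `range y`
  have hsq : ∀ U : E d → E d, Measurable U → (∀ᵐ x ∂ρ, ∃ k, U x = y k) →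
      Integrable (fun x => ‖x - U x‖ ^ 2) ρ := by
    intro U hU hUr
    refine integrable_of_ae_bound ((measurable_id.sub hU).norm.pow_const 2).aestronglyMeasurable
      ((RK + R) ^ 2) ?_
    filter_upwards [hx, hUr] with x hx1 ⟨k, hk⟩
    rw [Real.norm_of_nonneg (by positivity)]
    have : ‖x - U x‖ ≤ RK + R := (norm_sub_le _ _).trans (add_le_add hx1 (hk ▸ hyR k))
    gcongr
  have hG : ∀ U : E d → E d, Measurable U → (∀ᵐ x ∂ρ, ∃ k, U x = y k) →
      Integrable (fun x => ‖U x‖ ^ 2 - 2 * lagOptCf y c (U x)) ρ := by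
    intro U hU hUr
    refine integrable_of_ae_bound
      ((hU.norm.pow_const 2).sub (((measurable_lagOptCf y c).comp hU).const_mul 2)).aestronglyMeasurable
      (R ^ 2 + 2 * M) ?_
    filter_upwards [hUr] with x ⟨k, hk⟩
    rw [hk, lagOptCf_apply hy]
    have h1 : ‖y k‖ ^ 2 ≤ R ^ 2 := by gcongr; exact hyR k
    have h2 := hcM k
    have h3 : 0 ≤ ‖y k‖ ^ 2 := by positivity
    rw [Real.norm_eq_abs, abs_le]
    have := abs_le.mp h2
    constructor <;> nlinarith [this.1, this.2]
  have hdefm : Measurable (lagOptDefect y c S) := by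
    unfold lagOptDefect
    exact (measurable_lag y c).sub ((measurable_id.inner hS).sub ((measurable_lagOptCf y c).comp hS))
  have hdefI : Integrable (lagOptDefect y c S) ρ := by
    have h1 : Integrable (lag y c) ρ := integrable_lag hx y c
    have h2 : Integrable (fun x => ⟪x, S x⟫ - lagOptCf y c (S x)) ρ := by
      refine integrable_of_ae_bound
        ((measurable_id.inner hS).sub ((measurable_lagOptCf y c).comp hS)).aestronglyMeasurable
        (RK * R + M) ?_
      filter_upwards [hx, hrange] with x hx1 ⟨k, hk⟩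
      rw [hk, lagOptCf_apply hy]
      calc ‖⟪x, y k⟫ - c k‖ ≤ ‖⟪x, y k⟫‖ + ‖c k‖ := norm_sub_le _ _
        _ ≤ ‖x‖ * ‖y k‖ + |c k| := by
            gcongr
            · exact norm_inner_le_norm _ _
            · exact le_of_eq (Real.norm_eq_abs _)
        _ ≤ RK * R + M := by
            gcongr
            · exact hyR k
            · exact hcM k
    exact h1.sub h2
  have hTr : ∀ᵐ x ∂ρ, ∃ k, lagMap y c x = y k :=
    Filter.Eventually.of_forall fun x => ⟨lagIdx y c x, rfl⟩
  refine ⟨?_, hdefI, hsq S hS hrange, ?_⟩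
  · filter_upwards [hrange] with x ⟨k, hk⟩
    unfold lagOptDefect
    rw [hk, lagOptCf_apply hy]
    linarith [le_lag y c k x]
  · -- pointwise identity
    have hpt : ∀ x, ‖x - S x‖ ^ 2 = ‖x - lagMap y c x‖ ^ 2 + 2 * lagOptDefect y c S x
        + ((‖S x‖ ^ 2 - 2 * lagOptCf y c (S x))
          - (‖lagMap y c x‖ ^ 2 - 2 * lagOptCf y c (lagMap y c x))) := by
      intro x
      unfold lagOptDefect
      rw [lag_eq_lagMap y c x]
      have : lagOptCf y c (lagMap y c x) = c (lagIdx y c x) := lagOptCf_apply hy c _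
      rw [this, norm_sub_sq_real, norm_sub_sq_real]
      ring
    have hGm : Measurable (fun z : E d => ‖z‖ ^ 2 - 2 * lagOptCf y c z) :=
      (measurable_norm.pow_const 2).sub ((measurable_lagOptCf y c).const_mul 2)
    have hGeq : ∫ x, (‖S x‖ ^ 2 - 2 * lagOptCf y c (S x)) ∂ρ
        = ∫ x, (‖lagMap y c x‖ ^ 2 - 2 * lagOptCf y c (lagMap y c x)) ∂ρ := by
      rw [← integral_map (φ := S) hS.aemeasurable (f := fun z : E d => ‖z‖ ^ 2 - 2 * lagOptCf y c z)
          hGm.aestronglyMeasurable,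
        ← integral_map (φ := lagMap y c) (measurable_lagMap y c).aemeasurable
          (f := fun z : E d => ‖z‖ ^ 2 - 2 * lagOptCf y c z) hGm.aestronglyMeasurable, hSμ]
    have hI1 := hsq _ (measurable_lagMap y c) hTr
    have hI2 := hG S hS hrange
    have hI3 := hG _ (measurable_lagMap y c) hTr
    calc ∫ x, ‖x - S x‖ ^ 2 ∂ρ
        = ∫ x, (‖x - lagMap y c x‖ ^ 2 + 2 * lagOptDefect y c S x
        + ((‖S x‖ ^ 2 - 2 * lagOptCf y c (S x))
          - (‖lagMap y c x‖ ^ 2 - 2 * lagOptCf y c (lagMap y c x)))) ∂ρ :=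
          integral_congr_ae (Filter.Eventually.of_forall hpt)
      _ = ∫ x, ‖x - lagMap y c x‖ ^ 2 ∂ρ + 2 * ∫ x, lagOptDefect y c S x ∂ρ := by
          have hA : Integrable (fun x => ‖x - lagMap y c x‖ ^ 2 + 2 * lagOptDefect y c S x) ρ :=
            hI1.add (hdefI.const_mul 2)
          have hB : Integrable (fun x => (‖S x‖ ^ 2 - 2 * lagOptCf y c (S x))
              - (‖lagMap y c x‖ ^ 2 - 2 * lagOptCf y c (lagMap y c x))) ρ := hI2.sub hI3
          rw [integral_add hA hB, integral_add hI1 (hdefI.const_mul 2), integral_sub hI2 hI3, hGeq,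
            integral_const_mul]
          ring

theorem lagOpt_lintegral_eq {ρ : Measure (E d)} {S : E d → E d}
    (hI : Integrable (fun x => ‖x - S x‖ ^ 2) ρ) :
    ∫⁻ x, ‖x - S x‖ₑ ^ 2 ∂ρ = ENNReal.ofReal (∫ x, ‖x - S x‖ ^ 2 ∂ρ) := by
  rw [ofReal_integral_eq_lintegral_ofReal hI (Filter.Eventually.of_forall fun x => by positivity)]
  refine lintegral_congr fun x => ?_
  rw [ENNReal.ofReal_pow (norm_nonneg _), ofReal_norm]

theorem lagMap_isOptimalMap (hK : Body K) (y : ι → E d) (hy : Function.Injective y) (c : ι → ℝ) :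
    IsOptimalMap (uniformProbOn K) ((uniformProbOn K).map (lagMap y c)) (lagMap y c) := by
  refine ⟨measurable_lagMap y c, rfl, fun S hS hSμ => ?_⟩
  obtain ⟨h0, -, hI, heq⟩ := lagOpt_key hK y hy c S hS hSμ
  obtain ⟨-, -, hI', -⟩ := lagOpt_key hK y hy c (lagMap y c) (measurable_lagMap y c) rfl
  rw [lagOpt_lintegral_eq hI, lagOpt_lintegral_eq hI', heq]
  apply ENNReal.ofReal_le_ofReal
  have := integral_nonneg_of_ae h0
  linarith

theorem optimal_ae_eq_lagMap (hK : Body K) (y : ι → E d) (hy : Function.Injective y) (c : ι → ℝ)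
    (T : E d → E d)
    (hT : IsOptimalMap (uniformProbOn K) ((uniformProbOn K).map (lagMap y c)) T) :
    T =ᵐ[uniformProbOn K] lagMap y c := by
  obtain ⟨hTm, hTμ, hopt⟩ := hT
  obtain ⟨h0, hdI, hI, heq⟩ := lagOpt_key hK y hy c T hTm hTμ
  obtain ⟨-, -, hI', -⟩ := lagOpt_key hK y hy c (lagMap y c) (measurable_lagMap y c) rfl
  have hle := hopt (lagMap y c) (measurable_lagMap y c) rfl
  rw [lagOpt_lintegral_eq hI, lagOpt_lintegral_eq hI',
    ENNReal.ofReal_le_ofReal_iff (integral_nonneg fun x => by positivity)] at hle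
  have hnn := integral_nonneg_of_ae h0
  have hz : ∫ x, lagOptDefect y c T x ∂(uniformProbOn K) = 0 := by linarith
  have hae := (integral_eq_zero_iff_of_nonneg_ae h0 hdI).mp hz
  filter_upwards [hae, lagOpt_ae_mem_range _ y c T hTm hTμ,
    ae_mem_cell_iff (unif_ac K) hy c] with x hx ⟨k, hk⟩ hcell
  have h1 : lag y c x = ⟪x, y k⟫ - c k := by
    have : lagOptDefect y c T x = 0 := hx
    unfold lagOptDefect at this
    rw [hk, lagOptCf_apply hy] at this
    linarith
  have h2 : x ∈ cell y c k := (mem_cell_iff y c).mpr h1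
  rw [hk, lagMap, (hcell k).mp h2]

end Crest.Agent.OTStab
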