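import Crest.Agent.OTStab.Defs

/-!
# Task A4: Lipschitz bounds for the two test functions of Lemma A on a ball

`|e^u - e^{u'}| ≤ e^{max u u'} |u - u'|`, `| |x|² - |x'|² | ≤ (|x|+|x'|) |x-x'|`.
-/

set_option autoImplicit false

open scoped RealInnerProductSpace

namespace Crest.Agent.OTStab

variable {d : ℕ}

theorem exp_sub_le_aux {u u' K : ℝ} (h : u ≤ u') (hK : u' ≤ K) :
    |Real.exp u - Real.exp u'| ≤ Real.exp K * |u - u'| := by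
  have h1 : Real.exp u ≤ Real.exp u' := Real.exp_le_exp.mpr h
  rw [abs_of_nonpos (by linarith), abs_of_nonpos (by linarith)]
  have h2 : u - u' + 1 ≤ Real.exp (u - u') := Real.add_one_le_exp _
  have h3 : Real.exp u = Real.exp u' * Real.exp (u - u') := by
    rw [← Real.exp_add]; congr 1; ring
  have h4 : 0 < Real.exp u' := Real.exp_pos _
  have h5 : Real.exp u' ≤ Real.exp K := Real.exp_le_exp.mpr hK
  calc -(Real.exp u - Real.exp u') = Real.exp u' * (1 - Real.exp (u - u')) := by rw [h3]; ring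
    _ ≤ Real.exp u' * (-(u - u')) := by
        apply mul_le_mul_of_nonneg_left _ h4.le; linarith
    _ ≤ Real.exp K * (-(u - u')) := by
        apply mul_le_mul_of_nonneg_right h5; linarith

theorem exp_sub_le {u u' K : ℝ} (hu : u ≤ K) (hK : u' ≤ K) :
    |Real.exp u - Real.exp u'| ≤ Real.exp K * |u - u'| := by
  rcases le_total u u' with h | h
  · exact exp_sub_le_aux h hK
  · rw [abs_sub_comm, abs_sub_comm u u']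
    exact exp_sub_le_aux h hu

theorem lip_r1 {τ R : ℝ} (hτ : 0 ≤ τ) (x x' : E d) (hx : ‖x‖ ≤ R) (hx' : ‖x'‖ ≤ R) :
    |Real.exp (τ * ‖x‖ ^ 2 / 2) - Real.exp (τ * ‖x'‖ ^ 2 / 2)|
      ≤ (τ * R * Real.exp (τ * R ^ 2 / 2)) * ‖x - x'‖ := by
  have hR : 0 ≤ R := le_trans (norm_nonneg _) hx
  have h1 : τ * ‖x‖ ^ 2 / 2 ≤ τ * R ^ 2 / 2 := by
    have : ‖x‖ ^ 2 ≤ R ^ 2 := pow_le_pow_left₀ (norm_nonneg _) hx 2
    nlinarith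
  have h2 : τ * ‖x'‖ ^ 2 / 2 ≤ τ * R ^ 2 / 2 := by
    have : ‖x'‖ ^ 2 ≤ R ^ 2 := pow_le_pow_left₀ (norm_nonneg _) hx' 2
    nlinarith
  have h3 := exp_sub_le h1 h2
  have h4 : |τ * ‖x‖ ^ 2 / 2 - τ * ‖x'‖ ^ 2 / 2| ≤ τ * R * ‖x - x'‖ := by
    have e : τ * ‖x‖ ^ 2 / 2 - τ * ‖x'‖ ^ 2 / 2 = (τ / 2 * (‖x‖ + ‖x'‖)) * (‖x‖ - ‖x'‖) := by ring
    rw [e, abs_mul, abs_of_nonneg (by positivity)]
    have h5 : |‖x‖ - ‖x'‖| ≤ ‖x - x'‖ := abs_norm_sub_norm_le x x'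
    have h6 : τ / 2 * (‖x‖ + ‖x'‖) ≤ τ * R := by nlinarith
    exact mul_le_mul h6 h5 (abs_nonneg _) (by positivity)
  calc _ ≤ Real.exp (τ * R ^ 2 / 2) * |τ * ‖x‖ ^ 2 / 2 - τ * ‖x'‖ ^ 2 / 2| := h3
    _ ≤ Real.exp (τ * R ^ 2 / 2) * (τ * R * ‖x - x'‖) :=
        mul_le_mul_of_nonneg_left h4 (Real.exp_pos _).le
    _ = _ := by ring

theorem lip_r2 {τ R : ℝ} (hτ : 0 ≤ τ) (θ : E d) (hθ : ‖θ‖ ≤ 1) (x x' : E d) (hx : ‖x‖ ≤ R)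
    (hx' : ‖x'‖ ≤ R) :
    |⟪θ, x⟫ * Real.exp (τ * ‖x‖ ^ 2 / 2) - ⟪θ, x'⟫ * Real.exp (τ * ‖x'‖ ^ 2 / 2)|
      ≤ ((1 + τ * R ^ 2) * Real.exp (τ * R ^ 2 / 2)) * ‖x - x'‖ := by
  have hR : 0 ≤ R := le_trans (norm_nonneg _) hx
  have h1 : τ * ‖x‖ ^ 2 / 2 ≤ τ * R ^ 2 / 2 := by
    have : ‖x‖ ^ 2 ≤ R ^ 2 := pow_le_pow_left₀ (norm_nonneg _) hx 2
    nlinarith
  have e : ⟪θ, x⟫ * Real.exp (τ * ‖x‖ ^ 2 / 2) - ⟪θ, x'⟫ * Real.exp (τ * ‖x'‖ ^ 2 / 2)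
      = ⟪θ, x - x'⟫ * Real.exp (τ * ‖x‖ ^ 2 / 2)
        + ⟪θ, x'⟫ * (Real.exp (τ * ‖x‖ ^ 2 / 2) - Real.exp (τ * ‖x'‖ ^ 2 / 2)) := by
    rw [inner_sub_right]; ring
  rw [e]
  have a1 : |⟪θ, x - x'⟫| ≤ ‖x - x'‖ := by
    calc |⟪θ, x - x'⟫| ≤ ‖θ‖ * ‖x - x'‖ := abs_real_inner_le_norm _ _
      _ ≤ 1 * ‖x - x'‖ := mul_le_mul_of_nonneg_right hθ (norm_nonneg _)
      _ = _ := one_mul _
  have a2 : |⟪θ, x'⟫| ≤ R := by
    calc |⟪θ, x'⟫| ≤ ‖θ‖ * ‖x'‖ := abs_real_inner_le_norm _ _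
      _ ≤ 1 * R := mul_le_mul hθ hx' (norm_nonneg _) zero_le_one
      _ = _ := one_mul _
  have a3 := lip_r1 hτ x x' hx hx'
  have a4 : Real.exp (τ * ‖x‖ ^ 2 / 2) ≤ Real.exp (τ * R ^ 2 / 2) := Real.exp_le_exp.mpr h1
  calc _ ≤ |⟪θ, x - x'⟫ * Real.exp (τ * ‖x‖ ^ 2 / 2)|
        + |⟪θ, x'⟫ * (Real.exp (τ * ‖x‖ ^ 2 / 2) - Real.exp (τ * ‖x'‖ ^ 2 / 2))| := abs_add_le _ _
    _ = |⟪θ, x - x'⟫| * Real.exp (τ * ‖x‖ ^ 2 / 2)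
        + |⟪θ, x'⟫| * |Real.exp (τ * ‖x‖ ^ 2 / 2) - Real.exp (τ * ‖x'‖ ^ 2 / 2)| := by
        rw [abs_mul, abs_mul, abs_of_pos (Real.exp_pos _)]
    _ ≤ ‖x - x'‖ * Real.exp (τ * R ^ 2 / 2)
        + R * ((τ * R * Real.exp (τ * R ^ 2 / 2)) * ‖x - x'‖) := by
        apply add_le_add
        · exact mul_le_mul a1 a4 (Real.exp_pos _).le (norm_nonneg _)
        · exact mul_le_mul a2 a3 (abs_nonneg _) hR
    _ = _ := by ring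

theorem exp_le_inv_one_sub {x : ℝ} (hx : x < 1) : Real.exp x ≤ 1 / (1 - x) := by
  have h1 : -x + 1 ≤ Real.exp (-x) := Real.add_one_le_exp _
  rw [Real.exp_neg] at h1
  have h2 : 0 < Real.exp x := Real.exp_pos _
  rw [le_div_iff₀ (by linarith)]
  have h3 : (-x + 1) * Real.exp x ≤ (Real.exp x)⁻¹ * Real.exp x :=
    mul_le_mul_of_nonneg_right h1 h2.le
  rw [inv_mul_cancel₀ h2.ne'] at h3
  linarith

/-- numerical facts used with `τ R² = 1/100`. -/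
theorem exp_hundredth_le : Real.exp (1 / 200) ≤ 1.01 := by
  have := exp_le_inv_one_sub (x := 1 / 200) (by norm_num)
  refine le_trans this ?_
  norm_num

theorem lam1_ge : (12 : ℝ) ≤ 1 / (8 * (1 / 100) * Real.exp (1 / 100)) := by
  have h := exp_le_inv_one_sub (x := 1 / 100) (by norm_num)
  have h2 : 0 < Real.exp (1 / 100) := Real.exp_pos _
  rw [le_div_iff₀ (by positivity)]
  have h3 : (1 : ℝ) / (1 - 1 / 100) = 100 / 99 := by norm_num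
  rw [h3] at h
  linarith

end Crest.Agent.OTStab
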