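import Crest.Agent.OTStab.Defs

/-!
# Task A2: the purely numerical part of Lemma A  (finite sums of reals / vectors, no measure theory)

Notation of the proof (per index `k`, dropped): `s = √(a a')`, `Δ₁ = v'/a' - v/a`,
`Δ₂ = b'/a' - b/a`, `Γ = ∑ γ`, `V = ∑ (v'-v)²/a`, `X = ∑ a Δ₁²`, `H = ½ ∑ (√a - √a')²`.
* `a' ≥ v'/q ≥ (2/3) v/q ≥ (2/(3q)) a`, hence `s ≥ 0.8 a`.
* summing `H1` and using `∑ a'' ≤ ½(∑ a + ∑ a')`: `lam1 ∑ s Δ₁² ≤ H`; same with `H2`: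
  `lam2 ∑ s |Δ₂|² ≤ H`.
* `(a'-a)(v'/a') = v' - v - a Δ₁` and `v'/a' ≥ 1` give `|a'-a| ≤ |v'-v| + a|Δ₁|`,
  so `(a'-a)² ≤ 2(v'-v)² + 2a²Δ₁²`;  `(√a-√a')² ≤ (a-a')²/a`;  hence `H ≤ V + X`.
* `9.6 X ≤ lam1 * 0.8 * X ≤ H ≤ V + X`, so `X ≤ V/8.6`, `H ≤ 1.12 V`.
* `(v'-v)²/a ≤ v' γ / a ≤ 2 v γ / a ≤ 2 q γ`, so `V ≤ 2.02 Γ`, `H ≤ 2.27 Γ`,
  `∑ a |Δ₂|² ≤ 2.84 Γ / lam2`.
* `b' - b = a' Δ₂ + (a'-a) b/a`, `|b|/a ≤ RK q`, `a'²/v ≤ 4 q a`, `(a'-a)²/v ≤ (a'-a)²/a`.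
  Result: `∑ |b'-b|²/v ≤ 23 Γ/lam2 + 9.2 RK² Γ`.
-/

set_option autoImplicit false

open scoped RealInnerProductSpace

namespace Crest.Agent.OTStab

/-- scalar facts for one index. -/
private theorem lemmaANum_scalar (a a' v v' γ q : ℝ) (ha : 0 < a) (ha' : 0 < a')
    (hq : q ≤ 1.01) (H3 : a ≤ v ∧ v ≤ q * a) (H3' : a' ≤ v' ∧ v' ≤ q * a')
    (H4 : 2 / 3 * v ≤ v' ∧ v' ≤ 2 * v) (H4' : (v' - v) ^ 2 ≤ v' * γ) :
    0 ≤ γ ∧ 0.8 * a ≤ Real.sqrt (a * a') ∧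
      (a' - a) ^ 2 / a ≤ 2 * ((v' - v) ^ 2 / a) + 2 * (a * (v' / a' - v / a) ^ 2) ∧
      (a + a') / 2 - Real.sqrt (a * a') ≤ (a' - a) ^ 2 / a / 2 ∧
      (v' - v) ^ 2 / a ≤ 2.02 * γ := by
  obtain ⟨h3a, h3b⟩ := H3
  obtain ⟨h3a', h3b'⟩ := H3'
  obtain ⟨h4a, h4b⟩ := H4
  have hv : 0 < v := lt_of_lt_of_le ha h3a
  have hv' : 0 < v' := lt_of_lt_of_le ha' h3a'
  have hγ : 0 ≤ γ := by
    by_contra hneg
    push Not at hneg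
    have : v' * γ < 0 := mul_neg_of_pos_of_neg hv' hneg
    nlinarith [sq_nonneg (v' - v)]
  -- a' ≥ 0.66 a
  have haa' : 0.64 * a ≤ a' := by
    have h1 : 2 / 3 * a ≤ q * a' := by linarith
    have h2 : q * a' ≤ 1.01 * a' := by nlinarith
    linarith
  refine ⟨hγ, ?_, ?_, ?_, ?_⟩
  · apply Real.le_sqrt_of_sq_le
    nlinarith
  · -- (a'-a)² ≤ 2 (v'-v)² + 2 a² Δ₁²
    set D : ℝ := v' / a' - v / a with hD
    have hid : (a' - a) * (v' / a') = v' - v - a * D := by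
      rw [hD]; field_simp; ring
    have hge : 1 ≤ v' / a' := by rw [le_div_iff₀ ha']; linarith
    have hsq : (a' - a) ^ 2 ≤ (v' - v - a * D) ^ 2 := by
      rw [← hid, mul_pow]
      have : 1 ≤ (v' / a') ^ 2 := by nlinarith
      nlinarith [sq_nonneg (a' - a)]
    have hsq2 : (a' - a) ^ 2 ≤ 2 * (v' - v) ^ 2 + 2 * (a * D) ^ 2 := by
      nlinarith [sq_nonneg (v' - v + a * D)]
    rw [div_le_iff₀ ha]
    have e1 : (2 * ((v' - v) ^ 2 / a) + 2 * (a * D ^ 2)) * a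
        = 2 * (v' - v) ^ 2 + 2 * (a * D) ^ 2 := by
      field_simp
    rw [e1]; exact hsq2
  · -- with x = √a, y = √a'
    obtain ⟨x, hx, rfl⟩ : ∃ x : ℝ, 0 < x ∧ a = x ^ 2 :=
      ⟨Real.sqrt a, Real.sqrt_pos.2 ha, (Real.sq_sqrt ha.le).symm⟩
    obtain ⟨y, hy, rfl⟩ : ∃ y : ℝ, 0 < y ∧ a' = y ^ 2 :=
      ⟨Real.sqrt a', Real.sqrt_pos.2 ha', (Real.sq_sqrt ha'.le).symm⟩
    have hs : Real.sqrt (x ^ 2 * y ^ 2) = x * y := by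
      rw [← mul_pow, Real.sqrt_sq (mul_pos hx hy).le]
    rw [hs, div_div, le_div_iff₀ (by positivity)]
    have : (y ^ 2 - x ^ 2) ^ 2 - ((x ^ 2 + y ^ 2) / 2 - x * y) * (x ^ 2 * 2)
        = (y - x) ^ 2 * y * (y + 2 * x) := by ring
    have h2 : 0 ≤ (y - x) ^ 2 * y * (y + 2 * x) := by positivity
    linarith
  · rw [div_le_iff₀ ha]
    have h1 : v' ≤ 2.02 * a := by nlinarith
    nlinarith

/-- vector fact for one index. -/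
private theorem lemmaANum_vector {d : ℕ} (a a' v v' q RK : ℝ) (b b' : E d) (ha : 0 < a)
    (ha' : 0 < a') (hq1 : 1 ≤ q) (hq : q ≤ 1.01) (hRK : 0 ≤ RK) (H3 : a ≤ v ∧ v ≤ q * a)
    (H3' : a' ≤ v' ∧ v' ≤ q * a') (H4 : 2 / 3 * v ≤ v' ∧ v' ≤ 2 * v) (H5 : ‖b‖ ≤ RK * v) :
    v⁻¹ * ‖b' - b‖ ^ 2 ≤ 8.08 * (a * ‖a'⁻¹ • b' - a⁻¹ • b‖ ^ 2)
      + 2.0402 * RK ^ 2 * ((a' - a) ^ 2 / a) := by
  obtain ⟨h3a, h3b⟩ := H3
  obtain ⟨h3a', h3b'⟩ := H3'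
  obtain ⟨h4a, h4b⟩ := H4
  have hv : 0 < v := lt_of_lt_of_le ha h3a
  set D : E d := a'⁻¹ • b' - a⁻¹ • b with hD
  have hid : b' - b = a' • D + ((a' - a) * a⁻¹) • b := by
    rw [hD, smul_sub, smul_smul, smul_smul, mul_inv_cancel₀ ha'.ne', one_smul, sub_mul,
      mul_inv_cancel₀ ha.ne', sub_smul, one_smul]
    abel
  have hb : ‖b‖ * a⁻¹ ≤ RK * q := by
    rw [← div_eq_mul_inv, div_le_iff₀ ha]
    calc ‖b‖ ≤ RK * v := H5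
      _ ≤ RK * (q * a) := by gcongr
      _ = RK * q * a := by ring
  have hn : ‖b' - b‖ ≤ a' * ‖D‖ + |a' - a| * (RK * q) := by
    rw [hid]
    refine (norm_add_le _ _).trans ?_
    rw [norm_smul, norm_smul, Real.norm_eq_abs, Real.norm_eq_abs, abs_of_pos ha', abs_mul,
      abs_of_pos (inv_pos.2 ha)]
    have : |a' - a| * a⁻¹ * ‖b‖ = |a' - a| * (‖b‖ * a⁻¹) := by ring
    rw [this]
    gcongr
  have hsq : ‖b' - b‖ ^ 2 ≤ 2 * (a' * ‖D‖) ^ 2 + 2 * ((a' - a) ^ 2 * (RK * q) ^ 2) := by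
    have h0 : 0 ≤ ‖b' - b‖ := norm_nonneg _
    have h1 : ‖b' - b‖ ^ 2 ≤ (a' * ‖D‖ + |a' - a| * (RK * q)) ^ 2 := by gcongr
    have h2 : (|a' - a| * (RK * q)) ^ 2 = (a' - a) ^ 2 * (RK * q) ^ 2 := by
      rw [mul_pow, sq_abs]
    nlinarith [sq_nonneg (a' * ‖D‖ - |a' - a| * (RK * q))]
  have hq2 : q ^ 2 ≤ 1.0201 := by nlinarith
  have hA : a' ^ 2 ≤ 4.04 * a * v := by
    have h1 : a' ≤ 2 * v := by linarith
    have h2 : a' ≤ 2.02 * a := by nlinarith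
    nlinarith
  rw [inv_mul_le_iff₀ hv]
  have hD0 : 0 ≤ ‖D‖ ^ 2 := by positivity
  have t1 : 2 * (a' * ‖D‖) ^ 2 ≤ v * (8.08 * (a * ‖D‖ ^ 2)) := by
    rw [mul_pow]
    nlinarith
  have hW : 0 ≤ (a' - a) ^ 2 / a := by positivity
  have hWa : (a' - a) ^ 2 = (a' - a) ^ 2 / a * a := by field_simp
  have t2 : 2 * ((a' - a) ^ 2 * (RK * q) ^ 2) ≤ v * (2.0402 * RK ^ 2 * ((a' - a) ^ 2 / a)) := by
    set Wk := (a' - a) ^ 2 / a with hWk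
    rw [hWa, mul_pow]
    have h1 : Wk * a ≤ Wk * v := by gcongr
    have h2 : RK ^ 2 * q ^ 2 ≤ RK ^ 2 * 1.0201 := by gcongr
    have h3 : 0 ≤ RK ^ 2 := by positivity
    calc 2 * (Wk * a * (RK ^ 2 * q ^ 2)) ≤ 2 * (Wk * v * (RK ^ 2 * 1.0201)) := by
          gcongr
      _ = v * (2.0402 * RK ^ 2 * Wk) := by ring
  linarith

theorem lemmaA_numeric {d : ℕ} {ι : Type} [Fintype ι] (a a' a'' v v' γ : ι → ℝ) (b b' : ι → E d)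
    (lam1 lam2 q RK : ℝ) (hlam1 : 12 ≤ lam1) (hlam2 : 0 < lam2) (hq1 : 1 ≤ q) (hq : q ≤ 1.01)
    (hRK : 0 ≤ RK) (ha : ∀ k, 0 < a k) (ha' : ∀ k, 0 < a' k)
    (hsum : ∑ k, a'' k ≤ ∑ k, a k) (hsum' : ∑ k, a'' k ≤ ∑ k, a' k)
    (H1 : ∀ k, Real.sqrt (a k * a' k) * (1 + lam1 * (v' k / a' k - v k / a k) ^ 2) ≤ a'' k)
    (H2 : ∀ k, Real.sqrt (a k * a' k) * (1 + lam2 * ‖(a' k)⁻¹ • b' k - (a k)⁻¹ • b k‖ ^ 2) ≤ a'' k)
    (H3 : ∀ k, a k ≤ v k ∧ v k ≤ q * a k) (H3' : ∀ k, a' k ≤ v' k ∧ v' k ≤ q * a' k)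
    (H4 : ∀ k, 2 / 3 * v k ≤ v' k ∧ v' k ≤ 2 * v k) (H4' : ∀ k, (v' k - v k) ^ 2 ≤ v' k * γ k)
    (H5 : ∀ k, ‖b k‖ ≤ RK * v k) :
    ∑ k, (v k)⁻¹ * ‖b' k - b k‖ ^ 2 ≤ 30 * (1 / lam2 + RK ^ 2) * ∑ k, γ k := by
  have S := fun k => lemmaANum_scalar (a k) (a' k) (v k) (v' k) (γ k) q (ha k) (ha' k) hq
    (H3 k) (H3' k) (H4 k) (H4' k)
  have Vc := fun k => lemmaANum_vector (a k) (a' k) (v k) (v' k) q RK (b k) (b' k) (ha k) (ha' k)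
    hq1 hq hRK (H3 k) (H3' k) (H4 k) (H5 k)
  -- the sums
  set Γ : ℝ := ∑ k, γ k with hΓ
  set V : ℝ := ∑ k, (v' k - v k) ^ 2 / a k with hV
  set X : ℝ := ∑ k, a k * (v' k / a' k - v k / a k) ^ 2 with hX
  set D2 : ℝ := ∑ k, a k * ‖(a' k)⁻¹ • b' k - (a k)⁻¹ • b k‖ ^ 2 with hD2
  set Hs : ℝ := ∑ k, ((a k + a' k) / 2 - Real.sqrt (a k * a' k)) with hHs
  set Wd : ℝ := ∑ k, (a' k - a k) ^ 2 / a k with hWd
  have hΓ0 : 0 ≤ Γ := Finset.sum_nonneg fun k _ => (S k).1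
  have hX0 : 0 ≤ X := Finset.sum_nonneg fun k _ => by have := ha k; positivity
  have hD20 : 0 ≤ D2 := Finset.sum_nonneg fun k _ => by have := ha k; positivity
  have hVΓ : V ≤ 2.02 * Γ := by
    rw [hV, hΓ, Finset.mul_sum]
    exact Finset.sum_le_sum fun k _ => (S k).2.2.2.2
  have hWVX : Wd ≤ 2 * V + 2 * X := by
    rw [hWd, hV, hX, Finset.mul_sum, Finset.mul_sum, ← Finset.sum_add_distrib]
    exact Finset.sum_le_sum fun k _ => (S k).2.2.1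
  have hHW : Hs ≤ Wd / 2 := by
    rw [hHs, hWd, Finset.sum_div]
    exact Finset.sum_le_sum fun k _ => (S k).2.2.2.1
  have hsumH : ∑ k, (a'' k - Real.sqrt (a k * a' k)) ≤ Hs := by
    rw [hHs, Finset.sum_sub_distrib, Finset.sum_sub_distrib, ← Finset.sum_div,
      Finset.sum_add_distrib]
    linarith
  have hXH : 9.6 * X ≤ Hs := by
    refine le_trans ?_ hsumH
    rw [hX, Finset.mul_sum]
    refine Finset.sum_le_sum fun k _ => ?_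
    have h1 := H1 k
    have h2 := (S k).2.1
    have h3 : 0 ≤ (v' k / a' k - v k / a k) ^ 2 := by positivity
    have h4 : 9.6 * a k ≤ Real.sqrt (a k * a' k) * lam1 := by
      have : 0 < a k := ha k
      nlinarith
    nlinarith
  have hDH : 0.8 * lam2 * D2 ≤ Hs := by
    refine le_trans ?_ hsumH
    rw [hD2, Finset.mul_sum]
    refine Finset.sum_le_sum fun k _ => ?_
    have h1 := H2 k
    have h2 := (S k).2.1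
    have h3 : 0 ≤ ‖(a' k)⁻¹ • b' k - (a k)⁻¹ • b k‖ ^ 2 := by positivity
    have h4 : 0.8 * lam2 * a k ≤ Real.sqrt (a k * a' k) * lam2 := by
      nlinarith
    nlinarith
  have hT : ∑ k, (v k)⁻¹ * ‖b' k - b k‖ ^ 2 ≤ 8.08 * D2 + 2.0402 * RK ^ 2 * Wd := by
    rw [hD2, hWd, Finset.mul_sum, Finset.mul_sum, ← Finset.sum_add_distrib]
    exact Finset.sum_le_sum fun k _ => Vc k
  -- linear consequences
  have hVX : V + X ≤ 2.26 * Γ := by linarith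
  have hHΓ : Hs ≤ 2.26 * Γ := by linarith
  have hWΓ : Wd ≤ 4.52 * Γ := by linarith
  have hD2Γ : D2 ≤ 2.825 * Γ * (1 / lam2) := by
    rw [mul_one_div, le_div_iff₀ hlam2]
    linarith
  have hRK2 : 0 ≤ RK ^ 2 := by positivity
  have hl : 0 ≤ 1 / lam2 := by positivity
  have h5 : 2.0402 * RK ^ 2 * Wd ≤ 2.0402 * RK ^ 2 * (4.52 * Γ) := by gcongr
  have h6 : 0 ≤ Γ * (1 / lam2) := by positivity
  have h7 : 0 ≤ RK ^ 2 * Γ := by positivity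
  nlinarith

end Crest.Agent.OTStab
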