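import Crest.Agent.OTStab.PLCells
import Crest.Agent.OTStab.LemmaANum
import Crest.Agent.OTStab.LemmaALip
import Crest.Agent.OTStab.CellAE

/-!
# Task A3: Lemma A (stability of the barycentres of Laguerre cells under L² perturbation of the source)

`ρ` uniform on the convex body `K ⊆ B(0,RK)`, `σ = (1+g)ρ`, `|g| ≤ 1/2`; the SAME distinct points `y k`
and the SAME masses `m k > 0`; weights `c0` for `ρ`, `c1` for `σ`.  Then
`∑ (1/m k) |∫_{cell c1 k} x dσ - ∫_{cell c0 k} x dρ|² ≤ CA ∫ g² dρ`, `CA` depending on `K` only.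

Proof.  `τ = 1/(100 RK²)`.  `C_k = cell y c0 k ∩ K`, `C'_k = cell y c1 k ∩ K`,
`C''_k = cell y ((c0+c1)/2) k ∩ K` (`cell_midpoint` + convexity of `K`).
`a_k = ∫_{C_k} gw τ`, `a'_k, a''_k` alike; `v_k = vol C_k = |K| m k`, `v'_k = vol C'_k`;
`b_k = ∫_{C_k} x dx`, `b'_k`; `γ_k = ∫_{C'_k} g² dx`.
* `∑ a = ∑ a' = ∑ a'' = ∫_K gw` (a.e. partition, `integral_eq_sum_cell` for `volume.restrict K`).
* `H1`: `pl_cells` with `r = exp(τ|x|²/2)` (so `r * gw = 1`, averages `v/a`),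
  `L = τ RK exp(τRK²/2)` (`lip_r1`), `τ/(8L²) = 1/(8·(1/100)·e^{1/100}) ≥ 12`, and `exp u ≥ 1 + u`.
* `H2`: for each `k` use `θ_k` = unit vector in the direction of `b'_k/a'_k - b_k/a_k`
  (if this vector is 0 the claim is `pl_cells` with anything / follows from H1-type bound),
  `r = ⟪θ_k, x⟫ exp(τ|x|²/2)`, `L = (1+1/100) e^{1/200}` (`lip_r2`), `lam2 = τ/(8L²)`.
* `H3`: `e^{-1/200} ≤ gw ≤ 1` on `K`.   `H5`: `|x| ≤ RK` on `K`.
* `H4`: `∫_{C'_k} (1+g) dx = v_k` and `1/2 ≤ 1+g ≤ 3/2`;  `v'_k - v_k = -∫_{C'_k} g`, Cauchy–Schwarz.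
* `lemmaA_numeric` gives `∑ |b'-b|²/v ≤ 30 (1/lam2 + RK²) ∫_K g² dx`.
* `∫_{C'_k}(1+g) x dx - ∫_{C_k} x dx = b'_k - b_k + e_k`, `|e_k|² ≤ RK² v'_k γ_k ≤ 2 RK² v_k γ_k`.
* convert: `∫ … dρ = |K|⁻¹ ∫_K … dx`, `m k = v_k/|K|`.
-/

set_option autoImplicit false

open MeasureTheory Set
open scoped ENNReal NNReal RealInnerProductSpace
open Crest.AnalysisR.OT

namespace Crest.Agent.OTStab

variable {d : ℕ} {K : Set (E d)}

namespace LemA

/-- Cauchy–Schwarz for a bounded function on a finite measure space. -/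
theorem sq_integral_le {α : Type*} [MeasurableSpace α] (μ : Measure α) [IsFiniteMeasure μ]
    (f : α → ℝ) (hf : Measurable f) (C : ℝ) (hb : ∀ x, |f x| ≤ C) :
    (∫ x, f x ∂μ) ^ 2 ≤ μ.real univ * ∫ x, f x ^ 2 ∂μ := by
  have hi : Integrable f μ :=
    Integrable.of_bound hf.aestronglyMeasurable C (Filter.Eventually.of_forall fun x => by
      rw [Real.norm_eq_abs]; exact hb x)
  have hi2 : Integrable (fun x => f x ^ 2) μ :=
    Integrable.of_bound (hf.pow_const 2).aestronglyMeasurable (C ^ 2)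
      (Filter.Eventually.of_forall fun x => by
        rw [Real.norm_eq_abs, abs_pow]; exact pow_le_pow_left₀ (abs_nonneg _) (hb x) 2)
  have key : ∀ t : ℝ, 0 ≤ (∫ x, f x ^ 2 ∂μ) - 2 * t * (∫ x, f x ∂μ) + t ^ 2 * μ.real univ := by
    intro t
    have h1 : 0 ≤ ∫ x, (f x - t) ^ 2 ∂μ := integral_nonneg fun x => sq_nonneg _
    have h2 : ∫ x, (f x - t) ^ 2 ∂μ
        = (∫ x, f x ^ 2 ∂μ) - 2 * t * (∫ x, f x ∂μ) + t ^ 2 * μ.real univ := by
      have e0 : (fun x => (f x - t) ^ 2) = fun x => f x ^ 2 - 2 * t * f x + t ^ 2 := by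
        funext x; ring
      have e1 : ∫ x, (f x ^ 2 - 2 * t * f x + t ^ 2) ∂μ
          = ∫ x, (f x ^ 2 - 2 * t * f x) ∂μ + ∫ _x, t ^ 2 ∂μ :=
        integral_add (hi2.sub (hi.const_mul _)) (integrable_const _)
      have e2 : ∫ x, (f x ^ 2 - 2 * t * f x) ∂μ = ∫ x, f x ^ 2 ∂μ - ∫ x, 2 * t * f x ∂μ :=
        integral_sub hi2 (hi.const_mul _)
      rw [e0, e1, e2, integral_const_mul, integral_const]
      simp [mul_comm]
    rw [← h2]; exact h1
  set I := ∫ x, f x ∂μ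
  set S := ∫ x, f x ^ 2 ∂μ
  set V := μ.real univ
  have hV : 0 ≤ V := measureReal_nonneg
  rcases hV.eq_or_lt with hV0 | hV0
  · -- V = 0
    have hI : I = 0 := by
      by_contra hI
      have h1 := key ((S + 1) / (2 * I))
      rw [← hV0] at h1
      have h2 : 2 * ((S + 1) / (2 * I)) * I = S + 1 := by field_simp
      rw [h2] at h1
      linarith
    rw [hI, ← hV0]; simp
  · have h1 := key (I / V)
    have h3 : S - 2 * (I / V) * I + (I / V) ^ 2 * V = S - I ^ 2 / V := by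
      field_simp; ring
    rw [h3] at h1
    have : I ^ 2 / V ≤ S := by linarith
    rw [div_le_iff₀ hV0] at this
    linarith

theorem gw_le_one {τ : ℝ} (hτ : 0 ≤ τ) (x : E d) : gw τ x ≤ 1 := by
  unfold gw
  rw [Real.exp_le_one_iff]
  have : 0 ≤ τ * ‖x‖ ^ 2 / 2 := by positivity
  linarith

theorem le_gw {τ RK : ℝ} (hτ : 0 ≤ τ) (hτR : τ * RK ^ 2 = 1 / 100) {x : E d} (hx : ‖x‖ ≤ RK) :
    Real.exp (-(1 / 200)) ≤ gw τ x := by
  unfold gw
  apply Real.exp_le_exp.2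
  have h1 : ‖x‖ ^ 2 ≤ RK ^ 2 := pow_le_pow_left₀ (norm_nonneg _) hx 2
  have h2 : τ * ‖x‖ ^ 2 ≤ τ * RK ^ 2 := mul_le_mul_of_nonneg_left h1 hτ
  linarith

theorem integrableOn_gw (τ : ℝ) (hK : IsCompact K) {A : Set (E d)} (hAK : A ⊆ K) :
    IntegrableOn (gw τ) A :=
  ((continuous_gw τ).continuousOn.integrableOn_compact hK).mono_set hAK

theorem vol_lt_top (hK : IsCompact K) {A : Set (E d)} (hAK : A ⊆ K) : volume A < ∞ :=
  (measure_mono hAK).trans_lt hK.measure_lt_top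

theorem int_gw_le {τ : ℝ} (hτ : 0 ≤ τ) (hK : IsCompact K) {A : Set (E d)} (hA : MeasurableSet A)
    (hAK : A ⊆ K) : ∫ x in A, gw τ x ≤ volume.real A := by
  have h1 : ∫ x in A, gw τ x ≤ ∫ _x in A, (1 : ℝ) := by
    apply setIntegral_mono_on (integrableOn_gw τ hK hAK) _ hA (fun x _ => gw_le_one hτ x)
    exact integrableOn_const (vol_lt_top hK hAK).ne
  simpa using h1

theorem le_int_gw {τ RK : ℝ} (hτ : 0 ≤ τ) (hτR : τ * RK ^ 2 = 1 / 100)
    (hRK : ∀ x ∈ K, ‖x‖ ≤ RK) (hK : IsCompact K) {A : Set (E d)} (hA : MeasurableSet A)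
    (hAK : A ⊆ K) : volume.real A ≤ Real.exp (1 / 200) * ∫ x in A, gw τ x := by
  have h1 : ∫ _x in A, Real.exp (-(1 / 200)) ≤ ∫ x in A, gw τ x := by
    apply setIntegral_mono_on _ (integrableOn_gw τ hK hAK) hA
      (fun x hx => le_gw hτ hτR (hRK x (hAK hx)))
    exact integrableOn_const (vol_lt_top hK hAK).ne
  have h2 : ∫ _x in A, Real.exp (-(1 / 200)) = volume.real A * Real.exp (-(1 / 200)) := by
    simp
  rw [h2] at h1
  have h3 : Real.exp (1 / 200) * Real.exp (-(1 / 200)) = 1 := by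
    rw [← Real.exp_add]; simp
  calc volume.real A = Real.exp (1 / 200) * (volume.real A * Real.exp (-(1 / 200))) := by
        rw [mul_left_comm, h3, mul_one]
    _ ≤ Real.exp (1 / 200) * ∫ x in A, gw τ x :=
        mul_le_mul_of_nonneg_left h1 (Real.exp_pos _).le

theorem exp_mul_gw (τ : ℝ) (x : E d) : Real.exp (τ * ‖x‖ ^ 2 / 2) * gw τ x = 1 := by
  unfold gw
  rw [← Real.exp_add]; simp

/-- `H1`. -/
theorem H1 {τ RK : ℝ} (hRK0 : 0 < RK) (hτ : 0 < τ) (hτR : τ * RK ^ 2 = 1 / 100)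
    (hRK : ∀ x ∈ K, ‖x‖ ≤ RK) (hK : IsCompact K) {C C' C'' : Set (E d)}
    (hC : MeasurableSet C) (hC' : MeasurableSet C') (hC'' : MeasurableSet C'')
    (hCK : C ⊆ K) (hCK' : C' ⊆ K) (hCK'' : C'' ⊆ K)
    (hmid : ∀ x ∈ C, ∀ x' ∈ C', (1 / 2 : ℝ) • (x + x') ∈ C'')
    (ha : 0 < ∫ x in C, gw τ x) (ha' : 0 < ∫ x in C', gw τ x) :
    Real.sqrt ((∫ x in C, gw τ x) * (∫ x in C', gw τ x)) *
      (1 + (1 / (8 * (1 / 100) * Real.exp (1 / 100))) *
        (volume.real C' / (∫ x in C', gw τ x) - volume.real C / (∫ x in C, gw τ x)) ^ 2)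
      ≤ ∫ x in C'', gw τ x := by
  have hL : 0 < τ * RK * Real.exp (τ * RK ^ 2 / 2) := by positivity
  have h := pl_cells hτ hL hK hC hC' hC'' hCK hCK' hCK'' hmid
    (fun x => Real.exp (τ * ‖x‖ ^ 2 / 2)) (by fun_prop)
    (fun x hx x' hx' => lip_r1 hτ.le x x' (hRK x hx) (hRK x' hx')) ha ha'
  simp only [exp_mul_gw] at h
  have e1 : ∀ A : Set (E d), ∫ _x in A, (1 : ℝ) = volume.real A := by intro A; simp
  rw [e1, e1] at h
  refine le_trans ?_ h
  apply mul_le_mul_of_nonneg_left _ (Real.sqrt_nonneg _)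
  set Δ := volume.real C' / (∫ x in C', gw τ x) - volume.real C / (∫ x in C, gw τ x)
  have e2 : τ * Δ ^ 2 / (8 * (τ * RK * Real.exp (τ * RK ^ 2 / 2)) ^ 2)
      = (1 / (8 * (1 / 100) * Real.exp (1 / 100))) * Δ ^ 2 := by
    have e3 : (τ * RK * Real.exp (τ * RK ^ 2 / 2)) ^ 2 = τ * (τ * RK ^ 2) * Real.exp (τ * RK ^ 2) := by
      have : Real.exp (τ * RK ^ 2) = Real.exp (τ * RK ^ 2 / 2) * Real.exp (τ * RK ^ 2 / 2) := by
        rw [← Real.exp_add]; congr 1; ring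
      rw [this]; ring
    rw [e3, hτR]
    have := Real.exp_pos (1 / 100 : ℝ)
    field_simp
  rw [e2]
  have := Real.add_one_le_exp ((1 / (8 * (1 / 100) * Real.exp (1 / 100))) * Δ ^ 2)
  linarith

theorem integrableOn_id (hK : IsCompact K) {A : Set (E d)} (hAK : A ⊆ K) :
    IntegrableOn (fun x : E d => x) A :=
  (continuous_id.continuousOn.integrableOn_compact hK).mono_set hAK

/-- `H2`. -/
theorem H2 {τ RK : ℝ} (hτ : 0 < τ)
    (hRK : ∀ x ∈ K, ‖x‖ ≤ RK) (hK : IsCompact K) {C C' C'' : Set (E d)}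
    (hC : MeasurableSet C) (hC' : MeasurableSet C') (hC'' : MeasurableSet C'')
    (hCK : C ⊆ K) (hCK' : C' ⊆ K) (hCK'' : C'' ⊆ K)
    (hmid : ∀ x ∈ C, ∀ x' ∈ C', (1 / 2 : ℝ) • (x + x') ∈ C'')
    (ha : 0 < ∫ x in C, gw τ x) (ha' : 0 < ∫ x in C', gw τ x) :
    Real.sqrt ((∫ x in C, gw τ x) * (∫ x in C', gw τ x)) *
      (1 + (τ / (8 * ((1 + τ * RK ^ 2) * Real.exp (τ * RK ^ 2 / 2)) ^ 2)) *
        ‖(∫ x in C', gw τ x)⁻¹ • (∫ x in C', x) - (∫ x in C, gw τ x)⁻¹ • (∫ x in C, x)‖ ^ 2)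
      ≤ ∫ x in C'', gw τ x := by
  have hL : 0 < (1 + τ * RK ^ 2) * Real.exp (τ * RK ^ 2 / 2) := by positivity
  set D2 : E d := (∫ x in C', gw τ x)⁻¹ • (∫ x in C', x) - (∫ x in C, gw τ x)⁻¹ • (∫ x in C, x)
    with hD2
  set θ : E d := ‖D2‖⁻¹ • D2 with hθ
  have hθ1 : ‖θ‖ ≤ 1 := by
    rw [hθ, norm_smul, norm_inv, norm_norm]
    rcases eq_or_ne ‖D2‖ 0 with h0 | h0
    · rw [h0]; simp
    · rw [inv_mul_cancel₀ h0]
  have hθD : ⟪θ, D2⟫ = ‖D2‖ := by
    rw [hθ, real_inner_smul_left, real_inner_self_eq_norm_sq]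
    rcases eq_or_ne ‖D2‖ 0 with h0 | h0
    · rw [h0]; simp
    · field_simp
  have h := pl_cells hτ hL hK hC hC' hC'' hCK hCK' hCK'' hmid
    (fun x => ⟪θ, x⟫ * Real.exp (τ * ‖x‖ ^ 2 / 2)) (by fun_prop)
    (fun x hx x' hx' => lip_r2 hτ.le θ hθ1 x x' (hRK x hx) (hRK x' hx')) ha ha'
  simp only [mul_assoc, exp_mul_gw, mul_one] at h
  have e1 : ∀ A : Set (E d), A ⊆ K → ∫ x in A, ⟪θ, x⟫ = ⟪θ, ∫ x in A, x⟫ := by
    intro A hA
    exact integral_inner (integrableOn_id hK hA) θ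
  rw [e1 C hCK, e1 C' hCK'] at h
  have e2 : ⟪θ, ∫ x in C', x⟫ / (∫ x in C', gw τ x) - ⟪θ, ∫ x in C, x⟫ / (∫ x in C, gw τ x)
      = ‖D2‖ := by
    rw [← hθD, hD2, inner_sub_right, real_inner_smul_right, real_inner_smul_right]
    ring
  rw [e2] at h
  refine le_trans ?_ h
  apply mul_le_mul_of_nonneg_left _ (Real.sqrt_nonneg _)
  have e3 : τ * (‖D2‖ ^ 2 / (8 * ((1 + τ * RK ^ 2) * Real.exp (τ * RK ^ 2 / 2)) ^ 2))
      = (τ / (8 * ((1 + τ * RK ^ 2) * Real.exp (τ * RK ^ 2 / 2)) ^ 2)) * ‖D2‖ ^ 2 := by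
    ring
  have e4 : τ * ‖D2‖ ^ 2 / (8 * ((1 + τ * RK ^ 2) * Real.exp (τ * RK ^ 2 / 2)) ^ 2)
      = (τ / (8 * ((1 + τ * RK ^ 2) * Real.exp (τ * RK ^ 2 / 2)) ^ 2)) * ‖D2‖ ^ 2 := by
    ring
  rw [e4]
  have := Real.add_one_le_exp
    ((τ / (8 * ((1 + τ * RK ^ 2) * Real.exp (τ * RK ^ 2 / 2)) ^ 2)) * ‖D2‖ ^ 2)
  linarith

section perset

variable {A : Set (E d)} {g : E d → ℝ}

theorem finite_restrict (hK : IsCompact K) (hAK : A ⊆ K) :
    IsFiniteMeasure ((volume : Measure (E d)).restrict A) :=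
  isFiniteMeasure_restrict.2 (vol_lt_top hK hAK).ne

theorem integrableOn_g (hK : IsCompact K) (hAK : A ⊆ K) (hg : Measurable g)
    (hg2 : ∀ x, |g x| ≤ 1 / 2) : IntegrableOn g A := by
  have := finite_restrict hK hAK
  exact Integrable.of_bound hg.aestronglyMeasurable (1 / 2)
    (Filter.Eventually.of_forall fun x => by rw [Real.norm_eq_abs]; exact hg2 x)

theorem integrableOn_gsq (hK : IsCompact K) (hAK : A ⊆ K) (hg : Measurable g)
    (hg2 : ∀ x, |g x| ≤ 1 / 2) : IntegrableOn (fun x => g x ^ 2) A := by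
  have := finite_restrict hK hAK
  exact Integrable.of_bound (hg.pow_const 2).aestronglyMeasurable ((1 / 2) ^ 2)
    (Filter.Eventually.of_forall fun x => by
      rw [Real.norm_eq_abs, abs_pow]; exact pow_le_pow_left₀ (abs_nonneg _) (hg2 x) 2)

theorem integrableOn_gx {RK : ℝ} (hRK : ∀ x ∈ K, ‖x‖ ≤ RK) (hK : IsCompact K)
    (hA : MeasurableSet A) (hAK : A ⊆ K)
    (hg : Measurable g) (hg2 : ∀ x, |g x| ≤ 1 / 2) : IntegrableOn (fun x => g x • x) A := by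
  have := finite_restrict hK hAK
  refine Integrable.of_bound (hg.smul measurable_id).aestronglyMeasurable (1 / 2 * RK) ?_
  filter_upwards [ae_restrict_mem hA] with x hx
  rw [norm_smul, Real.norm_eq_abs]
  exact mul_le_mul (hg2 x) (hRK x (hAK hx)) (norm_nonneg _) (by norm_num)

theorem intg_add (hK : IsCompact K) (hAK : A ⊆ K) (hg : Measurable g)
    (hg2 : ∀ x, |g x| ≤ 1 / 2) :
    ∫ x in A, (1 + g x) = volume.real A + ∫ x in A, g x := by
  have h : ∫ x in A, (1 + g x) = (∫ _x in A, (1 : ℝ)) + ∫ x in A, g x :=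
    integral_add (f := fun _ => (1 : ℝ)) (integrableOn_const (C := (1 : ℝ)) (vol_lt_top hK hAK).ne)
      (integrableOn_g hK hAK hg hg2)
  rw [h]; simp

theorem abs_intg_le (hK : IsCompact K) (hAK : A ⊆ K) (hg2 : ∀ x, |g x| ≤ 1 / 2) :
    |∫ x in A, g x| ≤ 1 / 2 * volume.real A := by
  have := norm_setIntegral_le_of_norm_le_const (μ := (volume : Measure (E d))) (s := A) (f := g)
    (C := 1 / 2) (vol_lt_top hK hAK) (fun x _ => by rw [Real.norm_eq_abs]; exact hg2 x)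
  rwa [Real.norm_eq_abs] at this

theorem sq_intg_le (hK : IsCompact K) (hAK : A ⊆ K) (hg : Measurable g)
    (hg2 : ∀ x, |g x| ≤ 1 / 2) :
    (∫ x in A, g x) ^ 2 ≤ volume.real A * ∫ x in A, g x ^ 2 := by
  have := finite_restrict hK hAK
  have := sq_integral_le ((volume : Measure (E d)).restrict A) g hg (1 / 2) hg2
  simpa using this

theorem norm_sq_intgx_le {RK : ℝ} (hRK : ∀ x ∈ K, ‖x‖ ≤ RK) (hK : IsCompact K)
    (hA : MeasurableSet A) (hAK : A ⊆ K) (hg : Measurable g) (hg2 : ∀ x, |g x| ≤ 1 / 2) :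
    ‖∫ x in A, g x • x‖ ^ 2 ≤ RK ^ 2 * (volume.real A * ∫ x in A, g x ^ 2) := by
  have := finite_restrict hK hAK
  have habs : IntegrableOn (fun x => |g x|) A := (integrableOn_g hK hAK hg hg2).abs
  have h1 : ‖∫ x in A, g x • x‖ ≤ RK * ∫ x in A, |g x| := by
    calc ‖∫ x in A, g x • x‖ ≤ ∫ x in A, ‖g x • x‖ := norm_integral_le_integral_norm _
      _ ≤ ∫ x in A, RK * |g x| := by
          apply setIntegral_mono_on (integrableOn_gx hRK hK hA hAK hg hg2).norm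
            (habs.const_mul RK) hA
          intro x hx
          rw [norm_smul, Real.norm_eq_abs, mul_comm]
          exact mul_le_mul_of_nonneg_right (hRK x (hAK hx)) (abs_nonneg _)
      _ = RK * ∫ x in A, |g x| := integral_const_mul _ _
  have h2 := sq_integral_le ((volume : Measure (E d)).restrict A) (fun x => |g x|) hg.abs (1 / 2)
    (fun x => by rw [abs_abs]; exact hg2 x)
  simp only [sq_abs] at h2
  have h3 : 0 ≤ ∫ x in A, |g x| := integral_nonneg fun x => abs_nonneg _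
  calc ‖∫ x in A, g x • x‖ ^ 2 ≤ (RK * ∫ x in A, |g x|) ^ 2 :=
        pow_le_pow_left₀ (norm_nonneg _) h1 2
    _ = RK ^ 2 * (∫ x in A, |g x|) ^ 2 := by ring
    _ ≤ RK ^ 2 * (volume.real A * ∫ x in A, g x ^ 2) := by
        apply mul_le_mul_of_nonneg_left _ (sq_nonneg _)
        simpa using h2

theorem int_one_add_smul {RK : ℝ} (hRK : ∀ x ∈ K, ‖x‖ ≤ RK) (hK : IsCompact K)
    (hA : MeasurableSet A) (hAK : A ⊆ K) (hg : Measurable g) (hg2 : ∀ x, |g x| ≤ 1 / 2) :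
    ∫ x in A, (1 + g x) • x = (∫ x in A, x) + ∫ x in A, g x • x := by
  have h : ∫ x in A, (x + g x • x) = (∫ x in A, x) + ∫ x in A, g x • x :=
    integral_add (integrableOn_id hK hAK) (integrableOn_gx hRK hK hA hAK hg hg2)
  rw [← h]
  congr 1
  funext x
  rw [add_smul, one_smul]

theorem norm_int_id_le {RK : ℝ} (hRK : ∀ x ∈ K, ‖x‖ ≤ RK) (hK : IsCompact K) (hAK : A ⊆ K) :
    ‖∫ x in A, x‖ ≤ RK * volume.real A :=
  norm_setIntegral_le_of_norm_le_const (vol_lt_top hK hAK) (fun x hx => hRK x (hAK hx))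

end perset

/-- partition of `K` by the cells. -/
theorem sum_cells {ι : Type} [Fintype ι] [Nonempty ι] {y : ι → E d} (hy : Function.Injective y)
    (c : ι → ℝ) {f : E d → ℝ} (hf : IntegrableOn f K) :
    ∑ k, ∫ x in cell y c k ∩ K, f x = ∫ x in K, f x := by
  have h := integral_eq_sum_cell (σ := (volume : Measure (E d)).restrict K)
    Measure.restrict_le_self.absolutelyContinuous hy c hf
  rw [h]
  refine Finset.sum_congr rfl fun k _ => ?_
  rw [Measure.restrict_restrict (measurableSet_cell y c k)]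

end LemA

open LemA in
theorem lemmaA (hK : Body K) : ∃ CA : ℝ, 0 ≤ CA ∧
    ∀ {ι : Type} [Fintype ι] [Nonempty ι] (y : ι → E d) (_ : Function.Injective y)
      (c0 c1 : ι → ℝ) (m : ι → ℝ) (_ : ∀ k, 0 < m k) (g : E d → ℝ) (_ : Measurable g)
      (_ : ∀ x, |g x| ≤ 1 / 2)
      (_ : ∀ k, uniformProbOn K (cell y c0 k) = ENNReal.ofReal (m k))
      (_ : ∀ k, tilt (uniformProbOn K) g (cell y c1 k) = ENNReal.ofReal (m k)),
      ∑ k, (m k)⁻¹ * ‖(∫ x in cell y c1 k, x ∂(tilt (uniformProbOn K) g))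
          - ∫ x in cell y c0 k, x ∂(uniformProbOn K)‖ ^ 2
        ≤ CA * ∫ x, g x ^ 2 ∂(uniformProbOn K) := by
  obtain ⟨RK, hRK0, hRK⟩ := hK.exists_bound
  set τ : ℝ := 1 / (100 * RK ^ 2) with hτdef
  have hτ : 0 < τ := by positivity
  have hτR : τ * RK ^ 2 = 1 / 100 := by rw [hτdef]; field_simp
  set lam2 : ℝ := τ / (8 * ((1 + τ * RK ^ 2) * Real.exp (τ * RK ^ 2 / 2)) ^ 2) with hlam2
  have hlam2pos : 0 < lam2 := by positivity
  refine ⟨2 * (30 * (1 / lam2 + RK ^ 2) + 2 * RK ^ 2), by positivity, ?_⟩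
  intro ι _ _ y hy c0 c1 m hm g hg hg2 hρ hσ
  have hKc := hK.compact
  have hprob : IsProbabilityMeasure (uniformProbOn K) := hK.isProb
  set volK : ℝ := (volume K).toReal with hvolK
  have hvolK0 : 0 < volK := ENNReal.toReal_pos hK.volume_pos.ne' hK.volume_lt_top.ne
  -- the sets
  set C : ι → Set (E d) := fun k => cell y c0 k ∩ K with hCdef
  set C' : ι → Set (E d) := fun k => cell y c1 k ∩ K with hC'def
  set C'' : ι → Set (E d) := fun k => cell y (fun l => (c0 l + c1 l) / 2) k ∩ K with hC''def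
  have mC : ∀ k, MeasurableSet (C k) := fun k => (measurableSet_cell y c0 k).inter hK.measurableSet
  have mC' : ∀ k, MeasurableSet (C' k) :=
    fun k => (measurableSet_cell y c1 k).inter hK.measurableSet
  have mC'' : ∀ k, MeasurableSet (C'' k) :=
    fun k => (measurableSet_cell y _ k).inter hK.measurableSet
  have sC : ∀ k, C k ⊆ K := fun k => inter_subset_right
  have sC' : ∀ k, C' k ⊆ K := fun k => inter_subset_right
  have sC'' : ∀ k, C'' k ⊆ K := fun k => inter_subset_right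
  have hmid : ∀ k, ∀ x ∈ C k, ∀ x' ∈ C' k, (1 / 2 : ℝ) • (x + x') ∈ C'' k := by
    intro k x hx x' hx'
    refine ⟨cell_midpoint y hx.1 hx'.1, ?_⟩
    have := hK.convex hx.2 hx'.2 (by norm_num : (0 : ℝ) ≤ 1 / 2) (by norm_num : (0 : ℝ) ≤ 1 / 2)
      (by norm_num)
    rwa [← smul_add] at this
  -- the numbers
  set a : ι → ℝ := fun k => ∫ x in C k, gw τ x with hadef
  set a' : ι → ℝ := fun k => ∫ x in C' k, gw τ x with ha'def
  set a'' : ι → ℝ := fun k => ∫ x in C'' k, gw τ x with ha''def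
  set v : ι → ℝ := fun k => volume.real (C k) with hvdef
  set v' : ι → ℝ := fun k => volume.real (C' k) with hv'def
  set b : ι → E d := fun k => ∫ x in C k, x with hbdef
  set b' : ι → E d := fun k => ∫ x in C' k, x with hb'def
  set e : ι → E d := fun k => ∫ x in C' k, g x • x with hedef
  set γ : ι → ℝ := fun k => ∫ x in C' k, g x ^ 2 with hγdef
  have hγ0 : ∀ k, 0 ≤ γ k := fun k => integral_nonneg fun x => sq_nonneg _
  -- masses
  have hv : ∀ k, v k = volK * m k := by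
    intro k
    have h := hρ k
    rw [unif_apply K _ (measurableSet_cell y c0 k)] at h
    have h2 := congrArg ENNReal.toReal h
    rw [ENNReal.toReal_mul, ENNReal.toReal_inv, ENNReal.toReal_ofReal (hm k).le, ← hvolK] at h2
    have h3 : v k = (volume (cell y c0 k ∩ K)).toReal := rfl
    rw [h3, ← h2]
    field_simp
  have hv0 : ∀ k, 0 < v k := fun k => by rw [hv k]; exact mul_pos hvolK0 (hm k)
  have hG : ∀ k, v' k + ∫ x in C' k, g x = v k := by
    intro k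
    have h := congrArg ENNReal.toReal (hσ k)
    rw [tilt_apply_toReal _ hg hg2 _ (measurableSet_cell y c1 k),
      setIntegral_unif K _ (measurableSet_cell y c1 k), ENNReal.toReal_ofReal (hm k).le,
      intg_add hKc (sC' k) hg hg2, smul_eq_mul, ← hvolK] at h
    rw [hv k, ← h]
    field_simp
    rfl
  have hgabs : ∀ k, |∫ x in C' k, g x| ≤ 1 / 2 * v' k := fun k => abs_intg_le hKc (sC' k) hg2
  have H4 : ∀ k, 2 / 3 * v k ≤ v' k ∧ v' k ≤ 2 * v k := by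
    intro k
    have h1 := hG k
    have h2 := abs_le.1 (hgabs k)
    constructor <;> linarith [h2.1, h2.2]
  have hv'0 : ∀ k, 0 < v' k := fun k => by have := (H4 k).1; have := hv0 k; linarith
  have H4' : ∀ k, (v' k - v k) ^ 2 ≤ v' k * γ k := by
    intro k
    have h1 : v' k - v k = -∫ x in C' k, g x := by have := hG k; linarith
    rw [h1, neg_sq]
    exact sq_intg_le hKc (sC' k) hg hg2
  have H3 : ∀ k, a k ≤ v k ∧ v k ≤ Real.exp (1 / 200) * a k := fun k =>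
    ⟨int_gw_le hτ.le hKc (mC k) (sC k), le_int_gw hτ.le hτR hRK hKc (mC k) (sC k)⟩
  have H3' : ∀ k, a' k ≤ v' k ∧ v' k ≤ Real.exp (1 / 200) * a' k := fun k =>
    ⟨int_gw_le hτ.le hKc (mC' k) (sC' k), le_int_gw hτ.le hτR hRK hKc (mC' k) (sC' k)⟩
  have ha : ∀ k, 0 < a k := by
    intro k
    have h1 := (H3 k).2
    have h2 := hv0 k
    by_contra hcon
    have : Real.exp (1 / 200) * a k ≤ 0 :=
      mul_nonpos_of_nonneg_of_nonpos (Real.exp_pos _).le (not_lt.1 hcon)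
    linarith
  have ha' : ∀ k, 0 < a' k := by
    intro k
    have h1 := (H3' k).2
    have h2 := hv'0 k
    by_contra hcon
    have : Real.exp (1 / 200) * a' k ≤ 0 :=
      mul_nonpos_of_nonneg_of_nonpos (Real.exp_pos _).le (not_lt.1 hcon)
    linarith
  have hgwK : IntegrableOn (gw τ) K := integrableOn_gw τ hKc subset_rfl
  have hsa : ∑ k, a k = ∫ x in K, gw τ x := sum_cells hy c0 hgwK
  have hsa' : ∑ k, a' k = ∫ x in K, gw τ x := sum_cells hy c1 hgwK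
  have hsa'' : ∑ k, a'' k = ∫ x in K, gw τ x := sum_cells hy _ hgwK
  have hsγ : ∑ k, γ k = ∫ x in K, g x ^ 2 :=
    sum_cells hy c1 (integrableOn_gsq hKc subset_rfl hg hg2)
  have hnum := lemmaA_numeric a a' a'' v v' γ b b'
    (1 / (8 * (1 / 100) * Real.exp (1 / 100))) lam2 (Real.exp (1 / 200)) RK lam1_ge hlam2pos
    (Real.one_le_exp (by norm_num)) exp_hundredth_le hRK0.le ha ha'
    (by rw [hsa'', hsa]) (by rw [hsa'', hsa'])
    (fun k => H1 hRK0 hτ hτR hRK hKc (mC k) (mC' k) (mC'' k) (sC k) (sC' k) (sC'' k) (hmid k)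
      (ha k) (ha' k))
    (fun k => H2 hτ hRK hKc (mC k) (mC' k) (mC'' k) (sC k) (sC' k) (sC'' k) (hmid k)
      (ha k) (ha' k))
    H3 H3' H4 H4' (fun k => norm_int_id_le hRK hKc (sC k))
  -- the terms
  have hterm : ∀ k, (m k)⁻¹ * ‖(∫ x in cell y c1 k, x ∂(tilt (uniformProbOn K) g))
          - ∫ x in cell y c0 k, x ∂(uniformProbOn K)‖ ^ 2
      ≤ volK⁻¹ * (2 * ((v k)⁻¹ * ‖b' k - b k‖ ^ 2) + 4 * RK ^ 2 * γ k) := by
    intro k
    have e1 : (∫ x in cell y c1 k, x ∂(tilt (uniformProbOn K) g)) = volK⁻¹ • (b' k + e k) := by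
      rw [setIntegral_tilt _ hg hg2 _ (measurableSet_cell y c1 k),
        setIntegral_unif K _ (measurableSet_cell y c1 k),
        int_one_add_smul hRK hKc (mC' k) (sC' k) hg hg2]
    have e2 : (∫ x in cell y c0 k, x ∂(uniformProbOn K)) = volK⁻¹ • b k := by
      rw [setIntegral_unif K _ (measurableSet_cell y c0 k)]
    rw [e1, e2, ← smul_sub, norm_smul, Real.norm_eq_abs, abs_of_pos (inv_pos.2 hvolK0)]
    have hmk : (m k)⁻¹ = volK * (v k)⁻¹ := by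
      rw [hv k]; have := (hm k).ne'; field_simp
    have h1 : ‖b' k + e k - b k‖ ^ 2 ≤ 2 * ‖b' k - b k‖ ^ 2 + 2 * ‖e k‖ ^ 2 := by
      have h2 : ‖b' k + e k - b k‖ ≤ ‖b' k - b k‖ + ‖e k‖ := by
        have : b' k + e k - b k = (b' k - b k) + e k := by abel
        rw [this]; exact norm_add_le _ _
      have h3 : ‖b' k + e k - b k‖ ^ 2 ≤ (‖b' k - b k‖ + ‖e k‖) ^ 2 :=
        pow_le_pow_left₀ (norm_nonneg _) h2 2
      nlinarith [sq_nonneg (‖b' k - b k‖ - ‖e k‖)]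
    have h4 : ‖e k‖ ^ 2 ≤ RK ^ 2 * (v' k * γ k) :=
      norm_sq_intgx_le hRK hKc (mC' k) (sC' k) hg hg2
    have h5 : (v k)⁻¹ * ‖e k‖ ^ 2 ≤ 2 * RK ^ 2 * γ k := by
      have h6 : ‖e k‖ ^ 2 ≤ RK ^ 2 * (2 * v k * γ k) := by
        refine h4.trans (mul_le_mul_of_nonneg_left ?_ (sq_nonneg _))
        exact mul_le_mul_of_nonneg_right (H4 k).2 (hγ0 k)
      calc (v k)⁻¹ * ‖e k‖ ^ 2 ≤ (v k)⁻¹ * (RK ^ 2 * (2 * v k * γ k)) :=
            mul_le_mul_of_nonneg_left h6 (inv_pos.2 (hv0 k)).le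
        _ = 2 * RK ^ 2 * γ k := by have := (hv0 k).ne'; field_simp
    calc (m k)⁻¹ * (volK⁻¹ * ‖b' k + e k - b k‖) ^ 2
        = volK⁻¹ * ((v k)⁻¹ * ‖b' k + e k - b k‖ ^ 2) := by
          rw [hmk]; field_simp
      _ ≤ volK⁻¹ * ((v k)⁻¹ * (2 * ‖b' k - b k‖ ^ 2 + 2 * ‖e k‖ ^ 2)) := by
          apply mul_le_mul_of_nonneg_left _ (inv_pos.2 hvolK0).le
          exact mul_le_mul_of_nonneg_left h1 (inv_pos.2 (hv0 k)).le
      _ = volK⁻¹ * (2 * ((v k)⁻¹ * ‖b' k - b k‖ ^ 2) + 2 * ((v k)⁻¹ * ‖e k‖ ^ 2)) := by ring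
      _ ≤ volK⁻¹ * (2 * ((v k)⁻¹ * ‖b' k - b k‖ ^ 2) + 4 * RK ^ 2 * γ k) := by
          apply mul_le_mul_of_nonneg_left _ (inv_pos.2 hvolK0).le
          linarith
  have hint : ∫ x, g x ^ 2 ∂(uniformProbOn K) = volK⁻¹ * ∑ k, γ k := by
    rw [integral_unif, hsγ, smul_eq_mul]
  calc ∑ k, (m k)⁻¹ * ‖(∫ x in cell y c1 k, x ∂(tilt (uniformProbOn K) g))
          - ∫ x in cell y c0 k, x ∂(uniformProbOn K)‖ ^ 2
      ≤ ∑ k, volK⁻¹ * (2 * ((v k)⁻¹ * ‖b' k - b k‖ ^ 2) + 4 * RK ^ 2 * γ k) :=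
        Finset.sum_le_sum fun k _ => hterm k
    _ = volK⁻¹ * (2 * (∑ k, (v k)⁻¹ * ‖b' k - b k‖ ^ 2) + 4 * RK ^ 2 * ∑ k, γ k) := by
        rw [← Finset.mul_sum, Finset.sum_add_distrib, ← Finset.mul_sum, ← Finset.mul_sum]
    _ ≤ volK⁻¹ * (2 * (30 * (1 / lam2 + RK ^ 2) * ∑ k, γ k) + 4 * RK ^ 2 * ∑ k, γ k) := by
        apply mul_le_mul_of_nonneg_left _ (inv_pos.2 hvolK0).le
        linarith
    _ = 2 * (30 * (1 / lam2 + RK ^ 2) + 2 * RK ^ 2) * ∫ x, g x ^ 2 ∂(uniformProbOn K) := by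
        rw [hint]; ring

end Crest.Agent.OTStab
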