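import Crest.Agent.OTStab.MainReal

/-!
# Task Z2: S0109 from `main_real`
Choose `R ≥ 0` with `Y ⊆ closedBall 0 R` (`hYc.isBounded`); `IsProbabilityOn Y μ → IsProbabilityOn (closedBall 0 R) μ` (monotonicity of the null complement).
`C := Real.toNNReal Creal`.  `∫⁻ ‖Tμ - Tν‖ₑ² dρ = ENNReal.ofReal (∫ ‖Tμ - Tν‖² dρ)` (`ofReal_integral_eq_lintegral_ofReal`; integrable since a.e. bounded by `(2R)²`,
`ae_norm_le_of_optimal`), `quadCost π < ∞` (`quadCost_lt_top`), `ENNReal.ofReal (a ^ p) = ENNReal.ofReal a ^ p`, `ENNReal.ofReal_toReal`.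
-/

set_option autoImplicit false

open MeasureTheory Set
open scoped ENNReal NNReal RealInnerProductSpace
open Crest.AnalysisR.OT

namespace Crest.Agent.OTStab

private theorem main_isProbabilityOn_mono {d : ℕ} {Y Z : Set (E d)} (h : Y ⊆ Z) {μ : Measure (E d)}
    (hμ : IsProbabilityOn Y μ) : IsProbabilityOn Z μ :=
  ⟨hμ.1, measure_mono_null (compl_subset_compl.mpr h) hμ.2⟩

theorem main (d : ℕ) (K : Set (EuclideanSpace ℝ (Fin d))) (hKc : IsCompact K)
    (hKv : Convex ℝ K) (hKi : (interior K).Nonempty) (Y : Set (EuclideanSpace ℝ (Fin d)))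
    (hYc : IsCompact Y) :
    ∃ C : ℝ≥0, ∀ μ ν : Measure (EuclideanSpace ℝ (Fin d)),
      IsProbabilityOn Y μ → IsProbabilityOn Y ν →
      ∀ Tμ Tν : EuclideanSpace ℝ (Fin d) → EuclideanSpace ℝ (Fin d),
        IsOptimalMap (uniformProbOn K) μ Tμ → IsOptimalMap (uniformProbOn K) ν Tν →
        ∀ π : Measure (EuclideanSpace ℝ (Fin d) × EuclideanSpace ℝ (Fin d)),
          IsPairCoupling μ ν π →
          ∫⁻ x, ‖Tμ x - Tν x‖ₑ ^ 2 ∂(uniformProbOn K) ≤ C * quadCost π ^ (1 / 3 : ℝ) := by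
  have hK : Body K := ⟨hKc, hKv, hKi⟩
  obtain ⟨R₀, hR₀⟩ := hYc.isBounded.subset_closedBall (0 : E d)
  set R : ℝ := max R₀ 0 with hRdef
  have hR : 0 ≤ R := le_max_right _ _
  have hYR : Y ⊆ Metric.closedBall (0 : E d) R :=
    hR₀.trans (Metric.closedBall_subset_closedBall (le_max_left _ _))
  obtain ⟨C, hC0, hC⟩ := main_real hK R hR
  refine ⟨Real.toNNReal C, ?_⟩
  intro μ ν hμ hν Tμ Tν hTμ hTν π hπ
  have hμ' := main_isProbabilityOn_mono hYR hμ
  have hν' := main_isProbabilityOn_mono hYR hν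
  have hmain := hC μ ν hμ' hν' Tμ Tν hTμ hTν π hπ
  have hfin : quadCost π < ∞ := quadCost_lt_top R μ ν hμ' hν' π hπ
  have hbμ := ae_norm_le_of_optimal μ R hμ' (uniformProbOn K) Tμ hTμ
  have hbν := ae_norm_le_of_optimal ν R hν' (uniformProbOn K) Tν hTν
  -- the reference measure is finite, as its push-forward is a probability measure
  have hprob : IsProbabilityMeasure (uniformProbOn K) := by
    have h1 : IsProbabilityMeasure μ := hμ.1
    constructor
    have := h1.measure_univ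
    rw [← hTμ.2.1, Measure.map_apply hTμ.1 MeasurableSet.univ, preimage_univ] at this
    exact this
  have hmeas : Measurable fun x => ‖Tμ x - Tν x‖ ^ 2 :=
    ((hTμ.1.sub hTν.1).norm).pow_const 2
  have hint : Integrable (fun x => ‖Tμ x - Tν x‖ ^ 2) (uniformProbOn K) := by
    refine Integrable.of_bound hmeas.aestronglyMeasurable ((2 * R) ^ 2) ?_
    filter_upwards [hbμ, hbν] with x h1 h2
    have h3 : ‖Tμ x - Tν x‖ ≤ 2 * R := by
      calc ‖Tμ x - Tν x‖ ≤ ‖Tμ x‖ + ‖Tν x‖ := norm_sub_le _ _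
        _ ≤ 2 * R := by linarith
    rw [Real.norm_of_nonneg (by positivity)]
    exact pow_le_pow_left₀ (norm_nonneg _) h3 2
  have hconv : ∫⁻ x, ‖Tμ x - Tν x‖ₑ ^ 2 ∂(uniformProbOn K)
      = ENNReal.ofReal (∫ x, ‖Tμ x - Tν x‖ ^ 2 ∂(uniformProbOn K)) := by
    rw [ofReal_integral_eq_lintegral_ofReal hint (Filter.Eventually.of_forall fun x => by positivity)]
    refine lintegral_congr fun x => ?_
    rw [ENNReal.ofReal_pow (norm_nonneg _), ofReal_norm]
  rw [hconv]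
  calc ENNReal.ofReal (∫ x, ‖Tμ x - Tν x‖ ^ 2 ∂(uniformProbOn K))
      ≤ ENNReal.ofReal (C * (quadCost π).toReal ^ (1 / 3 : ℝ)) := ENNReal.ofReal_le_ofReal hmain
    _ = ENNReal.ofReal C * ENNReal.ofReal ((quadCost π).toReal ^ (1 / 3 : ℝ)) :=
        ENNReal.ofReal_mul hC0
    _ = (Real.toNNReal C : ℝ≥0∞) * quadCost π ^ (1 / 3 : ℝ) := by
        rw [← ENNReal.ofReal_rpow_of_nonneg ENNReal.toReal_nonneg (by norm_num),
          ENNReal.ofReal_toReal hfin.ne]
        rfl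

end Crest.Agent.OTStab
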