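import Crest.Agent.OTStab.Defs

/-!
# Task D1: rounding a probability measure on a ball to finitely many atoms of positive mass

`closedBall 0 R` is compact: there is a finite set `t ⊆ closedBall 0 R` with `closedBall 0 R ⊆ ⋃_{p ∈ t} ball p η`
(`IsCompact.finite_cover_balls` / `Metric.totallyBounded_iff`).  Enumerate `t`; `q₀ x` = first `p ∈ t` with `‖x - p‖ ≤ η` (any fixed element of `t` if none):
finitely many values, measurable fibres.  `ι = {p ∈ t | 0 < μ (q₀⁻¹ {p})}` (nonempty since `μ` is a probability measure), `y = Subtype.val`,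
`q x = q₀ x` if it belongs to `ι`, a fixed element `i₀ : ι` otherwise (this changes `q₀` on a μ-null measurable set only).
-/

set_option autoImplicit false

open MeasureTheory Set
open scoped ENNReal NNReal RealInnerProductSpace
open Crest.AnalysisR.OT

namespace Crest.Agent.OTStab

variable {d : ℕ}

/-- First step: a map `q₀` onto a finite `η`-net with measurable fibres. -/
private theorem exists_rounding_aux (R η : ℝ) (hη : 0 < η) (hR : 0 ≤ R) :
    ∃ (T : Finset (E d)) (q₀ : E d → T), (∀ p ∈ T, ‖p‖ ≤ R) ∧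
      (∀ s : Set T, MeasurableSet (q₀ ⁻¹' s)) ∧
      ∀ x ∈ Metric.closedBall (0 : E d) R, ‖(q₀ x : E d) - x‖ ≤ η := by
  classical
  obtain ⟨t, htsub, htfin, htcov⟩ :=
    (isCompact_closedBall (0 : E d) R).finite_cover_balls hη
  set T : Finset (E d) := htfin.toFinset with hT
  have hTmem : ∀ p, p ∈ T ↔ p ∈ t := fun p => by simp [hT]
  have hcov : ∀ x ∈ Metric.closedBall (0 : E d) R, ∃ p ∈ T, ‖x - p‖ ≤ η := by
    intro x hx
    have := htcov hx
    simp only [mem_iUnion, Metric.mem_ball, exists_prop] at this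
    obtain ⟨p, hp, hxp⟩ := this
    exact ⟨p, (hTmem p).2 hp, by rw [← dist_eq_norm]; exact hxp.le⟩
  have hne : Nonempty T := by
    obtain ⟨p, hp, -⟩ := hcov 0 (by simp [hR])
    exact ⟨⟨p, hp⟩⟩
  obtain ⟨dec, hdec⟩ : ∃ dec : ℕ → T, Function.Surjective dec := exists_surjective_nat T
  have hp : ∀ x : E d, ∃ N, x ∈ ({x | ‖x - (dec N : E d)‖ ≤ η} ∪
      {x | ∀ p ∈ T, ¬ ‖x - p‖ ≤ η} : Set (E d)) := by
    intro x
    by_cases h : ∃ p ∈ T, ‖x - p‖ ≤ η
    · obtain ⟨p, hpT, hxp⟩ := h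
      obtain ⟨N, hN⟩ := hdec ⟨p, hpT⟩
      exact ⟨N, Or.inl (by simpa [hN] using hxp)⟩
    · push Not at h
      exact ⟨0, Or.inr (fun p hpT => not_le.2 (h p hpT))⟩
  have hmeas : ∀ N, MeasurableSet ({x | ‖x - (dec N : E d)‖ ≤ η} ∪
      {x | ∀ p ∈ T, ¬ ‖x - p‖ ≤ η} : Set (E d)) := by
    intro N
    refine MeasurableSet.union (measurableSet_le (by fun_prop) (by fun_prop)) ?_
    have : {x : E d | ∀ p ∈ T, ¬ ‖x - p‖ ≤ η} = ⋂ p ∈ T, {x | ‖x - p‖ ≤ η}ᶜ := by
      ext x; simp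
    rw [this]
    exact Finset.measurableSet_biInter T
      (fun p _ => (measurableSet_le (by fun_prop) (by fun_prop)).compl)
  have hm : Measurable fun x => Nat.find (hp x) := measurable_find hp hmeas
  refine ⟨T, fun x => dec (Nat.find (hp x)), ?_, ?_, ?_⟩
  · intro p hpT
    have := htsub ((hTmem p).1 hpT)
    simpa using this
  · intro s
    have : (fun x => dec (Nat.find (hp x))) ⁻¹' s = (fun x => Nat.find (hp x)) ⁻¹' (dec ⁻¹' s) := rfl
    rw [this]
    exact hm (MeasurableSet.of_discrete)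
  · intro x hx
    rcases Nat.find_spec (hp x) with h | h
    · rw [norm_sub_rev]; exact h
    · obtain ⟨p, hpT, hxp⟩ := hcov x hx
      exact absurd hxp (h p hpT)

theorem exists_rounding (R η : ℝ) (hη : 0 < η) (μ : Measure (E d))
    (hμ : IsProbabilityOn (Metric.closedBall (0 : E d) R) μ) :
    ∃ (ι : Type) (_ : Fintype ι) (_ : Nonempty ι) (y : ι → E d) (q : E d → ι),
      Function.Injective y ∧ (∀ i, ‖y i‖ ≤ R) ∧ (∀ i, MeasurableSet (q ⁻¹' {i})) ∧
      (∀ᵐ p ∂μ, ‖y (q p) - p‖ ≤ η) ∧ (∀ i, 0 < μ (q ⁻¹' {i})) := by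
  classical
  obtain ⟨hprob, hsupp⟩ := hμ
  have hR : 0 ≤ R := by
    by_contra h
    push Not at h
    have he : Metric.closedBall (0 : E d) R = ∅ := Metric.closedBall_eq_empty.2 h
    rw [he, compl_empty, measure_univ] at hsupp
    exact one_ne_zero hsupp
  obtain ⟨T, q₀, hTR, hq₀m, hq₀⟩ := exists_rounding_aux (d := d) R η hη hR
  -- the atoms of positive mass
  have hex : ∃ p : T, 0 < μ (q₀ ⁻¹' {p}) := by
    by_contra h
    push Not at h
    have hun : (univ : Set (E d)) = ⋃ p : T, q₀ ⁻¹' {p} := by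
      ext x; simp
    have h0 : μ (univ : Set (E d)) = 0 := by
      rw [hun]
      exact measure_iUnion_null (fun p => le_antisymm (h p) bot_le)
    rw [measure_univ] at h0
    exact one_ne_zero h0
  obtain ⟨p₀, hp₀⟩ := hex
  let ι : Type := {p : T // 0 < μ (q₀ ⁻¹' {p})}
  let i₀ : ι := ⟨p₀, hp₀⟩
  let g : T → ι := fun p => if h : 0 < μ (q₀ ⁻¹' {p}) then ⟨p, h⟩ else i₀
  have hg : ∀ i : ι, g i.1 = i := fun i => by
    have : g i.1 = ⟨i.1, i.2⟩ := dif_pos i.2
    rw [this]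
  refine ⟨ι, inferInstance, ⟨i₀⟩, fun i => (i.1 : E d), fun x => g (q₀ x), ?_, ?_, ?_, ?_, ?_⟩
  · intro i j hij
    exact Subtype.ext (Subtype.ext hij)
  · intro i
    exact hTR _ i.1.2
  · intro i
    have : (fun x => g (q₀ x)) ⁻¹' {i} = q₀ ⁻¹' (g ⁻¹' {i}) := rfl
    rw [this]
    exact hq₀m _
  · have hnull : μ (⋃ p ∈ {p : T | μ (q₀ ⁻¹' {p}) = 0}, q₀ ⁻¹' {p}) = 0 := by
      refine (measure_biUnion_null_iff (Set.to_countable _)).2 ?_
      intro p hp
      exact hp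
    have h1 : ∀ᵐ x ∂μ, x ∈ Metric.closedBall (0 : E d) R := by
      rw [ae_iff]
      exact hsupp
    have h2 : ∀ᵐ x ∂μ, x ∉ ⋃ p ∈ {p : T | μ (q₀ ⁻¹' {p}) = 0}, q₀ ⁻¹' {p} := by
      rw [ae_iff]
      have : {a | ¬ a ∉ ⋃ p ∈ {p : T | μ (q₀ ⁻¹' {p}) = 0}, q₀ ⁻¹' {p}} =
          ⋃ p ∈ {p : T | μ (q₀ ⁻¹' {p}) = 0}, q₀ ⁻¹' {p} := by
        ext a; simp only [not_not]; rfl
      rw [this]
      exact hnull
    filter_upwards [h1, h2] with x hx1 hx2
    have hpos : 0 < μ (q₀ ⁻¹' {q₀ x}) := by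
      rw [pos_iff_ne_zero]
      intro h0
      apply hx2
      simp only [mem_iUnion, mem_preimage, mem_singleton_iff, exists_prop]
      exact ⟨q₀ x, h0, rfl⟩
    have : g (q₀ x) = ⟨q₀ x, hpos⟩ := dif_pos hpos
    rw [this]
    exact hq₀ x hx1
  · intro i
    refine lt_of_lt_of_le i.2 (measure_mono ?_)
    intro x hx
    simp only [mem_preimage, mem_singleton_iff] at hx ⊢
    rw [hx]
    exact hg i

end Crest.Agent.OTStab
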