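import Crest.Agent.OTStab.AtomicThm
import Crest.Agent.OTStab.Approx
import Crest.Agent.OTStab.Rounding
import Crest.Agent.OTStab.CouplingMatrix

/-!
# Task Z1: S0109, real-valued version on a ball

Choose `R ≥ 0` with `Y ⊆ closedBall 0 R`.  `Cat` from `atomic_thm hK R`, `Cap` from `approx hK R`.  Claim with `C = Cat`.
Fix `μ ν Tμ Tν π`; `E² := (quadCost π).toReal` (finite by `quadCost_lt_top`).  For `0 < η ≤ 1`:
`exists_rounding` for `μ` and `ν`; `exists_weights` for `ρ` with masses `(μ (q⁻¹ i)).toReal` (they are positive and sum to 1); `coupling_matrix`.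
`atomic_thm`: `∫ |T_η - S_η|² dρ ≤ Cat (E² + 8Rη + 4η²)^{1/3}`;  `approx`: `∫ |Tμ - T_η|² dρ ≤ Cap η^{1/4}`, same for `ν`.
For `δ > 0`: `|Tμ - Tν|² ≤ (1+δ) |T_η - S_η|² + (1 + 1/δ) · 2 (|Tμ - T_η|² + |Tν - S_η|²)`.
Integrate, let `η → 0`, then `δ → 0`:  `∫ |Tμ - Tν|² dρ ≤ Cat (E²)^{1/3}`.   Convert to `ℝ≥0∞` (`Tμ, Tν` are a.e. bounded by `R`: `ae_norm_le_of_optimal`).
-/

set_option autoImplicit false

open MeasureTheory Set
open scoped ENNReal NNReal RealInnerProductSpace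
open Crest.AnalysisR.OT

namespace Crest.Agent.OTStab

namespace MainRealAux

variable {d : ℕ}

theorem sum_fibre_toReal {ι : Type} [Fintype ι] (μ : Measure (E d)) [IsProbabilityMeasure μ]
    (q : E d → ι) (hq : ∀ i, MeasurableSet (q ⁻¹' {i})) :
    ∑ i, (μ (q ⁻¹' {i})).toReal = 1 := by
  rw [← ENNReal.toReal_sum (fun i _ => measure_ne_top _ _),
    sum_measure_preimage_singleton _ (fun i _ => hq i)]
  simp

theorem norm_sq_split (a b A B : E d) (δ : ℝ) (hδ : 0 < δ) :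
    ‖a - b‖ ^ 2 ≤ (1 + δ) * ‖A - B‖ ^ 2 + (1 + 1 / δ) * (2 * (‖a - A‖ ^ 2 + ‖b - B‖ ^ 2)) := by
  have h1 : ‖a - b‖ ≤ ‖A - B‖ + (‖a - A‖ + ‖b - B‖) := by
    have : a - b = (A - B) + ((a - A) - (b - B)) := by abel
    calc ‖a - b‖ = ‖(A - B) + ((a - A) - (b - B))‖ := by rw [← this]
      _ ≤ ‖A - B‖ + ‖(a - A) - (b - B)‖ := norm_add_le _ _
      _ ≤ ‖A - B‖ + (‖a - A‖ + ‖b - B‖) := by gcongr; exact norm_sub_le _ _
  set u := ‖A - B‖
  set s := ‖a - A‖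
  set t := ‖b - B‖
  have hu : 0 ≤ u := norm_nonneg _
  have hs : 0 ≤ s := norm_nonneg _
  have ht : 0 ≤ t := norm_nonneg _
  have h2 : ‖a - b‖ ^ 2 ≤ (u + (s + t)) ^ 2 := by gcongr
  have h3 : (u + (s + t)) ^ 2 ≤ (1 + δ) * u ^ 2 + (1 + 1 / δ) * (s + t) ^ 2 := by
    have h4 : 0 ≤ (δ * u - (s + t)) ^ 2 / δ := by positivity
    have h5 : (δ * u - (s + t)) ^ 2 / δ = δ * u ^ 2 - 2 * u * (s + t) + (1 / δ) * (s + t) ^ 2 := by
      field_simp
      ring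
    nlinarith [h4, h5]
  have h6 : (s + t) ^ 2 ≤ 2 * (s ^ 2 + t ^ 2) := by nlinarith [sq_nonneg (s - t)]
  have h7 : (1 + 1 / δ) * (s + t) ^ 2 ≤ (1 + 1 / δ) * (2 * (s ^ 2 + t ^ 2)) := by
    have : 0 ≤ 1 + 1 / δ := by positivity
    gcongr
  linarith

theorem integrable_norm_sub_sq {σ : Measure (E d)} [IsFiniteMeasure σ] {f g : E d → E d}
    (hf : Measurable f) (hg : Measurable g) (R : ℝ) (hfR : ∀ᵐ x ∂σ, ‖f x‖ ≤ R)
    (hgR : ∀ᵐ x ∂σ, ‖g x‖ ≤ R) : Integrable (fun x => ‖f x - g x‖ ^ 2) σ := by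
  refine Integrable.of_bound ((hf.sub hg).norm.pow_const 2).aestronglyMeasurable ((2 * R) ^ 2) ?_
  filter_upwards [hfR, hgR] with x h1 h2
  rw [Real.norm_of_nonneg (by positivity)]
  have : ‖f x - g x‖ ≤ 2 * R := (norm_sub_le _ _).trans (by linarith)
  gcongr

end MainRealAux

open MainRealAux

/-- real-valued version on a ball. -/
theorem main_real {d : ℕ} {K : Set (E d)} (hK : Body K) (R : ℝ) (hR : 0 ≤ R) : ∃ C : ℝ, 0 ≤ C ∧
    ∀ (μ ν : Measure (E d)) (_ : IsProbabilityOn (Metric.closedBall (0 : E d) R) μ)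
      (_ : IsProbabilityOn (Metric.closedBall (0 : E d) R) ν) (Tμ Tν : E d → E d)
      (_ : IsOptimalMap (uniformProbOn K) μ Tμ) (_ : IsOptimalMap (uniformProbOn K) ν Tν)
      (π : Measure (E d × E d)) (_ : IsPairCoupling μ ν π),
      ∫ x, ‖Tμ x - Tν x‖ ^ 2 ∂(uniformProbOn K) ≤ C * (quadCost π).toReal ^ (1 / 3 : ℝ) := by
  obtain ⟨Cat, hCat0, hCat⟩ := atomic_thm hK R hR
  obtain ⟨Cap, hCap0, hCap⟩ := approx hK R hR
  refine ⟨Cat, hCat0, ?_⟩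
  intro μ ν hμ hν Tμ Tν hTμ hTν π hπ
  have := hK.isProb
  have := hμ.1
  have := hν.1
  obtain ⟨RK, hRK0, hRK⟩ := hK.exists_bound
  have hbμ := ae_norm_le_of_optimal μ R hμ (uniformProbOn K) Tμ hTμ
  have hbν := ae_norm_le_of_optimal ν R hν (uniformProbOn K) Tν hTν
  have hE2 : 0 ≤ (quadCost π).toReal := ENNReal.toReal_nonneg
  -- step 1 : the atomic approximations
  have step : ∀ η : ℝ, 0 < η → η ≤ 1 → ∃ A B : E d → E d, Measurable A ∧ Measurable B ∧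
      (∀ x, ‖A x‖ ≤ R) ∧ (∀ x, ‖B x‖ ≤ R) ∧
      ∫ x, ‖A x - B x‖ ^ 2 ∂(uniformProbOn K)
        ≤ Cat * ((quadCost π).toReal + (8 * R * η + 4 * η ^ 2)) ^ (1 / 3 : ℝ) ∧
      ∫ x, ‖Tμ x - A x‖ ^ 2 ∂(uniformProbOn K) ≤ Cap * η ^ (1 / 4 : ℝ) ∧
      ∫ x, ‖Tν x - B x‖ ^ 2 ∂(uniformProbOn K) ≤ Cap * η ^ (1 / 4 : ℝ) := by
    intro η hη hη1
    obtain ⟨ι, _, _, y, q, hy, hyR, hq, hqη, hqpos⟩ := exists_rounding R η hη μ hμ
    obtain ⟨κ, _, _, z, q', hz, hzR, hq', hqη', hqpos'⟩ := exists_rounding R η hη ν hν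
    obtain ⟨c, hc⟩ := exists_weights (uniformProbOn K) (unif_ac K) RK (hK.ae_norm_le hRK) y hy
      (fun i => (μ (q ⁻¹' {i})).toReal)
      (fun i => ENNReal.toReal_pos (hqpos i).ne' (measure_ne_top _ _)) (sum_fibre_toReal μ q hq)
    obtain ⟨c', hc'⟩ := exists_weights (uniformProbOn K) (unif_ac K) RK (hK.ae_norm_le hRK) z hz
      (fun j => (ν (q' ⁻¹' {j})).toReal)
      (fun j => ENNReal.toReal_pos (hqpos' j).ne' (measure_ne_top _ _)) (sum_fibre_toReal ν q' hq')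
    have hc2 : ∀ i, uniformProbOn K (cell y c i) = μ (q ⁻¹' {i}) := fun i => by
      rw [hc i, ENNReal.ofReal_toReal (measure_ne_top _ _)]
    have hc2' : ∀ j, uniformProbOn K (cell z c' j) = ν (q' ⁻¹' {j}) := fun j => by
      rw [hc' j, ENNReal.ofReal_toReal (measure_ne_top _ _)]
    obtain ⟨P, hP0, hProw, hPcol, hPcost⟩ :=
      coupling_matrix R η hη.le μ ν hμ hν π hπ y z q q' hq hq' hqη hqη'
    refine ⟨lagMap y c, lagMap z c', measurable_lagMap y c, measurable_lagMap z c',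
      norm_lagMap_le y c hyR, norm_lagMap_le z c' hzR, ?_, ?_, ?_⟩
    · have h1 := hCat y z hy hz hyR hzR c c' P hP0 (fun i => by rw [hProw i, hc2 i])
        (fun j => by rw [hPcol j, hc2' j]) (fun i => by rw [hc2 i]; exact hqpos i)
        (fun j => by rw [hc2' j]; exact hqpos' j)
      refine h1.trans ?_
      have h0 : 0 ≤ ∑ i, ∑ j, P i j * ‖y i - z j‖ ^ 2 :=
        Finset.sum_nonneg fun i _ => Finset.sum_nonneg fun j _ =>
          mul_nonneg (hP0 i j) (by positivity)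
      have := Real.rpow_le_rpow h0 hPcost (by norm_num : (0 : ℝ) ≤ 1 / 3)
      gcongr
    · exact hCap μ hμ Tμ hTμ y hy hyR c q hq η hη hη1 hqη hc2
    · exact hCap ν hν Tν hTν z hz hzR c' q' hq' η hη hη1 hqη' hc2'
  -- step 2 : the inequality with `δ` and `η`
  have bound : ∀ δ : ℝ, 0 < δ → ∀ η : ℝ, 0 < η → η ≤ 1 →
      ∫ x, ‖Tμ x - Tν x‖ ^ 2 ∂(uniformProbOn K) ≤
        (1 + δ) * (Cat * ((quadCost π).toReal + (8 * R * η + 4 * η ^ 2)) ^ (1 / 3 : ℝ)) +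
        (1 + 1 / δ) * (2 * (Cap * η ^ (1 / 4 : ℝ) + Cap * η ^ (1 / 4 : ℝ))) := by
    intro δ hδ η hη hη1
    obtain ⟨A, B, hA, hB, hAR, hBR, h1, h2, h3⟩ := step η hη hη1
    have hAR' : ∀ᵐ x ∂(uniformProbOn K), ‖A x‖ ≤ R := Filter.Eventually.of_forall hAR
    have hBR' : ∀ᵐ x ∂(uniformProbOn K), ‖B x‖ ≤ R := Filter.Eventually.of_forall hBR
    have i0 := integrable_norm_sub_sq hTμ.1 hTν.1 R hbμ hbν
    have i1 := integrable_norm_sub_sq hA hB R hAR' hBR'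
    have i2 := integrable_norm_sub_sq hTμ.1 hA R hbμ hAR'
    have i3 := integrable_norm_sub_sq hTν.1 hB R hbν hBR'
    have i23 : Integrable (fun x => ‖Tμ x - A x‖ ^ 2 + ‖Tν x - B x‖ ^ 2) (uniformProbOn K) :=
      i2.add i3
    have hle : ∫ x, ‖Tμ x - Tν x‖ ^ 2 ∂(uniformProbOn K) ≤
        ∫ x, ((1 + δ) * ‖A x - B x‖ ^ 2 +
          (1 + 1 / δ) * (2 * (‖Tμ x - A x‖ ^ 2 + ‖Tν x - B x‖ ^ 2))) ∂(uniformProbOn K) := by
      refine integral_mono i0 ?_ (fun x => norm_sq_split _ _ _ _ δ hδ)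
      exact (i1.const_mul _).add ((i23.const_mul _).const_mul _)
    have heq : ∫ x, ((1 + δ) * ‖A x - B x‖ ^ 2 +
          (1 + 1 / δ) * (2 * (‖Tμ x - A x‖ ^ 2 + ‖Tν x - B x‖ ^ 2))) ∂(uniformProbOn K) =
        (1 + δ) * ∫ x, ‖A x - B x‖ ^ 2 ∂(uniformProbOn K) +
          (1 + 1 / δ) * (2 * (∫ x, ‖Tμ x - A x‖ ^ 2 ∂(uniformProbOn K) +
            ∫ x, ‖Tν x - B x‖ ^ 2 ∂(uniformProbOn K))) := by
      rw [integral_add (i1.const_mul _) ((i23.const_mul _).const_mul _),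
        integral_const_mul, integral_const_mul, integral_const_mul, integral_add i2 i3]
    rw [heq] at hle
    refine hle.trans ?_
    have hδ1 : 0 ≤ 1 + δ := by positivity
    have hδ2 : 0 ≤ 1 + 1 / δ := by positivity
    gcongr
  -- step 3 : `η → 0`
  have lim1 : ∀ δ : ℝ, 0 < δ → ∫ x, ‖Tμ x - Tν x‖ ^ 2 ∂(uniformProbOn K) ≤
      (1 + δ) * (Cat * (quadCost π).toReal ^ (1 / 3 : ℝ)) := by
    intro δ hδ
    have hcont : Continuous (fun η : ℝ =>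
        (1 + δ) * (Cat * ((quadCost π).toReal + (8 * R * η + 4 * η ^ 2)) ^ (1 / 3 : ℝ)) +
        (1 + 1 / δ) * (2 * (Cap * η ^ (1 / 4 : ℝ) + Cap * η ^ (1 / 4 : ℝ)))) := by
      have h1 : Continuous (fun x : ℝ => x ^ (1 / 3 : ℝ)) :=
        Real.continuous_rpow_const (by norm_num)
      have h2 : Continuous (fun x : ℝ => x ^ (1 / 4 : ℝ)) :=
        Real.continuous_rpow_const (by norm_num)
      have h3 : Continuous (fun η : ℝ =>
          ((quadCost π).toReal + (8 * R * η + 4 * η ^ 2)) ^ (1 / 3 : ℝ)) :=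
        h1.comp (by fun_prop)
      exact (continuous_const.mul (continuous_const.mul h3)).add
        (continuous_const.mul (continuous_const.mul
          ((continuous_const.mul h2).add (continuous_const.mul h2))))
    have ht := (hcont.tendsto 0).mono_left (nhdsWithin_le_nhds (s := Set.Ioi 0))
    have hev : ∀ᶠ η in nhdsWithin (0 : ℝ) (Set.Ioi 0),
        ∫ x, ‖Tμ x - Tν x‖ ^ 2 ∂(uniformProbOn K) ≤
        (1 + δ) * (Cat * ((quadCost π).toReal + (8 * R * η + 4 * η ^ 2)) ^ (1 / 3 : ℝ)) +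
        (1 + 1 / δ) * (2 * (Cap * η ^ (1 / 4 : ℝ) + Cap * η ^ (1 / 4 : ℝ))) := by
      filter_upwards [Ioc_mem_nhdsGT (by norm_num : (0 : ℝ) < 1)] with η hη
      exact bound δ hδ η hη.1 hη.2
    have h := ge_of_tendsto ht hev
    have h0 : (0 : ℝ) ^ (1 / 4 : ℝ) = 0 := Real.zero_rpow (by norm_num)
    simpa [h0] using h
  -- step 4 : `δ → 0`
  have hcont : Continuous (fun δ : ℝ => (1 + δ) * (Cat * (quadCost π).toReal ^ (1 / 3 : ℝ))) := by
    fun_prop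
  have ht := (hcont.tendsto 0).mono_left (nhdsWithin_le_nhds (s := Set.Ioi 0))
  have hev : ∀ᶠ δ in nhdsWithin (0 : ℝ) (Set.Ioi 0),
      ∫ x, ‖Tμ x - Tν x‖ ^ 2 ∂(uniformProbOn K) ≤
        (1 + δ) * (Cat * (quadCost π).toReal ^ (1 / 3 : ℝ)) := by
    filter_upwards [self_mem_nhdsWithin] with δ hδ
    exact lim1 δ hδ
  have h := ge_of_tendsto ht hev
  simpa using h

end Crest.Agent.OTStab
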