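import Crest.Agent.OTStab.Defs
import Crest.Agent.Lib_helper47_PL

/-!
# Task PL (helper47): the Prékopa–Leindler inequality (t = 1/2) on Euclidean space
Proof: 1-D Brunn–Minkowski `|A + B| ≥ |A| + |B|` for compact sets (translate so that
`max A = 0 = min B`), inner regularity, layer cake after normalising the sups, AM–GM;
induction on the dimension by Fubini; transfer to `EuclideanSpace`.
The proof lives in `Crest/Agent/Lib_helper47_PL.lean`.
-/

set_option autoImplicit false

open MeasureTheory Set
open scoped ENNReal NNReal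

namespace Crest.Agent.OTStab

theorem prekopa_leindler_half {d : ℕ} (f g h : E d → ℝ≥0∞) (hf : Measurable f) (hg : Measurable g)
    (hh : Measurable h) (H : ∀ x y, f x * g y ≤ h ((1 / 2 : ℝ) • (x + y)) ^ 2) :
    (∫⁻ x, f x) * (∫⁻ x, g x) ≤ (∫⁻ x, h x) ^ 2 :=
  Crest.Agent.PL.prekopa_leindler_half f g h hf hg hh H

end Crest.Agent.OTStab
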