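import Crest.Agent.OTStab.PL

/-!
# Task A1: Prékopa–Leindler for a Gaussian weight with Lipschitz tilts

`gw τ x = exp(-τ|x|²/2)`.  Let `C, C', C''` be measurable subsets of a compact set `K` with
`(C + C')/2 ⊆ C''`, and `r` be `L`-Lipschitz on `K`.  Then
`∫_{C''} gw ≥ sqrt(∫_C gw · ∫_{C'} gw) · exp(τ Δ² / (8 L²))`, where `Δ` is the difference of the
`gw`-weighted averages of `r` over `C'` and `C`.

Proof.  For `x ∈ C, x' ∈ C'`, `z = (x+x')/2`: `|z|² = (|x|²+|x'|²)/2 - |x-x'|²/4`, so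
`gw(z)² = gw(x) gw(x') exp(τ|x-x'|²/4)`.  For `β : ℝ` put
`F0 = 1_C gw exp(-β r)`, `F1 = 1_{C'} gw exp(β r - β²L²/τ)`, `H = 1_{C''} gw`.  Since
`β (r x' - r x) - β²L²/τ ≤ |β| L |x-x'| - β²L²/τ ≤ τ|x-x'|²/4` we get `F0 x * F1 x' ≤ H(z)²`, so by PL
`(∫_C gw e^{-βr}) (∫_{C'} gw e^{βr}) e^{-β²L²/τ} ≤ (∫_{C''} gw)²`.
Jensen (convexity of exp, probability measures `gw dx / a` on `C`, `gw dx / a'` on `C'`):
`∫_C gw e^{-βr} ≥ a exp(-β avg_C r)`, `∫_{C'} gw e^{βr} ≥ a' exp(β avg_{C'} r)`.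
Hence `(a'')² ≥ a a' exp(βΔ - β²L²/τ)`; take `β = τΔ/(2L²)`: exponent `= τΔ²/(4L²)`; take square roots.
-/

set_option autoImplicit false

open MeasureTheory Set
open scoped ENNReal NNReal RealInnerProductSpace

namespace Crest.Agent.OTStab

variable {d : ℕ}

/-- Gaussian weight. -/
noncomputable def gw (τ : ℝ) (x : E d) : ℝ := Real.exp (-(τ * ‖x‖ ^ 2 / 2))

theorem gw_pos (τ : ℝ) (x : E d) : 0 < gw τ x := Real.exp_pos _

theorem continuous_gw (τ : ℝ) : Continuous (gw τ : E d → ℝ) := by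
  unfold gw; fun_prop

/-- pointwise inequality behind PL -/
theorem gw_mid_ineq {τ L : ℝ} (hτ : 0 < τ) (β : ℝ) (x y : E d) (rx ry : ℝ)
    (hr : |rx - ry| ≤ L * ‖x - y‖) :
    (gw τ x * Real.exp (-(β * rx))) * (gw τ y * Real.exp (β * ry - β ^ 2 * L ^ 2 / τ))
      ≤ gw τ ((1 / 2 : ℝ) • (x + y)) ^ 2 := by
  unfold gw
  rw [← Real.exp_add, ← Real.exp_add, ← Real.exp_add, ← Real.exp_nat_mul]
  apply Real.exp_le_exp.mpr
  have hpar : ‖(1 / 2 : ℝ) • (x + y)‖ ^ 2 = (‖x‖ ^ 2 + ‖y‖ ^ 2) / 2 - ‖x - y‖ ^ 2 / 4 := by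
    have h1 := parallelogram_law_with_norm ℝ x y
    rw [norm_smul]
    simp only [one_div, norm_inv, Real.norm_ofNat]
    nlinarith [h1]
  rw [hpar]
  set t := ‖x - y‖ with ht
  have ht0 : 0 ≤ t := norm_nonneg _
  have h1 : β * (ry - rx) ≤ |β| * (L * t) := by
    calc β * (ry - rx) ≤ |β * (ry - rx)| := le_abs_self _
      _ = |β| * |rx - ry| := by rw [abs_mul, abs_sub_comm]
      _ ≤ |β| * (L * t) := by gcongr
  have h2 : |β| * (L * t) - β ^ 2 * L ^ 2 / τ ≤ τ * t ^ 2 / 4 := by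
    have h3 : 0 ≤ (τ * t / 2 - |β| * L) ^ 2 / τ := by positivity
    have h4 : (τ * t / 2 - |β| * L) ^ 2 / τ
        = τ * t ^ 2 / 4 - |β| * (L * t) + β ^ 2 * L ^ 2 / τ := by
      have : |β| ^ 2 = β ^ 2 := sq_abs β
      field_simp
      nlinarith [this]
    linarith
  push_cast
  nlinarith [h1, h2]

/-- Jensen in the form needed. -/
theorem jensen_exp {C : Set (E d)} (w r : E d → ℝ) (γ : ℝ)
    (hw : ∀ x, 0 ≤ w x)
    (hwi : IntegrableOn w C) (hrw : IntegrableOn (fun x => r x * w x) C)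
    (hei : IntegrableOn (fun x => w x * Real.exp (γ * r x)) C)
    (ha : 0 < ∫ x in C, w x) :
    (∫ x in C, w x) * Real.exp (γ * ((∫ x in C, r x * w x) / ∫ x in C, w x))
      ≤ ∫ x in C, w x * Real.exp (γ * r x) := by
  set a := ∫ x in C, w x with ha_def
  set A := (∫ x in C, r x * w x) / a with hA
  have hAa : ∫ x in C, r x * w x = A * a := by
    rw [hA]; field_simp
  have hpt : ∀ x, w x * (Real.exp (γ * A) * (γ * r x - γ * A + 1)) ≤ w x * Real.exp (γ * r x) := by
    intro x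
    apply mul_le_mul_of_nonneg_left _ (hw x)
    have h1 := Real.add_one_le_exp (γ * r x - γ * A)
    have h2 : Real.exp (γ * r x) = Real.exp (γ * A) * Real.exp (γ * r x - γ * A) := by
      rw [← Real.exp_add]; congr 1; ring
    rw [h2]
    exact mul_le_mul_of_nonneg_left h1 (Real.exp_pos _).le
  have hint : IntegrableOn (fun x => w x * (Real.exp (γ * A) * (γ * r x - γ * A + 1))) C := by
    have : (fun x => w x * (Real.exp (γ * A) * (γ * r x - γ * A + 1)))
        = fun x => (Real.exp (γ * A) * γ) * (r x * w x) + (Real.exp (γ * A) * (1 - γ * A)) * w x := by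
      funext x; ring
    rw [this]
    exact (hrw.const_mul _).add (hwi.const_mul _)
  have hcalc : ∫ x in C, w x * (Real.exp (γ * A) * (γ * r x - γ * A + 1))
      = a * Real.exp (γ * A) := by
    have : (fun x => w x * (Real.exp (γ * A) * (γ * r x - γ * A + 1)))
        = fun x => (Real.exp (γ * A) * γ) * (r x * w x) + (Real.exp (γ * A) * (1 - γ * A)) * w x := by
      funext x; ring
    rw [this, integral_add (hrw.const_mul _) (hwi.const_mul _), integral_const_mul,
      integral_const_mul, hAa, ← ha_def]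
    ring
  rw [← hcalc]
  exact integral_mono hint hei hpt

theorem pl_cells {τ L : ℝ} (hτ : 0 < τ) (hL : 0 < L) {K C C' C'' : Set (E d)} (hK : IsCompact K)
    (hC : MeasurableSet C) (hC' : MeasurableSet C') (hC'' : MeasurableSet C'')
    (hCK : C ⊆ K) (hCK' : C' ⊆ K) (hCK'' : C'' ⊆ K)
    (hmid : ∀ x ∈ C, ∀ x' ∈ C', (1 / 2 : ℝ) • (x + x') ∈ C'')
    (r : E d → ℝ) (hrm : Measurable r) (hr : ∀ x ∈ K, ∀ x' ∈ K, |r x - r x'| ≤ L * ‖x - x'‖)
    (ha : 0 < ∫ x in C, gw τ x) (ha' : 0 < ∫ x in C', gw τ x) :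
    Real.sqrt ((∫ x in C, gw τ x) * (∫ x in C', gw τ x)) *
      Real.exp (τ * ((∫ x in C', r x * gw τ x) / (∫ x in C', gw τ x)
        - (∫ x in C, r x * gw τ x) / (∫ x in C, gw τ x)) ^ 2 / (8 * L ^ 2))
      ≤ ∫ x in C'', gw τ x := by
  classical
  -- K nonempty, r bounded on K
  have hCne : C.Nonempty := by
    by_contra h
    rw [Set.not_nonempty_iff_eq_empty] at h
    simp [h] at ha
  obtain ⟨x₀, hx₀⟩ := hCne
  obtain ⟨M, hM⟩ := hK.isBounded.exists_norm_le
  have hM0 : 0 ≤ M := (norm_nonneg x₀).trans (hM x₀ (hCK hx₀))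
  set B := |r x₀| + L * (2 * M) with hB
  have hrB : ∀ x ∈ K, |r x| ≤ B := by
    intro x hx
    have h1 := hr x hx x₀ (hCK hx₀)
    have h2 : ‖x - x₀‖ ≤ 2 * M := by
      calc ‖x - x₀‖ ≤ ‖x‖ + ‖x₀‖ := norm_sub_le _ _
        _ ≤ 2 * M := by linarith [hM x hx, hM x₀ (hCK hx₀)]
    have h3 : |r x| ≤ |r x₀| + |r x - r x₀| := by
      have := abs_add_le (r x₀) (r x - r x₀)
      simpa using this
    calc |r x| ≤ |r x₀| + |r x - r x₀| := h3
      _ ≤ |r x₀| + L * (2 * M) := by
        have : L * ‖x - x₀‖ ≤ L * (2 * M) := by gcongr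
        linarith
  have hB0 : 0 ≤ B := (abs_nonneg _).trans (hrB x₀ (hCK hx₀))
  have hKfin : volume K < ⊤ := hK.measure_lt_top
  have hgw1 : ∀ x : E d, gw τ x ≤ 1 := by
    intro x
    unfold gw
    apply Real.exp_le_one_iff.mpr
    have : 0 ≤ τ * ‖x‖ ^ 2 / 2 := by positivity
    linarith
  have hgwm : Measurable (gw τ : E d → ℝ) := (continuous_gw τ).measurable
  -- integrability helper
  have hintg : ∀ (S : Set (E d)), MeasurableSet S → S ⊆ K → ∀ (F : E d → ℝ), Measurable F →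
      ∀ b : ℝ, (∀ x ∈ K, |F x| ≤ b) → IntegrableOn F S := by
    intro S hSm hS F hF b hb
    refine Measure.integrableOn_of_bounded (M := b) ?_ hF.aestronglyMeasurable ?_
    · exact ((measure_mono hS).trans_lt hKfin).ne
    · exact ae_restrict_of_forall_mem hSm (fun x hx => by
        rw [Real.norm_eq_abs]; exact hb x (hS hx))
  have hgwI : ∀ S : Set (E d), MeasurableSet S → S ⊆ K → IntegrableOn (gw τ) S := by
    intro S hSm hS
    refine hintg S hSm hS _ hgwm 1 (fun x _ => ?_)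
    rw [abs_of_pos (gw_pos τ x)]; exact hgw1 x
  have hrgwI : ∀ S : Set (E d), MeasurableSet S → S ⊆ K →
      IntegrableOn (fun x => r x * gw τ x) S := by
    intro S hSm hS
    refine hintg S hSm hS _ (hrm.mul hgwm) B (fun x hx => ?_)
    rw [abs_mul, abs_of_pos (gw_pos τ x)]
    calc |r x| * gw τ x ≤ B * 1 := by
          apply mul_le_mul (hrB x hx) (hgw1 x) (gw_pos τ x).le hB0
      _ = B := mul_one _
  have hexpI : ∀ (γ : ℝ) (S : Set (E d)), MeasurableSet S → S ⊆ K →
      IntegrableOn (fun x => gw τ x * Real.exp (γ * r x)) S := by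
    intro γ S hSm hS
    refine hintg S hSm hS _ (hgwm.mul (by fun_prop)) (Real.exp (|γ| * B)) (fun x hx => ?_)
    rw [abs_of_pos (mul_pos (gw_pos τ x) (Real.exp_pos _))]
    calc gw τ x * Real.exp (γ * r x) ≤ 1 * Real.exp (|γ| * B) := by
          apply mul_le_mul (hgw1 x) _ (Real.exp_pos _).le zero_le_one
          apply Real.exp_le_exp.mpr
          calc γ * r x ≤ |γ * r x| := le_abs_self _
            _ = |γ| * |r x| := abs_mul _ _
            _ ≤ |γ| * B := by gcongr; exact hrB x hx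
      _ = _ := one_mul _
  set a := ∫ x in C, gw τ x with ha_def
  set a' := ∫ x in C', gw τ x with ha'_def
  set a'' := ∫ x in C'', gw τ x with ha''_def
  set A := (∫ x in C, r x * gw τ x) / a with hA
  set A' := (∫ x in C', r x * gw τ x) / a' with hA'
  set Δ := A' - A with hΔ
  set β := τ * Δ / (2 * L ^ 2) with hβ
  have ha''0 : 0 ≤ a'' := integral_nonneg (fun x => (gw_pos τ x).le)
  -- the three functions
  set F0 : E d → ℝ := fun x => gw τ x * Real.exp (-(β * r x)) with hF0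
  set F1 : E d → ℝ := fun x => gw τ x * Real.exp (β * r x - β ^ 2 * L ^ 2 / τ) with hF1
  have hF0m : Measurable F0 := hgwm.mul (by fun_prop)
  have hF1m : Measurable F1 := hgwm.mul (by fun_prop)
  have hF0pos : ∀ x, 0 ≤ F0 x := fun x => (mul_pos (gw_pos τ x) (Real.exp_pos _)).le
  have hF1pos : ∀ x, 0 ≤ F1 x := fun x => (mul_pos (gw_pos τ x) (Real.exp_pos _)).le
  have hF0I : IntegrableOn F0 C := by
    have := hexpI (-β) C hC hCK
    refine this.congr_fun (fun x _ => ?_) hC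
    simp only [hF0, neg_mul]
  have hF1eq : ∀ x, F1 x = Real.exp (-(β ^ 2 * L ^ 2 / τ)) * (gw τ x * Real.exp (β * r x)) := by
    intro x
    simp only [hF1]
    rw [sub_eq_add_neg, Real.exp_add]; ring
  have hF1I : IntegrableOn F1 C' := by
    have : IntegrableOn (fun x => Real.exp (-(β ^ 2 * L ^ 2 / τ)) *
        (gw τ x * Real.exp (β * r x))) C' :=
      (hexpI β C' hC' hCK').const_mul (Real.exp (-(β ^ 2 * L ^ 2 / τ)))
    exact this.congr_fun (fun x _ => (hF1eq x).symm) hC'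
  have hPL := prekopa_leindler_half
    (fun x => ENNReal.ofReal (C.indicator F0 x)) (fun x => ENNReal.ofReal (C'.indicator F1 x))
    (fun x => ENNReal.ofReal (C''.indicator (gw τ) x))
    (hF0m.indicator hC).ennreal_ofReal (hF1m.indicator hC').ennreal_ofReal
    (hgwm.indicator hC'').ennreal_ofReal
    (by
      intro x y
      by_cases hx : x ∈ C
      · by_cases hy : y ∈ C'
        · have hz := hmid x hx y hy
          rw [indicator_of_mem hx, indicator_of_mem hy, indicator_of_mem hz,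
            ← ENNReal.ofReal_mul (hF0pos x), ← ENNReal.ofReal_pow (gw_pos τ _).le]
          apply ENNReal.ofReal_le_ofReal
          exact gw_mid_ineq hτ β x y (r x) (r y) (hr x (hCK hx) y (hCK' hy))
        · rw [indicator_of_notMem hy]; simp
      · rw [indicator_of_notMem hx]; simp)
  have hl0 : ∫⁻ x, ENNReal.ofReal (C.indicator F0 x) = ENNReal.ofReal (∫ x in C, F0 x) := by
    rw [← integral_indicator hC]
    exact (ofReal_integral_eq_lintegral_ofReal (hF0I.integrable_indicator hC)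
      (Filter.Eventually.of_forall (fun x => indicator_nonneg (fun x _ => hF0pos x) x))).symm
  have hl1 : ∫⁻ x, ENNReal.ofReal (C'.indicator F1 x) = ENNReal.ofReal (∫ x in C', F1 x) := by
    rw [← integral_indicator hC']
    exact (ofReal_integral_eq_lintegral_ofReal (hF1I.integrable_indicator hC')
      (Filter.Eventually.of_forall (fun x => indicator_nonneg (fun x _ => hF1pos x) x))).symm
  have hl2 : ∫⁻ x, ENNReal.ofReal (C''.indicator (gw τ) x) = ENNReal.ofReal a'' := by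
    rw [ha''_def, ← integral_indicator hC'']
    exact (ofReal_integral_eq_lintegral_ofReal ((hgwI C'' hC'' hCK'').integrable_indicator hC'')
      (Filter.Eventually.of_forall
        (fun x => indicator_nonneg (fun x _ => (gw_pos τ x).le) x))).symm
  rw [hl0, hl1, hl2, ← ENNReal.ofReal_mul (integral_nonneg (fun x => hF0pos x)),
    ← ENNReal.ofReal_pow ha''0] at hPL
  have hPL' : (∫ x in C, F0 x) * (∫ x in C', F1 x) ≤ a'' ^ 2 :=
    (ENNReal.ofReal_le_ofReal_iff (by positivity)).mp hPL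
  -- Jensen
  have hJ0 : a * Real.exp (-β * A) ≤ ∫ x in C, F0 x := by
    have := jensen_exp (C := C) (gw τ) r (-β) (fun x => (gw_pos τ x).le) (hgwI C hC hCK)
      (hrgwI C hC hCK) (hexpI (-β) C hC hCK) ha
    refine this.trans (le_of_eq ?_)
    apply setIntegral_congr_fun hC
    intro x _
    simp only [hF0, neg_mul]
  have hJ1 : Real.exp (-(β ^ 2 * L ^ 2 / τ)) * (a' * Real.exp (β * A')) ≤ ∫ x in C', F1 x := by
    have := jensen_exp (C := C') (gw τ) r β (fun x => (gw_pos τ x).le) (hgwI C' hC' hCK')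
      (hrgwI C' hC' hCK') (hexpI β C' hC' hCK') ha'
    have h2 : ∫ x in C', F1 x
        = Real.exp (-(β ^ 2 * L ^ 2 / τ)) * ∫ x in C', gw τ x * Real.exp (β * r x) := by
      rw [← integral_const_mul]
      exact setIntegral_congr_fun hC' (fun x _ => hF1eq x)
    rw [h2]
    exact mul_le_mul_of_nonneg_left this (Real.exp_pos _).le
  have hkey : (a * a') * Real.exp (τ * Δ ^ 2 / (8 * L ^ 2)) ^ 2 ≤ a'' ^ 2 := by
    have h1 : (a * Real.exp (-β * A)) *
        (Real.exp (-(β ^ 2 * L ^ 2 / τ)) * (a' * Real.exp (β * A'))) ≤ a'' ^ 2 := by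
      refine le_trans ?_ hPL'
      apply mul_le_mul hJ0 hJ1 (by positivity) (integral_nonneg (fun x => hF0pos x))
    have h2 : (a * Real.exp (-β * A)) *
        (Real.exp (-(β ^ 2 * L ^ 2 / τ)) * (a' * Real.exp (β * A')))
        = (a * a') * Real.exp (τ * Δ ^ 2 / (8 * L ^ 2)) ^ 2 := by
      have h3 : Real.exp (τ * Δ ^ 2 / (8 * L ^ 2)) ^ 2
          = Real.exp (-β * A) * Real.exp (-(β ^ 2 * L ^ 2 / τ)) * Real.exp (β * A') := by
        rw [← Real.exp_add, ← Real.exp_add, ← Real.exp_nat_mul]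
        congr 1
        rw [hβ, hΔ]
        field_simp
        ring
      rw [h3]; ring
    rw [← h2]; exact h1
  have hfin := Real.sqrt_le_sqrt hkey
  rw [Real.sqrt_sq ha''0, Real.sqrt_mul (mul_pos ha ha').le, Real.sqrt_sq (Real.exp_pos _).le]
    at hfin
  exact hfin

end Crest.Agent.OTStab
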