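import Mathlib

/-!
# Task P1: a real-analysis lemma (discrete integration of subgradient inequalities)

Proof.  Fix `N ≥ 1`.  Choose `θ ∈ (0,1)` with `t_j = (j+θ)/N ∉ S` for all `j < N` (finitely many bad `θ`).
With `D = hσ - hρ`:  `D 1 - D 0 = [D 1 - D t_{N-1}] + ∑_{j<N-1} [D t_{j+1} - D t_j] + [D t_0 - D 0]`.
End pieces: `≤ 2Λ/N` each.  Middle: `hσ t_{j+1} - hσ t_j ≤ (1/N) pσ t_{j+1}` (subgradient at `t_{j+1}`),
`hρ t_{j+1} - hρ t_j ≥ (1/N) pρ t_j`; so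
`D t_{j+1} - D t_j ≤ (1/N)(pσ t_{j+1} - pρ t_{j+1}) + (1/N)(pρ t_{j+1} - pρ t_j) ≤ M/N + (1/N)(pρ t_{j+1} - pρ t_j)`;
the last terms telescope to `(1/N)(pρ t_{N-1} - pρ t_0) ≤ 2Λ/N`.  Total `≤ (1-1/N) M + 6Λ/N → M`.
-/

set_option autoImplicit false

open Set

namespace Crest.Agent.OTStab

theorem path_lemma_aux (hσ hρ pσ pρ : ℝ → ℝ) (S : Set ℝ) (hS : S.Finite) (Λ M : ℝ)
    (sub_σ : ∀ t ∈ Icc (0:ℝ) 1, t ∉ S → ∀ t' ∈ Icc (0:ℝ) 1, hσ t + (t' - t) * pσ t ≤ hσ t')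
    (sub_ρ : ∀ t ∈ Icc (0:ℝ) 1, t ∉ S → ∀ t' ∈ Icc (0:ℝ) 1, hρ t + (t' - t) * pρ t ≤ hρ t')
    (lip_σ : ∀ t ∈ Icc (0:ℝ) 1, ∀ t' ∈ Icc (0:ℝ) 1, |hσ t - hσ t'| ≤ Λ * |t - t'|)
    (lip_ρ : ∀ t ∈ Icc (0:ℝ) 1, ∀ t' ∈ Icc (0:ℝ) 1, |hρ t - hρ t'| ≤ Λ * |t - t'|)
    (bd : ∀ t ∈ Icc (0:ℝ) 1, t ∉ S → |pρ t| ≤ Λ)
    (hM : ∀ t ∈ Icc (0:ℝ) 1, t ∉ S → pσ t - pρ t ≤ M) (n : ℕ) :
    ((hσ 1 - hσ 0) - (hρ 1 - hρ 0)) * ((n : ℝ) + 1) ≤ n * M + 6 * Λ := by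
  have hN : (0 : ℝ) < (n : ℝ) + 1 := by positivity
  have hΛ : 0 ≤ Λ := by
    have := lip_σ 0 (by simp) 1 (by simp)
    have h2 : |(0 : ℝ) - 1| = 1 := by norm_num
    rw [h2, mul_one] at this
    exact le_trans (abs_nonneg _) this
  -- choice of θ
  have hbad : (⋃ j ∈ Finset.range (n + 1), (fun θ : ℝ => ((j : ℝ) + θ) / ((n : ℝ) + 1)) ⁻¹' S).Finite := by
    apply Set.Finite.biUnion (Finset.finite_toSet _)
    intro j _
    apply Set.Finite.preimage _ hS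
    intro a _ b _ hab
    simp only at hab
    have := (div_left_inj' hN.ne').mp hab
    linarith
  obtain ⟨θ, hθ, hθbad⟩ := ((Set.Ioo_infinite (zero_lt_one (α := ℝ))).sdiff hbad).nonempty
  set t : ℕ → ℝ := fun j => ((j : ℝ) + θ) / ((n : ℝ) + 1) with ht
  have htS : ∀ j ≤ n, t j ∉ S := by
    intro j hj hcon
    apply hθbad
    simp only [Set.mem_iUnion, Set.mem_preimage]
    exact ⟨j, by simpa using Nat.lt_succ_of_le hj, hcon⟩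
  have htI : ∀ j ≤ n, t j ∈ Icc (0 : ℝ) 1 := by
    intro j hj
    have hj' : (j : ℝ) ≤ n := by exact_mod_cast hj
    constructor
    · apply div_nonneg _ hN.le
      have := hθ.1
      positivity
    · rw [div_le_one hN]
      have := hθ.2
      linarith
  have hstep : ∀ j, t (j + 1) - t j = 1 / ((n : ℝ) + 1) := by
    intro j
    simp only [ht]
    push_cast
    field_simp
    ring
  set D : ℝ → ℝ := fun x => hσ x - hρ x with hD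
  -- telescoping
  have htel : ∀ m ≤ n, (D (t m) - D (t 0)) * ((n : ℝ) + 1) ≤ m * M + (pρ (t m) - pρ (t 0)) := by
    intro m
    induction m with
    | zero => intro _; simp
    | succ m ih =>
      intro hm
      have ih' := ih (by omega)
      have h1 := sub_σ (t (m + 1)) (htI _ hm) (htS _ hm) (t m) (htI _ (by omega))
      have h2 := sub_ρ (t m) (htI _ (by omega)) (htS _ (by omega)) (t (m + 1)) (htI _ hm)
      have h3 := hM (t (m + 1)) (htI _ hm) (htS _ hm)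
      have e1 : t m - t (m + 1) = -(1 / ((n : ℝ) + 1)) := by rw [← hstep m]; ring
      rw [e1] at h1
      rw [hstep m] at h2
      have h1' : (hσ (t (m + 1)) - hσ (t m)) * ((n : ℝ) + 1) ≤ pσ (t (m + 1)) := by
        have : (hσ (t (m + 1)) - hσ (t m)) ≤ 1 / ((n : ℝ) + 1) * pσ (t (m + 1)) := by linarith
        calc _ ≤ (1 / ((n : ℝ) + 1) * pσ (t (m + 1))) * ((n : ℝ) + 1) :=
              mul_le_mul_of_nonneg_right this hN.le
          _ = _ := by field_simp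
      have h2' : pρ (t m) ≤ (hρ (t (m + 1)) - hρ (t m)) * ((n : ℝ) + 1) := by
        have : 1 / ((n : ℝ) + 1) * pρ (t m) ≤ (hρ (t (m + 1)) - hρ (t m)) := by linarith
        calc _ = (1 / ((n : ℝ) + 1) * pρ (t m)) * ((n : ℝ) + 1) := by field_simp
          _ ≤ _ := mul_le_mul_of_nonneg_right this hN.le
      simp only [hD] at ih' ⊢
      push_cast
      nlinarith
  have hend1 : (D 1 - D (t n)) * ((n : ℝ) + 1) ≤ 2 * Λ := by
    have a1 := lip_σ 1 (by simp) (t n) (htI n le_rfl)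
    have a2 := lip_ρ 1 (by simp) (t n) (htI n le_rfl)
    have e : |1 - t n| * ((n : ℝ) + 1) ≤ 1 := by
      have : 1 - t n = (1 - θ) / ((n : ℝ) + 1) := by
        simp only [ht]; field_simp; ring
      rw [this, abs_of_nonneg (div_nonneg (by linarith [hθ.2]) hN.le)]
      rw [div_mul_cancel₀ _ hN.ne']
      linarith [hθ.1]
    have b1 := (abs_le.mp a1).2
    have b2 := (abs_le.mp a2).1
    have : D 1 - D (t n) ≤ 2 * (Λ * |1 - t n|) := by simp only [hD]; linarith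
    calc _ ≤ 2 * (Λ * |1 - t n|) * ((n : ℝ) + 1) := mul_le_mul_of_nonneg_right this hN.le
      _ = 2 * Λ * (|1 - t n| * ((n : ℝ) + 1)) := by ring
      _ ≤ 2 * Λ * 1 := by apply mul_le_mul_of_nonneg_left e (by positivity)
      _ = _ := by ring
  have hend0 : (D (t 0) - D 0) * ((n : ℝ) + 1) ≤ 2 * Λ := by
    have a1 := lip_σ (t 0) (htI 0 (Nat.zero_le _)) 0 (by simp)
    have a2 := lip_ρ (t 0) (htI 0 (Nat.zero_le _)) 0 (by simp)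
    have e : |t 0 - 0| * ((n : ℝ) + 1) ≤ 1 := by
      have : t 0 - 0 = θ / ((n : ℝ) + 1) := by
        simp only [ht]; simp
      rw [this, abs_of_nonneg (div_nonneg (by linarith [hθ.1]) hN.le)]
      rw [div_mul_cancel₀ _ hN.ne']
      linarith [hθ.2]
    have b1 := (abs_le.mp a1).2
    have b2 := (abs_le.mp a2).1
    have : D (t 0) - D 0 ≤ 2 * (Λ * |t 0 - 0|) := by simp only [hD]; linarith
    calc _ ≤ 2 * (Λ * |t 0 - 0|) * ((n : ℝ) + 1) := mul_le_mul_of_nonneg_right this hN.le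
      _ = 2 * Λ * (|t 0 - 0| * ((n : ℝ) + 1)) := by ring
      _ ≤ 2 * Λ * 1 := by apply mul_le_mul_of_nonneg_left e (by positivity)
      _ = _ := by ring
  have hmid := htel n le_rfl
  have c1 := (abs_le.mp (bd (t n) (htI n le_rfl) (htS n le_rfl))).2
  have c2 := (abs_le.mp (bd (t 0) (htI 0 (Nat.zero_le _)) (htS 0 (Nat.zero_le _)))).1
  have : (hσ 1 - hσ 0) - (hρ 1 - hρ 0) = (D 1 - D (t n)) + (D (t n) - D (t 0)) + (D (t 0) - D 0) := by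
    simp only [hD]; ring
  rw [this]
  nlinarith

theorem path_lemma (hσ hρ pσ pρ : ℝ → ℝ) (S : Set ℝ) (hS : S.Finite) (Λ M : ℝ)
    (sub_σ : ∀ t ∈ Icc (0:ℝ) 1, t ∉ S → ∀ t' ∈ Icc (0:ℝ) 1, hσ t + (t' - t) * pσ t ≤ hσ t')
    (sub_ρ : ∀ t ∈ Icc (0:ℝ) 1, t ∉ S → ∀ t' ∈ Icc (0:ℝ) 1, hρ t + (t' - t) * pρ t ≤ hρ t')
    (lip_σ : ∀ t ∈ Icc (0:ℝ) 1, ∀ t' ∈ Icc (0:ℝ) 1, |hσ t - hσ t'| ≤ Λ * |t - t'|)
    (lip_ρ : ∀ t ∈ Icc (0:ℝ) 1, ∀ t' ∈ Icc (0:ℝ) 1, |hρ t - hρ t'| ≤ Λ * |t - t'|)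
    (bd : ∀ t ∈ Icc (0:ℝ) 1, t ∉ S → |pρ t| ≤ Λ)
    (hM : ∀ t ∈ Icc (0:ℝ) 1, t ∉ S → pσ t - pρ t ≤ M) :
    (hσ 1 - hσ 0) - (hρ 1 - hρ 0) ≤ M := by
  by_contra hcon
  push Not at hcon
  set X := (hσ 1 - hσ 0) - (hρ 1 - hρ 0) with hX
  have hδ : 0 < X - M := by linarith
  obtain ⟨n, hn⟩ := exists_nat_gt ((6 * Λ - X) / (X - M))
  have h1 := path_lemma_aux hσ hρ pσ pρ S hS Λ M sub_σ sub_ρ lip_σ lip_ρ bd hM n
  rw [← hX] at h1
  rw [div_lt_iff₀ hδ] at hn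
  nlinarith

end Crest.Agent.OTStab
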