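import Crest.Agent.OTStab.CellAE

/-!
# Task W: basic properties of `W σ Y m = ⨅ c, kant σ Y m c` (weak duality)

`σ` probability measure, `σ ≪ volume`, `|x| ≤ RK` a.e.;  `m k ≥ 0`, `∑ m = 1`.  `Y` is NOT assumed injective
except where stated.
-/

set_option autoImplicit false

open MeasureTheory Set
open scoped ENNReal NNReal RealInnerProductSpace

namespace Crest.Agent.OTStab

variable {d : ℕ} {ι : Type} [Fintype ι] [Nonempty ι]

private theorem wb_integrable_inner (σ : Measure (E d)) [IsFiniteMeasure σ] {RK : ℝ}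
    (hσK : ∀ᵐ x ∂σ, ‖x‖ ≤ RK) (v : E d) : Integrable (fun x : E d => ⟪x, v⟫) σ :=
  (integrable_id hσK).inner_const v

/-- `kant σ Y m c ≥ ∑ m k ⟪∫ x dσ, Y k⟫` by `sum_le_lag`. -/
theorem kant_bddBelow (σ : Measure (E d)) [IsProbabilityMeasure σ] {RK : ℝ}
    (hσK : ∀ᵐ x ∂σ, ‖x‖ ≤ RK) (Y : ι → E d) (m : ι → ℝ) (hm : ∀ k, 0 ≤ m k)
    (hsum : ∑ k, m k = 1) : BddBelow (range (kant σ Y m)) := by
  refine ⟨∫ x, ∑ k, m k * ⟪x, Y k⟫ ∂σ, ?_⟩
  rintro _ ⟨c, rfl⟩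
  have hI1 : Integrable (fun x : E d => ∑ k, m k * ⟪x, Y k⟫) σ :=
    integrable_finsetSum _ fun k _ => (wb_integrable_inner σ hσK (Y k)).const_mul (m k)
  have hI2 : Integrable (fun x : E d => ∑ k, m k * (⟪x, Y k⟫ - c k)) σ :=
    integrable_finsetSum _ fun k _ =>
      ((wb_integrable_inner σ hσK (Y k)).sub (integrable_const (c k))).const_mul (m k)
  have h1 : ∫ x, ∑ k, m k * (⟪x, Y k⟫ - c k) ∂σ ≤ ∫ x, lag Y c x ∂σ :=
    integral_mono hI2 (integrable_lag hσK Y c) fun x => sum_le_lag Y c m hm hsum x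
  have h2 : ∫ x, ∑ k, m k * (⟪x, Y k⟫ - c k) ∂σ
      = ∫ x, ∑ k, m k * ⟪x, Y k⟫ ∂σ - ∑ k, m k * c k := by
    have : (fun x : E d => ∑ k, m k * (⟪x, Y k⟫ - c k))
        = fun x => (∑ k, m k * ⟪x, Y k⟫) - ∑ k, m k * c k := by
      funext x
      rw [← Finset.sum_sub_distrib]
      exact Finset.sum_congr rfl fun k _ => by ring
    rw [this, integral_sub hI1 (integrable_const _)]
    simp
  unfold kant
  linarith

theorem W_le_kant (σ : Measure (E d)) [IsProbabilityMeasure σ] {RK : ℝ}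
    (hσK : ∀ᵐ x ∂σ, ‖x‖ ≤ RK) (Y : ι → E d) (m : ι → ℝ) (hm : ∀ k, 0 ≤ m k)
    (hsum : ∑ k, m k = 1) (c : ι → ℝ) : W σ Y m ≤ kant σ Y m c :=
  ciInf_le (kant_bddBelow σ hσK Y m hm hsum) c

theorem le_W (σ : Measure (E d)) (Y : ι → E d) (m : ι → ℝ) {A : ℝ}
    (h : ∀ c, A ≤ kant σ Y m c) : A ≤ W σ Y m :=
  le_ciInf h

/-- Weak duality against the Laguerre partition of OTHER (distinct) points `y0` with the right masses:
for every `c`, `∫ lag Y c dσ = ∑_k ∫_{cell y0 c0 k} lag Y c ≥ ∑_k ∫_{cell y0 c0 k} (⟪x, Y k⟫ - c k)`. -/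
theorem W_ge_of_cells (σ : Measure (E d)) [IsProbabilityMeasure σ]
    (hσ : σ ≪ (volume : Measure (E d))) {RK : ℝ} (hσK : ∀ᵐ x ∂σ, ‖x‖ ≤ RK)
    (m : ι → ℝ) (hm : ∀ k, 0 ≤ m k) (y0 : ι → E d) (hy0 : Function.Injective y0) (c0 : ι → ℝ)
    (hmass : ∀ k, σ (cell y0 c0 k) = ENNReal.ofReal (m k)) (Y : ι → E d) :
    ∑ k, ⟪Y k, ∫ x in cell y0 c0 k, x ∂σ⟫ ≤ W σ Y m := by
  refine le_W σ Y m fun c => ?_
  unfold kant
  rw [integral_eq_sum_cell hσ hy0 c0 (integrable_lag hσK Y c), ← Finset.sum_add_distrib]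
  refine Finset.sum_le_sum fun k _ => ?_
  have hIid : Integrable (fun x : E d => x) (σ.restrict (cell y0 c0 k)) :=
    (integrable_id hσK).restrict
  have hI : Integrable (fun x : E d => ⟪x, Y k⟫ - c k) (σ.restrict (cell y0 c0 k)) :=
    ((wb_integrable_inner σ hσK (Y k)).sub (integrable_const (c k))).restrict
  have h1 : ∫ x in cell y0 c0 k, (⟪x, Y k⟫ - c k) ∂σ ≤ ∫ x in cell y0 c0 k, lag Y c x ∂σ :=
    integral_mono hI (integrable_lag hσK Y c).restrict fun x => le_lag Y c k x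
  have h2 : ∫ x in cell y0 c0 k, (⟪x, Y k⟫ - c k) ∂σ
      = ⟪Y k, ∫ x in cell y0 c0 k, x ∂σ⟫ - m k * c k := by
    rw [integral_sub (hIid.inner_const (Y k)) (integrable_const _)]
    congr 1
    · rw [← integral_inner hIid (Y k)]
      exact integral_congr_ae (Filter.Eventually.of_forall fun x => real_inner_comm _ _)
    · rw [integral_const, smul_eq_mul]
      simp [Measure.real, hmass k, ENNReal.toReal_ofReal (hm k)]
  linarith

/-- Strong duality at distinct points: equality for `Y = y0` (upper bound: `W ≤ kant σ Y m c0`). -/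
theorem W_eq_of_cells (σ : Measure (E d)) [IsProbabilityMeasure σ]
    (hσ : σ ≪ (volume : Measure (E d))) {RK : ℝ} (hσK : ∀ᵐ x ∂σ, ‖x‖ ≤ RK)
    (m : ι → ℝ) (hm : ∀ k, 0 ≤ m k) (hsum : ∑ k, m k = 1)
    (Y : ι → E d) (hY : Function.Injective Y) (c0 : ι → ℝ)
    (hmass : ∀ k, σ (cell Y c0 k) = ENNReal.ofReal (m k)) :
    W σ Y m = ∑ k, ⟪Y k, ∫ x in cell Y c0 k, x ∂σ⟫ := by
  refine le_antisymm ?_ (W_ge_of_cells σ hσ hσK m hm Y hY c0 hmass Y)
  refine (W_le_kant σ hσK Y m hm hsum c0).trans (le_of_eq ?_)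
  rw [← integral_inner_lagMap hσ hσK hY c0, ← integral_lag_add hσ hσK hY c0]
  unfold kant
  congr 1
  refine Finset.sum_congr rfl fun k _ => ?_
  rw [hmass k, ENNReal.toReal_ofReal (hm k)]

/-- Lipschitz dependence on the points (`abs_lag_sub_lag_points_le`). -/
theorem abs_W_sub_W_le (σ : Measure (E d)) [IsProbabilityMeasure σ] {RK : ℝ}
    (hσK : ∀ᵐ x ∂σ, ‖x‖ ≤ RK) (m : ι → ℝ) (hm : ∀ k, 0 ≤ m k) (hsum : ∑ k, m k = 1)
    (Y Y' : ι → E d) {M : ℝ} (h : ∀ k, ‖Y k - Y' k‖ ≤ M) :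
    |W σ Y m - W σ Y' m| ≤ RK * M := by
  have hM : 0 ≤ M := (norm_nonneg _).trans (h (Classical.arbitrary ι))
  have key : ∀ (Z Z' : ι → E d), (∀ k, ‖Z k - Z' k‖ ≤ M) → W σ Z m - RK * M ≤ W σ Z' m := by
    intro Z Z' hZ
    refine le_W σ Z' m fun c => ?_
    have h1 := W_le_kant σ hσK Z m hm hsum c
    have h2 : ∫ x, lag Z c x ∂σ ≤ ∫ x, (lag Z' c x + RK * M) ∂σ := by
      refine integral_mono_ae (integrable_lag hσK Z c)
        ((integrable_lag hσK Z' c).add (integrable_const _)) ?_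
      filter_upwards [hσK] with x hx
      have h3 := abs_lag_sub_lag_points_le Z Z' c hZ x
      have h4 : ‖x‖ * M ≤ RK * M := mul_le_mul_of_nonneg_right hx hM
      have h5 := (abs_le.1 h3).2
      show lag Z c x ≤ lag Z' c x + RK * M
      linarith
    rw [integral_add (integrable_lag hσK Z' c) (integrable_const _)] at h2
    simp only [integral_const, probReal_univ, one_smul] at h2
    unfold kant at h1 ⊢
    linarith
  rw [abs_le]
  constructor
  · have := key Y' Y fun k => by rw [norm_sub_rev]; exact h k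
    linarith
  · have := key Y Y' h
    linarith

end Crest.Agent.OTStab
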