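import Crest.Agent.OTStab.CellAE

/-!
# Task M2: existence of Laguerre weights with prescribed cell masses

`σ` a probability measure, `σ ≪ volume`, `|x| ≤ RK` σ-a.e.; `y` injective, `m k > 0`, `∑ m = 1`.
Then there is `c` with `σ (cell y c k) = m k` for all `k`.

Proof.  `Φ c = kant σ y m c = ∫ lag y c dσ + ∑ m k c k`.
* `Φ` is continuous (`abs_lag_sub_lag_weights_le`), and `Φ (c + t) = Φ c` (`lag_add_const`, `∑ m = 1`).
* Let `R` bound `‖y k‖`, `mmin = min m`, `B = (2 RK R + 1)/mmin`.  `Φ` has a minimiser `c*` on the compact box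
  `{c | ∀ k, 0 ≤ c k ≤ B}`.  It is a global minimiser: given `c`, subtract `min c`; now `c ≥ 0` with
  `c k0 = 0`; if some `c k > B` then `Φ c ≥ ∫ ⟪x, y k0⟫ dσ + mmin B ≥ -RK R + 2 RK R + 1 > RK R ≥ Φ 0 ≥ Φ c*`.
* One-sided variation: for `t > 0` and `k`, `lag y (c* + t 1_k) ≤ lag y c*` everywhere and
  `= lag y c* - t` on `U_t = {x | ∀ l ≠ k, ⟪x,y l⟫ - c* l + t ≤ ⟪x,y k⟫ - c* k}`.  So
  `0 ≤ Φ(c* + t 1_k) - Φ(c*) ≤ -t σ(U_t) + t m k`, i.e. `σ(U_t) ≤ m k`.  `U_t ↑` the open cell as `t ↓ 0`
  (take `t = 1/(n+1)`), and cell minus open cell is contained in finitely many hyperplanes (`σ`-null).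
  Hence `σ (cell k) ≤ m k` for every `k`.
* `∑ σ(cell k) = 1 = ∑ m k` (`sum_measure_cell`) forces equality.
-/

set_option autoImplicit false

open MeasureTheory Set
open scoped ENNReal NNReal RealInnerProductSpace

namespace Crest.Agent.OTStab

variable {d : ℕ}

section aux

variable {ι : Type} [Fintype ι] [Nonempty ι]

/-- the shrunk open cell -/
def shrunk (y : ι → E d) (c : ι → ℝ) (k : ι) (t : ℝ) : Set (E d) :=
  {x | ∀ l, l ≠ k → ⟪x, y l⟫ - c l + t ≤ ⟪x, y k⟫ - c k}

omit [Nonempty ι] in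
theorem measurableSet_shrunk (y : ι → E d) (c : ι → ℝ) (k : ι) (t : ℝ) :
    MeasurableSet (shrunk y c k t) := by
  have : shrunk y c k t = ⋂ l, {x | l ≠ k → ⟪x, y l⟫ - c l + t ≤ ⟪x, y k⟫ - c k} := by
    ext x; simp [shrunk]
  rw [this]
  refine MeasurableSet.iInter fun l => ?_
  by_cases hl : l = k
  · simp [hl]
  · simp only [ne_eq, hl, not_false_eq_true, forall_const]
    exact measurableSet_le (by fun_prop) (by fun_prop)

theorem kant_lipschitz (σ : Measure (E d)) [IsProbabilityMeasure σ] {RK : ℝ}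
    (hσK : ∀ᵐ x ∂σ, ‖x‖ ≤ RK) (y : ι → E d) (m : ι → ℝ) (hm : ∀ k, 0 < m k)
    (hsum : ∑ k, m k = 1) (c c' : ι → ℝ) :
    |kant σ y m c - kant σ y m c'| ≤ 2 * ‖c - c'‖ := by
  have hint : ∀ c, Integrable (lag y c) σ := fun c => integrable_lag hσK y c
  have hM : ∀ k, |c k - c' k| ≤ ‖c - c'‖ := fun k => by
    have := norm_le_pi_norm (c - c') k
    simpa [Real.norm_eq_abs] using this
  have h1 : |∫ x, lag y c x ∂σ - ∫ x, lag y c' x ∂σ| ≤ ‖c - c'‖ := by
    rw [← integral_sub (hint c) (hint c')]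
    calc |∫ x, (lag y c x - lag y c' x) ∂σ| = ‖∫ x, (lag y c x - lag y c' x) ∂σ‖ :=
          (Real.norm_eq_abs _).symm
      _ ≤ ‖c - c'‖ * σ.real univ :=
          norm_integral_le_of_norm_le_const (ae_of_all _ fun x => by
            rw [Real.norm_eq_abs]; exact abs_lag_sub_lag_weights_le y c c' hM x)
      _ = ‖c - c'‖ := by simp
  have h2 : |∑ k, m k * c k - ∑ k, m k * c' k| ≤ ‖c - c'‖ := by
    rw [← Finset.sum_sub_distrib]
    calc |∑ k, (m k * c k - m k * c' k)| ≤ ∑ k, |m k * c k - m k * c' k| :=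
          Finset.abs_sum_le_sum_abs _ _
      _ ≤ ∑ k, m k * ‖c - c'‖ := Finset.sum_le_sum fun k _ => by
          rw [← mul_sub, abs_mul, abs_of_pos (hm k)]
          exact mul_le_mul_of_nonneg_left (hM k) (hm k).le
      _ = ‖c - c'‖ := by rw [← Finset.sum_mul, hsum, one_mul]
  have h3 : kant σ y m c - kant σ y m c' = (∫ x, lag y c x ∂σ - ∫ x, lag y c' x ∂σ) +
      (∑ k, m k * c k - ∑ k, m k * c' k) := by
    simp only [kant]; ring
  rw [h3]
  calc _ ≤ |∫ x, lag y c x ∂σ - ∫ x, lag y c' x ∂σ| + |∑ k, m k * c k - ∑ k, m k * c' k| :=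
        abs_add_le _ _
    _ ≤ 2 * ‖c - c'‖ := by linarith

theorem kant_add_const (σ : Measure (E d)) [IsProbabilityMeasure σ] {RK : ℝ}
    (hσK : ∀ᵐ x ∂σ, ‖x‖ ≤ RK) (y : ι → E d) (m : ι → ℝ)
    (hsum : ∑ k, m k = 1) (c : ι → ℝ) (t : ℝ) :
    kant σ y m (fun k => c k + t) = kant σ y m c := by
  have hint : ∀ c, Integrable (lag y c) σ := fun c => integrable_lag hσK y c
  simp only [kant, lag_add_const]
  rw [integral_sub (hint c) (integrable_const _)]
  simp only [integral_const, probReal_univ, smul_eq_mul, one_mul, mul_add, Finset.sum_add_distrib,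
    ← Finset.sum_mul, hsum]
  ring

/-- one-sided variation -/
theorem kant_bump_le (σ : Measure (E d)) [IsProbabilityMeasure σ] {RK : ℝ}
    (hσK : ∀ᵐ x ∂σ, ‖x‖ ≤ RK) (y : ι → E d) (m : ι → ℝ) (c : ι → ℝ) (k : ι) {t : ℝ}
    (ht : 0 < t) [DecidableEq ι] :
    kant σ y m (fun l => c l + if l = k then t else 0) ≤
      kant σ y m c - t * (σ (shrunk y c k t)).toReal + t * m k := by
  have hint : ∀ c, Integrable (lag y c) σ := fun c => integrable_lag hσK y c
  have hU := measurableSet_shrunk y c k t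
  have hpt : ∀ x, lag y (fun l => c l + if l = k then t else 0) x ≤
      lag y c x - (shrunk y c k t).indicator (fun _ => t) x := by
    intro x
    by_cases hx : x ∈ shrunk y c k t
    · rw [indicator_of_mem hx]
      apply lag_le
      intro l
      by_cases hl : l = k
      · subst hl
        have := le_lag y c l x
        simp only [if_true]
        linarith
      · have h1 := hx l hl
        have h2 := le_lag y c k x
        simp only [hl, if_false]
        linarith
    · rw [indicator_of_notMem hx]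
      apply lag_le
      intro l
      have h2 := le_lag y c l x
      by_cases hl : l = k
      · simp only [hl, if_true] at h2 ⊢
        linarith
      · simp only [hl, if_false]
        linarith
  have hind : Integrable ((shrunk y c k t).indicator (fun _ => t)) σ :=
    (integrable_const t).indicator hU
  have h1 : ∫ x, lag y (fun l => c l + if l = k then t else 0) x ∂σ ≤
      ∫ x, lag y c x ∂σ - t * (σ (shrunk y c k t)).toReal := by
    calc _ ≤ ∫ x, (lag y c x - (shrunk y c k t).indicator (fun _ => t) x) ∂σ :=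
          integral_mono (hint _) ((hint c).sub hind) hpt
      _ = _ := by
          rw [integral_sub (hint c) hind, integral_indicator hU, setIntegral_const]
          simp [Measure.real, mul_comm]
  have h2 : ∑ l, m l * (c l + if l = k then t else 0) = ∑ l, m l * c l + t * m k := by
    simp only [mul_add, Finset.sum_add_distrib, mul_ite, mul_zero, Finset.sum_ite_eq',
      Finset.mem_univ, if_true]
    ring
  simp only [kant]
  rw [h2]
  linarith


/-- existence of a global minimiser of the Kantorovich functional -/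
theorem exists_kant_min (σ : Measure (E d)) [IsProbabilityMeasure σ] {RK : ℝ}
    (hσK : ∀ᵐ x ∂σ, ‖x‖ ≤ RK) (y : ι → E d) (m : ι → ℝ) (hm : ∀ k, 0 < m k)
    (hsum : ∑ k, m k = 1) : ∃ cs : ι → ℝ, ∀ c, kant σ y m cs ≤ kant σ y m c := by
  classical
  have hint : ∀ c, Integrable (lag y c) σ := fun c => integrable_lag hσK y c
  obtain ⟨R, hR0, hR⟩ : ∃ R : ℝ, 0 ≤ R ∧ ∀ k, ‖y k‖ ≤ R :=
    ⟨∑ k, ‖y k‖, Finset.sum_nonneg fun _ _ => norm_nonneg _, fun k =>
      Finset.single_le_sum (f := fun k => ‖y k‖) (fun _ _ => norm_nonneg _) (Finset.mem_univ k)⟩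
  have hRK0 : 0 ≤ RK := by
    obtain ⟨x, hx⟩ := hσK.exists
    exact (norm_nonneg x).trans hx
  obtain ⟨mmin, hmmin0, hmmin⟩ : ∃ mm : ℝ, 0 < mm ∧ ∀ k, mm ≤ m k := by
    obtain ⟨k0, -, hk0⟩ := Finset.exists_min_image Finset.univ m Finset.univ_nonempty
    exact ⟨m k0, hm k0, fun k => hk0 k (Finset.mem_univ k)⟩
  have hcont : Continuous (kant σ y m) := by
    have : LipschitzWith 2 (kant σ y m) := LipschitzWith.of_dist_le_mul fun c c' => by
      rw [Real.dist_eq, dist_eq_norm]
      exact kant_lipschitz σ hσK y m hm hsum c c'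
    exact this.continuous
  set B : ℝ := (2 * RK * R + 1) / mmin with hBdef
  have hB0 : 0 ≤ B := by positivity
  have hcomp : IsCompact (Set.Icc (0 : ι → ℝ) (fun _ => B)) := isCompact_Icc
  obtain ⟨cs, -, hmin⟩ := hcomp.exists_isMinOn ⟨0, le_refl _, fun _ => hB0⟩ hcont.continuousOn
  refine ⟨cs, fun c => ?_⟩
  obtain ⟨k0, -, hk0⟩ := Finset.exists_min_image Finset.univ c Finset.univ_nonempty
  have hc' : kant σ y m (fun k => c k + (-c k0)) = kant σ y m c :=
    kant_add_const σ hσK y m hsum c _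
  rw [← hc']
  set c' : ι → ℝ := fun k => c k + (-c k0) with hc'def
  have hc'0 : ∀ k, 0 ≤ c' k := fun k => by
    have := hk0 k (Finset.mem_univ k)
    simp only [hc'def]; linarith
  by_cases hbox : ∀ k, c' k ≤ B
  · exact hmin ⟨fun k => hc'0 k, fun k => hbox k⟩
  · push Not at hbox
    obtain ⟨k, hk⟩ := hbox
    have h1 : kant σ y m cs ≤ kant σ y m 0 := hmin ⟨le_refl _, fun _ => hB0⟩
    have h2 : kant σ y m 0 ≤ RK * R := by
      have h21 : ∫ x, lag y 0 x ∂σ ≤ ∫ _x, RK * R ∂σ := by
        refine integral_mono_ae (hint 0) (integrable_const _) ?_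
        filter_upwards [hσK] with x hx
        apply lag_le
        intro l
        have : ⟪x, y l⟫ ≤ ‖x‖ * ‖y l‖ := real_inner_le_norm _ _
        have h3 : ‖x‖ * ‖y l‖ ≤ RK * R := mul_le_mul hx (hR l) (norm_nonneg _) hRK0
        simp only [Pi.zero_apply, sub_zero]
        linarith
      simp only [integral_const, probReal_univ, smul_eq_mul, one_mul] at h21
      simp only [kant, Pi.zero_apply, mul_zero, Finset.sum_const_zero, add_zero]
      exact h21
    have h3 : RK * R + 1 ≤ kant σ y m c' := by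
      have h31 : ∫ _x, -(RK * R) ∂σ ≤ ∫ x, lag y c' x ∂σ := by
        refine integral_mono_ae (integrable_const _) (hint c') ?_
        filter_upwards [hσK] with x hx
        have h4 := le_lag y c' k0 x
        have h5 : c' k0 = 0 := by simp [hc'def]
        have h6 : -(‖x‖ * ‖y k0‖) ≤ ⟪x, y k0⟫ := by
          have := abs_real_inner_le_norm x (y k0)
          exact neg_le_of_abs_le this
        have h7 : ‖x‖ * ‖y k0‖ ≤ RK * R := mul_le_mul hx (hR k0) (norm_nonneg _) hRK0
        linarith
      simp only [integral_const, probReal_univ, smul_eq_mul, one_mul] at h31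
      have h32 : m k * c' k ≤ ∑ l, m l * c' l :=
        Finset.single_le_sum (f := fun l => m l * c' l)
          (fun l _ => mul_nonneg (hm l).le (hc'0 l)) (Finset.mem_univ k)
      have h33 : mmin * B ≤ m k * c' k := mul_le_mul (hmmin k) hk.le hB0 (hm k).le
      have h34 : mmin * B = 2 * RK * R + 1 := by
        rw [hBdef]; field_simp
      simp only [kant]
      linarith
    linarith

end aux

theorem exists_weights (σ : Measure (E d)) [IsProbabilityMeasure σ]
    (hσ : σ ≪ (volume : Measure (E d))) (RK : ℝ) (hσK : ∀ᵐ x ∂σ, ‖x‖ ≤ RK)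
    {ι : Type} [Fintype ι] [Nonempty ι] (y : ι → E d) (hy : Function.Injective y)
    (m : ι → ℝ) (hm : ∀ k, 0 < m k) (hsum : ∑ k, m k = 1) :
    ∃ c : ι → ℝ, ∀ k, σ (cell y c k) = ENNReal.ofReal (m k) := by
  classical
  obtain ⟨cs, hcs⟩ := exists_kant_min σ hσK y m hm hsum
  refine ⟨cs, ?_⟩
  -- the shrunk cells have mass `≤ m k`
  have hU : ∀ k t, 0 < t → σ (shrunk y cs k t) ≤ ENNReal.ofReal (m k) := by
    intro k t ht
    have h1 := kant_bump_le σ hσK y m cs k ht
    have h2 := hcs (fun l => cs l + if l = k then t else 0)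
    have h3 : t * (σ (shrunk y cs k t)).toReal ≤ t * m k := by linarith
    have h4 : (σ (shrunk y cs k t)).toReal ≤ m k := le_of_mul_le_mul_left h3 ht
    rw [← ENNReal.ofReal_toReal (measure_ne_top σ _)]
    exact ENNReal.ofReal_le_ofReal h4
  -- the cells have mass `≤ m k`
  have hle : ∀ k, σ (cell y cs k) ≤ ENNReal.ofReal (m k) := by
    intro k
    have hsub : cell y cs k ⊆ (⋃ n : ℕ, shrunk y cs k (1 / ((n : ℝ) + 1))) ∪
        ⋃ l ∈ {l : ι | l ≠ k}, (cell y cs k ∩ cell y cs l) := by
      intro x hx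
      by_cases hx2 : ∃ l, l ≠ k ∧ x ∈ cell y cs l
      · obtain ⟨l, hl, hxl⟩ := hx2
        right
        simp only [mem_iUnion]
        exact ⟨l, hl, hx, hxl⟩
      · left
        push Not at hx2
        have hgap : ∀ l, l ≠ k → ⟪x, y l⟫ - cs l < ⟪x, y k⟫ - cs k := by
          intro l hl
          by_contra hcon
          push Not at hcon
          exact hx2 l hl fun l' => (hx l').trans hcon
        have hN : ∀ l, ∃ N : ℕ, l ≠ k → ⟪x, y l⟫ - cs l + 1 / ((N : ℝ) + 1) ≤ ⟪x, y k⟫ - cs k := by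
          intro l
          by_cases hl : l = k
          · exact ⟨0, fun h => absurd hl h⟩
          · obtain ⟨N, hN⟩ := exists_nat_one_div_lt (sub_pos.mpr (hgap l hl))
            exact ⟨N, fun _ => by linarith⟩
        choose N hN using hN
        simp only [mem_iUnion]
        refine ⟨Finset.univ.sup N, fun l hl => ?_⟩
        have h1 : N l ≤ Finset.univ.sup N := Finset.le_sup (Finset.mem_univ l)
        have h2 : (1 : ℝ) / (((Finset.univ.sup N : ℕ) : ℝ) + 1) ≤ 1 / ((N l : ℝ) + 1) := by
          apply one_div_le_one_div_of_le (by positivity)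
          have : (N l : ℝ) ≤ ((Finset.univ.sup N : ℕ) : ℝ) := by exact_mod_cast h1
          linarith
        have := hN l hl
        linarith
    have hmono : Monotone fun n : ℕ => shrunk y cs k (1 / ((n : ℝ) + 1)) := by
      intro a b hab x hx l hl
      have h1 := hx l hl
      have h2 : (1 : ℝ) / ((b : ℝ) + 1) ≤ 1 / ((a : ℝ) + 1) := by
        apply one_div_le_one_div_of_le (by positivity)
        have : (a : ℝ) ≤ (b : ℝ) := by exact_mod_cast hab
        linarith
      linarith
    have h1 : σ (⋃ n : ℕ, shrunk y cs k (1 / ((n : ℝ) + 1))) ≤ ENNReal.ofReal (m k) := by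
      rw [hmono.measure_iUnion]
      exact iSup_le fun n => hU k _ (by positivity)
    have h2 : σ (⋃ l ∈ {l : ι | l ≠ k}, (cell y cs k ∩ cell y cs l)) = 0 := by
      rw [measure_biUnion_null_iff (Set.to_countable _)]
      intro l hl
      exact cell_inter_null hσ hy cs (Ne.symm hl)
    calc σ (cell y cs k) ≤ _ := measure_mono hsub
      _ ≤ _ + _ := measure_union_le _ _
      _ ≤ ENNReal.ofReal (m k) := by rw [h2, add_zero]; exact h1
  -- total mass
  have htot : ∑ k, σ (cell y cs k) = 1 := by rw [sum_measure_cell hσ hy cs, measure_univ]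
  have hle' : ∀ k, (σ (cell y cs k)).toReal ≤ m k := fun k =>
    ENNReal.toReal_le_of_le_ofReal (hm k).le (hle k)
  have htot' : ∑ k, (σ (cell y cs k)).toReal = ∑ k, m k := by
    rw [hsum, ← ENNReal.toReal_sum (fun k _ => measure_ne_top σ _), htot]
    simp
  have heq := (Finset.sum_eq_sum_iff_of_le (fun k _ => hle' k)).mp htot'
  intro k
  rw [← heq k (Finset.mem_univ k), ENNReal.ofReal_toReal (measure_ne_top σ _)]

end Crest.Agent.OTStab
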