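import Crest.Agent.OTStab.LemmaA
import Crest.Agent.OTStab.Weights
import Crest.Agent.OTStab.WBasic
import Crest.Agent.OTStab.PathLemma

/-!
# Task P2: the path argument

`ρ` uniform on `K`, `σ = tilt ρ g` a probability measure, `|g| ≤ 1/2`.  Points `Y k`, `Z k` (the pairs
`(Y k, Z k)` are distinct, but `Y` or `Z` alone need not be injective), masses `m k > 0`, `∑ m = 1`.  Then
`[W σ Z - W σ Y] - [W ρ Z - W ρ Y] ≤ √CA ‖g‖_{L²(ρ)} (∑ m k |Z k - Y k|²)^{1/2}`.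

Proof.  `Y_t k = (1-t) Y k + t Z k`.  Collision set `S = {t | ¬ Injective Y_t}` is finite: for `k ≠ l`,
`(1-t)(Y k - Y l) + t (Z k - Z l) = 0` has at most one solution `t` because `(Y k - Y l, Z k - Z l) ≠ 0`
(two solutions would force both differences to vanish).
For `t ∉ S` choose (`exists_weights`, via `Classical.choose`) weights `cσ t`, `cρ t` for `σ`, `ρ`, points `Y_t`, masses `m`.
`hσ t = W σ Y_t m`, `pσ t = ∑ ⟪Z k - Y k, ∫_{cell Y_t (cσ t) k} x dσ⟫`, same for `ρ`.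
* subgradient inequality: `W_eq_of_cells` at `t`, `W_ge_of_cells` at `t'`, and `Y_{t'} k = Y_t k + (t'-t)(Z k - Y k)`.
* Lipschitz: `abs_W_sub_W_le` with `M = |t-t'| max ‖Z k - Y k‖`.
* `|pρ t| ≤ RK ∑ m k ‖Z k - Y k‖` (`norm_setIntegral_id_le`).   Take `Λ` = max of the two constants.
* `pσ t - pρ t = ∑ ⟪Z k - Y k, Bσ_k - Bρ_k⟫ ≤ (∑ m k |Z k - Y k|²)^{1/2} (∑ (1/m k)|Bσ_k - Bρ_k|²)^{1/2}`
  (Cauchy–Schwarz) `≤ … (CA ∫ g²)^{1/2}` by `lemmaA`.
* `path_lemma`; `Y_0 = Y`, `Y_1 = Z`.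
-/

set_option autoImplicit false

open MeasureTheory Set
open scoped ENNReal NNReal RealInnerProductSpace
open Crest.AnalysisR.OT

namespace Crest.Agent.OTStab

variable {d : ℕ} {K : Set (E d)}

theorem path_collision_finite {d : ℕ} {ι : Type} [Fintype ι] (Y Z : ι → E d)
    (hinj : Function.Injective (fun k => (Y k, Z k))) :
    {t : ℝ | ¬ Function.Injective (fun k => Y k + t • (Z k - Y k))}.Finite := by
  classical
  have hsub : {t : ℝ | ¬ Function.Injective (fun k => Y k + t • (Z k - Y k))} ⊆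
      ⋃ p : ι × ι, {t : ℝ | p.1 ≠ p.2 ∧ Y p.1 + t • (Z p.1 - Y p.1) = Y p.2 + t • (Z p.2 - Y p.2)} := by
    intro t ht
    simp only [Set.mem_setOf_eq, Function.Injective, not_forall] at ht
    obtain ⟨k, l, hkl, hne⟩ := ht
    exact Set.mem_iUnion.2 ⟨(k, l), hne, hkl⟩
  refine Set.Finite.subset (Set.finite_iUnion fun p => ?_) hsub
  refine Set.Subsingleton.finite ?_
  rintro t1 ⟨hne, h1⟩ t2 ⟨-, h2⟩
  by_contra ht
  have hb : (t1 - t2) • ((Z p.1 - Y p.1) - (Z p.2 - Y p.2)) = 0 := by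
    have e1 : t1 • ((Z p.1 - Y p.1) - (Z p.2 - Y p.2)) = Y p.2 - Y p.1 := by
      rw [smul_sub, sub_eq_sub_iff_add_eq_add]
      rw [add_comm, h1, add_comm]
    have e2 : t2 • ((Z p.1 - Y p.1) - (Z p.2 - Y p.2)) = Y p.2 - Y p.1 := by
      rw [smul_sub, sub_eq_sub_iff_add_eq_add]
      rw [add_comm, h2, add_comm]
    rw [sub_smul, e1, e2, sub_self]
  have hb' : (Z p.1 - Y p.1) - (Z p.2 - Y p.2) = 0 := by
    rcases smul_eq_zero.1 hb with h | h
    · exact absurd (sub_eq_zero.1 h) ht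
    · exact h
  have hb'' : Z p.1 - Y p.1 = Z p.2 - Y p.2 := sub_eq_zero.1 hb'
  have hY : Y p.1 = Y p.2 := by
    rw [hb''] at h1
    exact add_right_cancel h1
  have hZ : Z p.1 = Z p.2 := by
    rw [hY] at hb''
    exact sub_left_injective hb''
  exact hne (hinj (by simp [hY, hZ]))

theorem path_bound (hK : Body K) : ∃ CP : ℝ, 0 ≤ CP ∧
    ∀ {ι : Type} [Fintype ι] [Nonempty ι] (Y Z : ι → E d)
      (_ : Function.Injective (fun k => (Y k, Z k))) (m : ι → ℝ) (_ : ∀ k, 0 < m k)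
      (_ : ∑ k, m k = 1) (g : E d → ℝ) (_ : Measurable g) (_ : ∀ x, |g x| ≤ 1 / 2)
      (_ : IsProbabilityMeasure (tilt (uniformProbOn K) g)),
      (W (tilt (uniformProbOn K) g) Z m - W (tilt (uniformProbOn K) g) Y m)
          - (W (uniformProbOn K) Z m - W (uniformProbOn K) Y m)
        ≤ CP * Real.sqrt (∫ x, g x ^ 2 ∂(uniformProbOn K))
            * Real.sqrt (∑ k, m k * ‖Z k - Y k‖ ^ 2) := by
  obtain ⟨CA, hCA0, hA⟩ := lemmaA hK
  obtain ⟨RK, hRK0, hRK⟩ := hK.exists_bound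
  refine ⟨Real.sqrt CA, Real.sqrt_nonneg _, ?_⟩
  intro ι _ _ Y Z hinj m hm hsum g hg hg2 hprob
  haveI : IsProbabilityMeasure (uniformProbOn K) := hK.isProb
  have hρac : uniformProbOn K ≪ (volume : Measure (E d)) := unif_ac K
  have hσac : tilt (uniformProbOn K) g ≪ (volume : Measure (E d)) := tilt_ac hρac g
  have hρK : ∀ᵐ x ∂(uniformProbOn K), ‖x‖ ≤ RK := hK.ae_norm_le hRK
  have hσK : ∀ᵐ x ∂(tilt (uniformProbOn K) g), ‖x‖ ≤ RK :=
    (tilt_ac_self (uniformProbOn K) g).ae_le hρK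
  have hm0 : ∀ k, 0 ≤ m k := fun k => (hm k).le
  have hm1 : ∀ k, m k ≤ 1 := fun k => by
    rw [← hsum]; exact Finset.single_le_sum (fun i _ => hm0 i) (Finset.mem_univ k)
  set Yt : ℝ → ι → E d := fun t k => Y k + t • (Z k - Y k) with hYt
  set S : Set ℝ := {t : ℝ | ¬ Function.Injective (Yt t)} with hSdef
  have hS : S.Finite := path_collision_finite Y Z hinj
  have hwσ : ∀ t, t ∉ S → ∃ c : ι → ℝ, ∀ k,
      tilt (uniformProbOn K) g (cell (Yt t) c k) = ENNReal.ofReal (m k) := fun t ht =>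
    exists_weights _ hσac RK hσK (Yt t) (not_not.mp ht) m hm hsum
  have hwρ : ∀ t, t ∉ S → ∃ c : ι → ℝ, ∀ k,
      uniformProbOn K (cell (Yt t) c k) = ENNReal.ofReal (m k) := fun t ht =>
    exists_weights _ hρac RK hρK (Yt t) (not_not.mp ht) m hm hsum
  choose! cσ hcσ using hwσ
  choose! cρ hcρ using hwρ
  set Bσ : ℝ → ι → E d := fun t k => ∫ x in cell (Yt t) (cσ t) k, x ∂(tilt (uniformProbOn K) g)
    with hBσ
  set Bρ : ℝ → ι → E d := fun t k => ∫ x in cell (Yt t) (cρ t) k, x ∂(uniformProbOn K) with hBρ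
  set Dsum : ℝ := ∑ k, ‖Z k - Y k‖ with hDsum
  have hDsum0 : 0 ≤ Dsum := Finset.sum_nonneg fun k _ => norm_nonneg _
  have hDk : ∀ k, ‖Z k - Y k‖ ≤ Dsum := fun k =>
    Finset.single_le_sum (f := fun k => ‖Z k - Y k‖) (fun i _ => norm_nonneg _) (Finset.mem_univ k)
  -- general subgradient inequality
  have hsub : ∀ (τ : Measure (E d)) [IsProbabilityMeasure τ] (_ : τ ≪ (volume : Measure (E d)))
      (_ : ∀ᵐ x ∂τ, ‖x‖ ≤ RK) (t : ℝ) (_ : t ∉ S) (c : ι → ℝ)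
      (_ : ∀ k, τ (cell (Yt t) c k) = ENNReal.ofReal (m k)) (t' : ℝ),
      W τ (Yt t) m + (t' - t) * ∑ k, ⟪Z k - Y k, ∫ x in cell (Yt t) c k, x ∂τ⟫ ≤ W τ (Yt t') m := by
    intro τ _ hτac hτK t ht c hc t'
    have h1 := W_eq_of_cells τ hτac hτK m hm0 hsum (Yt t) (not_not.mp ht) c hc
    have h2 := W_ge_of_cells τ hτac hτK m hm0 (Yt t) (not_not.mp ht) c hc (Yt t')
    rw [h1]
    refine le_trans (le_of_eq ?_) h2
    rw [Finset.mul_sum, ← Finset.sum_add_distrib]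
    refine Finset.sum_congr rfl fun k _ => ?_
    have hk : Yt t' k = Yt t k + (t' - t) • (Z k - Y k) := by
      simp only [hYt, sub_smul]; abel
    rw [hk, inner_add_left (Yt t k), real_inner_smul_left]
  have hlip : ∀ (τ : Measure (E d)) [IsProbabilityMeasure τ] (_ : ∀ᵐ x ∂τ, ‖x‖ ≤ RK) (t t' : ℝ),
      |W τ (Yt t) m - W τ (Yt t') m| ≤ RK * Dsum * |t - t'| := by
    intro τ _ hτK t t'
    have := abs_W_sub_W_le τ hτK m hm0 hsum (Yt t) (Yt t') (M := |t - t'| * Dsum) (fun k => by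
      have : Yt t k - Yt t' k = (t - t') • (Z k - Y k) := by
        simp only [hYt, sub_smul]; abel
      rw [this, norm_smul, Real.norm_eq_abs]
      exact mul_le_mul_of_nonneg_left (hDk k) (abs_nonneg _))
    calc _ ≤ RK * (|t - t'| * Dsum) := this
      _ = RK * Dsum * |t - t'| := by ring
  have key := path_lemma (fun t => W (tilt (uniformProbOn K) g) (Yt t) m)
    (fun t => W (uniformProbOn K) (Yt t) m)
    (fun t => ∑ k, ⟪Z k - Y k, Bσ t k⟫) (fun t => ∑ k, ⟪Z k - Y k, Bρ t k⟫) S hS (RK * Dsum)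
    (Real.sqrt CA * Real.sqrt (∫ x, g x ^ 2 ∂(uniformProbOn K))
            * Real.sqrt (∑ k, m k * ‖Z k - Y k‖ ^ 2))
    (fun t _ ht t' _ => hsub _ hσac hσK t ht (cσ t) (hcσ t ht) t')
    (fun t _ ht t' _ => hsub _ hρac hρK t ht (cρ t) (hcρ t ht) t')
    (fun t _ t' _ => hlip _ hσK t t')
    (fun t _ t' _ => hlip _ hρK t t')
    ?_ ?_
  · have e0 : Yt 0 = Y := by funext k; simp [hYt]
    have e1 : Yt 1 = Z := by funext k; simp [hYt]
    simpa [e0, e1] using key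
  · intro t _ ht
    calc |∑ k, ⟪Z k - Y k, Bρ t k⟫| ≤ ∑ k, |⟪Z k - Y k, Bρ t k⟫| := Finset.abs_sum_le_sum_abs _ _
      _ ≤ ∑ k, RK * ‖Z k - Y k‖ := by
          refine Finset.sum_le_sum fun k _ => ?_
          have h1 : ‖Bρ t k‖ ≤ RK * (uniformProbOn K (cell (Yt t) (cρ t) k)).toReal :=
            norm_setIntegral_id_le hρK _
          rw [hcρ t ht k, ENNReal.toReal_ofReal (hm0 k)] at h1
          have h2 : ‖Bρ t k‖ ≤ RK := h1.trans (by nlinarith [hm1 k, hm0 k])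
          calc |⟪Z k - Y k, Bρ t k⟫| ≤ ‖Z k - Y k‖ * ‖Bρ t k‖ := abs_real_inner_le_norm _ _
            _ ≤ ‖Z k - Y k‖ * RK := mul_le_mul_of_nonneg_left h2 (norm_nonneg _)
            _ = RK * ‖Z k - Y k‖ := mul_comm _ _
      _ = RK * Dsum := by rw [hDsum, Finset.mul_sum]
  · intro t _ ht
    have hLA := hA (Yt t) (not_not.mp ht) (cρ t) (cσ t) m hm g hg hg2 (hcρ t ht) (hcσ t ht)
    have hint0 : 0 ≤ ∫ x, g x ^ 2 ∂(uniformProbOn K) := integral_nonneg fun x => sq_nonneg _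
    calc ∑ k, ⟪Z k - Y k, Bσ t k⟫ - ∑ k, ⟪Z k - Y k, Bρ t k⟫
        = ∑ k, ⟪Z k - Y k, Bσ t k - Bρ t k⟫ := by
          rw [← Finset.sum_sub_distrib]
          exact Finset.sum_congr rfl fun k _ => (inner_sub_right _ _ _).symm
      _ ≤ ∑ k, (Real.sqrt (m k) * ‖Z k - Y k‖) * ((Real.sqrt (m k))⁻¹ * ‖Bσ t k - Bρ t k‖) := by
          refine Finset.sum_le_sum fun k _ => ?_
          have hs : Real.sqrt (m k) ≠ 0 := (Real.sqrt_pos.2 (hm k)).ne'
          calc ⟪Z k - Y k, Bσ t k - Bρ t k⟫ ≤ ‖Z k - Y k‖ * ‖Bσ t k - Bρ t k‖ :=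
                real_inner_le_norm _ _
            _ = _ := by field_simp
      _ ≤ Real.sqrt (∑ k, (Real.sqrt (m k) * ‖Z k - Y k‖) ^ 2)
            * Real.sqrt (∑ k, ((Real.sqrt (m k))⁻¹ * ‖Bσ t k - Bρ t k‖) ^ 2) :=
          Real.sum_mul_le_sqrt_mul_sqrt _ _ _
      _ = Real.sqrt (∑ k, m k * ‖Z k - Y k‖ ^ 2)
            * Real.sqrt (∑ k, (m k)⁻¹ * ‖Bσ t k - Bρ t k‖ ^ 2) := by
          congr 2
          · refine Finset.sum_congr rfl fun k _ => ?_
            rw [mul_pow, Real.sq_sqrt (hm0 k)]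
          · refine Finset.sum_congr rfl fun k _ => ?_
            rw [mul_pow, inv_pow, Real.sq_sqrt (hm0 k)]
      _ ≤ Real.sqrt (∑ k, m k * ‖Z k - Y k‖ ^ 2)
            * Real.sqrt (CA * ∫ x, g x ^ 2 ∂(uniformProbOn K)) :=
          mul_le_mul_of_nonneg_left (Real.sqrt_le_sqrt hLA) (Real.sqrt_nonneg _)
      _ = Real.sqrt CA * Real.sqrt (∫ x, g x ^ 2 ∂(uniformProbOn K))
            * Real.sqrt (∑ k, m k * ‖Z k - Y k‖ ^ 2) := by
          rw [Real.sqrt_mul hCA0]; ring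

end Crest.Agent.OTStab
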