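import Crest.Agent.OTStab.Defs

/-!
# Task X3: Rockafellar's theorem (cyclically monotone ⇒ subgradient of a Lipschitz convex function)

Fix `x₀ ∈ G`.  For a chain `(n, x)` with `x 0 = x₀`, `x i ∈ G`: `val (n,x) x' = ⟪T (x n), x' - x n⟫ + ∑_{i<n} ⟪T (x i), x (i+1) - x i⟫`.
`φ x' = sup` of `val (n,x) x'` over all chains.
* each `val (n,x)` is `R`-Lipschitz in `x'`;
* bounded above at `x' = x₀`: closing the chain (`x (n+1) := x₀`) is a cycle, so `val (n,x) x₀ ≤ 0`; hence bounded above at every `x'` by `R ‖x' - x₀‖`;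
* so `φ` is finite, `R`-Lipschitz (sup of `R`-Lipschitz functions, pointwise bounded above);
* for `x ∈ G` and a chain `(n, x·)`, appending `x` gives a chain with `val (x') = ⟪T x, x' - x⟫ + val (n,x·) x`; taking sups: `φ x' ≥ ⟪T x, x' - x⟫ + φ x`.
-/

set_option autoImplicit false

open Set
open scoped NNReal RealInnerProductSpace

namespace Crest.Agent.OTStab

variable {d : ℕ}

/-- extension of a chain by one point -/
private noncomputable def rockExt (n : ℕ) (xs : ℕ → E d) (z : E d) : ℕ → E d :=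
  fun i => if i ≤ n then xs i else z

private theorem rockExt_sum (T : E d → E d) (n : ℕ) (xs : ℕ → E d) (z : E d) :
    ∑ i ∈ Finset.range (n + 1),
        ⟪T (rockExt n xs z i), rockExt n xs z (i + 1) - rockExt n xs z i⟫
      = ∑ i ∈ Finset.range n, ⟪T (xs i), xs (i + 1) - xs i⟫ + ⟪T (xs n), z - xs n⟫ := by
  rw [Finset.sum_range_succ]
  congr 1
  · refine Finset.sum_congr rfl fun i hi => ?_
    have hi' : i < n := Finset.mem_range.mp hi
    have h1 : i ≤ n := hi'.le
    have h2 : i + 1 ≤ n := hi'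
    simp only [rockExt, h1, h2, if_true]
  · have h2 : ¬ (n + 1 ≤ n) := by omega
    simp only [rockExt, le_refl, h2, if_true, if_false]

/-- value of a chain -/
private noncomputable def rockVal (T : E d → E d) (p : ℕ × (ℕ → E d)) (x' : E d) : ℝ :=
  ⟪T (p.2 p.1), x' - p.2 p.1⟫ + ∑ i ∈ Finset.range p.1, ⟪T (p.2 i), p.2 (i + 1) - p.2 i⟫

theorem rockafellar (G : Set (E d)) (hG : G.Nonempty) (T : E d → E d) (R : ℝ)
    (hTR : ∀ x ∈ G, ‖T x‖ ≤ R)
    (hcyc : ∀ (n : ℕ) (x : ℕ → E d), (∀ i, x i ∈ G) → x n = x 0 →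
        ∑ i ∈ Finset.range n, ⟪T (x i), x (i + 1) - x i⟫ ≤ 0) :
    ∃ φ : E d → ℝ, LipschitzWith (Real.toNNReal R) φ ∧
      ∀ x ∈ G, ∀ x', φ x + ⟪T x, x' - x⟫ ≤ φ x' := by
  classical
  obtain ⟨x₀, hx₀⟩ := hG
  have hR : 0 ≤ R := (norm_nonneg _).trans (hTR x₀ hx₀)
  -- the type of chains
  let C : Type := {p : ℕ × (ℕ → E d) // p.2 0 = x₀ ∧ ∀ i, p.2 i ∈ G}
  have hCne : Nonempty C := ⟨⟨(0, fun _ => x₀), rfl, fun _ => hx₀⟩⟩
  -- Lipschitz estimate for each chain
  have hlip : ∀ (p : C) (a b : E d), rockVal T p.1 a ≤ rockVal T p.1 b + R * dist a b := by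
    intro p a b
    have h1 : rockVal T p.1 a - rockVal T p.1 b = ⟪T (p.1.2 p.1.1), a - b⟫ := by
      simp only [rockVal]
      rw [add_sub_add_right_eq_sub, ← inner_sub_right]
      congr 1
      abel
    have h2 : ⟪T (p.1.2 p.1.1), a - b⟫ ≤ R * dist a b := by
      calc ⟪T (p.1.2 p.1.1), a - b⟫ ≤ ‖T (p.1.2 p.1.1)‖ * ‖a - b‖ := real_inner_le_norm _ _
        _ ≤ R * ‖a - b‖ := by
            exact mul_le_mul_of_nonneg_right (hTR _ (p.2.2 _)) (norm_nonneg _)
        _ = R * dist a b := by rw [dist_eq_norm]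
    linarith
  -- value at the base point
  have hbase : ∀ p : C, rockVal T p.1 x₀ ≤ 0 := by
    intro p
    have hmem : ∀ i, rockExt p.1.1 p.1.2 x₀ i ∈ G := by
      intro i
      by_cases hi : i ≤ p.1.1
      · simp only [rockExt, hi, if_true]; exact p.2.2 i
      · simp only [rockExt, hi, if_false]; exact hx₀
    have hclose : rockExt p.1.1 p.1.2 x₀ (p.1.1 + 1) = rockExt p.1.1 p.1.2 x₀ 0 := by
      have h2 : ¬ (p.1.1 + 1 ≤ p.1.1) := by omega
      simp only [rockExt, h2, if_false, Nat.zero_le, if_true]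
      exact p.2.1.symm
    have := hcyc (p.1.1 + 1) (rockExt p.1.1 p.1.2 x₀) hmem hclose
    rw [rockExt_sum] at this
    simp only [rockVal]
    linarith
  have hbdd : ∀ a : E d, BddAbove (Set.range fun p : C => rockVal T p.1 a) := by
    intro a
    refine ⟨R * dist a x₀, ?_⟩
    rintro _ ⟨p, rfl⟩
    have := hlip p a x₀
    have := hbase p
    simp only
    linarith
  refine ⟨fun a => ⨆ p : C, rockVal T p.1 a, ?_, ?_⟩
  · refine LipschitzWith.of_le_add_mul _ fun a b => ?_
    rw [Real.coe_toNNReal R hR]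
    refine ciSup_le fun p => ?_
    have h1 := hlip p a b
    have h2 : rockVal T p.1 b ≤ ⨆ p : C, rockVal T p.1 b := le_ciSup (hbdd b) p
    linarith
  · intro x hx x'
    have key : (⨆ p : C, rockVal T p.1 x) ≤ (⨆ p : C, rockVal T p.1 x') - ⟪T x, x' - x⟫ := by
      refine ciSup_le fun p => ?_
      have hmem : ∀ i, rockExt p.1.1 p.1.2 x i ∈ G := by
        intro i
        by_cases hi : i ≤ p.1.1
        · simp only [rockExt, hi, if_true]; exact p.2.2 i
        · simp only [rockExt, hi, if_false]; exact hx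
      have hzero : rockExt p.1.1 p.1.2 x 0 = x₀ := by
        simp only [rockExt, Nat.zero_le, if_true]
        exact p.2.1
      let q : C := ⟨(p.1.1 + 1, rockExt p.1.1 p.1.2 x), hzero, hmem⟩
      have hq : rockVal T q.1 x' = ⟪T x, x' - x⟫ + rockVal T p.1 x := by
        have hlast : rockExt p.1.1 p.1.2 x (p.1.1 + 1) = x := by
          have h2 : ¬ (p.1.1 + 1 ≤ p.1.1) := by omega
          simp only [rockExt, h2, if_false]
        simp only [rockVal, q]
        rw [rockExt_sum, hlast]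
        ring
      have h2 : rockVal T q.1 x' ≤ ⨆ p : C, rockVal T p.1 x' := le_ciSup (hbdd x') q
      linarith
    simp only
    linarith

end Crest.Agent.OTStab
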