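import Crest.Agent.OTStab.CycMono
import Crest.Agent.OTStab.Rockafellar

/-! # Assembly: a Monge-optimal map is a.e. a subgradient of a Lipschitz potential (done, helper26) -/

set_option autoImplicit false

open MeasureTheory Set
open scoped ENNReal NNReal RealInnerProductSpace
open Crest.AnalysisR.OT

namespace Crest.Agent.OTStab

variable {d : ℕ} {K : Set (E d)}

theorem exists_potential (hK : Body K) (μ : Measure (E d)) (R : ℝ)
    (hμ : IsProbabilityOn (Metric.closedBall (0 : E d) R) μ) (T : E d → E d)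
    (hT : IsOptimalMap (uniformProbOn K) μ T) :
    ∃ φ : E d → ℝ, LipschitzWith (Real.toNNReal R) φ ∧
      ∀ᵐ x ∂(uniformProbOn K), ∀ x', φ x + ⟪T x, x' - x⟫ ≤ φ x' := by
  obtain ⟨G, hG, hGR, hcyc⟩ := cyc_mono hK μ R hμ T hT
  haveI := hK.isProb
  have hne : G.Nonempty := by
    obtain ⟨x, hx⟩ := hG.exists
    exact ⟨x, hx⟩
  obtain ⟨φ, hφ, hsub⟩ := rockafellar G hne T R hGR hcyc
  exact ⟨φ, hφ, hG.mono fun x hx => hsub x hx⟩

end Crest.Agent.OTStab
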