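import Crest.Agent.OTStab.Unif

/-!
# Task X1: a Monge-optimal map cannot be improved by permuting small balls

## `swap_general`
`τ` measurable with `ρ.map τ = ρ`.  `S = T ∘ τ` is measurable and `ρ.map S = (ρ.map τ).map T = μ`, so by optimality
`∫ |x - T x|² dρ ≤ ∫ |x - T (τ x)|² dρ` (all integrands bounded a.e.: convert the `lintegral`s to Bochner integrals).
Expand the squares; `∫ |T (τ x)|² dρ = ∫ |T|² dρ` and `∫ ⟪τ x, T (τ x)⟫ dρ = ∫ ⟪x, T x⟫ dρ` (`integral_map`).
Hence `∫ ⟪x - τ x, T (τ x)⟫ dρ ≤ 0`.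

## `swap_ineq`
`B_i = closedBall (p i) r`, `i < n`, pairwise disjoint, contained in `K`, `p n = p 0`.
`τ x = x - p (i+1) + p i` if `x ∈ closedBall (p (i+1)) r` (`i < n`, unique), `τ x = x` otherwise.  `τ` is measurable, and preserves `volume.restrict K`, hence `ρ`:
for measurable `A`, `τ⁻¹ A ∩ K = (A ∩ K \ ⋃ B) ∪ ⋃_i ((A ∩ B_i) + (p (i+1) - p i))`, a disjoint union; translation invariance.
Then `∫ ⟪x - τ x, T (τ x)⟫ dρ = |K|⁻¹ ∑_i ∫_{B_{i+1}} ⟪p (i+1) - p i, T (x - p (i+1) + p i)⟫ dx = |K|⁻¹ ∑_i ∫_{B_i} ⟪p (i+1) - p i, T u⟫ du`.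
-/

set_option autoImplicit false

open MeasureTheory Set
open scoped ENNReal NNReal RealInnerProductSpace
open Crest.AnalysisR.OT

namespace Crest.Agent.OTStab

variable {d : ℕ} {K : Set (E d)}

/-- conversion of the quadratic `lintegral` into a Bochner integral for a.e. bounded maps -/
private theorem swap_conv (ρ : Measure (E d)) [IsFiniteMeasure ρ] (f : E d → E d) (hf : Measurable f)
    (C : ℝ) (hC : ∀ᵐ x ∂ρ, ‖f x‖ ≤ C) :
    ∫⁻ x, ‖f x‖ₑ ^ 2 ∂ρ = ENNReal.ofReal (∫ x, ‖f x‖ ^ 2 ∂ρ) := by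
  have hint : Integrable (fun x => ‖f x‖ ^ 2) ρ := by
    refine Integrable.of_bound (by fun_prop) (C ^ 2) ?_
    filter_upwards [hC] with x hx
    rw [Real.norm_eq_abs, abs_of_nonneg (by positivity)]
    exact pow_le_pow_left₀ (norm_nonneg _) hx 2
  rw [ofReal_integral_eq_lintegral_ofReal hint (Filter.Eventually.of_forall fun x => by positivity)]
  refine lintegral_congr fun x => ?_
  rw [ENNReal.ofReal_pow (norm_nonneg _), ofReal_norm]

theorem swap_general (hK : Body K) (μ : Measure (E d)) (T : E d → E d)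
    (hT : IsOptimalMap (uniformProbOn K) μ T) (R : ℝ)
    (hTR : ∀ᵐ x ∂(uniformProbOn K), ‖T x‖ ≤ R) (τ : E d → E d) (hτ : Measurable τ)
    (hτρ : (uniformProbOn K).map τ = uniformProbOn K) :
    ∫ x, ⟪x - τ x, T (τ x)⟫ ∂(uniformProbOn K) ≤ 0 := by
  classical
  set ρ := uniformProbOn K with hρ
  have : IsProbabilityMeasure ρ := hK.isProb
  obtain ⟨hTm, hTμ, hopt⟩ := hT
  obtain ⟨RK, hRK0, hRK⟩ := hK.exists_bound
  have hx : ∀ᵐ x ∂ρ, ‖x‖ ≤ RK := hK.ae_norm_le hRK
  have hτx : ∀ᵐ x ∂ρ, ‖τ x‖ ≤ RK := by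
    have : ∀ᵐ y ∂(ρ.map τ), ‖y‖ ≤ RK := by rw [hτρ]; exact hx
    exact ae_of_ae_map hτ.aemeasurable this
  have hTτ : ∀ᵐ x ∂ρ, ‖T (τ x)‖ ≤ R := by
    have : ∀ᵐ y ∂(ρ.map τ), ‖T y‖ ≤ R := by rw [hτρ]; exact hTR
    exact ae_of_ae_map hτ.aemeasurable this
  have hS : Measurable (fun x => T (τ x)) := hTm.comp hτ
  have hSμ : ρ.map (fun x => T (τ x)) = μ := by
    have : ρ.map (T ∘ τ) = (ρ.map τ).map T := (Measure.map_map hTm hτ).symm
    rw [show (fun x => T (τ x)) = T ∘ τ from rfl, this, hτρ, hTμ]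
  have hle := hopt _ hS hSμ
  rw [swap_conv ρ (fun x => x - T x) (measurable_id.sub hTm) (RK + R)
      (by filter_upwards [hx, hTR] with x h1 h2 using (norm_sub_le _ _).trans (add_le_add h1 h2)),
    swap_conv ρ (fun x => x - T (τ x)) (measurable_id.sub hS) (RK + R)
      (by filter_upwards [hx, hTτ] with x h1 h2 using (norm_sub_le _ _).trans (add_le_add h1 h2)),
    ENNReal.ofReal_le_ofReal_iff (integral_nonneg fun x => by positivity)] at hle
  -- integrability
  have hI1 : Integrable (fun x : E d => ‖x‖ ^ 2) ρ := by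
    refine Integrable.of_bound (by fun_prop) (RK ^ 2) ?_
    filter_upwards [hx] with x hx
    rw [Real.norm_eq_abs, abs_of_nonneg (by positivity)]
    exact pow_le_pow_left₀ (norm_nonneg _) hx 2
  have hI3 : Integrable (fun x : E d => ‖T x‖ ^ 2) ρ := by
    refine Integrable.of_bound (by fun_prop) (R ^ 2) ?_
    filter_upwards [hTR] with x hx
    rw [Real.norm_eq_abs, abs_of_nonneg (by positivity)]
    exact pow_le_pow_left₀ (norm_nonneg _) hx 2
  have hI5 : Integrable (fun x : E d => ‖T (τ x)‖ ^ 2) ρ := by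
    refine Integrable.of_bound (hS.norm.pow_const 2).aestronglyMeasurable (R ^ 2) ?_
    filter_upwards [hTτ] with x hx
    rw [Real.norm_eq_abs, abs_of_nonneg (by positivity)]
    exact pow_le_pow_left₀ (norm_nonneg _) hx 2
  have hI2 : Integrable (fun x : E d => ⟪x, T x⟫) ρ := by
    refine Integrable.of_bound (measurable_id.inner hTm).aestronglyMeasurable (RK * R) ?_
    filter_upwards [hx, hTR] with x h1 h2
    exact (norm_inner_le_norm _ _).trans (mul_le_mul h1 h2 (norm_nonneg _) hRK0.le)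
  have hI4 : Integrable (fun x : E d => ⟪x, T (τ x)⟫) ρ := by
    refine Integrable.of_bound (measurable_id.inner hS).aestronglyMeasurable (RK * R) ?_
    filter_upwards [hx, hTτ] with x h1 h2
    exact (norm_inner_le_norm _ _).trans (mul_le_mul h1 h2 (norm_nonneg _) hRK0.le)
  have hI6 : Integrable (fun x : E d => ⟪τ x, T (τ x)⟫) ρ := by
    refine Integrable.of_bound (hτ.inner hS).aestronglyMeasurable (RK * R) ?_
    filter_upwards [hτx, hTτ] with x h1 h2
    exact (norm_inner_le_norm _ _).trans (mul_le_mul h1 h2 (norm_nonneg _) hRK0.le)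
  have e1 : ∫ x, ‖x - T x‖ ^ 2 ∂ρ
      = (∫ x, ‖x‖ ^ 2 ∂ρ) - 2 * (∫ x, ⟪x, T x⟫ ∂ρ) + ∫ x, ‖T x‖ ^ 2 ∂ρ := by
    have : ∀ x, ‖x - T x‖ ^ 2 = ‖x‖ ^ 2 - 2 * ⟪x, T x⟫ + ‖T x‖ ^ 2 := fun x => norm_sub_sq_real _ _
    simp_rw [this]
    have h12 : Integrable (fun x : E d => ‖x‖ ^ 2 - 2 * ⟪x, T x⟫) ρ := hI1.sub (hI2.const_mul 2)
    rw [integral_add h12 hI3, integral_sub hI1 (hI2.const_mul 2), integral_const_mul]
  have e2 : ∫ x, ‖x - T (τ x)‖ ^ 2 ∂ρ
      = (∫ x, ‖x‖ ^ 2 ∂ρ) - 2 * (∫ x, ⟪x, T (τ x)⟫ ∂ρ) + ∫ x, ‖T (τ x)‖ ^ 2 ∂ρ := by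
    have : ∀ x, ‖x - T (τ x)‖ ^ 2 = ‖x‖ ^ 2 - 2 * ⟪x, T (τ x)⟫ + ‖T (τ x)‖ ^ 2 :=
      fun x => norm_sub_sq_real _ _
    simp_rw [this]
    have h12 : Integrable (fun x : E d => ‖x‖ ^ 2 - 2 * ⟪x, T (τ x)⟫) ρ :=
      hI1.sub (hI4.const_mul 2)
    rw [integral_add h12 hI5, integral_sub hI1 (hI4.const_mul 2), integral_const_mul]
  have e3 : ∫ x, ‖T (τ x)‖ ^ 2 ∂ρ = ∫ x, ‖T x‖ ^ 2 ∂ρ := by
    have := integral_map (μ := ρ) hτ.aemeasurable (f := fun y => ‖T y‖ ^ 2)
      (by fun_prop : Measurable fun y => ‖T y‖ ^ 2).aestronglyMeasurable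
    rw [hτρ] at this
    exact this.symm
  have e4 : ∫ x, ⟪τ x, T (τ x)⟫ ∂ρ = ∫ x, ⟪x, T x⟫ ∂ρ := by
    have := integral_map (μ := ρ) hτ.aemeasurable (f := fun y => ⟪y, T y⟫)
      (measurable_id.inner hTm).aestronglyMeasurable
    rw [hτρ] at this
    exact this.symm
  have e5 : ∫ x, ⟪x - τ x, T (τ x)⟫ ∂ρ = (∫ x, ⟪x, T (τ x)⟫ ∂ρ) - ∫ x, ⟪τ x, T (τ x)⟫ ∂ρ := by
    simp_rw [inner_sub_left]
    exact integral_sub hI4 hI6
  rw [e5, e4]
  rw [e1, e2, e3] at hle
  linarith

/-! ### the cyclic permutation of balls -/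

/-- decomposition of the measure of `X ∩ K` along finitely many disjoint measurable pieces of `K` -/
private theorem swap_decomp (n : ℕ) (F : ℕ → Set (E d)) (hFm : ∀ i, MeasurableSet (F i))
    (hFK : ∀ i < n, F i ⊆ K)
    (hFd : ∀ i < n, ∀ j < n, i ≠ j → Disjoint (F i) (F j)) (X : Set (E d)) (hX : MeasurableSet X) :
    volume (X ∩ K) = volume (X ∩ (K \ ⋃ i ∈ Finset.range n, F i))
      + ∑ i ∈ Finset.range n, volume (X ∩ F i) := by
  set U := ⋃ i ∈ Finset.range n, F i with hU
  have hUm : MeasurableSet U := Finset.measurableSet_biUnion _ (fun i _ => hFm i)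
  have h1 : volume (X ∩ K) = volume (X ∩ K ∩ U) + volume ((X ∩ K) \ U) :=
    (measure_inter_add_sdiff _ hUm).symm
  have h2 : X ∩ K ∩ U = ⋃ i ∈ Finset.range n, X ∩ F i := by
    ext x
    simp only [hU, mem_inter_iff, mem_iUnion, Finset.mem_range, exists_prop]
    constructor
    · rintro ⟨⟨hx, -⟩, i, hi, hxi⟩
      exact ⟨i, hi, hx, hxi⟩
    · rintro ⟨i, hi, hx, hxi⟩
      exact ⟨⟨hx, hFK i hi hxi⟩, i, hi, hxi⟩
  have h3 : volume (⋃ i ∈ Finset.range n, X ∩ F i) = ∑ i ∈ Finset.range n, volume (X ∩ F i) := by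
    refine measure_biUnion_finset ?_ (fun i _ => hX.inter (hFm i))
    intro i hi j hj hij
    simp only [Finset.coe_range, mem_Iio] at hi hj
    exact (hFd i hi j hj hij).mono inter_subset_right inter_subset_right
  have h4 : (X ∩ K) \ U = X ∩ (K \ U) := inter_sdiff_assoc _ _ _
  rw [h1, h2, h3, h4, add_comm]

/-- the piecewise translation moving `closedBall (p (i+1)) r` onto `closedBall (p i) r` -/
private noncomputable def swapMap (n : ℕ) (p : ℕ → E d) (r : ℝ) (x : E d) : E d :=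
  x + ∑ i ∈ Finset.range n, (Metric.closedBall (p (i + 1)) r).indicator (fun _ => p i - p (i + 1)) x

private theorem measurable_swapMap (n : ℕ) (p : ℕ → E d) (r : ℝ) : Measurable (swapMap n p r) := by
  unfold swapMap
  refine measurable_id.add (Finset.measurable_sum _ fun i _ => ?_)
  exact measurable_const.indicator Metric.isClosed_closedBall.measurableSet

private theorem swap_disjC (n : ℕ) (p : ℕ → E d) (hp : p n = p 0) (r : ℝ)
    (hdisj : ∀ i < n, ∀ j < n, i ≠ j →
      Disjoint (Metric.closedBall (p i) r) (Metric.closedBall (p j) r)) :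
    ∀ i < n, ∀ j < n, i ≠ j →
      Disjoint (Metric.closedBall (p (i + 1)) r) (Metric.closedBall (p (j + 1)) r) := by
  intro i hi j hj hij
  rcases Nat.lt_or_ge (i + 1) n with h1 | h1
  · rcases Nat.lt_or_ge (j + 1) n with h2 | h2
    · exact hdisj _ h1 _ h2 (by omega)
    · have : j + 1 = n := by omega
      rw [this, hp]
      exact hdisj _ h1 _ (by omega) (by omega)
  · have hi' : i + 1 = n := by omega
    have h2 : j + 1 < n := by omega
    rw [hi', hp]
    exact hdisj _ (by omega) _ h2 (by omega)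

private theorem swap_subC (n : ℕ) (p : ℕ → E d) (hp : p n = p 0) (r : ℝ)
    (hsub : ∀ i < n, Metric.closedBall (p i) r ⊆ K) :
    ∀ i < n, Metric.closedBall (p (i + 1)) r ⊆ K := by
  intro i hi
  rcases Nat.lt_or_ge (i + 1) n with h1 | h1
  · exact hsub _ h1
  · have hi' : i + 1 = n := by omega
    rw [hi', hp]
    exact hsub 0 (by omega)

private theorem swap_unionC (n : ℕ) (p : ℕ → E d) (hp : p n = p 0) (r : ℝ) :
    (⋃ i ∈ Finset.range n, Metric.closedBall (p (i + 1)) r)
      = ⋃ i ∈ Finset.range n, Metric.closedBall (p i) r := by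
  ext x
  simp only [mem_iUnion, Finset.mem_range, exists_prop]
  constructor
  · rintro ⟨i, hi, hx⟩
    rcases Nat.lt_or_ge (i + 1) n with h1 | h1
    · exact ⟨i + 1, h1, hx⟩
    · have : i + 1 = n := by omega
      rw [this, hp] at hx
      exact ⟨0, by omega, hx⟩
  · rintro ⟨j, hj, hx⟩
    rcases Nat.eq_zero_or_pos j with rfl | h
    · refine ⟨n - 1, by omega, ?_⟩
      have : n - 1 + 1 = n := by omega
      rw [this, hp]; exact hx
    · refine ⟨j - 1, by omega, ?_⟩
      have : j - 1 + 1 = j := by omega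
      rw [this]; exact hx

private theorem swapMap_of_mem (n : ℕ) (p : ℕ → E d) (r : ℝ)
    (hdC : ∀ i < n, ∀ j < n, i ≠ j →
      Disjoint (Metric.closedBall (p (i + 1)) r) (Metric.closedBall (p (j + 1)) r))
    {i : ℕ} (hi : i < n) {x : E d} (hx : x ∈ Metric.closedBall (p (i + 1)) r) :
    swapMap n p r x = x + (p i - p (i + 1)) := by
  unfold swapMap
  congr 1
  rw [Finset.sum_eq_single i]
  · exact indicator_of_mem hx _
  · intro j hj hji
    apply indicator_of_notMem
    intro hxj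
    exact (Set.disjoint_left.1 (hdC i hi j (Finset.mem_range.1 hj) (Ne.symm hji))) hx hxj
  · intro h
    exact absurd (Finset.mem_range.2 hi) h

private theorem swapMap_of_notMem (n : ℕ) (p : ℕ → E d) (r : ℝ) {x : E d}
    (hx : x ∉ ⋃ i ∈ Finset.range n, Metric.closedBall (p (i + 1)) r) :
    swapMap n p r x = x := by
  unfold swapMap
  rw [Finset.sum_eq_zero, add_zero]
  intro j hj
  apply indicator_of_notMem
  intro hxj
  exact hx (mem_biUnion hj hxj)

private theorem swap_ball_preimage (a b : E d) (r : ℝ) :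
    Metric.closedBall b r = (fun x => x + (a - b)) ⁻¹' Metric.closedBall a r := by
  ext x
  simp only [Metric.mem_closedBall, mem_preimage, dist_eq_norm]
  have : x + (a - b) - a = x - b := by abel
  rw [this]

private theorem swap_map_restrict (n : ℕ) (p : ℕ → E d) (hp : p n = p 0)
    (r : ℝ) (hsub : ∀ i < n, Metric.closedBall (p i) r ⊆ K)
    (hdisj : ∀ i < n, ∀ j < n, i ≠ j →
      Disjoint (Metric.closedBall (p i) r) (Metric.closedBall (p j) r)) :
    (volume.restrict K).map (swapMap n p r) = volume.restrict K := by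
  have hτ := measurable_swapMap n p r
  have hdC := swap_disjC n p hp r hdisj
  ext A hA
  rw [Measure.map_apply hτ hA, Measure.restrict_apply (hτ hA), Measure.restrict_apply hA]
  rw [swap_decomp n (fun i => Metric.closedBall (p (i + 1)) r)
      (fun i => Metric.isClosed_closedBall.measurableSet) (swap_subC n p hp r hsub) hdC _ (hτ hA),
    swap_decomp n (fun i => Metric.closedBall (p i) r)
      (fun i => Metric.isClosed_closedBall.measurableSet) hsub hdisj _ hA]
  congr 1
  · rw [← swap_unionC n p hp r]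
    congr 1
    ext x
    simp only [mem_inter_iff, mem_preimage, mem_sdiff]
    constructor
    · rintro ⟨h1, h2, h3⟩
      rw [swapMap_of_notMem n p r h3] at h1
      exact ⟨h1, h2, h3⟩
    · rintro ⟨h1, h2, h3⟩
      rw [swapMap_of_notMem n p r h3]
      exact ⟨h1, h2, h3⟩
  · refine Finset.sum_congr rfl fun i hi => ?_
    have hi' := Finset.mem_range.1 hi
    have : swapMap n p r ⁻¹' A ∩ Metric.closedBall (p (i + 1)) r
        = (fun x => x + (p i - p (i + 1))) ⁻¹' (A ∩ Metric.closedBall (p i) r) := by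
      rw [preimage_inter, ← swap_ball_preimage]
      ext x
      simp only [mem_inter_iff, mem_preimage]
      constructor
      · rintro ⟨h1, h2⟩
        rw [swapMap_of_mem n p r hdC hi' h2] at h1
        exact ⟨h1, h2⟩
      · rintro ⟨h1, h2⟩
        rw [swapMap_of_mem n p r hdC hi' h2]
        exact ⟨h1, h2⟩
    rw [this, measure_preimage_add_right]

theorem swap_ineq (hK : Body K) (μ : Measure (E d)) (T : E d → E d)
    (hT : IsOptimalMap (uniformProbOn K) μ T) (R : ℝ)
    (hTR : ∀ᵐ x ∂(uniformProbOn K), ‖T x‖ ≤ R) (n : ℕ) (p : ℕ → E d) (hp : p n = p 0)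
    (r : ℝ) (hr : 0 < r) (hsub : ∀ i < n, Metric.closedBall (p i) r ⊆ K)
    (hdisj : ∀ i < n, ∀ j < n, i ≠ j →
      Disjoint (Metric.closedBall (p i) r) (Metric.closedBall (p j) r)) :
    ∑ i ∈ Finset.range n, ∫ u in Metric.closedBall (p i) r, ⟪p (i + 1) - p i, T u⟫ ≤ 0 := by
  classical
  set τ := swapMap n p r with hτdef
  have hτ : Measurable τ := measurable_swapMap n p r
  have hdC := swap_disjC n p hp r hdisj
  have hsC := swap_subC n p hp r hsub
  have hTm : Measurable T := hT.1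
  have hτρ : (uniformProbOn K).map τ = uniformProbOn K := by
    unfold uniformProbOn
    rw [Measure.map_smul, swap_map_restrict n p hp r hsub hdisj]
  have hgen := swap_general hK μ T hT R hTR τ hτ hτρ
  have : IsProbabilityMeasure (uniformProbOn K) := hK.isProb
  obtain ⟨RK, hRK0, hRK⟩ := hK.exists_bound
  have hx : ∀ᵐ x ∂(uniformProbOn K), ‖x‖ ≤ RK := hK.ae_norm_le hRK
  have hτx : ∀ᵐ x ∂(uniformProbOn K), ‖τ x‖ ≤ RK := by
    have : ∀ᵐ y ∂((uniformProbOn K).map τ), ‖y‖ ≤ RK := by rw [hτρ]; exact hx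
    exact ae_of_ae_map hτ.aemeasurable this
  have hTτ : ∀ᵐ x ∂(uniformProbOn K), ‖T (τ x)‖ ≤ R := by
    have : ∀ᵐ y ∂((uniformProbOn K).map τ), ‖T y‖ ≤ R := by rw [hτρ]; exact hTR
    exact ae_of_ae_map hτ.aemeasurable this
  set f : E d → ℝ := fun x => ⟪x - τ x, T (τ x)⟫ with hf
  have hfint : Integrable f (uniformProbOn K) := by
    refine Integrable.of_bound ((measurable_id.sub hτ).inner (hTm.comp hτ)).aestronglyMeasurable
      ((RK + RK) * R) ?_
    filter_upwards [hx, hτx, hTτ] with x h1 h2 h3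
    refine (norm_inner_le_norm _ _).trans (mul_le_mul ?_ h3 (norm_nonneg _) (by positivity))
    exact (norm_sub_le _ _).trans (add_le_add h1 h2)
  have hfK : IntegrableOn f K volume := by
    unfold uniformProbOn at hfint
    exact (integrable_smul_measure (ENNReal.inv_ne_zero.2 hK.volume_lt_top.ne)
      (ENNReal.inv_ne_top.2 hK.volume_pos.ne')).1 hfint
  rw [integral_unif] at hgen
  have hvol : 0 < (volume K).toReal := ENNReal.toReal_pos hK.volume_pos.ne' hK.volume_lt_top.ne
  have hgen' : ∫ x in K, f x ≤ 0 := by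
    have h := hgen
    rw [smul_eq_mul] at h
    by_contra hcon
    rw [not_le] at hcon
    have : 0 < (volume K).toReal⁻¹ * ∫ x in K, f x := mul_pos (inv_pos.2 hvol) hcon
    linarith
  set U := ⋃ i ∈ Finset.range n, Metric.closedBall (p (i + 1)) r with hU
  have hUm : MeasurableSet U :=
    Finset.measurableSet_biUnion _ (fun i _ => Metric.isClosed_closedBall.measurableSet)
  have hUK : U ⊆ K := by
    intro x hx
    simp only [hU, mem_iUnion, Finset.mem_range, exists_prop] at hx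
    obtain ⟨i, hi, hxi⟩ := hx
    exact hsC i hi hxi
  have h1 : ∫ x in K, f x = ∫ x in U, f x := by
    rw [← integral_inter_add_sdiff hUm hfK, inter_eq_self_of_subset_right hUK]
    have : ∫ x in K \ U, f x = 0 := by
      refine setIntegral_eq_zero_of_forall_eq_zero fun x hx => ?_
      simp only [hf, hτdef]
      rw [swapMap_of_notMem n p r hx.2, sub_self, inner_zero_left]
    rw [this, add_zero]
  have h2 : ∫ x in U, f x = ∑ i ∈ Finset.range n, ∫ x in Metric.closedBall (p (i + 1)) r, f x := by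
    refine integral_biUnion_finset _ (fun i _ => Metric.isClosed_closedBall.measurableSet) ?_ ?_
    · intro i hi j hj hij
      simp only [Finset.coe_range, mem_Iio] at hi hj
      exact hdC i hi j hj hij
    · intro i hi
      exact hfK.mono_set (hsC i (Finset.mem_range.1 hi))
  have h3 : ∀ i ∈ Finset.range n, ∫ x in Metric.closedBall (p (i + 1)) r, f x
      = ∫ u in Metric.closedBall (p i) r, ⟪p (i + 1) - p i, T u⟫ := by
    intro i hi
    have hi' := Finset.mem_range.1 hi
    have e1 : ∫ x in Metric.closedBall (p (i + 1)) r, f x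
        = ∫ x in Metric.closedBall (p (i + 1)) r,
            (fun u => ⟪p (i + 1) - p i, T u⟫) (x + (p i - p (i + 1))) := by
      refine setIntegral_congr_fun Metric.isClosed_closedBall.measurableSet fun x hx => ?_
      simp only [hf, hτdef]
      rw [swapMap_of_mem n p r hdC hi' hx]
      congr 1
      abel
    rw [e1, swap_ball_preimage (p i) (p (i + 1)) r]
    exact (measurePreserving_add_right (volume : Measure (E d))
      (p i - p (i + 1))).setIntegral_preimage_emb
      (measurableEmbedding_addRight _) (fun u => ⟪p (i + 1) - p i, T u⟫) _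
  rw [← Finset.sum_congr rfl h3, ← h2, ← h1]
  exact hgen'

end Crest.Agent.OTStab
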